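import Mathlib

/-! Uniform finite probability spaces of digit blocks. -/

open Finset
open scoped BigOperators

namespace Vale.Agent.P315

open Classical in
/-- The indicator of a proposition. -/
noncomputable def ind (q : Prop) : ℝ := if q then 1 else 0

/-- Probability under the uniform distribution. -/
noncomputable def pr {Ω : Type} [Fintype Ω] (E : Ω → Prop) : ℝ := 𝔼 ω, ind (E ω)

/-- A block of `Bk` digits below `Dg`. -/
abbrev Blk (Bk Dg : ℕ) : Type := Fin Bk → Fin Dg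

/-- A block as a function on `ℕ`. -/
def bv {Bk Dg : ℕ} (β : Blk Bk Dg) (j : ℕ) : ℕ := if h : j < Bk then β ⟨j, h⟩ else 0

/-- `Nn` blocks as a function on `ℕ`. -/
def vw {Nn Bk Dg : ℕ} (ω : Fin Nn → Blk Bk Dg) (v : ℕ) : ℕ → ℕ :=
  if h : v < Nn then bv (ω ⟨v, h⟩) else fun _ => 0

theorem ind_nonneg (q : Prop) : 0 ≤ ind q := by unfold ind; split_ifs <;> norm_num

theorem ind_le_one (q : Prop) : ind q ≤ 1 := by unfold ind; split_ifs <;> norm_num

theorem ind_pos {q : Prop} (h : q) : ind q = 1 := if_pos h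

theorem ind_neg {q : Prop} (h : ¬q) : ind q = 0 := if_neg h

theorem ind_mono {q q' : Prop} (h : q → q') : ind q ≤ ind q' := by
  by_cases hq : q
  · rw [ind_pos hq, ind_pos (h hq)]
  · rw [ind_neg hq]; exact ind_nonneg _

section
variable {Ω : Type} [Fintype Ω]

theorem ex_mono {f g : Ω → ℝ} (h : ∀ ω, f ω ≤ g ω) : 𝔼 ω, f ω ≤ 𝔼 ω, g ω :=
  expect_le_expect fun ω _ => h ω

theorem ex_le [Nonempty Ω] {f : Ω → ℝ} {c : ℝ} (h : ∀ ω, f ω ≤ c) : 𝔼 ω, f ω ≤ c :=
  (ex_mono h).trans (Fintype.expect_const c).le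

theorem ex_nonneg {f : Ω → ℝ} (h : ∀ ω, 0 ≤ f ω) : 0 ≤ 𝔼 ω, f ω :=
  expect_nonneg fun ω _ => h ω

theorem ex_add (f g : Ω → ℝ) : 𝔼 ω, (f ω + g ω) = 𝔼 ω, f ω + 𝔼 ω, g ω :=
  expect_add_distrib _ _ _

theorem ex_mul (c : ℝ) (f : Ω → ℝ) : 𝔼 ω, c * f ω = c * 𝔼 ω, f ω := (mul_expect _ _ _).symm

theorem ex_sum {ι : Type} (s : Finset ι) (f : ι → Ω → ℝ) :
    𝔼 ω, ∑ i ∈ s, f i ω = ∑ i ∈ s, 𝔼 ω, f i ω := expect_sum_comm _ _ _

theorem pr_nonneg (E : Ω → Prop) : 0 ≤ pr E := ex_nonneg fun _ => ind_nonneg _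

theorem pr_mono {E E' : Ω → Prop} (h : ∀ ω, E ω → E' ω) : pr E ≤ pr E' :=
  ex_mono fun ω => ind_mono (h ω)

theorem pr_or (E E' : Ω → Prop) : pr (fun ω => E ω ∨ E' ω) ≤ pr E + pr E' := by
  unfold pr
  rw [← ex_add]
  refine ex_mono fun ω => ?_
  by_cases h : E ω
  · rw [ind_pos h]; linarith [ind_le_one (E ω ∨ E' ω), ind_nonneg (E' ω)]
  · rw [ind_neg h, zero_add]; exact ind_mono fun h' => h'.resolve_left h

theorem pr_exists {ι : Type} (s : Finset ι) (E : ι → Ω → Prop) :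
    pr (fun ω => ∃ i ∈ s, E i ω) ≤ ∑ i ∈ s, pr (E i) := by
  unfold pr
  rw [← ex_sum]
  refine ex_mono fun ω => ?_
  by_cases h : ∃ i ∈ s, E i ω
  · obtain ⟨i, hi, he⟩ := h
    refine (ind_le_one _).trans ?_
    rw [← ind_pos he]
    exact single_le_sum (f := fun i => ind (E i ω)) (fun _ _ => ind_nonneg _) hi
  · rw [ind_neg h]; exact sum_nonneg fun _ _ => ind_nonneg _

theorem pr_exists_lt (n : ℕ) (E : ℕ → Ω → Prop) {c : ℝ} (h : ∀ i < n, pr (E i) ≤ c) :
    pr (fun ω => ∃ i < n, E i ω) ≤ n * c := by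
  have := pr_exists (range n) E
  simp only [mem_range] at this
  refine this.trans ((sum_le_card_nsmul _ _ c fun i hi => h i (mem_range.1 hi)).trans ?_)
  simp

theorem markov {f : Ω → ℝ} (hf : ∀ ω, 0 ≤ f ω) {c : ℝ} (hc : 0 < c) :
    pr (fun ω => c < f ω) ≤ (𝔼 ω, f ω) / c := by
  rw [div_eq_inv_mul, ← ex_mul]
  refine ex_mono fun ω => ?_
  by_cases h : c < f ω
  · rw [ind_pos h, ← div_eq_inv_mul, le_div_iff₀ hc]; linarith
  · rw [ind_neg h]; exact mul_nonneg (inv_nonneg.2 hc.le) (hf ω)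

end

/-- Resampling one coordinate does not change the expectation. -/
theorem ex_update {ι B : Type} [Fintype ι] [DecidableEq ι] [Fintype B] [Nonempty B] (v : ι)
    (F : (ι → B) → ℝ) : 𝔼 ω, F ω = 𝔼 ω, 𝔼 β, F (Function.update ω v β) := by
  have hB : (Fintype.card B : ℝ) ≠ 0 := Nat.cast_ne_zero.2 Fintype.card_ne_zero
  have key : ∑ ω : ι → B, ∑ β : B, F (Function.update ω v β) = ∑ ω : ι → B, ∑ _β : B, F ω := by
    rw [← Fintype.sum_prod_type', ← Fintype.sum_prod_type']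
    refine sum_bij' (fun x _ => (Function.update x.1 v x.2, x.1 v))
      (fun x _ => (Function.update x.1 v x.2, x.1 v)) (by simp) (by simp) (by simp) (by simp) (by simp)
  simp only [Fintype.expect_eq_sum_div_card]
  rw [← sum_div, key]
  simp only [sum_const, card_univ, nsmul_eq_mul]
  rw [← mul_sum]
  field_simp

theorem vw_update_self {Nn Bk Dg : ℕ} (ω : Fin Nn → Blk Bk Dg) (v : Fin Nn) (β : Blk Bk Dg) :
    vw (Function.update ω v β) v = bv β := by
  simp [vw]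

theorem vw_update_ne {Nn Bk Dg : ℕ} (ω : Fin Nn → Blk Bk Dg) (v : Fin Nn) (β : Blk Bk Dg) {u : ℕ}
    (h : u ≠ v) : vw (Function.update ω v β) u = vw ω u := by
  unfold vw
  split_ifs with hu
  · rw [Function.update_of_ne fun h' => h (congrArg Fin.val h')]
  · rfl

end Vale.Agent.P315
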