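import Vale.Agent.P315.Logic
import Vale.Agent.P315.Prob

/-! Filling an array with uniform random digits. -/

open Finset
open scoped BigOperators

namespace Vale.Agent.P315

/-- The memory `m` with the blocks `ω` written into array `a`. -/
def setDig {Nn Bk Dg : ℕ} (m : Mem) (a : ℕ) (ω : Fin Nn → Blk Bk Dg) : Mem := fun a' i =>
  if a' = a ∧ i < Nn * Bk then vw ω (i / Bk) (i % Bk) else m a' i

/-- One more random bit. -/
def genBit : Stmt := .seq (.flip 7) (.seq (.op .add 6 6 6) (.seq (.op .add 6 6 7) (.op .sub 5 5 4)))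

/-- One random digit. -/
def genDig : Stmt := .seq (.const 6 0) (.seq (.op .mul 5 2 4) (.loop 5 genBit))

/-- Store one random digit. -/
def genBody (a : ℕ) : Stmt :=
  .seq genDig (.seq (.store a 3 6) (.seq (.op .add 3 3 4) (.op .sub 1 1 4)))

/-- The whole program. -/
def genAll (a kN kL : ℕ) : Stmt :=
  .seq (.const 0 kN) (.seq (.load 1 6 0) (.seq (.const 0 kL) (.seq (.load 2 6 0)
    (.seq (.const 3 0) (.seq (.const 4 1) (.loop 1 (genBody a)))))))

/-- The average over the remaining `j` bits. -/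
noncomputable def genAv (val : ℕ → ℝ) (j v : ℕ) : ℝ :=
  (∑ u ∈ range (2 ^ j), val (v * 2 ^ j + u)) / 2 ^ j

theorem gen_av_succ (val : ℕ → ℝ) (j v : ℕ) :
    genAv val (j + 1) v = (genAv val j (v + v + 0) + genAv val j (v + v + 1)) / 2 := by
  unfold genAv
  rw [pow_succ 2 j, mul_two (2 ^ j), sum_range_add]
  have e1 : ∀ u, v * (2 ^ j + 2 ^ j) + u = (v + v + 0) * 2 ^ j + u := fun u => by ring
  have e2 : ∀ u, v * (2 ^ j + 2 ^ j) + (2 ^ j + u) = (v + v + 1) * 2 ^ j + u := fun u => by ring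
  simp only [e2]
  simp only [e1]
  rw [pow_succ]
  field_simp

theorem gen_dig {w L : ℕ} (hL : 2 ^ L < 2 ^ w) (g : ℕ → ℕ) (m : Mem) (R : St → ℝ → Prop)
    (val : ℕ → ℝ) (h2 : g 2 = L) (h4 : g 4 = 1)
    (hR : ∀ g' : ℕ → ℕ, (∀ r, r < 5 → g' r = g r) → g' 6 < 2 ^ L → R (g', m) (val (g' 6))) :
    W w genDig (8 * L + 5) R (g, m) (genAv val L 0) := by
  have hLw : L < 2 ^ w := (Nat.lt_two_pow_self).trans hL
  have key := W.loop (w := w) (r := 5) (p := genBit) (R := R) (fun _ => 7)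
    (fun j s x => s.2 = m ∧ s.1 5 = j ∧ j ≤ L ∧ (∀ r, r < 5 → s.1 r = g r) ∧
      s.1 6 < 2 ^ (L - j) ∧ x = genAv val j (s.1 6))
    (by
      rintro j ⟨g', m'⟩ x ⟨a1, a2, -, a4, a5, a6⟩ h0
      simp only at a1 a2 a4 a5 a6 h0
      subst a1
      have hj : j = 0 := a2.symm.trans h0
      subst hj
      rw [a6]
      simpa [genAv] using hR g' a4 (by simpa using a5))
    (fun s x h => h.2.1)
    (by
      rintro j ⟨g', m'⟩ x ⟨a1, a2, a3, a4, a5, a6⟩ -
      simp only at a1 a2 a4 a5 a6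
      have hp : 2 ^ (L - j) = 2 * 2 ^ (L - (j + 1)) := by
        rw [show L - j = L - (j + 1) + 1 by omega, pow_succ, mul_comm]
      have hq : 2 ^ (L - j) ≤ 2 ^ L := Nat.pow_le_pow_right two_pos (Nat.sub_le _ _)
      have h4' : g' 4 = 1 := (a4 4 (by norm_num)).trans h4
      have step : ∀ b : ℕ, b ≤ 1 → W w (.seq (.op .add 6 6 6) (.seq (.op .add 6 6 7)
          (.op .sub 5 5 4))) 5 (fun s x => s.2 = m ∧ s.1 5 = j ∧ j ≤ L ∧
            (∀ r, r < 5 → s.1 r = g r) ∧ s.1 6 < 2 ^ (L - j) ∧ x = genAv val j (s.1 6))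
          (Function.update g' 7 b, m') (genAv val j (g' 6 + g' 6 + b)) := fun b hb => by
        refine W.seq (t₁ := 1) (t₂ := 3) (W.op (W.seq (t₁ := 1) (t₂ := 1) (W.op (W.op ?_))))
        have m1 : (g' 6 + g' 6) % 2 ^ w = g' 6 + g' 6 := Nat.mod_eq_of_lt (by omega)
        have m2 : (g' 6 + g' 6 + b) % 2 ^ w = g' 6 + g' 6 + b := Nat.mod_eq_of_lt (by omega)
        have m3 : j % 2 ^ w = j := Nat.mod_eq_of_lt (by omega)
        simp only [Op.app, Function.update_apply]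
        norm_num [m1, m2, a2, h4', m3]
        refine ⟨a1, by omega, fun r hr => ?_, by omega⟩
        rw [if_neg (by omega), if_neg (by omega), if_neg (by omega), if_neg (by omega)]
        exact a4 r hr
      exact W.seq (t₁ := 1) (t₂ := 5) (W.flip (step 0 zero_le_one) (step 1 le_rfl)
        (by rw [a6, gen_av_succ])))
  refine (W.seq (t₁ := 1) (W.const (W.seq (t₁ := 1) (W.op (key L _ _ ?_))))).time ?_
  · have m1 : L % 2 ^ w = L := Nat.mod_eq_of_lt hLw
    simp only [Op.app, Function.update_apply]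
    norm_num [h2, h4, m1]
    intro r hr
    rw [if_neg (by omega), if_neg (by omega)]
  · simp only [sum_const, card_range, smul_eq_mul]
    omega

theorem gen_dig' {w L : ℕ} (hL : 2 ^ L < 2 ^ w) (g : ℕ → ℕ) (m : Mem) (R : St → ℝ → Prop)
    (val : Fin (2 ^ L) → ℝ) (h2 : g 2 = L) (h4 : g 4 = 1)
    (hR : ∀ (g' : ℕ → ℕ) (β : Fin (2 ^ L)), (∀ r, r < 5 → g' r = g r) → g' 6 = β →
      R (g', m) (val β)) : W w genDig (8 * L + 5) R (g, m) (𝔼 β, val β) := by
  have h := gen_dig hL g m R (fun v => if h : v < 2 ^ L then val ⟨v, h⟩ else 0) h2 h4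
    fun g' h1 h6 => by
      rw [dif_pos h6]
      exact hR g' ⟨_, h6⟩ h1 rfl
  refine h.up (le_of_eq ?_)
  rw [genAv, Fintype.expect_eq_sum_div_card, sum_range]
  simp

/-- The stored part followed by the part still to be drawn. -/
def genMix {N Dg : ℕ} (i : ℕ) (σ η : Fin N → Fin Dg) : Fin N → Fin Dg :=
  fun k => if (k : ℕ) < i then σ k else η k

/-- The memory after `i` digits. -/
def genMem {N Dg : ℕ} (m : Mem) (a i : ℕ) (σ : Fin N → Fin Dg) : Mem := fun a' k =>
  if a' = a ∧ k < i then bv σ k else m a' k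

theorem gen_mix_step {N Dg : ℕ} [Nonempty (Fin Dg)] (F : (Fin N → Fin Dg) → ℝ)
    (σ : Fin N → Fin Dg) (i : Fin N) :
    𝔼 η, F (genMix i σ η) = 𝔼 β, 𝔼 η, F (genMix (i + 1) (Function.update σ i β) η) := by
  rw [ex_update i, expect_comm]
  refine expect_congr rfl fun β _ => expect_congr rfl fun η _ => congrArg F ?_
  funext k
  unfold genMix
  by_cases hk : k = i
  · subst hk
    simp
  · have : (k : ℕ) ≠ i := fun h => hk (Fin.ext h)
    rw [Function.update_of_ne hk, Function.update_of_ne hk]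
    by_cases h : (k : ℕ) < i
    · rw [if_pos h, if_pos (by omega)]
    · rw [if_neg h, if_neg (by omega)]

theorem gen_mem_step {N Dg : ℕ} (m : Mem) (a : ℕ) (σ : Fin N → Fin Dg) (i : Fin N)
    (β : Fin Dg) : (genMem m a i σ).write a i β = genMem m a (i + 1) (Function.update σ i β) := by
  funext a' k
  unfold Mem.write genMem bv
  by_cases ha : a' = a
  · by_cases hk : k = i
    · subst hk
      simp [ha]
    · rw [if_neg (fun h => hk h.2)]
      by_cases h : k < i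
      · have hN : k < N := h.trans i.2
        rw [if_pos ⟨ha, h⟩, if_pos ⟨ha, by omega⟩, dif_pos hN, dif_pos hN,
          Function.update_of_ne fun h' => hk (congrArg Fin.val h')]
      · rw [if_neg (fun h' => h h'.2), if_neg (fun h' => by omega)]
  · simp [ha]

theorem gen_flat (a kN kL w N L : ℕ) (g : ℕ → ℕ) (m : Mem) (R : St → ℝ → Prop)
    (val : (Fin N → Fin (2 ^ L)) → ℝ) (hN : m 6 kN = N) (hL : m 6 kL = L) (hNw : N < 2 ^ w)
    (hLw : 2 ^ L < 2 ^ w) (hw : 2 ≤ w) (k1 : kN < 2 ^ w) (k2 : kL < 2 ^ w)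
    (hR : ∀ η g', R (g', genMem m a N η) (val η)) :
    W w (genAll a kN kL) (13 * (N + 1) * (L + 1)) R (g, m) (𝔼 η, val η) := by
  have hw1 : 1 < 2 ^ w := Nat.one_lt_two_pow (by omega)
  have key := W.loop (w := w) (r := 1) (p := genBody a) (R := R) (fun _ => 8 * L + 11)
    (fun j s x => s.1 1 = j ∧ j ≤ N ∧ s.1 2 = L ∧ s.1 3 = N - j ∧ s.1 4 = 1 ∧
      ∃ σ : Fin N → Fin (2 ^ L), s.2 = genMem m a (N - j) σ ∧ x = 𝔼 η, val (genMix (N - j) σ η))
    (by
      rintro j ⟨g', m'⟩ x ⟨a1, -, -, -, -, σ, a6, a7⟩ h0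
      simp only at a1 a6 h0
      have hj : j = 0 := a1.symm.trans h0
      subst hj
      have e : ∀ η : Fin N → Fin (2 ^ L), genMix (N - 0) σ η = σ := fun η => by
        funext k
        exact if_pos k.2
      simp only [e, Fintype.expect_const] at a7
      rw [a6, a7]
      exact hR σ g')
    (fun s x h => h.1)
    (by
      rintro j ⟨g', m'⟩ x ⟨a1, a2, a3, a4, a5, σ, a6, a7⟩ -
      simp only at a1 a3 a4 a5 a6
      have hi : N - (j + 1) < N := by omega
      have e := gen_mix_step val σ ⟨N - (j + 1), hi⟩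
      simp only at e
      rw [a7, e]
      refine W.seq (t₁ := 8 * L + 5) (t₂ := 5) (gen_dig' hLw g' m' _ _ a3 a5 fun g'' β b1 b2 => ?_)
      refine W.seq (t₁ := 1) (t₂ := 3) (W.store (W.seq (t₁ := 1) (t₂ := 1) (W.op (W.op ?_))))
      have c1 : g'' 1 = j + 1 := (b1 1 (by norm_num)).trans a1
      have c2 : g'' 2 = L := (b1 2 (by norm_num)).trans a3
      have c3 : g'' 3 = N - (j + 1) := (b1 3 (by norm_num)).trans a4
      have c4 : g'' 4 = 1 := (b1 4 (by norm_num)).trans a5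
      have e1 : N - (j + 1) + 1 = N - j := by omega
      have m1 : (N - j) % 2 ^ w = N - j := Nat.mod_eq_of_lt (by omega)
      have m3 : j % 2 ^ w = j := Nat.mod_eq_of_lt (by omega)
      have e2 := gen_mem_step m a σ ⟨N - (j + 1), hi⟩ β
      simp only [e1] at e2
      refine ⟨?_, by omega, ?_, ?_, ?_, Function.update σ ⟨N - (j + 1), hi⟩ β, ?_, ?_⟩
      · simp [Op.app, c1, c4, m3]
      · simp [c2]
      · simp [Op.app, c3, c4, e1, m1]
      · simp [c4]
      · rw [← e2, a6, c3, b2]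
      · rw [e1])
  refine (W.seq (t₁ := 1) (W.const (W.seq (t₁ := 1) (W.load (W.seq (t₁ := 1) (W.const
    (W.seq (t₁ := 1) (W.load (W.seq (t₁ := 1) (W.const (W.seq (t₁ := 1) (W.const
      (key N _ _ ?_))))))))))))).time ?_
  · have m1 : kN % 2 ^ w = kN := Nat.mod_eq_of_lt k1
    have m2 : kL % 2 ^ w = kL := Nat.mod_eq_of_lt k2
    have m3 : 1 % 2 ^ w = 1 := Nat.mod_eq_of_lt hw1
    refine ⟨by simp [m1, hN], le_rfl, by simp [m2, hL], by simp, by simp [m3],
      fun _ => ⟨0, Nat.two_pow_pos L⟩, ?_, ?_⟩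
    · funext a' k
      simp [genMem]
    · refine expect_congr rfl fun η _ => congrArg val ?_
      funext k
      simp [genMix]
  · simp only [sum_const, card_range, smul_eq_mul]
    nlinarith [Nat.zero_le (N * L), Nat.zero_le N, Nat.zero_le L]

/-- Flat digit strings as blocks. -/
def genEq (Nn Bk Dg : ℕ) : (Fin (Nn * Bk) → Fin Dg) ≃ (Fin Nn → Blk Bk Dg) :=
  (Equiv.arrowCongr finProdFinEquiv.symm (Equiv.refl _)).trans (Equiv.curry _ _ _)

theorem gen_eq_mem {Nn Bk Dg : ℕ} (m : Mem) (a : ℕ) (η : Fin (Nn * Bk) → Fin Dg) :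
    setDig m a (genEq Nn Bk Dg η) = genMem m a (Nn * Bk) η := by
  funext a' i
  unfold setDig genMem
  split_ifs with h
  · have hB : 0 < Bk := Nat.pos_of_ne_zero fun h0 => by
      have := h.2
      rw [h0] at this
      omega
    have h1 : i / Bk < Nn := Nat.div_lt_of_lt_mul (by rw [mul_comm]; exact h.2)
    have h2 : i % Bk < Bk := Nat.mod_lt _ hB
    rw [vw, dif_pos h1, bv, dif_pos h2, bv, dif_pos h.2]
    refine congrArg (fun z => ((η z : Fin Dg) : ℕ)) (Fin.ext ?_)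
    exact Nat.mod_add_div i Bk
  · rfl

theorem gen_spec (a kN kL : ℕ) (ha : a ≠ 6) : ∃ (P : Stmt) (c : ℕ), ∀ (w Nn Bk L : ℕ) (g : ℕ → ℕ)
    (m : Mem) (R : St → ℝ → Prop) (val : (Fin Nn → Blk Bk (2 ^ L)) → ℝ),
    m 6 kN = Nn * Bk → m 6 kL = L → Nn * Bk < 2 ^ w → 2 ^ L < 2 ^ w → 2 ≤ w →
    kN < 2 ^ w → kL < 2 ^ w → (∀ ω g', R (g', setDig m a ω) (val ω)) →
    W w P (c * (Nn * Bk + 1) * (L + 1)) R (g, m) (𝔼 ω, val ω) := by
  have _ := ha
  refine ⟨genAll a kN kL, 13, fun w Nn Bk L g m R val h1 h2 h3 h4 h5 h6 h7 hR => ?_⟩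
  have h := gen_flat a kN kL w (Nn * Bk) L g m R (fun η => val (genEq Nn Bk _ η)) h1 h2 h3 h4 h5
    h6 h7 fun η g' => by
      rw [← gen_eq_mem]
      exact hR _ g'
  exact h.up (le_of_eq (Fintype.expect_equiv (genEq Nn Bk _) _ _ fun _ => rfl))

end Vale.Agent.P315
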