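import Vale.Agent.P315.Fold

/-!
The algorithm as mathematical functions on natural numbers. See `skel/P315/BLUEPRINT.md`.
Time is the position in the padded string `x`, a state of a window is a pair of shifted diagonals
`(d, e)`, values are costs multiplied by `U`.
-/

open Finset

namespace Vale.Agent.P315

/-- Parameters. The first ten are loop bounds of terms. -/
structure Par where
  b : ℕ
  b0 : ℕ
  r : ℕ
  rr1 : ℕ
  np1 : ℕ
  N : ℕ
  cap1 : ℕ
  T1 : ℕ
  It1 : ℕ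
  NS1 : ℕ
  P0 : ℕ
  r0 : ℕ
  ws : ℕ
  wb : ℕ
  wd : ℕ
  wy : ℕ
  Q : ℕ
  gb : ℕ
  k0 : ℕ
  gb0 : ℕ
  k1 : ℕ
  et : ℕ
  U : ℕ
  O : ℕ
  Dh : ℕ
  F : ℕ
  H : ℕ
  P : ℕ
  pw : ℕ → ℕ

/-- Value functions of the children: child, floor index, round, entry, exit. -/
abbrev Ev : Type := ℕ → ℕ → ℕ → ℕ → ℕ → ℕ

namespace Par
variable (p : Par)

/-- `s ^ j`. -/
def sp (j : ℕ) : ℕ := p.pw (p.ws * j)

/-- Length `b ^ h` of a window of height `h`. -/
def len (h : ℕ) : ℕ := p.pw (p.wb * h)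

/-- Digit number `j` of the index of a partition. -/
def dg (idx j : ℕ) : ℕ := min (idx / p.pw (p.wd * j) % p.pw p.wd) (2 * p.P0)

/-- Grid point number `δ` around `d` at scale `g`. -/
def gp (d g δ : ℕ) : ℕ := d + g * δ - g * p.P0

/-- The partition of the first `j0` children with end points `d`, `e` and digits `δ`. -/
def pt (d g j0 e : ℕ) (δ : ℕ → ℕ) (j : ℕ) : ℕ :=
  if j = 0 then d else if j0 ≤ j then e else p.gp d g (δ j)

/-- Total value of the first `j0` children along the partition `x`. -/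
def lsum (Wc : Ev) (a t j0 : ℕ) (x : ℕ → ℕ) : ℕ :=
  ∑ l ∈ range p.b, if l < j0 then Wc l a t (x l) (x (l + 1)) else 0

/-- The best grid partition of the first `j0` children. -/
def ug (Wc : Ev) (a t d g j0 e : ℕ) : ℕ :=
  mn p.N fun idx => p.lsum Wc a t j0 (p.pt d g j0 e (p.dg idx))

/-- Residual of the digit `δ` for the predicted point number `j` with slope index `μ`. -/
def res (Wc : Ev) (a t μ d g j δ : ℕ) : ℕ :=
  Nat.dist (p.P0 * p.U * p.gp d g δ + p.P0 * p.ug Wc a t d g j (p.gp d g δ))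
    (p.P0 * p.U * d + μ * p.ug Wc a t d g j (p.gp d g δ))

/-- The centre of a learner: constant for `t' = 0`, predicted from round `t' - 1` otherwise. -/
def cz (Wc : Ev) (a t' μ d g j : ℕ) : ℕ :=
  if t' = 0 then p.P0 else amn p.np1 fun δ => p.res Wc a (t' - 1) μ d g j δ

/-- Digits of the expert `idx` in the box of radius `A` around `z`. -/
def xd (z : ℕ → ℕ) (A idx j : ℕ) : ℕ := max (z j - A) (min (p.dg idx j) (z j + A))

/-- The value of child `l` seen by layer `j`. -/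
def wj (Wc : Ev) (a t j l d e : ℕ) : ℕ :=
  if p.r < j then Wc l a (t - 1) d e else min (Wc l a (t - 1) d e) (Wc l (a - (j - 1)) t d e)

/-- The drop of child `l` in layer `j`. -/
def ej (Wc : Ev) (a t j : ℕ) (x : ℕ → ℕ) (l : ℕ) : ℕ :=
  p.wj Wc a t (j + 1) l (x l) (x (l + 1)) - p.wj Wc a t j l (x l) (x (l + 1))

/-- Clipping thresholds. -/
def th (g i : ℕ) : ℕ := min (p.pw i) (p.U * g * p.P0)

/-- The credit that the sample will confirm. Index `j = 0` stands for the full layer `r`. -/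
def phi (Wc : Ev) (a t g : ℕ) (x : ℕ → ℕ) : ℕ :=
  ∑ j ∈ range p.r, if j = 0 then ∑ l ∈ range p.b, p.ej Wc a t p.r x l else
    mx p.It1 fun i => (p.gb - 2) * (∑ l ∈ range p.b, min (p.ej Wc a t j x l) (p.th g i)) / p.gb -
      2 * p.k0 * (p.b / p.sp j) * p.th g i

/-- The credit computed from the sample in the digits `z`. -/
def lcb (Wc : Ev) (z : ℕ → ℕ) (a t g : ℕ) (x : ℕ → ℕ) : ℕ :=
  ∑ j ∈ range p.r, if j = 0 then ∑ l ∈ range p.b, p.ej Wc a t p.r x l else
    mx p.It1 fun i => (p.gb - 1) * (p.b / p.sp j * ∑ l ∈ range p.b, if l < p.sp j then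
      min (p.ej Wc a t j x (z (j * p.b + l) % p.b)) (p.th g i) else 0) / p.gb -
      p.k0 * (p.b / p.sp j) * p.th g i

/-- Truncated geometric noise of the expert `idx`. -/
def nz (z : ℕ → ℕ) (idx : ℕ) : ℕ :=
  mn p.cap1 fun c => if c < p.cap1 - 1 ∧ z (p.r * p.b + idx * (p.cap1 - 1) + c) % p.Q ≠ 0
    then p.cap1 - 1 else c

/-- The loss of the partition `x` in round `t`. -/
def lt (Wc : Ev) (a t g : ℕ) (x : ℕ → ℕ) : ℕ := p.lsum Wc a (t - 1) p.b x - p.phi Wc a t g x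

/-- The noise unit. -/
def u0 (g A : ℕ) : ℕ := 48 * p.r * p.b * g * A * p.et * (p.U / p.Q)

/-- The expert played in round `t` by the learner started in round `a0`. -/
def play (Wc : Ev) (z : ℕ → ℕ) (a t g A a0 : ℕ) (X : ℕ → ℕ → ℕ) : ℕ :=
  amn p.N fun idx => (∑ t' ∈ range p.T1, if a0 ≤ t' ∧ t' < t then p.lt Wc a t' g (X idx) else 0) +
    p.lsum Wc a (t - 1) p.b (X idx) + p.u0 g A * (p.cap1 - 1 - p.nz z idx)

/-- The experts of the learner with centre index `(t', μ)` and radius `A`. -/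
def xp (Wc : Ev) (a d e g t' μ A idx : ℕ) : ℕ → ℕ :=
  p.pt d g p.b e (p.xd (p.cz Wc a t' μ d g) A idx)

/-- The estimate of one learner. -/
def cand1 (Wc : Ev) (z : ℕ → ℕ) (a t d e g a0 t' μ A : ℕ) : ℕ :=
  max (p.U * Nat.dist d e)
    (p.lsum Wc a (t - 1) p.b
      (p.xp Wc a d e g t' μ A (p.play Wc z a t g A a0 (p.xp Wc a d e g t' μ A))) -
    p.lcb Wc z a t g (p.xp Wc a d e g t' μ A (p.play Wc z a t g A a0 (p.xp Wc a d e g t' μ A))))

/-- The best estimate in round `t ≥ 1`. -/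
def cand (Wc : Ev) (z : ℕ → ℕ) (a t d e g : ℕ) : ℕ :=
  min (p.ug Wc a (t - 1) d g p.b e) (mn p.T1 fun a0 => mn p.T1 fun t' => mn p.np1 fun μ =>
    mn p.np1 fun A => p.cand1 Wc z a t d e g a0 (min t' t) μ A)

/-- Thresholds of the rough estimate, for pieces of height `hl`. -/
def tt (hl a j : ℕ) : ℕ :=
  if j = 0 then 0 else
    p.gb0 * p.pw (p.wy * ((hl + p.r0 - 1) / p.r0)) * p.sp j * p.len hl * (p.U / p.sp a)

/-- The rough estimate (round `0`) for a window of height `h` along the diagonal `d`. -/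
def est (Wr : Ev) (z : ℕ → ℕ) (h a d : ℕ) : ℕ :=
  ∑ j ∈ range p.rr1, if j = 0 ∨ p.r * min p.r0 h < j then 0 else
    if j = p.r * min p.r0 h then
      ∑ l ∈ range p.b0, if l < p.len (min p.r0 h) then
        Wr l (a - (j - 1)) 0 d d - p.tt (h - min p.r0 h) a (j - 1) else 0
    else (p.gb0 + 1) * (p.len (min p.r0 h) / p.sp j * ∑ l ∈ range p.b0, if l < p.sp j then
        min (Wr (z (j * p.b0 + l) % p.len (min p.r0 h)) (a - (j - 1)) 0 d d)
          (p.tt (h - min p.r0 h) a j) - p.tt (h - min p.r0 h) a (j - 1) else 0) / p.gb0 +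
      p.k1 * (p.len (min p.r0 h) / p.sp j) * p.tt (h - min p.r0 h) a j

/-- The scale of a slot. -/
def sg (sl : ℕ) : ℕ := if sl = 0 then 1 else p.pw ((sl - 1) / p.np1)

/-- The movement index of a slot. -/
def sm (sl : ℕ) : ℕ := if sl = 0 then p.P0 else (sl - 1) % p.np1

/-- Entry diagonal of the grid state number `k` of a slot. -/
def sd (sl k : ℕ) : ℕ := p.O - p.Dh + p.sg sl * k

/-- Exit diagonal of the grid state number `k` of a slot. -/
def se (sl k : ℕ) : ℕ := p.gp (p.sd sl k) (p.sg sl) (p.sm sl)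

/-- The trivial value of a slot. -/
def big (h sl : ℕ) : ℕ := p.U * (p.len h + p.sg sl * p.P0)

/-- The new estimate for a grid state. -/
def newv (Wc Wr : Ev) (z zr : ℕ → ℕ) (h a t sl k : ℕ) : ℕ :=
  if t = 0 then (if sl = 0 then p.est Wr zr h a (p.sd sl k) else p.big h sl)
  else if sl = 0 then p.big h sl else p.cand Wc z a t (p.sd sl k) (p.se sl k) (p.sg sl)

/-- The table: running minimum of the new estimates over coarser floors and earlier rounds. -/
def raw (B : ℕ) (nv : ℕ → ℕ → ℕ) : ℕ → ℕ → ℕ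
  | 0, _ => B
  | a + 1, 0 => min (raw B nv a 0) (nv (a + 1) 0)
  | a + 1, t + 1 => min (raw B nv a (t + 1)) (min (raw B nv (a + 1) t) (nv (a + 1) (t + 1)))

/-- Closure of one slot in the entry diagonal. -/
def col (R : ℕ → ℕ) (sl d : ℕ) : ℕ :=
  mn (2 * p.Dh + 1) fun k => R k + 2 * p.U * Nat.dist d (p.sd sl k)

/-- The value of a state computed from the closed slots `C`. -/
def evc (C : ℕ → ℕ) (h a d e : ℕ) : ℕ :=
  if a = 0 then p.U * (p.len h + Nat.dist d e) else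
    min (p.U * (p.len h + Nat.dist d e)) (mn p.NS1 fun sl =>
      C sl + p.U * Nat.dist (e + p.sg sl * p.P0) (d + p.sg sl * p.sm sl))

/-- The table of a node. -/
def tab (Wc Wr : Ev) (z zr : ℕ → ℕ) (h a t sl k : ℕ) : ℕ :=
  raw (p.big h sl) (fun a t => p.newv Wc Wr z zr h a t sl k) a t

/-- The value function of a node. -/
def node (Wc Wr : Ev) (z zr : ℕ → ℕ) (h a t d e : ℕ) : ℕ :=
  p.evc (fun sl => p.col (p.tab Wc Wr z zr h a t sl) sl d) h a d e

end Par

/-- The cost of one time step from diagonal `d` to diagonal `e`. -/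
def leaf (mis : ℕ → ℕ → ℕ) (i d e : ℕ) : ℕ :=
  min (mis i d + Nat.dist d e) (1 + Nat.dist d (e + 1))

/-- The value function of window number `i` of height `h`. The digits of the node `(h, i)` are
`z h i` (rounds `t ≥ 1`) and `zr h i` (round `0`). -/
def Wv (p : Par) (mis : ℕ → ℕ → ℕ) (z zr : ℕ → ℕ → ℕ → ℕ) : ℕ → ℕ → ℕ → ℕ → ℕ → ℕ → ℕ
  | 0 => fun i _ _ d e => p.U * leaf mis i d e
  | h + 1 => fun i => p.node (fun l => Wv p mis z zr h (i * p.b + l))
      (fun l => Wv p mis z zr (h - (min p.r0 (h + 1) - 1)) (i * p.len (min p.r0 (h + 1)) + l))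
      (z (h + 1) i) (zr (h + 1) i) (h + 1)
  termination_by h => h
  decreasing_by all_goals omega

theorem Wv_zero (p : Par) (mis : ℕ → ℕ → ℕ) (z zr : ℕ → ℕ → ℕ → ℕ) (i a t d e : ℕ) :
    Wv p mis z zr 0 i a t d e = p.U * leaf mis i d e := by rw [Wv]

/-- The children of a node. -/
def Wch (p : Par) (mis : ℕ → ℕ → ℕ) (z zr : ℕ → ℕ → ℕ → ℕ) (h i : ℕ) : Ev :=
  fun l => Wv p mis z zr h (i * p.b + l)

/-- The pieces of a node of height `h + 1` in round `0`. -/
def Wpc (p : Par) (mis : ℕ → ℕ → ℕ) (z zr : ℕ → ℕ → ℕ → ℕ) (h i : ℕ) : Ev :=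
  fun l => Wv p mis z zr (h - (min p.r0 (h + 1) - 1)) (i * p.len (min p.r0 (h + 1)) + l)

theorem Wv_succ (p : Par) (mis : ℕ → ℕ → ℕ) (z zr : ℕ → ℕ → ℕ → ℕ) (h i : ℕ) :
    Wv p mis z zr (h + 1) i = p.node (Wch p mis z zr h i) (Wpc p mis z zr h i)
      (z (h + 1) i) (zr (h + 1) i) (h + 1) := by rw [Wv]; rfl

/-- The abstract path system: `hp` is the distance from the source. -/
structure PathSys (hp mis : ℕ → ℕ → ℕ) : Prop where
  lip : ∀ q d d', hp q d ≤ hp q d' + Nat.dist d d'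
  diag : ∀ q d, hp (q + 1) d ≤ hp q d + mis q d
  del : ∀ q d, hp (q + 1) d ≤ hp q (d + 1) + 1
  mono : ∀ q d, hp q d ≤ hp (q + 1) d
  le_one : ∀ q d, mis q d ≤ 1

end Vale.Agent.P315
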