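import Vale.Agent.P315.Prob

/-! Potentials for the pipeline lemma. -/

open Finset

namespace Vale.Agent.P315

/-- The time weights. -/
noncomputable def lam (τ t : ℕ) : ℝ := (1 + 1 / (τ : ℝ)) ^ t

/-- Unnormalised relative entropy. -/
noncomputable def kl (x y : ℝ) : ℝ := x * Real.log (x / y) - x + y

/-- The drops of `w`; the last one is the final value. -/
def drp (w : ℕ → ℝ) (T t : ℕ) : ℝ := if t < T then w t - w (t + 1) else w T

/-- The linear potential. -/
noncomputable def Lin (τ T : ℕ) (w : ℕ → ℝ) : ℝ := ∑ t ∈ range (T + 1), lam τ (t + 1) * drp w T t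

/-- The entropy potential. -/
noncomputable def Ent (τ T : ℕ) (w : ℕ → ℝ) (y : ℝ) : ℝ :=
  ∑ t ∈ range (T + 1), lam τ (t + 1) * kl (drp w T t) y

open Classical in
/-- The total size of the spikes of `D` relative to the weights `y`. -/
noncomputable def spk (b : ℕ) (Λ : ℝ) (D y : ℕ → ℝ) : ℝ :=
  ∑ l ∈ range b, if Λ * (∑ l' ∈ range b, D l') * y l < D l * ∑ l' ∈ range b, y l' then D l else 0

/-- The sum of `f h i` over all inner nodes `(h + 1, i)` of the tree. -/
def tot (b H : ℕ) (f : ℕ → ℕ → ℝ) : ℝ := ∑ h ∈ range H, ∑ i ∈ range (b ^ (H - (h + 1))), f h i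

/-- `f` is additive on the tree. -/
def Addv (b H : ℕ) (f : ℕ → ℕ → ℝ) : Prop :=
  ∀ h < H, ∀ i < b ^ (H - (h + 1)), f (h + 1) i = ∑ l ∈ range b, f h (i * b + l)

end Vale.Agent.P315
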