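import Vale.Agent.P315.Ok
import Vale.Agent.P315.PipeD

/-! Definitions for the analysis. -/

open Finset

namespace Vale.Agent.P315

namespace Par
variable (p : Par)

/-- Cost of the comparator `ds` in the window `(h, i)`. -/
def cw (mis : ℕ → ℕ → ℕ) (ds : ℕ → ℕ) (h i : ℕ) : ℕ :=
  ∑ q ∈ range (p.b ^ h), leaf mis (i * p.b ^ h + q) (ds (i * p.b ^ h + q)) (ds (i * p.b ^ h + q + 1))

/-- Padded cost. -/
noncomputable def ct (mis : ℕ → ℕ → ℕ) (ds : ℕ → ℕ) (h i : ℕ) : ℝ :=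
  p.cw mis ds h i + p.Dh * (p.b : ℝ) ^ h / p.P

/-- Additive constant of the rough estimate. -/
def Yb : ℕ := 2 ^ (p.wy * ((p.H + p.r0 - 1) / p.r0))

/-- Multiplicative constant of the rough estimate. -/
def Mb : ℕ := 6 * (1 + p.b0 * p.H) + 1

/-- The excess of a value over the budget `c`. -/
noncomputable def exc (W : ℕ) (c : ℝ) : ℝ := max 0 ((W : ℝ) / p.U - c)

/-- The excess of the child `l` in round `t`. -/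
noncomputable def wl (Wc : Ev) (xs fl : ℕ → ℕ) (cp : ℕ → ℝ) (l t : ℕ) : ℝ :=
  p.exc (Wc l (fl l) t (xs l) (xs (l + 1))) (cp l)

/-- The total excess of the children. -/
noncomputable def xl (Wc : Ev) (xs fl : ℕ → ℕ) (cp : ℕ → ℝ) (t : ℕ) : ℝ :=
  ∑ l ∈ range p.b, p.wl Wc xs fl cp l t

/-- The excess of the node `(h, i)` in round `t`. -/
noncomputable def wx (mis : ℕ → ℕ → ℕ) (ds : ℕ → ℕ) (fl : ℕ → ℕ → ℕ) (cp : ℕ → ℕ → ℝ)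
    (z zr : ℕ → ℕ → ℕ → ℕ) (h i t : ℕ) : ℝ :=
  p.exc (Wv p mis z zr h i (fl h i) t (ds (i * p.b ^ h)) (ds ((i + 1) * p.b ^ h))) (cp h i)

/-- The comparator with its floors `fl`, classes `cls` and budgets `cp`. -/
structure CmpOk (E : ℕ) (mis : ℕ → ℕ → ℕ) (ds : ℕ → ℕ) (fl cls : ℕ → ℕ → ℕ) (cp : ℕ → ℕ → ℝ) :
    Prop where
  ds0 : ds 0 = p.O
  cw_le : p.cw mis ds p.H 0 ≤ p.Dh
  fl_root : fl p.H 0 = p.F
  fl_child : ∀ h < p.H, ∀ i < p.b ^ (p.H - (h + 1)), ∀ l < p.b,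
    fl h (i * p.b + l) = fl (h + 1) i - (cls h (i * p.b + l) - 1)
  cls_pos : ∀ h i, 1 ≤ cls h i
  cls_le : ∀ h i, cls h i ≤ p.r
  cls_lt : ∀ h < p.H, ∀ i < p.b ^ (p.H - (h + 1)), ∀ l < p.b, cls h (i * p.b + l) < p.r →
    p.ct mis ds h (i * p.b + l) * p.b * (p.s : ℝ) ^ 2 ≤
      (p.s : ℝ) ^ cls h (i * p.b + l) * p.ct mis ds (h + 1) i
  cp_add : Addv p.b p.H cp
  cp_ge : ∀ h ≤ p.H, ∀ i < p.b ^ (p.H - h), (1 + 2 / (E : ℝ)) * p.cw mis ds h i +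
    p.Dh * (p.b : ℝ) ^ h / (p.P * E) + p.Yb * (p.b : ℝ) ^ h / (p.s : ℝ) ^ fl h i ≤ cp h i
  cp_root : cp p.H 0 ≤ (1 + 2 / (E : ℝ)) * p.cw mis ds p.H 0 + 2 * p.Dh / E

/-- The data seen by one inner node with floor `a ≥ 1`. -/
structure NodeCtx (E : ℕ) (Wc : Ev) (a : ℕ) (xs : ℕ → ℕ) (c : ℕ) (fl cls : ℕ → ℕ)
    (ct cp : ℕ → ℝ) : Prop where
  reg : ∀ l, Reg p.U (Wc l)
  a_pos : 1 ≤ a
  a_le : a ≤ p.F
  xs0 : Nat.dist (xs 0) p.O ≤ p.Dh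
  xs_near : ∀ l ≤ p.b, Nat.dist (xs l) (xs 0) ≤ c
  c_le : c ≤ p.Dh
  fl_eq : ∀ l < p.b, fl l = a - (cls l - 1)
  cls_pos : ∀ l < p.b, 1 ≤ cls l
  cls_le : ∀ l < p.b, cls l ≤ p.r
  cls_lt : ∀ l < p.b, cls l < p.r →
    ct l * p.b * (p.s : ℝ) ^ 2 ≤ (p.s : ℝ) ^ cls l * ∑ l' ∈ range p.b, ct l'
  ct_pos : ∀ l < p.b, 0 < ct l
  cp_pos : ∀ l < p.b, 0 < cp l
  cp_ge : (1 + 2 / (E : ℝ)) * c ≤ ∑ l ∈ range p.b, cp l
  xl_le : p.xl Wc xs fl cp 0 ≤ 2 * p.P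

/-- The grid state `(sl, k)` and the digits `dig` round the points `xs` down at scale `g`. -/
structure Rnd (xs : ℕ → ℕ) (c g sl k : ℕ) (dig : ℕ → ℕ) : Prop where
  sl_pos : 1 ≤ sl
  sl_lt : sl < p.NS1
  k_le : k ≤ 2 * p.Dh
  sg_eq : p.sg sl = g
  c_le : c ≤ g * p.P0
  dig_le : ∀ j ≤ p.b, dig j ≤ 2 * p.P0
  dig0 : dig 0 = p.P0
  sm_eq : p.sm sl = dig p.b
  lo : ∀ j ≤ p.b, p.gp (p.sd sl k) g (dig j) ≤ xs j
  hi : ∀ j ≤ p.b, xs j < p.gp (p.sd sl k) g (dig j) + g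

/-- The rounded partition. -/
def rx (g sl k : ℕ) (dig : ℕ → ℕ) : ℕ → ℕ := p.pt (p.sd sl k) g p.b (p.se sl k) dig

/-- The learner `(t', μ, A)` contains the digits `dig` in its box. -/
def InBox (Wc : Ev) (a g sl k : ℕ) (dig : ℕ → ℕ) (t' μ A : ℕ) : Prop :=
  μ ≤ 2 * p.P0 ∧ A ≤ 2 * p.P0 ∧
    ∀ j < p.b, 0 < j → Nat.dist (p.cz Wc a t' μ (p.sd sl k) g j) (dig j) ≤ A

/-- The partition played in round `t`. -/
def px (Wc : Ev) (z : ℕ → ℕ) (a t d e g a0 t' μ A : ℕ) : ℕ → ℕ :=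
  p.xp Wc a d e g t' μ A (p.play Wc z a t g A a0 (p.xp Wc a d e g t' μ A))

/-- For every rounding, either the node is finished or some learner has a box of radius at most
`R + KR (g - 1)`. -/
def Radius (Wc : Ev) (a : ℕ) (xs : ℕ → ℕ) (c : ℕ) (cp : ℕ → ℝ) (a0 : ℕ) (R KR : ℝ) : Prop :=
  ∀ g sl k dig, p.Rnd xs c g sl k dig →
    (∃ t < a0, (p.ug Wc a t (p.sd sl k) g p.b (p.se sl k) : ℝ) ≤ p.U * ∑ l ∈ range p.b, cp l) ∨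
    ∃ t' ≤ a0, ∃ μ A, p.InBox Wc a g sl k dig t' μ A ∧ (g : ℝ) * A ≤ R + KR * (g - 1)

/-- The sample overestimates the improvement for some learner of the grid state `(sl, k)`. -/
def BadN (Wc : Ev) (z : ℕ → ℕ) (sl k : ℕ) : Prop :=
  ∃ a ≤ p.F, 1 ≤ a ∧ ∃ t < p.T1, 1 ≤ t ∧ ∃ a0 < p.T1, ∃ t' < p.T1, ∃ μ < p.np1, ∃ A < p.np1,
    p.lsum Wc a (t - 1) p.b (p.px Wc z a t (p.sd sl k) (p.se sl k) (p.sg sl) a0 t' μ A) <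
      p.lcb Wc z a t (p.sg sl) (p.px Wc z a t (p.sd sl k) (p.se sl k) (p.sg sl) a0 t' μ A) +
      p.lsum Wc a t p.b (p.px Wc z a t (p.sd sl k) (p.se sl k) (p.sg sl) a0 t' μ A)

/-- The layer `j` of piece `l` in the rough estimate. -/
def lay (Wr : Ev) (h a d j l : ℕ) : ℕ :=
  min (Wr l (a - (j - 1)) 0 d d) (p.tt (h - min p.r0 h) a j) - p.tt (h - min p.r0 h) a (j - 1)

/-- The samples of the rough estimate are typical. -/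
def GoodN (Wr : Ev) (z : ℕ → ℕ) (h a d : ℕ) : Prop :=
  ∀ j, 1 ≤ j → j < p.r * min p.r0 h →
    (∑ l ∈ range (p.s ^ j), (p.lay Wr h a d j (z (j * p.b0 + l) % p.b ^ min p.r0 h) : ℝ) ≤
      (1 + 1 / (p.gb0 : ℝ)) * ((p.s ^ j : ℕ) / (p.b ^ min p.r0 h : ℕ) *
        ∑ l ∈ range (p.b ^ min p.r0 h), (p.lay Wr h a d j l : ℝ)) +
      p.k1 * (p.tt (h - min p.r0 h) a j : ℝ)) ∧
    ((p.s ^ j : ℕ) / (p.b ^ min p.r0 h : ℕ) *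
        ∑ l ∈ range (p.b ^ min p.r0 h), (p.lay Wr h a d j l : ℝ) ≤
      (1 + 1 / (p.gb0 : ℝ)) * ∑ l ∈ range (p.s ^ j),
        (p.lay Wr h a d j (z (j * p.b0 + l) % p.b ^ min p.r0 h) : ℝ) +
      p.k1 * (p.tt (h - min p.r0 h) a j : ℝ))

/-- All samples of round `0` are typical. -/
def GoodR (mis : ℕ → ℕ → ℕ) (zr : ℕ → ℕ → ℕ → ℕ) : Prop :=
  ∀ h < p.H, ∀ i < p.b ^ (p.H - (h + 1)), ∀ a ≤ p.F, ∀ k ≤ 2 * p.Dh,
    p.GoodN (Wpc p mis (fun _ _ _ => 0) zr h i) (zr (h + 1) i) (h + 1) a (p.sd 0 k)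

/-- Regret constant. -/
def Ks (Lg : ℕ) : ℕ := 24 * p.r * p.b * (2 * p.et * Lg + 6)

/-- Rounding constant of the predicted centre. -/
def KR (E : ℕ) : ℕ := 2 * E * (3 * p.b + 4)

/-- Entropy gained per unit of spike. -/
noncomputable def L : ℝ := Real.log p.s - 1

/-- Integer rounding losses of one window. -/
noncomputable def un (τ : ℕ) : ℝ := τ * p.r * (1 + 2 * p.k0 * p.b) / p.U

/-- Failure probability of one grid state. -/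
noncomputable def fb : ℝ :=
  p.F * p.T1 ^ 3 * p.np1 ^ 2 * p.r * p.It1 * Real.exp (-(p.k0 / p.gb : ℝ))

/-- Slope constant of the chain lemma. -/
def Rc (E : ℕ) : ℕ := 2 * E * p.H * (p.wb * p.H + 1) ^ 2

/-- Total greedy rounding loss, divided by `Dh`. -/
noncomputable def e0 : ℝ := (6 * p.b + 6) * p.H / p.P0

/-- The bound of the pipeline lemma, divided by `Dh`, for total regret `R * Dh`. -/
noncomputable def pipeB (τ Tc : ℕ) (R : ℝ) : ℝ :=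
  Real.exp (57 * p.H / (τ * p.L)) * (20 * p.H * p.Mb / lam τ Tc + 22 * (p.H + 1) / p.P0 +
    4 * p.e0 + 6 * R / τ)

/-- Total regret in the first stage, divided by `Dh`. -/
noncomputable def regC (τ Lg : ℕ) : ℝ := 9 * p.H / p.et + p.H * p.P * p.un τ + p.Ks Lg * p.H

/-- Total regret in the last stage, divided by `Dh`. -/
noncomputable def regD (E τ Lg : ℕ) (δ S : ℝ) : ℝ :=
  9 * p.H / p.et + p.H * p.P * p.un τ + p.Ks Lg * ((p.H : ℝ) / τ + 2 * E * (1 / δ + 3 * δ * p.H +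
    ((((p.H : ℝ) / τ + 1) * p.b * S + (1 + p.b) * p.e0) / δ + δ * p.H * S +
      ((p.H : ℝ) / τ + 1) * S + p.e0) + p.H * S / p.P0))

/-- Numerical conditions. `κ` is the number of runs, `Dg` the digit base. -/
structure Num (E τ Tc Lg Dg κ : ℕ) : Prop where
  E_ge : 16 ≤ E
  P0_ge : 3 ≤ p.P0
  et_pos : 1 ≤ p.et
  tau_ge : 4 ≤ τ
  T1_eq : p.T1 = 2 * Tc + τ + 1
  b0_dvd : p.b0 ∣ Dg
  Q_dvd : p.Q ∣ Dg
  Q_ge : 4 * τ ≤ p.Q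
  cap_eq : p.cap1 - 1 = p.Q * Lg
  cap_big : (τ : ℝ) * p.N * (1 - 1 / p.Q) ^ (p.cap1 - 1) ≤ 1
  fail_le : (τ : ℝ) * p.r * Real.exp (-(p.k0 / p.gb / 2 : ℝ)) ≤ 1 / p.et
  P0_big : 2 * (τ * (3 * p.b + 4) + 6 * p.b + p.Ks Lg * p.KR E) * p.et ≤ p.P0
  L_ge : 9 ≤ p.L
  et_big : 3 * p.L ≤ p.et
  eta2 : 2 / (p.gb : ℝ) + 4 * p.r * p.k0 / p.s ≤ 1 / p.L
  gb0_big : 8 * p.H ≤ p.gb0
  wy_big : 4 + 3 * p.r * p.r0 * p.k1 * p.gb0 ≤ 2 ^ p.wy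
  F_big : p.Yb * (p.H + 1) * p.P * (1 + p.s ^ 2) ^ p.H * E ≤ p.Dh * p.s ^ p.F
  Mb_tau : (p.Mb : ℝ) * p.P0 ≤ Real.exp τ
  Mb_b : 1 + (p.Mb : ℝ) * E ≤ Real.exp p.b
  stageC : p.pipeB τ Tc (p.regC τ Lg) ≤ (p.b : ℝ) ^ 8
  stageD : p.pipeB τ Tc (p.regD E τ Lg (1 / (p.b : ℝ) ^ 20) (3 + (p.b : ℝ) ^ 8)) ≤ 1 / (12 * E)
  rough : (p.H : ℝ) * p.P * (p.F + 1) * (2 * p.Dh + 1) * (2 * p.r * p.r0) *
    Real.exp (-(p.k1 / p.gb0 / 2 : ℝ)) ≤ 1 / (24 * κ)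
  chain : (p.H : ℝ) * (p.wb * p.H + 1) ^ 2 * (2 * (24 * p.Rc E) ^ 2 *
    ((p.r * p.b * p.P0 + 1) * p.np1 * p.fb)) ≤ 1 / (24 * κ)
  kappa_pos : 1 ≤ κ

end Par

end Vale.Agent.P315
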