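import Vale.Agent.P315.Round

/-! The predicted centre. -/

open Finset

namespace Vale.Agent.P315

variable {p : Par} {E a c g sl k t : ℕ} {Wc : Ev} {xs fl cls dig : ℕ → ℕ} {ct cp : ℕ → ℝ}

theorem centre_mu0 {P : ℕ} (hP : 1 ≤ P) {x : ℝ} (h0 : 0 ≤ x) (h1 : x ≤ 1) :
    ∃ n : ℕ, n ≤ P ∧ (n : ℝ) / P ≤ x ∧ x - n / P ≤ 1 / P := by
  have hP' : (0 : ℝ) < P := by exact_mod_cast hP
  have h2 := Nat.floor_le (mul_nonneg hP'.le h0)
  have h3 := Nat.lt_floor_add_one ((P : ℝ) * x)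
  refine ⟨⌊(P : ℝ) * x⌋₊, ?_, ?_, ?_⟩
  · have : (⌊(P : ℝ) * x⌋₊ : ℝ) ≤ P := h2.trans (by nlinarith)
    exact_mod_cast this
  · rw [div_le_iff₀ hP']; linarith
  · rw [sub_le_iff_le_add, ← add_div, le_div_iff₀ hP']; linarith

theorem centre_mu {P : ℕ} (hP : 1 ≤ P) {x : ℝ} (h : |x| ≤ 1) :
    ∃ μ : ℕ, μ ≤ 2 * P ∧ |((μ : ℝ) / P - 1) - x| ≤ 1 / P ∧ |(μ : ℝ) / P - 1| ≤ |x| := by
  have hP' : (0 : ℝ) < P := by exact_mod_cast hP
  rcases le_total 0 x with hx | hx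
  · obtain ⟨n, h1, h2, h3⟩ := centre_mu0 hP hx ((le_abs_self x).trans h)
    have h4 : (0 : ℝ) ≤ n / P := by positivity
    have e : (((P + n : ℕ) : ℝ)) / P - 1 = n / P := by
      push_cast; field_simp; ring
    refine ⟨P + n, by omega, ?_, ?_⟩
    · rw [e, abs_le]; constructor <;> linarith
    · rw [e, abs_of_nonneg h4, abs_of_nonneg hx]; exact h2
  · obtain ⟨n, h1, h2, h3⟩ := centre_mu0 hP (neg_nonneg.2 hx) ((neg_le_abs x).trans h)
    have h4 : (0 : ℝ) ≤ n / P := by positivity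
    have e : (((P - n : ℕ) : ℝ)) / P - 1 = -(n / P) := by
      rw [Nat.cast_sub h1]; field_simp; ring
    refine ⟨P - n, by omega, ?_, ?_⟩
    · rw [e, abs_le]; constructor <;> linarith
    · rw [e, abs_neg, abs_of_nonneg h4, abs_of_nonpos hx]; exact h2

theorem centre_dist (x y : ℕ) : ((Nat.dist x y : ℕ) : ℝ) = |(x : ℝ) - y| := by
  rcases le_total x y with h | h
  · have h' : (x : ℝ) ≤ y := by exact_mod_cast h
    rw [Nat.dist_eq_sub_of_le h, Nat.cast_sub h, abs_of_nonpos (by linarith)]; ring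
  · have h' : (y : ℝ) ≤ x := by exact_mod_cast h
    rw [Nat.dist_eq_sub_of_le_right h, Nat.cast_sub h, abs_of_nonneg (by linarith)]

theorem centre_lsum {j : ℕ} (hj : j ≤ p.b) (x : ℕ → ℕ) :
    p.lsum Wc a t j x = ∑ l ∈ range j, Wc l a t (x l) (x (l + 1)) :=
  sum_guard hj _

theorem centre_lip (hW : ∀ l, Reg p.U (Wc l)) {j : ℕ} (h1 : 0 < j) (hj : j ≤ p.b) (d e e' : ℕ) :
    p.ug Wc a t d g j e ≤ p.ug Wc a t d g j e' + p.U * Nat.dist e e' := by
  refine mn_le_add fun idx _ => ?_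
  obtain ⟨i, rfl⟩ : ∃ i, j = i + 1 := ⟨j - 1, by omega⟩
  rw [centre_lsum hj, centre_lsum hj, sum_range_succ, sum_range_succ]
  have e1 : ∀ l ≤ i, p.pt d g (i + 1) e (p.dg idx) l = p.pt d g (i + 1) e' (p.dg idx) l := by
    intro l hl
    simp only [Par.pt, if_neg (show ¬ (i + 1 ≤ l) by omega)]
  have e2 : ∀ e, p.pt d g (i + 1) e (p.dg idx) (i + 1) = e := by
    intro e
    simp only [Par.pt, if_neg (show ¬ (i + 1 = 0) by omega), le_refl, if_true]
  rw [sum_congr rfl fun l hl => by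
    rw [e1 l (by have := mem_range.1 hl; omega), e1 (l + 1) (by have := mem_range.1 hl; omega)],
    e2, e2, e1 i le_rfl]
  have h := (hW i).lip a t (p.pt d g (i + 1) e' (p.dg idx) i) e (p.pt d g (i + 1) e' (p.dg idx) i) e'
  rw [Nat.dist_self, Nat.dist_add_add_right, mul_zero, zero_add] at h
  omega

theorem centre_lipR (hp : p.Ok) (hW : ∀ l, Reg p.U (Wc l)) {j : ℕ} (h1 : 0 < j) (hj : j ≤ p.b)
    (d e e' : ℕ) :
    |(p.ug Wc a t d g j e : ℝ) / p.U - (p.ug Wc a t d g j e' : ℝ) / p.U| ≤ |(e : ℝ) - e'| := by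
  have hU : (0 : ℝ) < p.U := by exact_mod_cast hp.U_pos
  have a1 : (p.ug Wc a t d g j e : ℝ) ≤ p.ug Wc a t d g j e' + p.U * |(e : ℝ) - e'| := by
    rw [← centre_dist]; exact_mod_cast centre_lip hW h1 hj d e e'
  have a2 : (p.ug Wc a t d g j e' : ℝ) ≤ p.ug Wc a t d g j e + p.U * |(e : ℝ) - e'| := by
    rw [← centre_dist, Nat.dist_comm]; exact_mod_cast centre_lip hW h1 hj d e' e
  rw [← sub_div, abs_div, abs_of_pos hU, div_le_iff₀ hU, abs_le]
  constructor <;> linarith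

theorem centre_res (hp : p.Ok) (μ d j δ : ℕ) :
    (p.res Wc a t μ d g j δ : ℝ) = p.P0 * p.U * |(p.gp d g δ : ℝ) - d -
      ((μ : ℝ) / p.P0 - 1) * ((p.ug Wc a t d g j (p.gp d g δ) : ℝ) / p.U)| := by
  have hU : (0 : ℝ) < p.U := by exact_mod_cast hp.U_pos
  have hP : (0 : ℝ) < p.P0 := by exact_mod_cast hp.P0_pos
  rw [Par.res, centre_dist, ← abs_of_pos (mul_pos hP hU), ← abs_mul]
  congr 1
  push_cast
  field_simp
  ring

theorem centre_child (hp : p.Ok) (hc : p.NodeCtx E Wc a xs c fl cls ct cp)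
    (hr : p.Rnd xs c g sl k dig) {l : ℕ} (hl : l < p.b) :
    (Wc l a t (p.rx g sl k dig l) (p.rx g sl k dig (l + 1)) : ℝ) ≤
      p.U * (cp l + p.wl Wc xs fl cp l t + 3 * (g - 1)) := by
  have h1 := hr.child_le hp hc.reg hl a t
  have h2 := (hc.reg l).anti (a := fl l) (a' := a) (t := t) (t' := t) (xs l) (xs (l + 1))
    (by rw [hc.fl_eq l hl]; omega) le_rfl
  have h3 := le_exc hp (Wc l (fl l) t (xs l) (xs (l + 1))) (cp l)
  have h4 : (Wc l a t (p.rx g sl k dig l) (p.rx g sl k dig (l + 1)) : ℝ) ≤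
      Wc l (fl l) t (xs l) (xs (l + 1)) + 3 * p.U * ((g - 1 : ℕ) : ℝ) := by
    exact_mod_cast h1.trans (Nat.add_le_add_right h2 _)
  rw [Nat.cast_sub (hr.g_pos hp), Nat.cast_one] at h4
  unfold Par.wl
  linarith

theorem centre_rx0 : p.rx g sl k dig 0 = p.sd sl k := by
  simp only [Par.rx, Par.pt, if_true]

theorem centre_up (hp : p.Ok) (hr : p.Rnd xs c g sl k dig) {j : ℕ} (hj : j ≤ p.b) :
    p.ug Wc a t (p.sd sl k) g j (p.rx g sl k dig j) ≤
      ∑ l ∈ range j, Wc l a t (p.rx g sl k dig l) (p.rx g sl k dig (l + 1)) := by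
  obtain ⟨idx, hi, hd⟩ := hp.exists_idx dig fun l hl => hr.dig_le l hl.le
  refine (mn_le _ hi).trans (le_of_eq ?_)
  have e : ∀ l ≤ j, p.pt (p.sd sl k) g j (p.rx g sl k dig j) (p.dg idx) l = p.rx g sl k dig l := by
    intro l hl
    unfold Par.pt
    split_ifs with a1 a2
    · rw [a1, centre_rx0]
    · rw [show l = j by omega]
    · rw [hd l (by omega), hr.rx_eq hp (by omega)]
  rw [centre_lsum hj]
  exact sum_congr rfl fun l hl => by
    rw [e l (mem_range.1 hl).le, e (l + 1) (mem_range.1 hl)]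

theorem centre_low (hp : p.Ok) (hr : p.Rnd xs c g sl k dig) {j : ℕ} (hj : j < p.b) :
    p.ug Wc a t (p.sd sl k) g p.b (p.se sl k) ≤ p.ug Wc a t (p.sd sl k) g j (p.rx g sl k dig j) +
      ∑ l ∈ Ico j p.b, Wc l a t (p.rx g sl k dig l) (p.rx g sl k dig (l + 1)) := by
  have hN : 0 < p.N := by rw [hp.N_eq]; positivity
  obtain ⟨i0, -, e0⟩ := exists_mn' hN fun idx =>
    p.lsum Wc a t j (p.pt (p.sd sl k) g j (p.rx g sl k dig j) (p.dg idx))
  obtain ⟨idx, hi, hd⟩ := hp.exists_idx (fun l => if l < j then p.dg i0 l else dig l) fun l hl => by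
    split_ifs
    · exact min_le_right _ _
    · exact hr.dig_le l hl.le
  refine (mn_le _ hi).trans (le_of_eq ?_)
  have e1 : ∀ l ≤ j, p.pt (p.sd sl k) g p.b (p.se sl k) (p.dg idx) l =
      p.pt (p.sd sl k) g j (p.rx g sl k dig j) (p.dg i0) l := by
    intro l hl
    unfold Par.pt
    rw [if_neg (show ¬ p.b ≤ l by omega), hd l (by omega)]
    by_cases a1 : l = 0
    · rw [if_pos a1, if_pos a1]
    · rw [if_neg a1, if_neg a1]
      by_cases a2 : j ≤ l
      · rw [if_pos a2, if_neg (show ¬ l < j by omega), show l = j by omega, hr.rx_eq hp hj.le]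
      · rw [if_neg a2, if_pos (show l < j by omega)]
  have e2 : ∀ l, j ≤ l → p.pt (p.sd sl k) g p.b (p.se sl k) (p.dg idx) l = p.rx g sl k dig l := by
    intro l hl
    unfold Par.rx Par.pt
    split_ifs with a1 a2
    · rfl
    · rfl
    · rw [hd l (by omega), if_neg (show ¬ l < j by omega)]
  rw [Par.ug, e0, centre_lsum le_rfl, centre_lsum hj.le, ← sum_range_add_sum_Ico _ hj.le]
  congr 1
  · exact sum_congr rfl fun l hl => by
      rw [e1 l (mem_range.1 hl).le, e1 (l + 1) (mem_range.1 hl)]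
  · exact sum_congr rfl fun l hl => by
      rw [e2 l (mem_Ico.1 hl).1, e2 (l + 1) ((mem_Ico.1 hl).1.trans (Nat.le_succ l))]

/-- The initial value at the rounded point is close to the initial sum of the estimates. -/
theorem centre_pref (hp : p.Ok) (hc : p.NodeCtx E Wc a xs c fl cls ct cp)
    (hr : p.Rnd xs c g sl k dig) {s0 : ℝ} (hs0 : 0 ≤ s0)
    (hs : (∑ l ∈ range p.b, (cp l + p.wl Wc xs fl cp l t)) -
      (p.ug Wc a t (p.sd sl k) g p.b (p.se sl k) : ℝ) / p.U ≤ s0 + 3 * (g - 1))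
    {j : ℕ} (hj : j < p.b) :
    |(∑ l ∈ range j, (cp l + p.wl Wc xs fl cp l t)) -
      (p.ug Wc a t (p.sd sl k) g j (p.rx g sl k dig j) : ℝ) / p.U| ≤
      s0 + (3 * p.b + 3) * (g - 1) := by
  have hU : (0 : ℝ) < p.U := by exact_mod_cast hp.U_pos
  have hg : (0 : ℝ) ≤ g - 1 := by
    have : (1 : ℝ) ≤ g := by exact_mod_cast hr.g_pos hp
    linarith
  have hjb : (j : ℝ) ≤ p.b := by exact_mod_cast hj.le
  have hj0 : (0 : ℝ) ≤ j := Nat.cast_nonneg j
  have key : ∀ S : Finset ℕ, (∀ l ∈ S, l < p.b) →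
      (∑ l ∈ S, (Wc l a t (p.rx g sl k dig l) (p.rx g sl k dig (l + 1)) : ℝ)) / p.U ≤
        (∑ l ∈ S, (cp l + p.wl Wc xs fl cp l t)) + S.card * (3 * (g - 1)) := by
    intro S hS
    rw [div_le_iff₀ hU]
    refine (sum_le_sum fun l hl => centre_child (t := t) hp hc hr (hS l hl)).trans (le_of_eq ?_)
    rw [← mul_sum, sum_add_distrib (f := fun l => cp l + p.wl Wc xs fl cp l t), sum_const,
      nsmul_eq_mul, mul_comm]
  have h1 := key (range j) fun l hl => (mem_range.1 hl).trans hj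
  have h2 := key (Ico j p.b) fun l hl => (mem_Ico.1 hl).2
  rw [card_range] at h1
  rw [Nat.card_Ico, Nat.cast_sub hj.le] at h2
  have h3 : (p.ug Wc a t (p.sd sl k) g j (p.rx g sl k dig j) : ℝ) / p.U ≤
      (∑ l ∈ range j, (Wc l a t (p.rx g sl k dig l) (p.rx g sl k dig (l + 1)) : ℝ)) / p.U := by
    gcongr
    exact_mod_cast centre_up hp hr hj.le
  have h4 : (p.ug Wc a t (p.sd sl k) g p.b (p.se sl k) : ℝ) / p.U ≤
      (p.ug Wc a t (p.sd sl k) g j (p.rx g sl k dig j) : ℝ) / p.U +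
      (∑ l ∈ Ico j p.b, (Wc l a t (p.rx g sl k dig l) (p.rx g sl k dig (l + 1)) : ℝ)) / p.U := by
    rw [← add_div]
    gcongr
    exact_mod_cast centre_low hp hr hj
  rw [← sum_range_add_sum_Ico _ hj.le] at hs
  have h5 := mul_le_mul_of_nonneg_right hjb hg
  have h6 := mul_nonneg hj0 hg
  rw [abs_le]
  constructor <;> nlinarith

/-- Initial sums of the movements are nearly proportional to initial sums of the estimates. -/
theorem centre_prop {b j : ℕ} (hj : j ≤ b) {D Y C : ℕ → ℝ} (hY : 0 < ∑ l ∈ range b, Y l)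
    (hk : |(∑ l ∈ range b, D l) / ∑ l ∈ range b, Y l| ≤ 1) :
    |(∑ l ∈ range j, D l) - (∑ l ∈ range b, D l) / (∑ l ∈ range b, Y l) * ∑ l ∈ range j, Y l| ≤
      (∑ l ∈ range b, |D l - (∑ l' ∈ range b, D l') * C l / ∑ l' ∈ range b, C l'|) +
      ∑ l ∈ range b, |Y l - (∑ l' ∈ range b, Y l') * C l / ∑ l' ∈ range b, C l'| := by
  rw [mul_sum, ← sum_sub_distrib, ← sum_add_distrib]
  refine (abs_sum_le_sum_abs _ _).trans (le_trans (sum_le_sum fun l _ => ?_)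
    (sum_le_sum_of_subset_of_nonneg (range_subset_range.2 hj) fun l _ _ => by positivity))
  generalize (∑ l ∈ range b, D l) = m at *
  generalize (∑ l ∈ range b, Y l) = y at *
  generalize (∑ l ∈ range b, C l) = s at *
  have e : D l - m / y * Y l = (D l - m * C l / s) - m / y * (Y l - y * C l / s) := by
    field_simp
    ring
  rw [e]
  refine (abs_sub _ _).trans ?_
  rw [abs_mul]
  have := mul_le_mul_of_nonneg_right hk (abs_nonneg (Y l - y * C l / s))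
  linarith

theorem centre_real {E e e' d ka u u' R : ℝ} (hE : 2 ≤ E) (hk : |ka| ≤ E / (E + 2))
    (hu : |u - u'| ≤ |e - e'|) (h1 : |e - d - ka * u| ≤ R) (h2 : |e' - d - ka * u'| ≤ R) :
    |e - e'| ≤ 2 * E * R := by
  have a1 : |e - e'| ≤ 2 * R + |ka| * |u - u'| := by
    have e1 : e - e' = (e - d - ka * u) - (e' - d - ka * u') + ka * (u - u') := by ring
    have b1 := abs_add_le ((e - d - ka * u) - (e' - d - ka * u')) (ka * (u - u'))
    have b2 := abs_sub (e - d - ka * u) (e' - d - ka * u')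
    rw [← e1, abs_mul] at b1
    linarith
  have a2 : |ka| * |u - u'| ≤ E / (E + 2) * |e - e'| :=
    mul_le_mul hk hu (abs_nonneg _) (by positivity)
  have a3 : E / (E + 2) ≤ 1 - 1 / E := by
    rw [div_le_iff₀ (by positivity)]
    have : (1 - 1 / E) * (E + 2) = E + (E - 2) / E := by field_simp; ring
    rw [this]
    have : 0 ≤ (E - 2) / E := div_nonneg (by linarith) (by linarith)
    linarith
  have a4 := mul_le_mul_of_nonneg_right a3 (abs_nonneg (e - e'))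
  have a5 : 1 / E * |e - e'| ≤ 2 * R := by linarith
  rw [one_div, inv_mul_le_iff₀ (by linarith)] at a5
  linarith

theorem centre (hp : p.Ok) (hE : 2 ≤ E) (hc : p.NodeCtx E Wc a xs c fl cls ct cp)
    (hr : p.Rnd xs c g sl k dig) {s0 : ℝ} (hs0 : 0 ≤ s0)
    (hs : (∑ l ∈ range p.b, (cp l + p.wl Wc xs fl cp l t)) -
      (p.ug Wc a t (p.sd sl k) g p.b (p.se sl k) : ℝ) / p.U ≤ s0 + 3 * (g - 1)) :
    ∃ μ A, p.InBox Wc a g sl k dig (t + 1) μ A ∧ (g : ℝ) * A ≤ 2 * E *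
      ((∑ l ∈ range p.b, |((xs (l + 1) : ℝ) - xs l) -
          (∑ l' ∈ range p.b, ((xs (l' + 1) : ℝ) - xs l')) * cp l / ∑ l' ∈ range p.b, cp l'|) +
        (∑ l ∈ range p.b, |(cp l + p.wl Wc xs fl cp l t) -
          (∑ l' ∈ range p.b, (cp l' + p.wl Wc xs fl cp l' t)) * cp l / ∑ l' ∈ range p.b, cp l'|) +
        (∑ l ∈ range p.b, (cp l + p.wl Wc xs fl cp l t)) / p.P0 + s0) + p.KR E * (g - 1) := by
  have hU : (0 : ℝ) < p.U := by exact_mod_cast hp.U_pos
  have hP : (0 : ℝ) < p.P0 := by exact_mod_cast hp.P0_pos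
  have hE' : (2 : ℝ) ≤ E := by exact_mod_cast hE
  have hb := hp.two_le_b
  have hYp : ∀ l < p.b, 0 < cp l + p.wl Wc xs fl cp l t := fun l hl =>
    add_pos_of_pos_of_nonneg (hc.cp_pos l hl) (exc_nonneg _ _)
  have hY : 0 < ∑ l ∈ range p.b, (cp l + p.wl Wc xs fl cp l t) :=
    sum_pos (fun l hl => hYp l (mem_range.1 hl)) ⟨0, mem_range.2 (by omega)⟩
  have hCY : ∑ l ∈ range p.b, cp l ≤ ∑ l ∈ range p.b, (cp l + p.wl Wc xs fl cp l t) :=
    sum_le_sum fun l _ => le_add_of_nonneg_right (exc_nonneg _ _)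
  have tel : ∀ j, ∑ l ∈ range j, ((xs (l + 1) : ℝ) - xs l) = xs j - xs 0 := fun j =>
    sum_range_sub (fun l => (xs l : ℝ)) j
  have hks : |(∑ l ∈ range p.b, ((xs (l + 1) : ℝ) - xs l)) /
      ∑ l ∈ range p.b, (cp l + p.wl Wc xs fl cp l t)| ≤ E / (E + 2) := by
    have h1 : |(xs p.b : ℝ) - xs 0| ≤ c := by
      rw [← centre_dist]; exact_mod_cast hc.xs_near p.b le_rfl
    have h2 := hc.cp_ge.trans hCY
    rw [abs_div, abs_of_pos hY, tel, div_le_div_iff₀ hY (by positivity)]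
    have h3 : (E : ℝ) * ((1 + 2 / (E : ℝ)) * c) = c * (E + 2) := by field_simp
    have h4 := mul_le_mul_of_nonneg_left h2 (show (0 : ℝ) ≤ E by linarith)
    have h5 := mul_le_mul_of_nonneg_right h1 (show (0 : ℝ) ≤ E + 2 by linarith)
    linarith
  have hE1 : (E : ℝ) / (E + 2) ≤ 1 := by
    rw [div_le_one (by positivity)]; linarith
  obtain ⟨μ, hμ, hk1, hk2⟩ := centre_mu hp.P0_pos (hks.trans hE1)
  have hz : ∀ j, p.cz Wc a (t + 1) μ (p.sd sl k) g j ≤ 2 * p.P0 := by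
    intro j
    have := amn_lt (show 0 < p.np1 by rw [hp.np1_eq]; omega)
      fun δ => p.res Wc a t μ (p.sd sl k) g j δ
    rw [hp.np1_eq] at this
    rw [Par.cz, if_neg (Nat.succ_ne_zero t), Nat.add_sub_cancel, hp.np1_eq]
    omega
  obtain ⟨j, hj, hmax⟩ := exists_max_image (Ico 1 p.b)
    (fun j => Nat.dist (p.cz Wc a (t + 1) μ (p.sd sl k) g j) (dig j)) ⟨1, mem_Ico.2 (by omega)⟩
  obtain ⟨hj1, hj2⟩ := mem_Ico.1 hj
  have hdj := hr.dig_le j hj2.le
  refine ⟨μ, Nat.dist (p.cz Wc a (t + 1) μ (p.sd sl k) g j) (dig j), ⟨hμ, ?_, fun i hi h0 =>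
    hmax i (mem_Ico.2 ⟨h0, hi⟩)⟩, ?_⟩
  · have := hz j
    unfold Nat.dist
    omega
  have hle : p.res Wc a t μ (p.sd sl k) g j (p.cz Wc a (t + 1) μ (p.sd sl k) g j) ≤
      p.res Wc a t μ (p.sd sl k) g j (dig j) := by
    rw [Par.cz, if_neg (Nat.succ_ne_zero t), Nat.add_sub_cancel]
    exact amn_le (fun δ => p.res Wc a t μ (p.sd sl k) g j δ) (by rw [hp.np1_eq]; omega)
  generalize p.cz Wc a (t + 1) μ (p.sd sl k) g j = z at hle ⊢
  have hle' : (p.res Wc a t μ (p.sd sl k) g j z : ℝ) ≤ p.res Wc a t μ (p.sd sl k) g j (dig j) := by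
    exact_mod_cast hle
  rw [centre_res hp, centre_res hp] at hle'
  have hle2 := le_of_mul_le_mul_left hle' (mul_pos hP hU)
  have hgp : ∀ δ, (p.gp (p.sd sl k) g δ : ℝ) = p.sd sl k + g * δ - g * p.P0 := by
    intro δ
    have := hr.d_ge hp
    rw [Par.gp, Nat.cast_sub (by omega)]
    push_cast
    rfl
  have hpref := centre_pref hp hc hr hs0 hs hj2
  rw [hr.rx_eq hp hj2.le] at hpref
  have hprop := centre_prop hj2.le (C := cp) hY (hks.trans hE1)
  rw [tel j] at hprop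
  have hpre0 : 0 ≤ ∑ l ∈ range j, (cp l + p.wl Wc xs fl cp l t) :=
    sum_nonneg fun l hl => (hYp l ((mem_range.1 hl).trans hj2)).le
  have hpre1 : ∑ l ∈ range j, (cp l + p.wl Wc xs fl cp l t) ≤
      ∑ l ∈ range p.b, (cp l + p.wl Wc xs fl cp l t) :=
    sum_le_sum_of_subset_of_nonneg (range_subset_range.2 hj2.le) fun l hl _ =>
      (hYp l (mem_range.1 hl)).le
  have hx : |((p.gp (p.sd sl k) g (dig j) : ℝ) - p.sd sl k) - ((xs j : ℝ) - xs 0)| ≤ g - 1 := by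
    have a1 := hr.lo j hj2.le
    have a2 := hr.hi j hj2.le
    have a3 := hr.lo 0 (Nat.zero_le _)
    have a4 := hr.hi 0 (Nat.zero_le _)
    rw [← hr.rx_eq hp (Nat.zero_le _), centre_rx0] at a3 a4
    have b1 : (p.gp (p.sd sl k) g (dig j) : ℝ) ≤ xs j := by exact_mod_cast a1
    have b2 : (xs j : ℝ) + 1 ≤ p.gp (p.sd sl k) g (dig j) + g := by exact_mod_cast a2
    have b3 : (p.sd sl k : ℝ) ≤ xs 0 := by exact_mod_cast a3
    have b4 : (xs 0 : ℝ) + 1 ≤ p.sd sl k + g := by exact_mod_cast a4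
    rw [abs_le]
    constructor <;> linarith
  have hlip := centre_lipR (a := a) (t := t) (g := g) hp hc.reg hj1 hj2.le (p.sd sl k)
    (p.gp (p.sd sl k) g z) (p.gp (p.sd sl k) g (dig j))
  have hfin : (g : ℝ) * (Nat.dist z (dig j) : ℕ) =
      |(p.gp (p.sd sl k) g z : ℝ) - p.gp (p.sd sl k) g (dig j)| := by
    rw [centre_dist, hgp, hgp, ← abs_of_nonneg (Nat.cast_nonneg (α := ℝ) g), ← abs_mul,
      abs_of_nonneg (Nat.cast_nonneg (α := ℝ) g)]
    congr 1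
    ring
  rw [hfin, Par.KR]
  push_cast
  generalize (∑ l ∈ range p.b, |((xs (l + 1) : ℝ) - xs l) -
    (∑ l' ∈ range p.b, ((xs (l' + 1) : ℝ) - xs l')) * cp l / ∑ l' ∈ range p.b, cp l'|) = Dv at *
  generalize (∑ l ∈ range p.b, |(cp l + p.wl Wc xs fl cp l t) -
    (∑ l' ∈ range p.b, (cp l' + p.wl Wc xs fl cp l' t)) * cp l / ∑ l' ∈ range p.b, cp l'|) = Pr at *
  generalize (∑ l ∈ range p.b, ((xs (l + 1) : ℝ) - xs l)) /
      ∑ l ∈ range p.b, (cp l + p.wl Wc xs fl cp l t) = ks at *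
  generalize (∑ l ∈ range p.b, (cp l + p.wl Wc xs fl cp l t)) = Yb at *
  generalize (∑ l ∈ range j, (cp l + p.wl Wc xs fl cp l t)) = Yj at *
  generalize (p.ug Wc a t (p.sd sl k) g j (p.gp (p.sd sl k) g (dig j)) : ℝ) / p.U = u at *
  generalize (μ : ℝ) / p.P0 - 1 = ka at *
  have hR : |(p.gp (p.sd sl k) g (dig j) : ℝ) - p.sd sl k - ka * u| ≤
      Dv + Pr + Yb / p.P0 + s0 + (3 * p.b + 4) * (g - 1) := by
    have e : (p.gp (p.sd sl k) g (dig j) : ℝ) - p.sd sl k - ka * u =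
        (((p.gp (p.sd sl k) g (dig j) : ℝ) - p.sd sl k) - ((xs j : ℝ) - xs 0) +
          ((xs j : ℝ) - xs 0 - ks * Yj)) + (ka * (Yj - u) - (ka - ks) * Yj) := by ring
    rw [e]
    refine (abs_add_le _ _).trans ?_
    have c1 := abs_add_le (((p.gp (p.sd sl k) g (dig j) : ℝ) - p.sd sl k) - ((xs j : ℝ) - xs 0))
      ((xs j : ℝ) - xs 0 - ks * Yj)
    have c2 := abs_sub (ka * (Yj - u)) ((ka - ks) * Yj)
    rw [abs_mul, abs_mul, abs_of_nonneg hpre0] at c2
    have c3 : |ka| * |Yj - u| ≤ 1 * |Yj - u| :=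
      mul_le_mul_of_nonneg_right ((hk2.trans hks).trans hE1) (abs_nonneg _)
    have c4 : |ka - ks| * Yj ≤ 1 / p.P0 * Yb := mul_le_mul hk1 hpre1 hpre0 (by positivity)
    rw [one_div_mul_eq_div] at c4
    linarith
  have := centre_real hE' (hk2.trans hks) hlip (hle2.trans hR) hR
  linarith

end Vale.Agent.P315
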