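import Vale.Agent.P315.Alg
import Vale.Agent.P315.Prob

/-! Chains of rare events along a path. -/

open Finset
open scoped BigOperators

namespace Vale.Agent.P315

/-- The length of a move from `(q, d)` to `(q', d')`. -/
def dl (hp : ℕ → ℕ → ℕ) (q d q' d' : ℕ) : ℕ := max (Nat.dist d d') (hp q' d' - hp q d)

namespace ChainAux

theorem dl_tri (hp : ℕ → ℕ → ℕ) (q d q' d' q'' d'' : ℕ) :
    dl hp q d q'' d'' ≤ dl hp q d q' d' + dl hp q' d' q'' d'' := by
  unfold dl Nat.dist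
  omega

theorem hp_mono {hp mis : ℕ → ℕ → ℕ} (hs : PathSys hp mis) (d : ℕ) {q q' : ℕ} (h : q ≤ q') :
    hp q d ≤ hp q' d :=
  monotone_nat_of_le_succ (f := fun q => hp q d) (fun q => hs.mono q d) h

theorem div_dist {a b t ζ : ℕ} (hζ : 0 < ζ) (h1 : a ≤ b + t) (h2 : b ≤ a + t) :
    ζ * Nat.dist (a / ζ) (b / ζ) ≤ t + ζ := by
  rw [← Nat.dist_mul_left]
  have e1 := Nat.div_add_mod a ζ
  have e2 := Nat.div_add_mod b ζ
  have e3 := Nat.mod_lt a hζ
  have e4 := Nat.mod_lt b hζ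
  unfold Nat.dist
  omega

/-- Signed steps. -/
def sv (p : Bool × ℕ) : ℤ := if p.1 = true then p.2 else -p.2

/-- Sequences of steps with bounded total size. -/
def steps (z M : ℕ) : Finset (Fin z → Bool × ℕ) :=
  (Fintype.piFinset fun _ => (univ : Finset Bool) ×ˢ range (M + 1)).filter
    fun u => ∑ k, (u k).2 ≤ M

/-- The positions reached by steps. -/
def pos {z : ℕ} (a : ℤ) (u : Fin z → Bool × ℕ) (k : ℕ) : ℤ :=
  a + ∑ l ∈ range (k + 1), if h : l < z then sv (u ⟨l, h⟩) else 0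

theorem exists_steps (z M : ℕ) (a : ℕ → ℕ)
    (h : ∑ k ∈ range z, Nat.dist (a k) (a (k + 1)) ≤ M) :
    ∃ u ∈ steps z M, ∀ k < z, pos (a 0) u k = a (k + 1) := by
  refine ⟨fun k => (decide (a k ≤ a (k + 1)), Nat.dist (a k) (a (k + 1))), ?_, fun k hk => ?_⟩
  · rw [steps, mem_filter, Fintype.mem_piFinset]
    refine ⟨fun k => mem_product.2 ⟨mem_univ _, mem_range.2 (Nat.lt_succ_of_le ?_)⟩, ?_⟩
    · exact (single_le_sum (f := fun k => Nat.dist (a k) (a (k + 1))) (fun _ _ => Nat.zero_le _)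
        (mem_range.2 k.2)).trans h
    · rwa [Fin.sum_univ_eq_sum_range (fun k => Nat.dist (a k) (a (k + 1)))]
  · unfold pos
    rw [sum_congr rfl (g := fun l => (a (l + 1) : ℤ) - a l), sum_range_sub (fun l => (a l : ℤ))]
    · ring
    · intro l hl
      rw [dif_pos (by have := mem_range.1 hl; omega)]
      simp only [sv, decide_eq_true_eq, Nat.dist]
      split_ifs <;> omega

theorem card_steps (z R : ℕ) (hR : 1 ≤ R) :
    ((steps z (3 * R * z)).card : ℝ) ≤ (24 * R) ^ z := by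
  have hR' : (1 : ℝ) ≤ R := by exact_mod_cast hR
  set x : ℝ := 1 - 1 / (3 * R) with hx
  have h0 : (1 : ℝ) / (3 * R) ≤ 1 / 3 := one_div_le_one_div_of_le (by norm_num) (by linarith)
  have h00 : (0 : ℝ) < 1 / (3 * R) := by positivity
  have hx0 : 0 ≤ x := by linarith
  have hx1 : x ≤ 1 := by linarith
  have h1 : (2 : ℝ) / 3 ≤ x ^ R := by
    have := one_add_mul_le_pow (a := -(1 / (3 * R) : ℝ)) (by linarith) R
    have e : (R : ℝ) * -(1 / (3 * R)) = -(1 / 3) := by field_simp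
    rw [e, ← sub_eq_add_neg, ← sub_eq_add_neg] at this
    linarith
  have h2 : 1 ≤ 4 * x ^ (3 * R) := by
    have : ((2 : ℝ) / 3) ^ 3 ≤ (x ^ R) ^ 3 := pow_le_pow_left₀ (by norm_num) h1 3
    rw [mul_comm 3 R, pow_mul]
    linarith
  have h3 : ∀ N, ∑ p ∈ (univ : Finset Bool) ×ˢ range N, x ^ p.2 ≤ 6 * R := by
    intro N
    have e := mul_neg_geom_sum x N
    have e1 : 1 - x = 1 / (3 * R) := by rw [hx]; ring
    have e2 : ∑ i ∈ range N, x ^ i ≤ 3 * R := by
      have := pow_nonneg hx0 N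
      rw [e1, one_div, inv_mul_eq_div, div_eq_iff (by positivity)] at e
      nlinarith
    rw [sum_product]
    simp only [sum_const, card_univ, Fintype.card_bool, nsmul_eq_mul]
    push_cast
    linarith
  calc ((steps z (3 * R * z)).card : ℝ) = ∑ _u ∈ steps z (3 * R * z), (1 : ℝ) := by simp
    _ ≤ ∑ u ∈ steps z (3 * R * z), 4 ^ z * ∏ k, x ^ (u k).2 := by
        refine sum_le_sum fun u hu => ?_
        rw [prod_pow_eq_pow_sum]
        have h4 : x ^ (3 * R * z) ≤ x ^ ∑ k, (u k).2 :=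
          pow_le_pow_of_le_one hx0 hx1 (mem_filter.1 hu).2
        calc (1 : ℝ) ≤ (4 * x ^ (3 * R)) ^ z := one_le_pow₀ h2
          _ = 4 ^ z * x ^ (3 * R * z) := by rw [mul_pow, ← pow_mul]
          _ ≤ _ := mul_le_mul_of_nonneg_left h4 (by positivity)
    _ ≤ ∑ u ∈ Fintype.piFinset fun _ : Fin z => (univ : Finset Bool) ×ˢ range (3 * R * z + 1),
          4 ^ z * ∏ k, x ^ (u k).2 :=
        sum_le_sum_of_subset_of_nonneg (filter_subset _ _) fun _ _ _ => by positivity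
    _ = 4 ^ z * (∑ p ∈ (univ : Finset Bool) ×ˢ range (3 * R * z + 1), x ^ p.2) ^ z := by
        rw [← mul_sum, ← prod_univ_sum (fun _ : Fin z => (univ : Finset Bool) ×ˢ
          range (3 * R * z + 1)) (fun _ p => x ^ p.2)]
        simp
    _ ≤ 4 ^ z * (6 * R) ^ z :=
        mul_le_mul_of_nonneg_left
          (pow_le_pow_left₀ (sum_nonneg fun _ _ => by positivity) (h3 _) z) (by positivity)
    _ = (24 * R) ^ z := by rw [← mul_pow]; congr 1; ring

/-- A cell determines its node. -/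
theorem node {hp mis : ℕ → ℕ → ℕ} (hs : PathSys hp mis) {ln G i d i' d' : ℕ} (hG : 1 ≤ G)
    (h : hp (i * ln) d + G ≤ hp ((i + 1) * ln) d) (h1 : d / ((G + 1) / 2) = d' / ((G + 1) / 2))
    (h2 : hp (i * ln) d / ((G + 1) / 2) = hp (i' * ln) d' / ((G + 1) / 2)) : ¬ i < i' := by
  intro hi
  have h3 := hp_mono hs d' (Nat.mul_le_mul_right ln (Nat.succ_le_of_lt hi))
  have h4 := hs.lip ((i + 1) * ln) d d'
  have hζ : 0 < (G + 1) / 2 := by omega
  have hζ' : 2 * ((G + 1) / 2) ≤ G + 1 := by omega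
  generalize (G + 1) / 2 = ζ at *
  have e1 := Nat.div_add_mod d ζ
  have e2 := Nat.div_add_mod d' ζ
  have e3 := Nat.mod_lt d hζ
  have e4 := Nat.mod_lt d' hζ
  have e5 := Nat.div_add_mod (hp (i * ln) d) ζ
  have e6 := Nat.div_add_mod (hp (i' * ln) d') ζ
  have e8 := Nat.mod_lt (hp (i' * ln) d') hζ
  rw [h1] at e1
  rw [h2] at e5
  unfold Nat.dist at h4
  simp only [Nat.succ_eq_add_one] at h3
  omega

section

variable (hp : ℕ → ℕ → ℕ) (O ln : ℕ) (E : ℕ → ℕ → Prop)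

/-- A chain of `z` events of length `L` that ends at `(q, d)`. -/
def Ch (z q d L : ℕ) : Prop :=
  ∃ i e : ℕ → ℕ, i 0 = 0 ∧ e 0 = O ∧ (∀ k < z, E (i (k + 1)) (e (k + 1)) ∧ i (k + 1) * ln < q) ∧
    (∀ k, k + 1 < z → i (k + 1) < i (k + 2)) ∧
    L = ∑ k ∈ range z, dl hp (i k * ln) (e k) (i (k + 1) * ln) (e (k + 1)) +
      dl hp (i z * ln) (e z) q d

/-- The events of a sequence of cells. -/
def CEv (ζ z : ℕ) (A B : ℕ → ℤ) : Prop :=
  ∃ i e : ℕ → ℕ, Set.InjOn i (range z : Finset ℕ) ∧ ∀ k < z, E (i k) (e k) ∧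
    ((e k / ζ : ℕ) : ℤ) = A k ∧ ((hp (i k * ln) (e k) / ζ : ℕ) : ℤ) = B k

variable {hp O ln E}

theorem Ch.nil (q d : ℕ) : Ch hp O ln E 0 q d (dl hp 0 O q d) :=
  ⟨fun _ => 0, fun _ => O, rfl, rfl, fun _ h => absurd h (Nat.not_lt_zero _),
    fun _ h => absurd h (Nat.not_lt_zero _), by simp⟩

theorem Ch.move {z q d L : ℕ} (h : Ch hp O ln E z q d L) {q' : ℕ} (hq : q ≤ q') (d' : ℕ) :
    ∃ L' ≤ L + dl hp q d q' d', Ch hp O ln E z q' d' L' := by
  obtain ⟨i, e, h1, h2, h3, h4, rfl⟩ := h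
  refine ⟨_, ?_, i, e, h1, h2, fun k hk => ⟨(h3 k hk).1, (h3 k hk).2.trans_le hq⟩, h4, rfl⟩
  have := dl_tri hp (i z * ln) (e z) q d q' d'
  omega

theorem Ch.snoc {z j d L : ℕ} (h : Ch hp O ln E z (j * ln) d L) (hj : E j d) {q' : ℕ}
    (hq : j * ln < q') (d' : ℕ) :
    Ch hp O ln E (z + 1) q' d' (L + dl hp (j * ln) d q' d') := by
  obtain ⟨i, e, h1, h2, h3, h4, rfl⟩ := h
  refine ⟨fun k => if k ≤ z then i k else j, fun k => if k ≤ z then e k else d, by simp [h1],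
    by simp [h2], fun k hk => ?_, fun k hk => ?_, ?_⟩
  · by_cases hk' : k + 1 ≤ z
    · simp only [if_pos hk']
      exact ⟨(h3 k hk').1, (h3 k hk').2.trans hq⟩
    · simp only [if_neg hk']
      exact ⟨hj, hq⟩
  · have hk1 : k + 1 ≤ z := by omega
    simp only [if_pos hk1]
    by_cases hk' : k + 2 ≤ z
    · simp only [if_pos hk']
      exact h4 k hk'
    · simp only [if_neg hk']
      exact Nat.lt_of_mul_lt_mul_right (h3 k hk1).2
  · rw [sum_range_succ]
    simp only [le_refl, if_true, Nat.not_succ_le_self, if_false]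
    congr 2
    refine sum_congr rfl fun k hk => ?_
    have hk1 : k + 1 ≤ z := mem_range.1 hk
    have hk2 : k ≤ z := by omega
    simp only [if_pos hk1, if_pos hk2]

theorem mono_aux {z : ℕ} {i : ℕ → ℕ} (h : ∀ k, k + 1 < z → i (k + 1) < i (k + 2)) (k : ℕ) :
    ∀ n, k + n < z → i (k + 1) + n ≤ i (k + n + 1) := by
  intro n
  induction n with
  | zero => simp
  | succ n ih =>
    intro hn
    have h1 := ih (by omega)
    have h2 := h (k + n) (by omega)
    have e : k + (n + 1) + 1 = k + n + 2 := by omega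
    rw [e]
    omega

theorem Ch.le {z q d L nn : ℕ} (h : Ch hp O ln E z q d L) (hE : ∀ i d, E i d → i < nn) :
    z ≤ nn := by
  obtain ⟨i, e, -, -, h3, h4, -⟩ := h
  rcases z with _ | z
  · exact Nat.zero_le _
  · have h5 := mono_aux h4 0 z (by omega)
    have h6 := hE _ _ (h3 z (by omega)).1
    simp only [zero_add] at h5
    omega

theorem Ch.ev {mis : ℕ → ℕ → ℕ} (hs : PathSys hp mis) (h0 : hp 0 O = 0) {z q d L G R : ℕ}
    (hG : 1 ≤ G) (hR : 1 ≤ R) (h : Ch hp O ln E z q d L) (hL : L ≤ R * z * G) :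
    ∃ p ∈ steps z (3 * R * z) ×ˢ steps z (3 * R * z),
      CEv hp ln E ((G + 1) / 2) z (pos (O / ((G + 1) / 2) : ℕ) p.1) (pos 0 p.2) := by
  obtain ⟨i, e, h1, h2, h3, h4, rfl⟩ := h
  have hζ : 0 < (G + 1) / 2 := by omega
  have hζ' : G ≤ 2 * ((G + 1) / 2) := by omega
  generalize (G + 1) / 2 = ζ at *
  have key : ∀ a : ℕ → ℕ, (∀ k < z,
      a k ≤ a (k + 1) + dl hp (i k * ln) (e k) (i (k + 1) * ln) (e (k + 1)) ∧
      a (k + 1) ≤ a k + dl hp (i k * ln) (e k) (i (k + 1) * ln) (e (k + 1))) →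
      ∑ k ∈ range z, Nat.dist (a k / ζ) (a (k + 1) / ζ) ≤ 3 * R * z := by
    intro a ha
    have e1 : ζ * ∑ k ∈ range z, Nat.dist (a k / ζ) (a (k + 1) / ζ) ≤
        ∑ k ∈ range z, (dl hp (i k * ln) (e k) (i (k + 1) * ln) (e (k + 1)) + ζ) := by
      rw [mul_sum]
      exact sum_le_sum fun k hk =>
        div_dist hζ (ha k (mem_range.1 hk)).1 (ha k (mem_range.1 hk)).2
    rw [sum_add_distrib, sum_const, card_range, smul_eq_mul] at e1
    have e2 : R * z * G ≤ R * z * (2 * ζ) := Nat.mul_le_mul_left _ hζ'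
    have e3 : z * ζ ≤ R * (z * ζ) := Nat.le_mul_of_pos_left _ hR
    refine Nat.le_of_mul_le_mul_left ?_ hζ
    have e4 : ζ * (3 * R * z) = R * z * (2 * ζ) + R * (z * ζ) := by ring
    omega
  obtain ⟨u, hu, hu'⟩ := exists_steps z _ (fun k => e k / ζ) (key e fun k _ => by
    unfold dl Nat.dist
    omega)
  obtain ⟨v, hv, hv'⟩ := exists_steps z _ (fun k => hp (i k * ln) (e k) / ζ)
    (key (fun k => hp (i k * ln) (e k)) fun k hk => by
      have e1 : i k ≤ i (k + 1) := by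
        rcases k with _ | k
        · omega
        · exact (h4 k hk).le
      have e2 := hp_mono hs (e (k + 1)) (Nat.mul_le_mul_right ln e1)
      have e3 := hs.lip (i k * ln) (e k) (e (k + 1))
      unfold dl
      omega)
  refine ⟨(u, v), mem_product.2 ⟨hu, hv⟩, fun k => i (k + 1), fun k => e (k + 1), ?_,
    fun k hk => ⟨(h3 k hk).1, ?_, ?_⟩⟩
  · intro k hk l hl hkl
    have hk' : k < z := by simpa using hk
    have hl' : l < z := by simpa using hl
    have hkl' : i (k + 1) = i (l + 1) := hkl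
    rcases lt_trichotomy k l with h | h | h
    · have := mono_aux h4 k (l - k) (by omega)
      rw [show k + (l - k) + 1 = l + 1 by omega] at this
      omega
    · exact h
    · have := mono_aux h4 l (k - l) (by omega)
      rw [show l + (k - l) + 1 = k + 1 by omega] at this
      omega
  · rw [← hu' k hk, h2]
  · rw [← hv' k hk, h1, h2, zero_mul, h0, Nat.zero_div, Nat.cast_zero]

end

theorem pr_ev {Ω : Type} [Fintype Ω] {hp mis : ℕ → ℕ → ℕ} (hs : PathSys hp mis)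
    {ln nn G : ℕ} (hG : 1 ≤ G) (E : Ω → ℕ → ℕ → Prop) {f : ℝ} (hf0 : 0 ≤ f)
    (hE : ∀ ω i d, E ω i d → i < nn ∧ hp (i * ln) d + G ≤ hp ((i + 1) * ln) d)
    (hprod : ∀ (I : Finset ℕ) (α : ℕ → ℕ), (∀ i ∈ I, i < nn) →
      pr (fun ω => ∀ i ∈ I, ∃ d, d / ((G + 1) / 2) = α i ∧ E ω i d) ≤ f ^ I.card)
    (z : ℕ) (A B : ℕ → ℤ) : pr (fun ω => CEv hp ln (E ω) ((G + 1) / 2) z A B) ≤ f ^ z := by
  classical
  by_cases h : ∃ ω, CEv hp ln (E ω) ((G + 1) / 2) z A B
  · obtain ⟨ω₀, i₀, e₀, hinj, h₀⟩ := h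
    have h1 := hprod ((range z).image i₀)
      (fun n => if h : ∃ k, k < z ∧ i₀ k = n then e₀ h.choose / ((G + 1) / 2) else 0)
      (fun n hn => by
        obtain ⟨k, hk, rfl⟩ := mem_image.1 hn
        exact (hE _ _ _ (h₀ k (mem_range.1 hk)).1).1)
    rw [card_image_of_injOn hinj, card_range] at h1
    refine (pr_mono fun ω hω n hn => ?_).trans h1
    obtain ⟨i, e, -, h2⟩ := hω
    have h3 : ∃ k, k < z ∧ i₀ k = n := by
      obtain ⟨k, hk, rfl⟩ := mem_image.1 hn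
      exact ⟨k, mem_range.1 hk, rfl⟩
    obtain ⟨h4, h5⟩ := h3.choose_spec
    rw [dif_pos h3]
    generalize h3.choose = k at h4 h5 ⊢
    obtain ⟨a1, a2, a3⟩ := h₀ k h4
    obtain ⟨b1, b2, b3⟩ := h2 k h4
    have c2 : e k / ((G + 1) / 2) = e₀ k / ((G + 1) / 2) := by exact_mod_cast b2.trans a2.symm
    have c3 : hp (i k * ln) (e k) / ((G + 1) / 2) = hp (i₀ k * ln) (e₀ k) / ((G + 1) / 2) := by
      exact_mod_cast b3.trans a3.symm
    have c4 := node hs hG (hE _ _ _ b1).2 c2 c3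
    have c5 := node hs hG (hE _ _ _ a1).2 c2.symm c3.symm
    have c6 : i k = n := by omega
    exact ⟨e k, c2, c6 ▸ b1⟩
  · have e : pr (fun ω => CEv hp ln (E ω) ((G + 1) / 2) z A B) = 0 := by
      unfold pr
      simp only [fun ω => ind_neg (fun h' => h ⟨ω, h'⟩), expect_const_zero]
    rw [e]
    positivity

end ChainAux

open ChainAux in
theorem chain {Ω : Type} [Fintype Ω] {hp mis : ℕ → ℕ → ℕ} (hs : PathSys hp mis)
    {O ln nn G R : ℕ} (h0 : hp 0 O = 0) (hln : 1 ≤ ln) (hG : 1 ≤ G) (hR : 1 ≤ R)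
    (E : Ω → ℕ → ℕ → Prop) {f : ℝ} (hf0 : 0 ≤ f) (hf : (24 * R) ^ 2 * f ≤ 1 / 2)
    (hE : ∀ ω i d, E ω i d → i < nn ∧ hp (i * ln) d + G ≤ hp ((i + 1) * ln) d)
    (hprod : ∀ (I : Finset ℕ) (α : ℕ → ℕ), (∀ i ∈ I, i < nn) →
      pr (fun ω => ∀ i ∈ I, ∃ d, d / ((G + 1) / 2) = α i ∧ E ω i d) ≤ f ^ I.card) :
    ∃ π : Ω → ℕ → ℕ → ℝ, (∀ ω, π ω 0 O = 0) ∧
      (∀ ω q d q' d', q ≤ q' → π ω q d ≤ π ω q' d' + 2 / R * dl hp q d q' d') ∧
      (∀ ω i d d', E ω i d →
        π ω (i * ln) d + 2 * G ≤ π ω ((i + 1) * ln) d' + 2 / R * dl hp (i * ln) d ((i + 1) * ln) d') ∧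
      pr (fun ω => ∃ q d, 0 < π ω q d) ≤ 2 * (24 * R) ^ 2 * f := by
  have hR' : (0 : ℝ) < R := by exact_mod_cast hR
  have hc : (0 : ℝ) ≤ 2 / R := by positivity
  set V : Ω → ℕ → ℕ → Set ℝ := fun ω q d =>
    {v | ∃ z L : ℕ, Ch hp O ln (E ω) z q d L ∧ v = 2 * G * z - 2 / R * L} with hV
  have hne : ∀ ω q d, (V ω q d).Nonempty := fun ω q d => ⟨_, 0, _, Ch.nil q d, rfl⟩
  have hbd : ∀ ω q d, BddAbove (V ω q d) := fun ω q d => ⟨2 * G * nn, by
    rintro _ ⟨z, L, h, rfl⟩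
    have h1 : (z : ℝ) ≤ nn := by exact_mod_cast h.le fun i d h => (hE ω i d h).1
    have h2 : (0 : ℝ) ≤ 2 / R * L := by positivity
    have h3 : 2 * (G : ℝ) * z ≤ 2 * G * nn := mul_le_mul_of_nonneg_left h1 (by positivity)
    linarith⟩
  refine ⟨fun ω q d => sSup (V ω q d), fun ω => ?_, fun ω q d q' d' hq => ?_,
    fun ω i d d' h => ?_, ?_⟩
  · refine le_antisymm (csSup_le (hne _ _ _) ?_) (le_csSup (hbd _ _ _) ⟨0, _, Ch.nil 0 O, ?_⟩)
    · rintro _ ⟨z, L, ⟨i, e, -, -, h3, -⟩, rfl⟩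
      rcases z with _ | z
      · have h2 : (0 : ℝ) ≤ 2 / R * L := by positivity
        simp only [Nat.cast_zero, mul_zero]
        linarith
      · exact absurd (h3 0 (by omega)).2 (Nat.not_lt_zero _)
    · simp [dl]
  · refine csSup_le (hne _ _ _) ?_
    rintro _ ⟨z, L, h, rfl⟩
    obtain ⟨L', h1, h2⟩ := h.move hq d'
    have h3 := le_csSup (hbd ω q' d') ⟨z, L', h2, rfl⟩
    have h4 : (L' : ℝ) ≤ L + dl hp q d q' d' := by exact_mod_cast h1
    have h5 := mul_le_mul_of_nonneg_left h4 hc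
    rw [mul_add] at h5
    linarith
  · rw [← le_sub_iff_add_le]
    refine csSup_le (hne _ _ _) ?_
    rintro _ ⟨z, L, h1, rfl⟩
    have h2 := h1.snoc h (q' := (i + 1) * ln) (by rw [add_mul]; omega) d'
    have h3 := le_csSup (hbd ω _ d') ⟨_, _, h2, rfl⟩
    push_cast at h3
    rw [mul_add, mul_add] at h3
    linarith
  · have h1 : pr (fun ω => ∃ q d, 0 < sSup (V ω q d)) ≤ pr fun ω => ∃ z ∈ range nn,
        ∃ p ∈ steps (z + 1) (3 * R * (z + 1)) ×ˢ steps (z + 1) (3 * R * (z + 1)),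
          CEv hp ln (E ω) ((G + 1) / 2) (z + 1) (pos (O / ((G + 1) / 2) : ℕ) p.1) (pos 0 p.2) := by
      refine pr_mono ?_
      rintro ω ⟨q, d, h⟩
      obtain ⟨_, ⟨z, L, h2, rfl⟩, h3⟩ := exists_lt_of_lt_csSup (hne ω q d) h
      have h4 : (L : ℝ) < R * z * G := by
        have e : 2 * (G : ℝ) * z - 2 / R * L = 2 / R * (R * z * G - L) := by field_simp
        rw [e] at h3
        have := (mul_pos_iff_of_pos_left (by positivity : (0 : ℝ) < 2 / R)).1 h3
        linarith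
      have h5 : L < R * z * G := by exact_mod_cast h4
      have h6 := h2.le fun i d h => (hE ω i d h).1
      rcases z with _ | z
      · simp at h5
      · exact ⟨z, mem_range.2 h6, h2.ev hs h0 hG hR h5.le⟩
    refine h1.trans ((pr_exists _ _).trans ?_)
    have hy : 0 ≤ (24 * (R : ℝ)) ^ 2 * f := by positivity
    calc _ ≤ ∑ z ∈ range nn, (24 * (R : ℝ)) ^ 2 * f * (1 / 2) ^ z := by
          refine sum_le_sum fun z _ => (pr_exists _ _).trans ?_
          refine (sum_le_card_nsmul _ _ (f ^ (z + 1)) fun p _ =>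
            pr_ev hs hG E hf0 hE hprod _ _ _).trans ?_
          have h2 := card_steps (z + 1) R hR
          rw [card_product, nsmul_eq_mul, Nat.cast_mul]
          calc _ ≤ (24 * (R : ℝ)) ^ (z + 1) * (24 * R) ^ (z + 1) * f ^ (z + 1) :=
                mul_le_mul_of_nonneg_right (mul_le_mul h2 h2 (by positivity) (by positivity))
                  (by positivity)
            _ = (24 * (R : ℝ)) ^ 2 * f * ((24 * R) ^ 2 * f) ^ z := by
                rw [← mul_pow, ← mul_pow, ← pow_succ', sq]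
            _ ≤ _ := mul_le_mul_of_nonneg_left (pow_le_pow_left₀ hy hf z) hy
      _ ≤ (24 * (R : ℝ)) ^ 2 * f * 2 := by
          rw [← mul_sum]
          exact mul_le_mul_of_nonneg_left (sum_geometric_two_le nn) hy
      _ = _ := by ring

end Vale.Agent.P315
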