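import Vale.Agent.P315.Prob

/-! Chernoff bounds for samples taken from the digits `o, …, o + n - 1` of a block. -/

open Finset
open scoped BigOperators

namespace Vale.Agent.P315

/-- `X` does not depend on the digits `o, …, o + n - 1`. -/
def Inv {Bk Dg : ℕ} {A : Type} (o n : ℕ) (X : Blk Bk Dg → A) : Prop :=
  ∀ β β', (∀ j, j < o ∨ o + n ≤ j → bv β j = bv β' j) → X β = X β'

variable {Bk Dg o n B : ℕ} [NeZero Dg] {X : Blk Bk Dg → ℕ → ℝ} {θ : Blk Bk Dg → ℝ} {γ k : ℝ}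

theorem cher_sum_mod (B t : ℕ) (f : ℕ → ℝ) :
    ∑ d ∈ range (B * t), f (d % B) = t * ∑ l ∈ range B, f l := by
  induction t with
  | zero => simp
  | succ t ih =>
    rw [Nat.mul_succ, sum_range_add, ih]
    have : ∑ l ∈ range B, f ((B * t + l) % B) = ∑ l ∈ range B, f l :=
      sum_congr rfl fun l hl => by rw [Nat.mul_add_mod, Nat.mod_eq_of_lt (mem_range.1 hl)]
    rw [this]
    push_cast
    ring

theorem cher_pos (hB : B ∣ Dg) : 0 < B := Nat.pos_of_dvd_of_pos hB (NeZero.pos Dg)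

theorem cher_unif (hB : B ∣ Dg) (f : ℕ → ℝ) :
    𝔼 d : Fin Dg, f ((d : ℕ) % B) = (∑ l ∈ range B, f l) / B := by
  have hp := cher_pos hB
  obtain ⟨t, ht⟩ := hB
  have ht0 : t ≠ 0 := by
    rintro rfl
    exact NeZero.ne Dg (by simpa using ht)
  rw [Fintype.expect_eq_sum_div_card, Fin.sum_univ_eq_sum_range (fun d => f (d % B)) Dg,
    Fintype.card_fin, ht, cher_sum_mod]
  have h1 : (B : ℝ) ≠ 0 := Nat.cast_ne_zero.2 hp.ne'
  have h2 : (t : ℝ) ≠ 0 := Nat.cast_ne_zero.2 ht0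
  push_cast
  field_simp

omit [NeZero Dg] in
theorem cher_bv_ne (β : Blk Bk Dg) (i : Fin Bk) (d : Fin Dg) {j : ℕ} (h : j ≠ i) :
    bv (Function.update β i d) j = bv β j := by
  unfold bv
  split_ifs with hj
  · rw [Function.update_of_ne fun h' => h (congrArg Fin.val h')]
  · rfl

omit [NeZero Dg] in
theorem cher_bv_self (β : Blk Bk Dg) (i : Fin Bk) (d : Fin Dg) :
    bv (Function.update β i d) i = d := by
  simp [bv]

omit [NeZero Dg] in
theorem cher_inv {A : Type} {Y : Blk Bk Dg → A} (hY : Inv o n Y) (β : Blk Bk Dg) (i : Fin Bk)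
    (d : Fin Dg) (h1 : o ≤ i) (h2 : (i : ℕ) < o + n) : Y (Function.update β i d) = Y β :=
  hY _ _ fun j hj => cher_bv_ne β i d (by omega)

theorem cher_key (ho : o + n ≤ Bk) (hB : B ∣ Dg) {Y : Blk Bk Dg → ℕ → ℝ} (hY : Inv o n Y) (m : ℕ) :
    m ≤ n → ∀ c : Blk Bk Dg → ℝ, Inv o n c →
      𝔼 β, c β * ∏ l ∈ range m, Y β (bv β (o + l) % B) =
        𝔼 β, c β * ((∑ l ∈ range B, Y β l) / B) ^ m := by
  induction m with
  | zero => intro _ c _; simp
  | succ m ih =>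
    intro hm c hc
    have hi : o + m < Bk := by omega
    have h1 : o ≤ ((⟨o + m, hi⟩ : Fin Bk) : ℕ) := Nat.le_add_right _ _
    have h2 : ((⟨o + m, hi⟩ : Fin Bk) : ℕ) < o + n := by
      show o + m < o + n
      omega
    have hc' : Inv o n (fun β => c β * ((∑ l ∈ range B, Y β l) / B)) := fun β β' h => by
      simp only [hc β β' h, hY β β' h]
    have e2 := ih (by omega) _ hc'
    rw [ex_update (⟨o + m, hi⟩ : Fin Bk)]
    have e1 : ∀ β : Blk Bk Dg, 𝔼 d : Fin Dg, c (Function.update β ⟨o + m, hi⟩ d) *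
        ∏ l ∈ range (m + 1), Y (Function.update β ⟨o + m, hi⟩ d)
          (bv (Function.update β ⟨o + m, hi⟩ d) (o + l) % B) =
        c β * ((∑ l ∈ range B, Y β l) / B) * ∏ l ∈ range m, Y β (bv β (o + l) % B) := by
      intro β
      rw [← cher_unif hB (Y β), mul_right_comm, ← ex_mul]
      refine expect_congr rfl fun d _ => ?_
      rw [cher_inv hc β _ d h1 h2, cher_inv hY β _ d h1 h2, prod_range_succ, ← mul_assoc]
      congr 2
      · refine prod_congr rfl fun l hl => ?_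
        rw [cher_bv_ne β _ d (j := o + l)]
        have := mem_range.1 hl
        show o + l ≠ o + m
        omega
      · exact congrArg (· % B) (cher_bv_self β ⟨o + m, hi⟩ d)
    simp only [e1]
    rw [e2]
    refine expect_congr rfl fun β _ => ?_
    ring

theorem cher_gen (ho : o + n ≤ Bk) (hB : B ∣ Dg) {Y : Blk Bk Dg → ℕ → ℝ} (hY : Inv o n Y)
    {s : Blk Bk Dg → ℕ → ℝ} (hs : Inv o n s) (h : ∀ β l, Real.exp (Y β l) ≤ 1 + s β l)
    {E : Blk Bk Dg → Prop} {r : ℝ}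
    (hE : ∀ β, E β → r ≤ ∑ l ∈ range n, Y β (bv β (o + l) % B) - n / B * ∑ l ∈ range B, s β l) :
    pr E ≤ Real.exp (-r) := by
  have hp : (0 : ℝ) < B := Nat.cast_pos.2 (cher_pos hB)
  have hY' : Inv o n (fun β l => Real.exp (Y β l)) := fun β β' h => by
    simp only [hY β β' h]
  have hc : Inv o n (fun β => Real.exp (-r - n / B * ∑ l ∈ range B, s β l)) := fun β β' h => by
    simp only [hs β β' h]
  have key := cher_key ho hB hY' n le_rfl _ hc
  refine le_trans (ex_mono fun β => ?_) (key.le.trans (ex_le fun β => ?_))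
  · by_cases hβ : E β
    · rw [ind_pos hβ, ← Real.exp_sum, ← Real.exp_add]
      exact Real.one_le_exp (by linarith [hE β hβ])
    · rw [ind_neg hβ]
      exact mul_nonneg (Real.exp_pos _).le (prod_nonneg fun _ _ => (Real.exp_pos _).le)
  · have a1 : (∑ l ∈ range B, Real.exp (Y β l)) / B ≤ Real.exp ((∑ l ∈ range B, s β l) / B) := by
      refine le_trans ?_ (Real.add_one_le_exp _)
      rw [div_add_one hp.ne']
      refine div_le_div_of_nonneg_right ?_ hp.le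
      refine (sum_le_sum fun l _ => h β l).trans (le_of_eq ?_)
      rw [sum_add_distrib]
      simp [add_comm]
    have a0 : 0 ≤ (∑ l ∈ range B, Real.exp (Y β l)) / B :=
      div_nonneg (sum_nonneg fun _ _ => (Real.exp_pos _).le) hp.le
    refine (mul_le_mul_of_nonneg_left (pow_le_pow_left₀ a0 a1 n) (Real.exp_pos _).le).trans ?_
    rw [← Real.exp_nat_mul, ← Real.exp_add]
    refine le_of_eq (congrArg _ ?_)
    ring

theorem cher_up {γ s : ℝ} (hγ : 0 < γ) (hγ1 : γ ≤ 1) (h0 : 0 ≤ s) (h1 : s ≤ 1) :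
    Real.exp (γ * s) ≤ 1 + γ * (1 + γ) * s := by
  have a0 : 0 ≤ γ * s := mul_nonneg hγ.le h0
  have a1 : γ * s ≤ 1 := mul_le_one₀ hγ1 h0 h1
  have a2 := (abs_le.1 (Real.abs_exp_sub_one_sub_id_le (x := γ * s)
    (abs_le.2 ⟨by linarith, a1⟩))).2
  have a3 : 0 ≤ γ ^ 2 * (s * (1 - s)) := mul_nonneg (sq_nonneg _) (mul_nonneg h0 (by linarith))
  nlinarith

theorem cher_lo {γ s : ℝ} (hγ : 0 < γ) (h0 : 0 ≤ s) (h1 : s ≤ 1) :
    Real.exp (-γ * s) ≤ 1 + -(γ / (1 + γ)) * s := by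
  have a0 : 0 ≤ γ * s := mul_nonneg hγ.le h0
  have a1 : γ * s ≤ γ := mul_le_of_le_one_right hγ.le h1
  have a2 : Real.exp (-γ * s) ≤ 1 / (1 + γ * s) := by
    rw [neg_mul, Real.exp_neg, one_div]
    exact inv_anti₀ (by linarith) (by linarith [Real.add_one_le_exp (γ * s)])
  have a3 : γ * s / (1 + γ) ≤ γ * s / (1 + γ * s) :=
    div_le_div_of_nonneg_left a0 (by linarith) (by linarith)
  have a4 : 1 / (1 + γ * s) = 1 - γ * s / (1 + γ * s) := by
    field_simp
    ring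
  have a5 : -(γ / (1 + γ)) * s = -(γ * s / (1 + γ)) := by ring
  linarith

omit [NeZero Dg] in
theorem cher_th (h0 : ∀ β l, 0 ≤ X β l) (h1 : ∀ β l, X β l ≤ θ β) (β : Blk Bk Dg) :
    0 < θ β ∨ (θ β = 0 ∧ ∀ l, X β l = 0) := by
  rcases ((h0 β 0).trans (h1 β 0)).lt_or_eq with h | h
  · exact Or.inl h
  · exact Or.inr ⟨h.symm, fun l => le_antisymm (h ▸ h1 β l) (h0 β l)⟩

omit [NeZero Dg] in
theorem cher_s (h0 : ∀ β l, 0 ≤ X β l) (h1 : ∀ β l, X β l ≤ θ β) (β : Blk Bk Dg) (l : ℕ) :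
    0 ≤ X β l / θ β ∧ X β l / θ β ≤ 1 :=
  ⟨div_nonneg (h0 β l) ((h0 β l).trans (h1 β l)),
    div_le_one_of_le₀ (h1 β l) ((h0 β l).trans (h1 β l))⟩

theorem chernoff_upper (ho : o + n ≤ Bk) (hB : B ∣ Dg) (hX : Inv o n X) (hθ : Inv o n θ)
    (h0 : ∀ β l, 0 ≤ X β l) (h1 : ∀ β l, X β l ≤ θ β) (hγ : 0 < γ) (hγ1 : γ ≤ 1) :
    pr (fun β : Blk Bk Dg => (1 + γ) * (n / B * ∑ l ∈ range B, X β l) + k * θ β <
      ∑ l ∈ range n, X β (bv β (o + l) % B)) ≤ Real.exp (-(γ * k)) := by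
  refine cher_gen (Y := fun β l => γ * (X β l / θ β))
    (s := fun β l => γ * (1 + γ) * (X β l / θ β)) ho hB
    (fun β β' h => by simp only [hX β β' h, hθ β β' h])
    (fun β β' h => by simp only [hX β β' h, hθ β β' h])
    (fun β l => cher_up hγ hγ1 (cher_s h0 h1 β l).1 (cher_s h0 h1 β l).2) fun β hβ => ?_
  rcases cher_th h0 h1 β with h | ⟨h, h'⟩
  · rw [← mul_sum, ← mul_sum, ← sum_div, ← sum_div]
    generalize ∑ l ∈ range n, X β (bv β (o + l) % B) = S at hβ ⊢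
    generalize ∑ l ∈ range B, X β l = T at hβ ⊢
    generalize (n : ℝ) / B = r at hβ ⊢
    have e : γ * (S / θ β) - r * (γ * (1 + γ) * (T / θ β)) =
        γ * ((S - (1 + γ) * (r * T)) / θ β) := by ring
    rw [e]
    refine mul_le_mul_of_nonneg_left ?_ hγ.le
    rw [le_div_iff₀ h]
    linarith
  · simp [h, h'] at hβ

theorem chernoff_lower (ho : o + n ≤ Bk) (hB : B ∣ Dg) (hX : Inv o n X) (hθ : Inv o n θ)
    (h0 : ∀ β l, 0 ≤ X β l) (h1 : ∀ β l, X β l ≤ θ β) (hγ : 0 < γ) (hγ1 : γ ≤ 1) (hk : 0 ≤ k) :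
    pr (fun β : Blk Bk Dg => (1 + γ) * (∑ l ∈ range n, X β (bv β (o + l) % B)) + k * θ β <
      n / B * ∑ l ∈ range B, X β l) ≤ Real.exp (-(γ * k / 2)) := by
  refine cher_gen (Y := fun β l => -γ * (X β l / θ β))
    (s := fun β l => -(γ / (1 + γ)) * (X β l / θ β)) ho hB
    (fun β β' h => by simp only [hX β β' h, hθ β β' h])
    (fun β β' h => by simp only [hX β β' h, hθ β β' h])
    (fun β l => cher_lo hγ (cher_s h0 h1 β l).1 (cher_s h0 h1 β l).2) fun β hβ => ?_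
  rcases cher_th h0 h1 β with h | ⟨h, h'⟩
  · rw [← mul_sum, ← mul_sum, ← sum_div, ← sum_div]
    generalize ∑ l ∈ range n, X β (bv β (o + l) % B) = S at hβ ⊢
    generalize ∑ l ∈ range B, X β l = T at hβ ⊢
    generalize (n : ℝ) / B = r at hβ ⊢
    have hg : 0 < 1 + γ := by linarith
    have e : -γ * (S / θ β) - r * (-(γ / (1 + γ)) * (T / θ β)) =
        γ * ((r * T - (1 + γ) * S) / θ β) / (1 + γ) := by
      field_simp
      ring
    have a1 : k ≤ (r * T - (1 + γ) * S) / θ β := by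
      rw [le_div_iff₀ h]
      linarith
    rw [e]
    refine le_trans (div_le_div_of_nonneg_left (mul_nonneg hγ.le hk) hg (by linarith)) ?_
    exact div_le_div_of_nonneg_right (mul_le_mul_of_nonneg_left a1 hγ.le) hg.le
  · simp [h, h'] at hβ

end Vale.Agent.P315
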