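import Vale.Agent.P315.Ok

/-! Deterministic properties of the value functions. -/

open Finset

namespace Vale.Agent.P315

variable {p : Par} {mis : ℕ → ℕ → ℕ} {z zr : ℕ → ℕ → ℕ → ℕ} {Wc Wr : Ev} {y yr : ℕ → ℕ}

theorem Par.Ok.two_le_b (hp : p.Ok) : 2 ≤ p.b := by
  rw [hp.b_eq, Par.s, ← pow_mul]
  have := Nat.mul_le_mul hp.ws_pos hp.r_pos
  calc 2 = 2 ^ 1 := rfl
    _ ≤ _ := Nat.pow_le_pow_right (by norm_num) (by omega)

theorem Par.Ok.b_pow (hp : p.Ok) : p.b = 2 ^ p.wb := by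
  rw [hp.b_eq, Par.s, ← pow_mul, hp.wb_eq]

theorem Par.Ok.sg_le (hp : p.Ok) {sl : ℕ} (h : sl < p.NS1) : 1 ≤ p.sg sl ∧ p.sg sl ≤ p.P := by
  have hP : p.P = 2 ^ (p.wb * p.H) := by rw [hp.P_eq, hp.b_pow, ← pow_mul]
  unfold Par.sg
  split_ifs with h0
  · exact ⟨le_rfl, hP ▸ Nat.one_le_two_pow⟩
  · have h1 : (sl - 1) / p.np1 < p.wb * p.H + 1 := by
      rw [Nat.div_lt_iff_lt_mul (by rw [hp.np1_eq]; omega)]
      have := hp.NS1_eq
      omega
    rw [hp.pw_sc _ (by omega), hP]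
    exact ⟨Nat.one_le_two_pow, Nat.pow_le_pow_right (by norm_num) (by omega)⟩

theorem Par.Ok.sm_le (hp : p.Ok) (sl : ℕ) : p.sm sl ≤ 2 * p.P0 := by
  unfold Par.sm
  split_ifs
  · omega
  · have := Nat.mod_lt (sl - 1) (show 0 < p.np1 by rw [hp.np1_eq]; omega)
    have := hp.np1_eq
    omega

theorem Par.Ok.se_eq (hp : p.Ok) {sl : ℕ} (h : sl < p.NS1) (k : ℕ) :
    p.se sl k + p.sg sl * p.P0 = p.sd sl k + p.sg sl * p.sm sl := by
  have h1 := Nat.mul_le_mul_right p.P0 (hp.sg_le h).2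
  have h2 := hp.O_ge
  unfold Par.se Par.gp Par.sd
  omega

theorem Par.Ok.slot (hp : p.Ok) {gi m : ℕ} (hg : gi ≤ p.wb * p.H) (hm : m ≤ 2 * p.P0) :
    ∃ sl, 1 ≤ sl ∧ sl < p.NS1 ∧ p.sg sl = 2 ^ gi ∧ p.sm sl = m := by
  have hn := hp.np1_eq
  have hm' : m < p.np1 := by omega
  refine ⟨m + p.np1 * gi + 1, by omega, ?_, ?_, ?_⟩
  · have := Nat.mul_le_mul_left p.np1 hg
    rw [hp.NS1_eq, add_mul, mul_comm _ p.np1]
    omega
  · rw [Par.sg, if_neg (by omega), Nat.add_sub_cancel, Nat.add_mul_div_left _ _ (by omega),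
      Nat.div_eq_of_lt hm', zero_add, hp.pw_sc _ hg]
  · rw [Par.sm, if_neg (by omega), Nat.add_sub_cancel, Nat.add_mul_mod_self_left,
      Nat.mod_eq_of_lt hm']

theorem deta_digits (B n : ℕ) (δ : ℕ → ℕ) (hδ : ∀ j < n, δ j < B) :
    ∃ idx < B ^ n, ∀ j < n, idx / B ^ j % B = δ j := by
  induction n generalizing δ with
  | zero => exact ⟨0, by simp, fun j hj => by omega⟩
  | succ n ih =>
    obtain ⟨idx, h1, h2⟩ := ih (fun j => δ (j + 1)) fun j hj => hδ _ (by omega)
    have h0 := hδ 0 (by omega)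
    refine ⟨δ 0 + B * idx, ?_, fun j hj => ?_⟩
    · have := Nat.mul_le_mul_left B (Nat.succ_le_of_lt h1)
      rw [Nat.mul_succ] at this
      rw [pow_succ']
      omega
    · cases j with
      | zero => rw [pow_zero, Nat.div_one, Nat.add_mul_mod_self_left, Nat.mod_eq_of_lt h0]
      | succ j =>
        rw [pow_succ', ← Nat.div_div_eq_div_mul, Nat.add_mul_div_left _ _ (by omega),
          Nat.div_eq_of_lt h0, zero_add]
        exact h2 j (by omega)

theorem Par.Ok.exists_idx (hp : p.Ok) (δ : ℕ → ℕ) (hδ : ∀ j < p.b, δ j ≤ 2 * p.P0) :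
    ∃ idx < p.N, ∀ j < p.b, p.dg idx j = δ j := by
  obtain ⟨idx, h1, h2⟩ := deta_digits (2 ^ p.wd) p.b δ fun j hj => (hδ j hj).trans_lt hp.wd_gt
  refine ⟨idx, by rwa [hp.N_eq, pow_mul], fun j hj => ?_⟩
  have h3 := hp.pw_wd 1 (by have := hp.two_le_b; omega)
  rw [mul_one] at h3
  rw [Par.dg, hp.pw_wd j hj.le, h3, pow_mul, h2 j hj, min_eq_left (hδ j hj)]

theorem raw_cases (B : ℕ) (nv : ℕ → ℕ → ℕ) (a t : ℕ) :
    Par.raw B nv a t = B ∨ ∃ a' t', 1 ≤ a' ∧ a' ≤ a ∧ t' ≤ t ∧ Par.raw B nv a t = nv a' t' := by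
  induction a generalizing t with
  | zero => exact Or.inl (by rw [Par.raw])
  | succ a iha =>
    have hA : ∀ t, Par.raw B nv a t = B ∨ ∃ a' t', 1 ≤ a' ∧ a' ≤ a + 1 ∧ t' ≤ t ∧
        Par.raw B nv a t = nv a' t' := fun t =>
      (iha t).imp_right fun ⟨a', t', h1, h2, h3, h4⟩ => ⟨a', t', h1, by omega, h3, h4⟩
    induction t with
    | zero =>
      rw [Par.raw]
      rcases min_choice (Par.raw B nv a 0) (nv (a + 1) 0) with h | h <;> rw [h]
      · exact hA 0
      · exact Or.inr ⟨a + 1, 0, by omega, le_rfl, le_rfl, rfl⟩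
    | succ t iht =>
      rw [Par.raw]
      rcases min_choice (Par.raw B nv a (t + 1))
        (min (Par.raw B nv (a + 1) t) (nv (a + 1) (t + 1))) with h | h <;> rw [h]
      · exact hA (t + 1)
      · rcases min_choice (Par.raw B nv (a + 1) t) (nv (a + 1) (t + 1)) with h | h <;> rw [h]
        · exact iht.imp_right fun ⟨a', t', h1, h2, h3, h4⟩ => ⟨a', t', h1, h2, by omega, h4⟩
        · exact Or.inr ⟨a + 1, t + 1, by omega, le_rfl, le_rfl, rfl⟩

theorem raw_le (B : ℕ) (nv : ℕ → ℕ → ℕ) {a t a' t' : ℕ} (h1 : 1 ≤ a') (ha : a' ≤ a) (ht : t' ≤ t) :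
    Par.raw B nv a t ≤ nv a' t' := by
  induction a generalizing t with
  | zero => omega
  | succ a iha =>
    induction t with
    | zero =>
      rw [Par.raw]
      rcases Nat.lt_or_ge a a' with h | h
      · obtain rfl : a' = a + 1 := by omega
        obtain rfl : t' = 0 := by omega
        exact min_le_right _ _
      · exact (min_le_left _ _).trans (iha h ht)
    | succ t iht =>
      rw [Par.raw]
      rcases Nat.lt_or_ge a a' with h | h
      · obtain rfl : a' = a + 1 := by omega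
        refine (min_le_right _ _).trans ?_
        rcases Nat.lt_or_ge t t' with h' | h'
        · obtain rfl : t' = t + 1 := by omega
          exact min_le_right _ _
        · exact (min_le_left _ _).trans (iht h')
      · exact (min_le_left _ _).trans (iha h ht)

theorem raw_le_big (B : ℕ) (nv : ℕ → ℕ → ℕ) (a t : ℕ) : Par.raw B nv a t ≤ B := by
  induction a with
  | zero => rw [Par.raw]
  | succ a ih =>
    cases t with
    | zero => rw [Par.raw]; exact (min_le_left _ _).trans ih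
    | succ t => rw [Par.raw]; exact (min_le_left _ _).trans ih

theorem raw_anti (B : ℕ) (nv : ℕ → ℕ → ℕ) {a t a' t' : ℕ} (ha : a ≤ a') (ht : t ≤ t') :
    Par.raw B nv a' t' ≤ Par.raw B nv a t := by
  rcases raw_cases B nv a t with h | ⟨a1, t1, h1, h2, h3, h⟩ <;> rw [h]
  · exact raw_le_big B nv a' t'
  · exact raw_le B nv h1 (h2.trans ha) (h3.trans ht)

/-- A node is at most a table entry plus the rounding cost. -/
theorem node_le_newv (h : ℕ) {a t a' t' sl k : ℕ} (h1 : 1 ≤ a') (ha : a' ≤ a) (ht : t' ≤ t)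
    (hsl : sl < p.NS1) (hk : k ≤ 2 * p.Dh) (d e : ℕ) :
    p.node Wc Wr y yr h a t d e ≤ p.newv Wc Wr y yr h a' t' sl k + p.U * (2 * Nat.dist d (p.sd sl k) +
      Nat.dist (e + p.sg sl * p.P0) (d + p.sg sl * p.sm sl)) := by
  rw [Par.node, Par.evc, if_neg (by omega)]
  refine (min_le_right _ _).trans ((mn_le _ hsl).trans ?_)
  have h2 : p.col (p.tab Wc Wr y yr h a t sl) sl d ≤
      p.tab Wc Wr y yr h a t sl k + 2 * p.U * Nat.dist d (p.sd sl k) :=
    mn_le (fun k => p.tab Wc Wr y yr h a t sl k + 2 * p.U * Nat.dist d (p.sd sl k)) (by omega)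
  have h3 : p.tab Wc Wr y yr h a t sl k ≤ p.newv Wc Wr y yr h a' t' sl k :=
    raw_le _ (fun a t => p.newv Wc Wr y yr h a t sl k) h1 ha ht
  have h4 : 2 * p.U * Nat.dist d (p.sd sl k) = p.U * (2 * Nat.dist d (p.sd sl k)) := by ring
  rw [mul_add]
  omega

/-- A node is trivial or comes from a table entry. -/
theorem node_cases (hp : p.Ok) (h a t d e : ℕ) :
    p.U * (p.len h + Nat.dist d e) ≤ p.node Wc Wr y yr h a t d e ∨
    ∃ a' t' sl k, 1 ≤ a' ∧ a' ≤ a ∧ t' ≤ t ∧ sl < p.NS1 ∧ k ≤ 2 * p.Dh ∧ (t' = 0 ↔ sl = 0) ∧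
      p.newv Wc Wr y yr h a' t' sl k + p.U * (Nat.dist d (p.sd sl k) + Nat.dist e (p.se sl k)) ≤
        p.node Wc Wr y yr h a t d e := by
  rw [Par.node, Par.evc]
  split_ifs with ha
  · exact Or.inl le_rfl
  rcases min_choice (p.U * (p.len h + Nat.dist d e)) (mn p.NS1 fun sl =>
    p.col (p.tab Wc Wr y yr h a t sl) sl d +
      p.U * Nat.dist (e + p.sg sl * p.P0) (d + p.sg sl * p.sm sl)) with hm | hm <;> rw [hm]
  · exact Or.inl le_rfl
  obtain ⟨sl, hsl, e1⟩ := exists_mn' (show 0 < p.NS1 by rw [hp.NS1_eq]; omega) fun sl =>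
    p.col (p.tab Wc Wr y yr h a t sl) sl d +
      p.U * Nat.dist (e + p.sg sl * p.P0) (d + p.sg sl * p.sm sl)
  obtain ⟨k, hk, e2⟩ := exists_mn' (show 0 < 2 * p.Dh + 1 by omega) fun k =>
    p.tab Wc Wr y yr h a t sl k + 2 * p.U * Nat.dist d (p.sd sl k)
  rw [e1, Par.col, e2]
  have hbig : p.U * (p.len h + Nat.dist d e) ≤ p.big h sl + 2 * p.U * Nat.dist d (p.sd sl k) +
      p.U * Nat.dist (e + p.sg sl * p.P0) (d + p.sg sl * p.sm sl) := by
    have h1 := Nat.mul_le_mul_left (p.sg sl) (hp.sm_le sl)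
    have h2 : p.sg sl * (2 * p.P0) = 2 * (p.sg sl * p.P0) := by ring
    have h3 : p.len h + Nat.dist d e ≤ p.len h + p.sg sl * p.P0 +
        Nat.dist (e + p.sg sl * p.P0) (d + p.sg sl * p.sm sl) := by
      unfold Nat.dist; omega
    have h4 := Nat.mul_le_mul_left p.U h3
    rw [mul_add p.U (p.len h + p.sg sl * p.P0)] at h4
    unfold Par.big
    omega
  rcases raw_cases (p.big h sl) (fun a t => p.newv Wc Wr y yr h a t sl k) a t with
    hr | ⟨a', t', h1, h2, h3, hr⟩
  · rw [Par.tab, hr]; exact Or.inl hbig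
  · rw [Par.tab, hr]
    by_cases hi : t' = 0 ↔ sl = 0
    · refine Or.inr ⟨a', t', sl, k, h1, h2, h3, hsl, by omega, hi, ?_⟩
      have h4 := hp.se_eq hsl k
      have h5 : Nat.dist d (p.sd sl k) + Nat.dist e (p.se sl k) ≤ 2 * Nat.dist d (p.sd sl k) +
          Nat.dist (e + p.sg sl * p.P0) (d + p.sg sl * p.sm sl) := by
        unfold Nat.dist; omega
      have h6 := Nat.mul_le_mul_left p.U h5
      have h7 : 2 * p.U * Nat.dist d (p.sd sl k) = p.U * (2 * Nat.dist d (p.sd sl k)) := by ring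
      rw [mul_add p.U (2 * _)] at h6
      omega
    · have hn : p.newv Wc Wr y yr h a' t' sl k = p.big h sl := by
        unfold Par.newv
        split_ifs <;> first | rfl | tauto
      rw [hn]; exact Or.inl hbig

theorem deta_node_le (h a t d e : ℕ) :
    p.node Wc Wr y yr h a t d e ≤ p.U * (p.len h + Nat.dist d e) := by
  rw [Par.node, Par.evc]
  split_ifs
  · exact le_rfl
  · exact min_le_left _ _

theorem deta_chain (x : ℕ → ℕ) (n : ℕ) :
    Nat.dist (x 0) (x n) ≤ ∑ l ∈ range n, Nat.dist (x l) (x (l + 1)) := by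
  induction n with
  | zero => simp
  | succ n ih =>
    rw [sum_range_succ]
    exact (Nat.dist.triangle_inequality _ (x n) _).trans (Nat.add_le_add_right ih _)

theorem deta_cand_low (hp : p.Ok) (hW : ∀ l, Reg p.U (Wc l)) (a t d e g : ℕ) :
    p.U * Nat.dist d e ≤ p.cand Wc y a t d e g := by
  refine le_min (le_mn fun idx _ => ?_) (le_mn fun a0 _ => le_mn fun t' _ => le_mn fun μ _ =>
    le_mn fun A _ => le_max_left _ _)
  have hb := hp.two_le_b
  have h1 := Nat.mul_le_mul_left p.U (deta_chain (p.pt d g p.b e (p.dg idx)) p.b)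
  rw [show p.pt d g p.b e (p.dg idx) 0 = d by rw [Par.pt, if_pos rfl],
    show p.pt d g p.b e (p.dg idx) p.b = e by rw [Par.pt, if_neg (by omega), if_pos le_rfl],
    mul_sum] at h1
  refine h1.trans (sum_le_sum fun l hl => ?_)
  rw [if_pos (mem_range.1 hl)]
  exact (hW l).low _ _ _ _

theorem leaf_reg (hm : ∀ q d, mis q d ≤ 1) (U i : ℕ) : Reg U fun _ _ d e => U * leaf mis i d e := by
  refine ⟨fun _ _ _ _ => le_rfl, fun _ _ d e d' e' => ?_, fun _ _ d e => ?_⟩
  · rw [← mul_add]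
    refine Nat.mul_le_mul_left U ?_
    have h1 := hm i d
    rcases eq_or_ne d d' with rfl | hd
    · unfold leaf Nat.dist; omega
    · unfold leaf Nat.dist; omega
  · refine Nat.mul_le_mul_left U ?_
    unfold leaf Nat.dist; omega

theorem node_reg (hp : p.Ok) (hW : ∀ l, Reg p.U (Wc l)) (h : ℕ) :
    Reg p.U (p.node Wc Wr y yr h) := by
  refine ⟨fun {a a' t t'} d e ha ht => ?_, fun a t d e d' e' => ?_, fun a t d e => ?_⟩
  · rcases Nat.eq_zero_or_pos a with rfl | h0
    · exact (deta_node_le h a' t' d e).trans (by rw [Par.node, Par.evc, if_pos rfl])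
    · rw [Par.node, Par.node, Par.evc, Par.evc, if_neg (by omega), if_neg (by omega)]
      refine min_le_min le_rfl (mn_mono fun sl _ => Nat.add_le_add_right ?_ _)
      exact mn_mono fun k _ => Nat.add_le_add_right (raw_anti _ _ ha ht) _
  · have h1 : p.U * (p.len h + Nat.dist d e) ≤ p.U * (p.len h + Nat.dist d' e') +
        p.U * (2 * Nat.dist d d' + Nat.dist (e + d') (e' + d)) := by
      rw [← mul_add]
      refine Nat.mul_le_mul_left _ ?_
      unfold Nat.dist; omega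
    rw [Par.node, Par.node, Par.evc, Par.evc]
    split_ifs
    · exact h1
    rw [← min_add_add_right]
    refine min_le_min h1 (mn_le_add fun sl _ => ?_)
    have h2 : p.col (p.tab Wc Wr y yr h a t sl) sl d ≤
        p.col (p.tab Wc Wr y yr h a t sl) sl d' + p.U * (2 * Nat.dist d d') := by
      refine mn_le_add fun k _ => ?_
      have h3 : Nat.dist d (p.sd sl k) ≤ Nat.dist d' (p.sd sl k) + Nat.dist d d' := by
        unfold Nat.dist; omega
      have h4 := Nat.mul_le_mul_left (2 * p.U) h3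
      have h5 : p.U * (2 * Nat.dist d d') = 2 * p.U * Nat.dist d d' := by ring
      rw [mul_add] at h4
      omega
    have h3 : Nat.dist (e + p.sg sl * p.P0) (d + p.sg sl * p.sm sl) ≤
        Nat.dist (e' + p.sg sl * p.P0) (d' + p.sg sl * p.sm sl) + Nat.dist (e + d') (e' + d) := by
      unfold Nat.dist; omega
    have h4 := Nat.mul_le_mul_left p.U h3
    rw [mul_add] at h4 ⊢
    omega
  · rcases node_cases (Wc := Wc) (Wr := Wr) (y := y) (yr := yr) hp h a t d e with
      h1 | ⟨a', t', sl, k, -, -, -, -, -, hi, h1⟩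
    · exact le_trans (Nat.mul_le_mul_left _ (Nat.le_add_left _ _)) h1
    refine le_trans ?_ h1
    have h2 : p.U * Nat.dist (p.sd sl k) (p.se sl k) ≤ p.newv Wc Wr y yr h a' t' sl k := by
      by_cases h0 : sl = 0
      · have : p.se sl k = p.sd sl k := by
          rw [Par.se, Par.gp, Par.sm, if_pos h0, Nat.add_sub_cancel]
        rw [this, Nat.dist_self, mul_zero]
        exact Nat.zero_le _
      · rw [Par.newv, if_neg (fun h' => h0 (hi.1 h')), if_neg h0]
        exact deta_cand_low hp hW _ _ _ _ _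
    have h3 : Nat.dist d e ≤ Nat.dist (p.sd sl k) (p.se sl k) +
        (Nat.dist d (p.sd sl k) + Nat.dist e (p.se sl k)) := by
      unfold Nat.dist; omega
    have h4 := Nat.mul_le_mul_left p.U h3
    rw [mul_add] at h4
    omega

theorem Wv_reg (hp : p.Ok) (hm : ∀ q d, mis q d ≤ 1) (h i : ℕ) : Reg p.U (Wv p mis z zr h i) := by
  induction h generalizing i with
  | zero =>
    have : Wv p mis z zr 0 i = fun _ _ d e => p.U * leaf mis i d e := by
      funext a t d e; exact Wv_zero p mis z zr i a t d e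
    rw [this]
    exact leaf_reg hm p.U i
  | succ h ih =>
    rw [Wv_succ]
    exact node_reg hp (fun l => ih _) _

theorem Wv_le (hp : p.Ok) (hm : ∀ q d, mis q d ≤ 1) (h i a t d e : ℕ) :
    Wv p mis z zr h i a t d e ≤ p.U * (p.len h + Nat.dist d e) := by
  cases h with
  | zero =>
    rw [Wv_zero, hp.len_eq 0 (Nat.zero_le _), pow_zero]
    refine Nat.mul_le_mul_left _ ((min_le_left _ _).trans ?_)
    have := hm i d
    omega
  | succ h =>
    rw [Wv_succ]
    exact deta_node_le _ _ _ _ _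

end Vale.Agent.P315
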