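import Vale.Agent.P315.AnD
import Vale.Agent.P315.DetA

/-! The comparator: costs, classes, floors, budgets. -/

open Finset

namespace Vale.Agent.P315

variable {p : Par} {mis : ℕ → ℕ → ℕ} {ds : ℕ → ℕ}

theorem cmp_sum_mul {M : Type} [AddCommMonoid M] (f : ℕ → M) (B C : ℕ) :
    ∑ q ∈ range (B * C), f q = ∑ l ∈ range B, ∑ q ∈ range C, f (l * C + q) := by
  induction B with
  | zero => simp
  | succ B ih => rw [add_one_mul, sum_range_add, ih, sum_range_succ]

theorem cmp_blk {M : Type} [AddCommMonoid M] (f : ℕ → M) (b h m i : ℕ) :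
    ∑ q ∈ range (b ^ (h + m)), f (i * b ^ (h + m) + q) =
      ∑ l ∈ range (b ^ m), ∑ q ∈ range (b ^ h), f ((i * b ^ m + l) * b ^ h + q) := by
  rw [pow_add, mul_comm (b ^ h), cmp_sum_mul]
  exact sum_congr rfl fun l _ => sum_congr rfl fun q _ => congrArg f (by ring)

theorem dist_le_leaf (mis : ℕ → ℕ → ℕ) (i d e : ℕ) : Nat.dist d e ≤ leaf mis i d e := by
  unfold leaf Nat.dist
  omega

theorem cw_zero (i : ℕ) : p.cw mis ds 0 i = leaf mis i (ds i) (ds (i + 1)) := by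
  simp [Par.cw]

theorem cw_add (h m i : ℕ) :
    p.cw mis ds (h + m) i = ∑ l ∈ range (p.b ^ m), p.cw mis ds h (i * p.b ^ m + l) :=
  cmp_blk (fun x => leaf mis x (ds x) (ds (x + 1))) p.b h m i

theorem cw_addv : Addv p.b p.H fun h i => (p.cw mis ds h i : ℝ) := by
  intro h _ i _
  simp only [cw_add h 1 i, pow_one, Nat.cast_sum]

theorem ct_addv : Addv p.b p.H (p.ct mis ds) := by
  intro h _ i _
  simp only [Par.ct, cw_add h 1 i, pow_one, Nat.cast_sum, sum_add_distrib, sum_const, card_range,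
    nsmul_eq_mul]
  ring

theorem ct_pos (hp : p.Ok) (h i : ℕ) : 0 < p.ct mis ds h i := by
  have h1 : (0 : ℝ) < p.b := by exact_mod_cast lt_of_lt_of_le two_pos hp.two_le_b
  have h2 : (0 : ℝ) < p.Dh := by exact_mod_cast hp.Dh_pos
  have h3 : (0 : ℝ) < p.P := by rw [hp.P_eq]; push_cast; positivity
  unfold Par.ct
  positivity

theorem ds_near (h i : ℕ) {q : ℕ} (hq : q ≤ p.b ^ h) :
    Nat.dist (ds (i * p.b ^ h + q)) (ds (i * p.b ^ h)) ≤ p.cw mis ds h i := by
  rw [Nat.dist_comm]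
  refine (deta_chain (fun l => ds (i * p.b ^ h + l)) q).trans ?_
  exact (sum_le_sum fun l _ => dist_le_leaf mis (i * p.b ^ h + l) _ _).trans
    (sum_le_sum_of_subset (range_mono hq))

theorem cw_le_root (hp : p.Ok) {h i : ℕ} (hh : h ≤ p.H) (hi : i < p.b ^ (p.H - h)) :
    p.cw mis ds h i ≤ p.cw mis ds p.H 0 := by
  have _ := hp
  have h1 := cw_add (p := p) (mis := mis) (ds := ds) h (p.H - h) 0
  rw [Nat.add_sub_cancel' hh] at h1
  simp only [h1, zero_mul, zero_add]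
  exact single_le_sum (f := fun l => p.cw mis ds h l) (fun _ _ => Nat.zero_le _) (mem_range.2 hi)

theorem Addv.level {b H : ℕ} {f : ℕ → ℕ → ℝ} (hf : Addv b H f) {h : ℕ} (hh : h ≤ H) :
    ∑ i ∈ range (b ^ (H - h)), f h i = f H 0 := by
  induction hh using Nat.decreasingInduction with
  | self => simp
  | of_succ h hh ih =>
    rw [← ih, show H - h = H - (h + 1) + 1 by omega, pow_succ, cmp_sum_mul]
    exact sum_congr rfl fun i hi => (hf h hh i (mem_range.1 hi)).symm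

theorem cmp_cls {r : ℕ} (hr : 1 ≤ r) (s : ℝ) {x y : ℝ} (hx : 0 ≤ x) (hy : 0 ≤ y) :
    ∃ c, 1 ≤ c ∧ c ≤ r ∧ (c < r → x ≤ s ^ c * y) ∧ s ^ (c - 1) * y ≤ y + x := by
  classical
  have hex : ∃ c, 1 ≤ c ∧ (r ≤ c ∨ x ≤ s ^ c * y) := ⟨r, hr, Or.inl le_rfl⟩
  obtain ⟨h1, h2⟩ := Nat.find_spec hex
  refine ⟨Nat.find hex, h1, Nat.find_min' hex ⟨hr, Or.inl le_rfl⟩,
    fun h => h2.resolve_left (not_le.2 h), ?_⟩
  by_cases h : Nat.find hex - 1 = 0
  · rw [h, pow_zero, one_mul]; linarith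
  · have := Nat.find_min hex (show Nat.find hex - 1 < Nat.find hex by omega)
    simp only [not_and, not_or, not_le] at this
    linarith [(this (by omega)).2]

/-- accumulated class drops at depth `n` -/
def cmpJ (b H : ℕ) (cls : ℕ → ℕ → ℕ) : ℕ → ℕ → ℕ
  | 0, _ => 0
  | n + 1, i => cmpJ b H cls n (i / b) + (cls (H - (n + 1)) i - 1)

theorem cmp_div {B : ℕ} (i : ℕ) {l : ℕ} (hl : l < B) : (i * B + l) / B = i := by
  rw [add_comm, Nat.add_mul_div_right _ _ (by omega), Nat.div_eq_of_lt hl, zero_add]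

theorem cmp_tot (hp : p.Ok) {cls : ℕ → ℕ → ℕ} (hc : ∀ h i, (p.s : ℝ) ^ (cls h i - 1) *
    p.ct mis ds (h + 1) (i / p.b) ≤ p.ct mis ds (h + 1) (i / p.b) +
      p.ct mis ds h i * p.b * (p.s : ℝ) ^ 2) (n : ℕ) : n ≤ p.H →
    ∑ i ∈ range (p.b ^ n), (p.s : ℝ) ^ cmpJ p.b p.H cls n i ≤ p.b ^ n * (1 + (p.s : ℝ) ^ 2) ^ n := by
  induction n with
  | zero => simp [cmpJ]
  | succ n ih =>
    intro hn
    have key : ∀ i ∈ range (p.b ^ n), ∑ l ∈ range p.b, (p.s : ℝ) ^ cmpJ p.b p.H cls (n + 1)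
        (i * p.b + l) ≤ (p.s : ℝ) ^ cmpJ p.b p.H cls n i * (p.b * (1 + (p.s : ℝ) ^ 2)) := by
      intro i hi
      have h1 := ct_addv (p := p) (mis := mis) (ds := ds) (p.H - (n + 1)) (by omega) i (by
        rw [show p.H - (p.H - (n + 1) + 1) = n by omega]; exact mem_range.1 hi)
      have h2 := ct_pos (mis := mis) (ds := ds) hp (p.H - (n + 1) + 1) i
      have h3 := sum_le_sum (s := range p.b) fun l hl => by
        have := hc (p.H - (n + 1)) (i * p.b + l)
        rwa [cmp_div i (mem_range.1 hl)] at this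
      rw [sum_add_distrib, ← sum_mul, ← sum_mul, ← sum_mul, ← h1, sum_const, card_range,
        nsmul_eq_mul] at h3
      rw [sum_congr rfl fun l hl => by rw [cmpJ, cmp_div i (mem_range.1 hl), pow_add], ← mul_sum]
      refine mul_le_mul_of_nonneg_left (le_of_mul_le_mul_right (h3.trans_eq ?_) h2) (by positivity)
      ring
    rw [pow_succ, cmp_sum_mul]
    refine (sum_le_sum key).trans ?_
    rw [← sum_mul]
    refine (mul_le_mul_of_nonneg_right (ih (by omega)) (by positivity)).trans_eq ?_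
    ring

theorem exists_cmp (hp : p.Ok) {E : ℕ} (hE : 1 ≤ E) (h0 : ds 0 = p.O)
    (hc : p.cw mis ds p.H 0 ≤ p.Dh)
    (hF : p.Yb * (p.H + 1) * p.P * (1 + p.s ^ 2) ^ p.H * E ≤ p.Dh * p.s ^ p.F) :
    ∃ fl cls cp, p.CmpOk E mis ds fl cls cp := by
  have hb : 0 < p.b := lt_of_lt_of_le two_pos hp.two_le_b
  have hb' : (0 : ℝ) < p.b := by exact_mod_cast hb
  have hs : (1 : ℝ) ≤ p.s := by exact_mod_cast Nat.one_le_two_pow
  have hE' : (0 : ℝ) < E := by exact_mod_cast hE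
  have hP : (p.P : ℝ) = p.b ^ p.H := by rw [hp.P_eq, Nat.cast_pow]
  choose cls c1 c2 c3 c4 using fun h i => cmp_cls hp.r_pos (p.s : ℝ)
    (x := p.ct mis ds h i * p.b * (p.s : ℝ) ^ 2) (y := p.ct mis ds (h + 1) (i / p.b))
    (by have := ct_pos (mis := mis) (ds := ds) hp h i; positivity) (ct_pos hp _ _).le
  let ξ : ℕ → ℝ := fun q => ∑ h ∈ range (p.H + 1),
    p.Yb * (p.s : ℝ) ^ cmpJ p.b p.H cls (p.H - h) (q / p.b ^ h) / p.s ^ p.F
  refine ⟨fun h i => p.F - cmpJ p.b p.H cls (p.H - h) i, cls, fun h i =>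
    (1 + 2 / (E : ℝ)) * p.cw mis ds h i + p.Dh * (p.b : ℝ) ^ h / (p.P * E) +
      ∑ q ∈ range (p.b ^ h), ξ (i * p.b ^ h + q), h0, hc, by simp [cmpJ], fun h hh i _ l hl => ?_,
    c1, c2, fun h _ i _ l hl h1 => ?_, fun h _ i _ => ?_, fun h hh i _ => ?_, ?_⟩
  · simp only [show p.H - h = p.H - (h + 1) + 1 by omega, cmpJ, cmp_div i hl,
      show p.H - (p.H - (h + 1) + 1) = h by omega, Nat.sub_sub]
  · have := c3 _ _ h1
    rwa [cmp_div i hl] at this
  · simp only [cw_add h 1 i, cmp_blk ξ p.b h 1 i, pow_one, Nat.cast_sum, sum_add_distrib,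
      sum_const, card_range, nsmul_eq_mul, mul_sum]
    ring
  · refine add_le_add_right ?_ _
    have h1 : ∀ q ∈ range (p.b ^ h), p.Yb / (p.s : ℝ) ^ (p.F - cmpJ p.b p.H cls (p.H - h) i) ≤
        ξ (i * p.b ^ h + q) := fun q hq => by
      refine le_trans ?_ (single_le_sum (f := fun h' => p.Yb * (p.s : ℝ) ^ cmpJ p.b p.H cls
        (p.H - h') ((i * p.b ^ h + q) / p.b ^ h') / p.s ^ p.F) (fun _ _ => by positivity)
        (mem_range.2 (Nat.lt_succ_of_le hh)))
      rw [cmp_div i (mem_range.1 hq), div_le_div_iff₀ (by positivity) (by positivity), mul_assoc,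
        ← pow_add]
      exact mul_le_mul_of_nonneg_left (pow_le_pow_right₀ hs (by omega)) (by positivity)
    refine le_trans (le_of_eq ?_) (sum_le_sum h1)
    rw [sum_const, card_range, nsmul_eq_mul, Nat.cast_pow]
    ring
  · have h1 : ∀ h ∈ range (p.H + 1), ∑ q ∈ range (p.b ^ p.H), p.Yb * (p.s : ℝ) ^
        cmpJ p.b p.H cls (p.H - h) (q / p.b ^ h) / p.s ^ p.F ≤
        p.Yb * p.P * (1 + (p.s : ℝ) ^ 2) ^ p.H / p.s ^ p.F := fun h hh => by
      have hh' := Nat.le_of_lt_succ (mem_range.1 hh)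
      have e : p.b ^ p.H = p.b ^ (p.H - h) * p.b ^ h := by rw [← pow_add, Nat.sub_add_cancel hh']
      rw [← sum_div, ← mul_sum, mul_assoc, e, cmp_sum_mul, sum_congr rfl fun l _ =>
        sum_congr rfl fun q hq => by rw [cmp_div l (mem_range.1 hq)]]
      simp only [sum_const, card_range, nsmul_eq_mul, ← mul_sum]
      refine div_le_div_of_nonneg_right (mul_le_mul_of_nonneg_left ?_ (by positivity))
        (by positivity)
      refine (mul_le_mul_of_nonneg_left (cmp_tot hp c4 _ (Nat.sub_le _ _)) (by positivity)).trans ?_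
      rw [hp.P_eq, e]
      push_cast
      rw [← mul_assoc, mul_comm ((p.b : ℝ) ^ h)]
      exact mul_le_mul_of_nonneg_left (pow_le_pow_right₀ (by nlinarith) (Nat.sub_le _ _))
        (by positivity)
    have h2 := sum_le_sum h1
    rw [sum_comm, sum_const, card_range, nsmul_eq_mul] at h2
    have h3 : ((p.H + 1 : ℕ) : ℝ) * (p.Yb * p.P * (1 + (p.s : ℝ) ^ 2) ^ p.H / p.s ^ p.F) ≤
        p.Dh / E := by
      rw [← mul_div_assoc, div_le_div_iff₀ (by positivity) hE']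
      have : ((p.Yb * (p.H + 1) * p.P * (1 + p.s ^ 2) ^ p.H * E : ℕ) : ℝ) ≤
        (p.Dh * p.s ^ p.F : ℕ) := by exact_mod_cast hF
      push_cast at this ⊢
      linarith
    have h4 : p.Dh * (p.b : ℝ) ^ p.H / (p.P * E) = p.Dh / E := by rw [hP]; field_simp
    simp only [zero_mul, zero_add, h4]
    have := h2.trans h3
    rw [mul_div_assoc 2]
    linarith

end Vale.Agent.P315
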