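import Vale.Agent.P315.TriR

/-! The compiler from commands to machine programs. -/

namespace Vale.Agent.P315

open Finset

/-- The time unit. -/
def compU (d S : ℕ) : ℕ := d * (S + 1) ^ d

theorem compU_lin (a d c S : ℕ) {D : ℕ} (h1 : a * d + c ≤ D) (h2 : d ≤ D) :
    a * compU d S + c ≤ compU D S := by
  unfold compU
  have p1 : (S + 1) ^ d ≤ (S + 1) ^ D := Nat.pow_le_pow_right (by omega) h2
  have p2 : 1 ≤ (S + 1) ^ D := Nat.one_le_pow _ _ (by omega)
  calc a * (d * (S + 1) ^ d) + c ≤ a * (d * (S + 1) ^ D) + c * (S + 1) ^ D :=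
        Nat.add_le_add (Nat.mul_le_mul_left _ (Nat.mul_le_mul_left _ p1))
          (Nat.le_mul_of_pos_right _ p2)
    _ = (a * d + c) * (S + 1) ^ D := by ring
    _ ≤ _ := Nat.mul_le_mul_right _ h1

theorem compU_add (d c S : ℕ) : compU d S + c ≤ compU (d + c) S := by
  have := compU_lin 1 d c S (D := d + c) (by omega) (by omega)
  omega

theorem compU_mono {d D : ℕ} (h : d ≤ D) (S : ℕ) : compU d S ≤ compU D S := by
  have := compU_lin 1 d 0 S (D := D) (by omega) h
  omega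

theorem compU_succ (d S : ℕ) : (S + 1) * compU d S ≤ compU (d + 1) S := by
  unfold compU
  calc (S + 1) * (d * (S + 1) ^ d) = d * (S + 1) ^ (d + 1) := by ring
    _ ≤ _ := Nat.mul_le_mul_right _ (by omega)

theorem comp_pow {V d D : ℕ} (hV : 2 ≤ V) (h : d ≤ D) : V ^ d ≤ V ^ D :=
  Nat.pow_le_pow_right (by omega) h

theorem comp_self {V d : ℕ} (hV : 2 ≤ V) : V ≤ V ^ (d + 1) := by
  have := comp_pow hV (show 1 ≤ d + 1 by omega)
  rwa [pow_one] at this

theorem comp_const {V : ℕ} (hV : 2 ≤ V) (c : ℕ) : c ≤ V ^ c :=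
  Nat.lt_two_pow_self.le.trans (Nat.pow_le_pow_left hV c)

/-- Postcondition of the evaluation of a term. -/
def CPost (k v : ℕ) (g : ℕ → ℕ) (m : Mem) (s : St) : Prop :=
  s.2 = m ∧ s.1 k = v ∧ ∀ r < k, s.1 r = g r

theorem comp_seq {w k v t₁ t₂ : ℕ} {p q : Stmt} {g : ℕ → ℕ} {m : Mem} {Q : St → Prop}
    (h : D w p t₁ (g, m) (CPost k v g m))
    (h' : ∀ g' : ℕ → ℕ, g' k = v → (∀ r < k, g' r = g r) → D w q t₂ (g', m) Q) :
    D w (.seq p q) (t₁ + t₂ + 1) (g, m) Q :=
  D.seq (h.mono fun s hs => by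
    obtain ⟨g', m'⟩ := s
    obtain ⟨h1, h2, h3⟩ := hs
    have h4 : m' = m := h1
    subst h4
    exact h' g' h2 h3)

theorem comp_upd {k v : ℕ} {g g' : ℕ → ℕ} {m : Mem} (h : ∀ r < k, g' r = g r) :
    CPost k v g m (Function.update g' k v, m) :=
  ⟨rfl, Function.update_self _ _ _, fun r hr => (Function.update_of_ne hr.ne _ _).trans (h r hr)⟩

/-- Copy a register. -/
def compCp (a b : ℕ) : Stmt := .seq (.const a 0) (.op .add a b a)

theorem comp_cp {w a b : ℕ} {g : ℕ → ℕ} {m : Mem} {Q : St → Prop} (hab : b ≠ a)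
    (hb : g b < 2 ^ w) (h : Q (Function.update g a (g b), m)) : D w (compCp a b) 3 (g, m) Q := by
  refine D.seq (t₁ := 1) (t₂ := 1) (D.const (D.op ?_))
  simp only [Op.app, Function.update_self, Function.update_of_ne hab, Nat.zero_mod, add_zero,
    Function.update_idem, Nat.mod_eq_of_lt hb]
  exact h

/-- One step of a fold. -/
def compFo : Fo → ℕ → ℕ → Stmt
  | .add, a, b => .op .add a a b
  | .min, a, b => .seq (.op .sub b a b) (.op .sub a a b)
  | .max, a, b => .seq (.op .sub b b a) (.op .add a a b)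

theorem comp_fo {w a b : ℕ} (f : Fo) {g : ℕ → ℕ} {m : Mem} (hab : a ≠ b)
    (hb : g a + g b < 2 ^ w) : D w (compFo f a b) 3 (g, m) fun s =>
      s.2 = m ∧ s.1 a = f.app (g a) (g b) ∧ ∀ r, r ≠ a → r ≠ b → s.1 r = g r := by
  cases f with
  | add =>
    refine D.time (D.op ⟨rfl, ?_, fun r h _ => Function.update_of_ne h _ _⟩) (by omega)
    simp only [Op.app, Fo.app, Function.update_self, Nat.mod_eq_of_lt hb]
  | min =>
    refine D.seq (t₁ := 1) (t₂ := 1) (D.op (D.op ⟨rfl, ?_, fun r h h' => ?_⟩))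
    · simp only [Op.app, Fo.app, Function.update_self, Function.update_of_ne hab]
      rw [Nat.mod_eq_of_lt (show g a - g b < 2 ^ w by omega), Nat.mod_eq_of_lt (by omega)]
      omega
    · simp only [Function.update_of_ne h, Function.update_of_ne h']
  | max =>
    refine D.seq (t₁ := 1) (t₂ := 1) (D.op (D.op ⟨rfl, ?_, fun r h h' => ?_⟩))
    · simp only [Op.app, Fo.app, Function.update_self, Function.update_of_ne hab]
      rw [Nat.mod_eq_of_lt (show g b - g a < 2 ^ w by omega), Nat.mod_eq_of_lt (by omega)]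
      omega
    · simp only [Function.update_of_ne h, Function.update_of_ne h']

theorem comp_fo_le (f : Fo) (x y : ℕ) : f.app x y ≤ x + y := by
  cases f <;> simp only [Fo.app] <;> omega

theorem comp_fold_le (f : Fo) {x B : ℕ} {b : ℕ → ℕ} (hx : x ≤ B) (n : ℕ) (hb : ∀ i < n, b i ≤ B) :
    fold f.app x b n ≤ (n + 1) * B := by
  induction n with
  | zero => simpa [fold] using hx
  | succ n ih =>
    have h1 := ih fun i hi => hb i (by omega)
    have h2 := hb n (by omega)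
    have h3 := comp_fo_le f (fold f.app x b n) (b n)
    rw [fold, add_mul (n + 1) 1 B]
    omega

/-- A counted loop: counter in `b`, remaining rounds in `b + 1`, the number one in `b + 2`. -/
def compFor (b : ℕ) (p : Stmt) : Stmt :=
  .seq (.const b 0) (.seq (.const (b + 2) 1) (.loop (b + 1)
    (.seq p (.seq (.op .add b b (b + 2)) (.op .sub (b + 1) (b + 1) (b + 2))))))

theorem comp_for {w b N : ℕ} {p : Stmt} (J : ℕ → St → Prop) (t : ℕ → ℕ) (hN : N < 2 ^ w)
    (hw : 1 < 2 ^ w)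
    (hJ : ∀ i g g' m, (∀ r < b, g' r = g r) → J i (g, m) → J i (g', m))
    (hstep : ∀ i < N, ∀ g m, J i (g, m) → g b = i → D w p (t i) (g, m) fun s =>
      J (i + 1) s ∧ ∀ r, b ≤ r → r < b + 3 → s.1 r = g r)
    {g : ℕ → ℕ} {m : Mem} (hg : g (b + 1) = N) (h0 : J 0 (g, m)) :
    D w (compFor b p) (∑ i ∈ range N, (t i + 5) + 5) (g, m) (J N) := by
  have key := D.loop (w := w) (r := b + 1)
    (p := .seq p (.seq (.op .add b b (b + 2)) (.op .sub (b + 1) (b + 1) (b + 2)))) (Q := J N)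
    (fun j => t (N - 1 - j) + 4)
    (fun j s => j ≤ N ∧ s.1 (b + 1) = j ∧ s.1 b = N - j ∧ s.1 (b + 2) = 1 ∧ J (N - j) s)
    (fun j s h hc => by
      have e : j = 0 := h.2.1.symm.trans hc
      have h5 := h.2.2.2.2
      rwa [e] at h5)
    (fun s h => h.2.1)
    (fun j s h _ => by
      obtain ⟨g, m⟩ := s
      obtain ⟨h1, h2, h3, h4, h5⟩ := h
      have e : N - 1 - j = N - (j + 1) := by omega
      rw [e]
      refine D.seq (t₂ := 3) ((hstep _ (by omega) g m h5 h3).mono ?_)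
      rintro ⟨g', m'⟩ ⟨a1, a2⟩
      have b0 : g' b = N - (j + 1) := (a2 b le_rfl (by omega)).trans h3
      have b1 : g' (b + 1) = j + 1 := (a2 (b + 1) (by omega) (by omega)).trans h2
      have b2 : g' (b + 2) = 1 := (a2 (b + 2) (by omega) (by omega)).trans h4
      have n1 : b + 1 ≠ b := by omega
      have n2 : b + 2 ≠ b := by omega
      have n3 : b + 2 ≠ b + 1 := by omega
      refine D.seq (t₁ := 1) (t₂ := 1) (D.op (D.op ⟨by omega, ?_, ?_, ?_, ?_⟩))
      · simp only [Op.app, Function.update_self, Function.update_of_ne n1,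
          Function.update_of_ne n2, b1, b2]
        exact (Nat.mod_eq_of_lt (by omega)).trans (by omega)
      · simp only [Op.app, Function.update_self, Function.update_of_ne n1.symm, b0, b2]
        exact (Nat.mod_eq_of_lt (by omega)).trans (by omega)
      · simp only [Function.update_of_ne n2, Function.update_of_ne n3, b2]
      · have e2 : N - j = N - (j + 1) + 1 := by omega
        rw [e2]
        refine hJ _ g' _ m' (fun r hr => ?_) a1
        rw [Function.update_of_ne (by omega), Function.update_of_ne (by omega)])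
    N
  have e : ∑ j ∈ range N, (t (N - 1 - j) + 4 + 1) = ∑ i ∈ range N, (t i + 5) :=
    sum_range_reflect (fun i => t i + 5) N
  rw [e] at key
  refine D.time (D.seq (t₁ := 1) (D.const (D.seq (t₁ := 1) (D.const (key _
    ⟨le_rfl, ?_, ?_, ?_, ?_⟩))))) (by omega)
  · simp only [Function.update_of_ne (show b + 1 ≠ b + 2 by omega),
      Function.update_of_ne (show b + 1 ≠ b by omega), hg]
  · simp only [Function.update_of_ne (show b ≠ b + 2 by omega), Function.update_self,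
      Nat.zero_mod, Nat.sub_self]
  · simp only [Function.update_self, Nat.mod_eq_of_lt hw]
  · rw [Nat.sub_self]
    refine hJ _ g _ m (fun r hr => ?_) h0
    rw [Function.update_of_ne (by omega), Function.update_of_ne (by omega)]

/-- Correctness of the code of a term. -/
def CompT (t : Term) (d0 : ℕ) (ρ : ℕ → ℕ) (k : ℕ) (P : Stmt) (d : ℕ) : Prop :=
  ∀ (w V S : ℕ) (g : ℕ → ℕ) (m : Mem) (e : Env), 2 ≤ V → S ≤ V → V ^ d < 2 ^ w → Bd V S m →
    (∀ j, e j ≤ V ^ d0) → (∀ j, g (ρ j) = e j) →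
    t.eval m e ≤ V ^ d ∧ D w P (compU d S) (g, m) (CPost k (t.eval m e) g m)

theorem CompT.mono {t : Term} {d0 : ℕ} {ρ : ℕ → ℕ} {k : ℕ} {P : Stmt} {d d' : ℕ}
    (h : CompT t d0 ρ k P d) (hd : d ≤ d') : CompT t d0 ρ k P d' := by
  intro w V S g m e h1 h2 h3 h4 h5 h6
  obtain ⟨a1, a2⟩ := h w V S g m e h1 h2 ((comp_pow h1 hd).trans_lt h3) h4 h5 h6
  exact ⟨a1.trans (comp_pow h1 hd), a2.time (compU_mono hd S)⟩

theorem comp_cons_lt {ρ : ℕ → ℕ} {k a k' : ℕ} (h : ∀ j, ρ j < k) (h1 : k ≤ k') (h2 : a < k') :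
    ∀ j, cons a ρ j < k'
  | 0 => h2
  | j + 1 => (h j).trans_le h1

theorem comp_cons_le {e : Env} {a B : ℕ} (h : ∀ j, e j ≤ B) (h2 : a ≤ B) : ∀ j, cons a e j ≤ B
  | 0 => h2
  | j + 1 => h j

theorem comp_cons_eq {ρ g : ℕ → ℕ} {e : Env} {a x : ℕ} (h : ∀ j, g (ρ j) = e j) (h2 : g a = x) :
    ∀ j, g (cons a ρ j) = cons x e j
  | 0 => h2
  | j + 1 => h j

theorem comp_op {o : Op} {x y : Term} {d0 : ℕ} {ρ : ℕ → ℕ} {k : ℕ} {P Q : Stmt} {d : ℕ}
    (hρ : ∀ j, ρ j < k) (hx : CompT x d0 ρ k P d) (hy : CompT y d0 ρ (k + 1) Q d) :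
    CompT (.op o x y) d0 ρ k (.seq P (.seq Q (.op o k k (k + 1)))) (2 * d + 3) := by
  intro w V S g m e h1 h2 h3 h4 h5 h6
  have h3' := (comp_pow h1 (show d ≤ 2 * d + 3 by omega)).trans_lt h3
  obtain ⟨a1, a2⟩ := hx w V S g m e h1 h2 h3' h4 h5 h6
  have b1 := (hy w V S g m e h1 h2 h3' h4 h5 h6).1
  have hv : o.app (x.eval m e) (y.eval m e) ≤ V ^ (2 * d + 3) := by
    have c1 := comp_pow h1 (show d + 1 ≤ 2 * d + 3 by omega)
    have c2 := comp_pow h1 (show d + d ≤ 2 * d + 3 by omega)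
    have c3 : V ^ d * 2 ≤ V ^ (d + 1) := by
      rw [pow_succ]
      exact Nat.mul_le_mul_left _ h1
    have c4 := Nat.mul_le_mul a1 b1
    have c5 := Nat.div_le_self (x.eval m e) (y.eval m e)
    rw [← pow_add] at c4
    cases o <;> simp only [Op.app] <;> omega
  refine ⟨hv, D.time (comp_seq a2 fun g' e1 e2 => comp_seq
    (hy w V S g' m e h1 h2 h3' h4 h5 fun j => (e2 _ (hρ j)).trans (h6 j)).2
    fun g'' e3 e4 => D.op ?_) ?_⟩
  · rw [e4 k (by omega), e1, e3, Nat.mod_eq_of_lt (hv.trans_lt h3)]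
    exact comp_upd fun r hr => (e4 r (by omega)).trans (e2 r hr)
  · have := compU_lin 2 d 3 S (D := 2 * d + 3) le_rfl (by omega)
    omega

theorem comp_cond {c x y : Term} {d0 : ℕ} {ρ : ℕ → ℕ} {k : ℕ} {C P Q : Stmt} {d : ℕ}
    (hρ : ∀ j, ρ j < k) (hc : CompT c d0 ρ k C d) (hx : CompT x d0 ρ k P d)
    (hy : CompT y d0 ρ k Q d) :
    CompT (.cond c x y) d0 ρ k (.seq C (.ite k P Q)) (2 * d + 2) := by
  intro w V S g m e h1 h2 h3 h4 h5 h6
  have hd := comp_pow h1 (show d ≤ 2 * d + 2 by omega)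
  have h3' := hd.trans_lt h3
  have a2 := (hc w V S g m e h1 h2 h3' h4 h5 h6).2
  have ht := compU_lin 2 d 2 S (D := 2 * d + 2) le_rfl (by omega)
  rw [Term.eval]
  split_ifs with h0
  · refine ⟨(hy w V S g m e h1 h2 h3' h4 h5 h6).1.trans hd, D.time (comp_seq a2 fun g' e1 e2 =>
      D.ite_neg (e1.trans h0) ((hy w V S g' m e h1 h2 h3' h4 h5
        fun j => (e2 _ (hρ j)).trans (h6 j)).2.mono fun s hs =>
          ⟨hs.1, hs.2.1, fun r hr => (hs.2.2 r hr).trans (e2 r hr)⟩)) (by omega)⟩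
  · refine ⟨(hx w V S g m e h1 h2 h3' h4 h5 h6).1.trans hd, D.time (comp_seq a2 fun g' e1 e2 =>
      D.ite_pos (fun h => h0 (e1.symm.trans h)) ((hx w V S g' m e h1 h2 h3' h4 h5
        fun j => (e2 _ (hρ j)).trans (h6 j)).2.mono fun s hs =>
          ⟨hs.1, hs.2.1, fun r hr => (hs.2.2 r hr).trans (e2 r hr)⟩)) (by omega)⟩

theorem comp_push {x y : Term} {d0 : ℕ} {ρ : ℕ → ℕ} {k : ℕ} {P Q : Stmt} {d1 d : ℕ}
    (hρ : ∀ j, ρ j < k) (hx : CompT x d0 ρ k P d1) (hd : d1 ≤ d)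
    (hy : CompT y (d0 + d1) (cons k ρ) (k + 1) Q d) :
    CompT (.push x y) d0 ρ k (.seq P (.seq Q (compCp k (k + 1)))) (2 * d + 5) := by
  intro w V S g m e h1 h2 h3 h4 h5 h6
  have hd' := comp_pow h1 (show d ≤ 2 * d + 5 by omega)
  have h3' := hd'.trans_lt h3
  obtain ⟨a1, a2⟩ := hx w V S g m e h1 h2 ((comp_pow h1 hd).trans_lt h3') h4 h5 h6
  have he : ∀ j, cons (x.eval m e) e j ≤ V ^ (d0 + d1) :=
    comp_cons_le (fun j => (h5 j).trans (comp_pow h1 (by omega))) (a1.trans (comp_pow h1 (by omega)))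
  have key : ∀ g' : ℕ → ℕ, g' k = x.eval m e → (∀ r < k, g' r = g r) → _ := fun g' e1 e2 =>
    hy w V S g' m _ h1 h2 h3' h4 he (comp_cons_eq (fun j => (e2 _ (hρ j)).trans (h6 j)) e1)
  have b1 := (key (Function.update g k (x.eval m e)) (Function.update_self _ _ _)
    fun r hr => Function.update_of_ne hr.ne _ _).1
  rw [Term.eval]
  refine ⟨b1.trans hd', D.time (comp_seq a2 fun g' e1 e2 => comp_seq (key g' e1 e2).2
    fun g'' e3 e4 => comp_cp (by omega) (by rw [e3]; exact b1.trans_lt h3') ?_) ?_⟩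
  · rw [e3]
    exact comp_upd fun r hr => (e4 r (by omega)).trans (e2 r hr)
  · have := compU_lin 2 d 5 S (D := 2 * d + 5) le_rfl (by omega)
    have := compU_mono hd S
    omega

theorem comp_loop {f : Fo} {n : ℕ} {x y : Term} {d0 : ℕ} {ρ : ℕ → ℕ} {k : ℕ} {P Q : Stmt} {d : ℕ}
    (hρ : ∀ j, ρ j < k) (hn : n ≤ d) (hx : CompT x d0 ρ k P d)
    (hy : CompT y (d0 + 1) (cons (k + 1) ρ) (k + 4) Q d) :
    CompT (.loop f n x y) d0 ρ k (.seq P (.seq (.const (k + 2) n) (.seq (.load (k + 2) 5 (k + 2))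
      (compFor (k + 1) (.seq Q (compFo f k (k + 4))))))) (d + 11) := by
  intro w V S g m e h1 h2 h3 h4 h5 h6
  have h3' := (comp_pow h1 (show d ≤ d + 11 by omega)).trans_lt h3
  have hV : V < 2 ^ w := (comp_self h1).trans_lt h3
  obtain ⟨a1, a2⟩ := hx w V S g m e h1 h2 h3' h4 h5 h6
  have hN : m 5 n ≤ S := h4.2 n
  have key : ∀ i < m 5 n, ∀ g' : ℕ → ℕ, g' (k + 1) = i → (∀ r < k, g' r = g r) → _ :=
    fun i hi g' e1 e2 => hy w V S g' m (cons i e) h1 h2 h3' h4
      (comp_cons_le (fun j => (h5 j).trans (comp_pow h1 (by omega)))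
        (le_trans (by omega) (comp_self h1)))
      (comp_cons_eq (fun j => (e2 _ (hρ j)).trans (h6 j)) e1)
  have b1 : ∀ i < m 5 n, y.eval m (cons i e) ≤ V ^ d := fun i hi =>
    (key i hi (Function.update g (k + 1) i) (Function.update_self _ _ _)
      fun r hr => Function.update_of_ne (by omega) _ _).1
  have b2 : ∀ i ≤ m 5 n, (i + 1) * V ^ d ≤ V ^ (d + 11) := fun i hi => by
    refine le_trans ?_ (comp_pow h1 (show 2 + d ≤ d + 11 by omega))
    rw [pow_add]
    refine Nat.mul_le_mul_right _ ?_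
    have := Nat.mul_le_mul_left V h1
    rw [pow_two]
    omega
  rw [Term.eval]
  refine ⟨(comp_fold_le f a1 _ b1).trans (b2 _ le_rfl), D.time (comp_seq a2 fun g' e1 e2 =>
    D.seq (t₁ := 1) (D.const (D.seq (t₁ := 1) (D.load (comp_for (N := m 5 n)
      (fun i => CPost k (fold f.app (x.eval m e) (fun i => y.eval m (cons i e)) i) g m)
      (fun _ => compU d S + 4) (by omega) (by omega) ?_ ?_ ?_ ?_))))) ?_⟩
  · intro i g1 g2 m1 c1 c2
    exact ⟨c2.1, (c1 k (by omega)).trans c2.2.1, fun r hr => (c1 r (by omega)).trans (c2.2.2 r hr)⟩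
  · rintro i hi g1 m1 ⟨c1, c2, c3⟩ c4
    have c0 : m1 = m := c1
    subst c0
    have c5 : g1 k = fold f.app (x.eval m1 e) (fun i => y.eval m1 (cons i e)) i := c2
    refine comp_seq (t₂ := 3) (key i hi g1 c4 c3).2 fun g2 e3 e4 => (comp_fo f (by omega) ?_).mono ?_
    · have c6 := comp_fold_le f a1 i fun j hj => b1 j (by omega)
      have c7 := b1 i hi
      have c8 := b2 (i + 1) hi
      rw [add_mul (i + 1) 1] at c8
      rw [e4 k (by omega), c5, e3]
      omega
    · rintro s ⟨s1, s2, s3⟩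
      refine ⟨⟨s1, ?_, fun r hr => ?_⟩, fun r r1 r2 => ?_⟩
      · rw [s2, e4 k (by omega), c5, e3, fold]
      · exact (s3 r (by omega) (by omega)).trans ((e4 r (by omega)).trans (c3 r hr))
      · exact (s3 r (by omega) (by omega)).trans (e4 r (by omega))
  · have c1 : n < 2 ^ w := ((comp_const h1 n).trans (comp_pow h1 hn)).trans_lt h3'
    simp only [Function.update_self, Nat.mod_eq_of_lt c1]
  · refine ⟨rfl, ?_, fun r hr => ?_⟩
    · simp only [Function.update_of_ne (show k ≠ k + 2 by omega), e1, fold]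
    · simp only [Function.update_of_ne (show r ≠ k + 2 by omega), e2 r hr]
  · rw [sum_const, card_range, smul_eq_mul]
    have c1 := compU_add d 10 S
    have c2 := compU_succ (d + 10) S
    have c3 : m 5 n * (compU d S + 4 + 5) ≤ S * compU (d + 10) S :=
      Nat.mul_le_mul hN (by omega)
    rw [add_mul, one_mul] at c2
    have c4 : d + 10 + 1 = d + 11 := rfl
    rw [c4] at c2
    omega

theorem comp_term (t : Term) : ∀ (d0 : ℕ) (ρ : ℕ → ℕ) (k : ℕ), (∀ j, ρ j < k) →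
    ∃ P d, CompT t d0 ρ k P d := by
  induction t with
  | const c =>
    intro d0 ρ k _
    refine ⟨.const k c, c + 1, fun w V S g m e h1 _ h3 _ _ _ => ?_⟩
    have h : c ≤ V ^ (c + 1) := (comp_const h1 c).trans (comp_pow h1 (by omega))
    refine ⟨h, D.time (D.const ?_) ?_⟩
    · rw [Nat.mod_eq_of_lt (h.trans_lt h3)]
      exact comp_upd fun _ _ => rfl
    · have := compU_add c 1 S
      omega
  | var i =>
    intro d0 ρ k hρ
    refine ⟨compCp k (ρ i), d0 + 3, fun w V S g m e h1 _ h3 _ h5 h6 => ?_⟩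
    have h : e i ≤ V ^ (d0 + 3) := (h5 i).trans (comp_pow h1 (by omega))
    refine ⟨h, D.time (comp_cp (hρ i).ne (by rw [h6]; exact h.trans_lt h3) ?_) ?_⟩
    · rw [h6]
      exact comp_upd fun _ _ => rfl
    · have := compU_add d0 3 S
      omega
  | get a i ih =>
    intro d0 ρ k hρ
    obtain ⟨P, d, h⟩ := ih d0 ρ k hρ
    refine ⟨.seq P (.load k a k), d + 2, fun w V S g m e h1 h2 h3 h4 h5 h6 => ?_⟩
    refine ⟨(h4.1 _ _).trans (comp_self h1), D.time (comp_seq
      (h w V S g m e h1 h2 ((comp_pow h1 (by omega)).trans_lt h3) h4 h5 h6).2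
      fun g' e1 e2 => D.load ?_) (compU_add d 2 S)⟩
    rw [e1]
    exact comp_upd e2
  | op o x y ihx ihy =>
    intro d0 ρ k hρ
    obtain ⟨P, d, h⟩ := ihx d0 ρ k hρ
    obtain ⟨Q, d', h'⟩ := ihy d0 ρ (k + 1) fun j => (hρ j).trans (by omega)
    exact ⟨_, _, comp_op hρ (h.mono (Nat.le_add_right d d')) (h'.mono (Nat.le_add_left d' d))⟩
  | cond c x y ihc ihx ihy =>
    intro d0 ρ k hρ
    obtain ⟨C, d, h⟩ := ihc d0 ρ k hρ
    obtain ⟨P, d', h'⟩ := ihx d0 ρ k hρ
    obtain ⟨Q, d'', h''⟩ := ihy d0 ρ k hρ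
    exact ⟨_, _, comp_cond (d := d + d' + d'') hρ (h.mono (by omega)) (h'.mono (by omega))
      (h''.mono (by omega))⟩
  | push x y ihx ihy =>
    intro d0 ρ k hρ
    obtain ⟨P, d, h⟩ := ihx d0 ρ k hρ
    obtain ⟨Q, d', h'⟩ := ihy (d0 + d) (cons k ρ) (k + 1) (comp_cons_lt hρ (by omega) (by omega))
    exact ⟨_, _, comp_push hρ h (Nat.le_add_right d d') (h'.mono (Nat.le_add_left d' d))⟩
  | ren σ y ih =>
    intro d0 ρ k hρ
    obtain ⟨P, d, h⟩ := ih d0 (fun j => ρ (σ j)) k fun j => hρ _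
    exact ⟨P, d, fun w V S g m e h1 h2 h3 h4 h5 h6 =>
      h w V S g m (fun j => e (σ j)) h1 h2 h3 h4 (fun _ => h5 _) fun _ => h6 _⟩
  | loop f n x y ihx ihy =>
    intro d0 ρ k hρ
    obtain ⟨P, d, h⟩ := ihx d0 ρ k hρ
    obtain ⟨Q, d', h'⟩ := ihy (d0 + 1) (cons (k + 1) ρ) (k + 4)
      (comp_cons_lt hρ (by omega) (by omega))
    exact ⟨_, _, comp_loop (d := d + d' + n) hρ (by omega) (h.mono (by omega))
      (h'.mono (by omega))⟩

theorem comp_ticks (c : Cmd) : ∀ (e : Env) (m : Mem), 1 ≤ c.ticks e m := by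
  induction c with
  | wr a i v => exact fun _ _ => le_rfl
  | seq p q ihp _ => exact fun e m => (ihp e m).trans (Nat.le_add_right _ _)
  | when c p _ => exact fun _ _ => Nat.le_add_right _ _
  | rep n p _ => exact fun _ _ => Nat.le_add_right _ _

/-- Correctness of the code of a command. -/
def CompC (c : Cmd) (ρ : ℕ → ℕ) (k : ℕ) (P : Stmt) (d : ℕ) : Prop :=
  ∀ (w V S : ℕ) (g : ℕ → ℕ) (m : Mem) (e : Env), 2 ≤ V → S ≤ V → V ^ d < 2 ^ w → Bd V S m →
    c.safe V S e m → (∀ j, e j ≤ V ^ 1) → (∀ j, g (ρ j) = e j) →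
    D w P (c.ticks e m * compU d S) (g, m) fun s => s.2 = c.exec e m ∧ ∀ r < k, s.1 r = g r

theorem CompC.mono {c : Cmd} {ρ : ℕ → ℕ} {k : ℕ} {P : Stmt} {d d' : ℕ}
    (h : CompC c ρ k P d) (hd : d ≤ d') : CompC c ρ k P d' :=
  fun w V S g m e h1 h2 h3 h4 h5 h6 h7 =>
    (h w V S g m e h1 h2 ((comp_pow h1 hd).trans_lt h3) h4 h5 h6 h7).time
      (Nat.mul_le_mul_left _ (compU_mono hd S))

theorem comp_time {a u u' c : ℕ} (ha : 1 ≤ a) (h : u + c ≤ u') : a * u + c ≤ a * u' := by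
  have h1 := Nat.mul_le_mul_left a h
  have h2 := Nat.mul_le_mul_right c ha
  rw [mul_add] at h1
  omega

theorem comp_rep {n : Term} {p : Cmd} {ρ : ℕ → ℕ} {k : ℕ} {P Q : Stmt} {d : ℕ}
    (hρ : ∀ j, ρ j < k) (hn : CompT n 1 ρ (k + 1) P d) (hp : CompC p (cons k ρ) (k + 3) Q d) :
    CompC (.rep n p) ρ k (.seq P (compFor k Q)) (d + 6) := by
  intro w V S g m e h1 h2 h3 h4 h5 h6 h7
  have h3' := (comp_pow h1 (show d ≤ d + 6 by omega)).trans_lt h3
  have hV : V < 2 ^ w := (comp_self h1).trans_lt h3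
  have hN : n.eval m e ≤ V := h5.1
  have hB : ∀ j ≤ n.eval m e, Bd V S (iter (fun j => p.exec (cons j e)) m j) := by
    intro j
    induction j with
    | zero => exact fun _ => h4
    | succ j ih => exact fun hj => (ih (by omega)).exec (h5.2 j hj)
  refine D.time (comp_seq (hn w V S g m e h1 h2 h3' h4 h6 h7).2 fun g' e1 e2 =>
    comp_for (N := n.eval m e)
      (fun i s => s.2 = iter (fun j => p.exec (cons j e)) m i ∧ ∀ r < k, s.1 r = g r)
      (fun i => p.ticks (cons i e) (iter (fun j => p.exec (cons j e)) m i) * compU d S)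
      (by omega) (by omega) ?_ ?_ e1 ⟨rfl, fun r hr => e2 r (by omega)⟩) ?_
  · intro i g1 g2 m1 c1 c2
    exact ⟨c2.1, fun r hr => (c1 r hr).trans (c2.2 r hr)⟩
  · rintro i hi g1 m1 ⟨c1, c2⟩ c3
    have c0 : m1 = iter (fun j => p.exec (cons j e)) m i := c1
    subst c0
    refine (hp w V S g1 _ (cons i e) h1 h2 h3' (hB i hi.le) (h5.2 i hi)
      (comp_cons_le h6 (by rw [pow_one]; omega))
      (comp_cons_eq (fun j => (c2 _ (hρ j)).trans (h7 j)) c3)).mono ?_
    rintro s ⟨s1, s2⟩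
    exact ⟨⟨s1, fun r hr => (s2 r (by omega)).trans (c2 r hr)⟩, fun r _ r2 => s2 r r2⟩
  · have c1 := compU_add d 6 S
    rw [Cmd.ticks, add_mul, one_mul, sum_mul]
    have c2 : ∑ i ∈ range (n.eval m e),
        (p.ticks (cons i e) (iter (fun j => p.exec (cons j e)) m i) * compU d S + 5) ≤
        ∑ i ∈ range (n.eval m e),
          (1 + p.ticks (cons i e) (iter (fun j => p.exec (cons j e)) m i)) * compU (d + 6) S :=
      sum_le_sum fun i _ => by
        have := Nat.mul_le_mul_left (p.ticks (cons i e) (iter (fun j => p.exec (cons j e)) m i))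
          (show compU d S ≤ compU (d + 6) S by omega)
        rw [add_mul, one_mul]
        omega
    omega

theorem comp_cmd (c : Cmd) : ∀ (ρ : ℕ → ℕ) (k : ℕ), (∀ j, ρ j < k) → ∃ P d, CompC c ρ k P d := by
  induction c with
  | wr a i v =>
    intro ρ k hρ
    obtain ⟨P, d, h⟩ := comp_term i 1 ρ k hρ
    obtain ⟨Q, d', h'⟩ := comp_term v 1 ρ (k + 1) fun j => (hρ j).trans (by omega)
    refine ⟨.seq P (.seq Q (.store a k (k + 1))), d + d' + (d + d') + 3,
      fun w V S g m e h1 h2 h3 h4 _ h6 h7 => ?_⟩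
    refine D.time (comp_seq
      (h w V S g m e h1 h2 ((comp_pow h1 (by omega)).trans_lt h3) h4 h6 h7).2 fun g' e1 e2 =>
      comp_seq (h' w V S g' m e h1 h2 ((comp_pow h1 (by omega)).trans_lt h3) h4 h6
        fun j => (e2 _ (hρ j)).trans (h7 j)).2 fun g'' e3 e4 =>
        D.store ⟨?_, fun r hr => (e4 r (by omega)).trans (e2 r hr)⟩) ?_
    · rw [e4 k (by omega), e1, e3]
      rfl
    · have c1 := compU_lin 2 (d + d') 3 S (D := d + d' + (d + d') + 3) (by omega) (by omega)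
      have c2 := compU_mono (Nat.le_add_right d d') S
      have c3 := compU_mono (Nat.le_add_left d' d) S
      rw [Cmd.ticks]
      omega
  | seq p q ihp ihq =>
    intro ρ k hρ
    obtain ⟨P, d, h⟩ := ihp ρ k hρ
    obtain ⟨Q, d', h'⟩ := ihq ρ k hρ
    refine ⟨.seq P Q, d + d' + 1, fun w V S g m e h1 h2 h3 h4 h5 h6 h7 => ?_⟩
    have h3' := (comp_pow h1 (show d + d' ≤ d + d' + 1 by omega)).trans_lt h3
    refine D.time (D.seq (t₂ := q.ticks e (p.exec e m) * compU (d + d') S)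
      ((h.mono (Nat.le_add_right d d') w V S g m e h1 h2 h3' h4 h5.1 h6 h7).mono ?_)) ?_
    · rintro ⟨g', m'⟩ ⟨e1, e2⟩
      have e0 : m' = p.exec e m := e1
      subst e0
      exact (h'.mono (Nat.le_add_left d' d) w V S g' _ e h1 h2 h3' (h4.exec h5.1) h5.2 h6
        fun j => (e2 _ (hρ j)).trans (h7 j)).mono fun s hs =>
          ⟨hs.1, fun r hr => (hs.2 r hr).trans (e2 r hr)⟩
    · rw [← add_mul]
      exact comp_time (comp_ticks (.seq p q) e m) (compU_add _ 1 S)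
  | when c p ih =>
    intro ρ k hρ
    obtain ⟨C, d, h⟩ := comp_term c 1 ρ k hρ
    obtain ⟨P, d', h'⟩ := ih ρ k hρ
    refine ⟨.seq C (.ite k P (.const k 0)), d + d' + 3, fun w V S g m e h1 h2 h3 h4 h5 h6 h7 => ?_⟩
    have h3' := (comp_pow h1 (show d + d' ≤ d + d' + 3 by omega)).trans_lt h3
    have a := (h.mono (Nat.le_add_right d d') w V S g m e h1 h2 h3' h4 h6 h7).2
    have c1 := compU_add (d + d') 3 S
    rw [Cmd.ticks, Cmd.exec]
    split_ifs with h0
    · refine D.time (comp_seq a fun g' e1 e2 => D.ite_neg (e1.trans h0) (D.const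
        ⟨rfl, fun r hr => (Function.update_of_ne hr.ne _ _).trans (e2 r hr)⟩)) (by omega)
    · refine D.time (comp_seq a fun g' e1 e2 => D.ite_pos (fun h => h0 (e1.symm.trans h))
        ((h'.mono (Nat.le_add_left d' d) w V S g' m e h1 h2 h3' h4 (h5 h0) h6
          fun j => (e2 _ (hρ j)).trans (h7 j)).mono fun s hs =>
            ⟨hs.1, fun r hr => (hs.2 r hr).trans (e2 r hr)⟩)) ?_
      have := Nat.mul_le_mul_left (p.ticks e m)
        (show compU (d + d') S ≤ compU (d + d' + 3) S by omega)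
      rw [add_mul, one_mul]
      omega
  | rep n p ih =>
    intro ρ k hρ
    obtain ⟨P, d, h⟩ := comp_term n 1 ρ (k + 1) fun j => (hρ j).trans (by omega)
    obtain ⟨Q, d', h'⟩ := ih (cons k ρ) (k + 3) (comp_cons_lt hρ (by omega) (by omega))
    exact ⟨_, _, comp_rep hρ (h.mono (Nat.le_add_right d d')) (h'.mono (Nat.le_add_left d' d))⟩

theorem compile (c : Cmd) : ∃ (P : Stmt) (deg : ℕ), ∀ (w V S : ℕ) (g : ℕ → ℕ) (m : Mem),
    2 ≤ V → S ≤ V → V ^ deg < 2 ^ w → Bd V S m → c.safe V S (fun _ => 0) m →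
    D w P (c.ticks (fun _ => 0) m * deg * (S + 1) ^ deg) (g, m)
      fun s => s.2 = c.exec (fun _ => 0) m := by
  obtain ⟨P, d, h⟩ := comp_cmd c (fun _ => 0) 1 fun _ => Nat.one_pos
  refine ⟨.seq (.const 0 0) P, d + 2, fun w V S g m h1 h2 h3 h4 h5 => ?_⟩
  refine D.time (D.seq (t₁ := 1) (D.const ((h w V S _ m (fun _ => 0) h1 h2
    ((comp_pow h1 (by omega)).trans_lt h3) h4 h5 (fun _ => Nat.zero_le _) fun _ => ?_).mono
      fun s hs => hs.1))) ?_
  · simp only [Function.update_self, Nat.zero_mod]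
  · have := comp_time (comp_ticks c (fun _ => 0) m) (compU_add d 2 S)
    rw [mul_assoc]
    unfold compU at this ⊢
    omega

end Vale.Agent.P315
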