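import Vale.Agent.P315.ParD

/-! Size relations of the concrete parameters. -/

namespace Vale.Agent.P315

theorem na_pow {w : ℕ} (h : 200 ≤ w) : w ^ 12 ≤ 2 ^ w ^ 4 := by
  have h1 : w ≤ 2 ^ w := Nat.lt_two_pow_self.le
  have h2 : w ^ 12 ≤ (2 ^ w) ^ 12 := Nat.pow_le_pow_left h1 12
  have h3 : w * 12 ≤ w ^ 4 := by
    have : 12 ≤ w ^ 3 := le_trans (by norm_num) (Nat.pow_le_pow_left h 3)
    calc w * 12 ≤ w * w ^ 3 := Nat.mul_le_mul_left _ this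
      _ = w ^ 4 := by ring
  rw [← pow_mul] at h2
  exact h2.trans (Nat.pow_le_pow_right (by norm_num) h3)

theorem na_mono {w : ℕ} (h : 200 ≤ w) (j : ℕ) : 200 * w ^ j ≤ w ^ (j + 1) := by
  rw [pow_succ, mul_comm]
  exact Nat.mul_le_mul_left _ h

theorem na_succ {w : ℕ} (h : 200 ≤ w) : 40 * (w + 1) ^ 4 ≤ 41 * w ^ 4 := by
  have h0 := na_mono h 0
  have h1 := na_mono h 1
  have h2 := na_mono h 2
  have h3 := na_mono h 3
  have e : (w + 1) ^ 4 = w ^ 4 + 4 * w ^ 3 + 6 * w ^ 2 + 4 * w ^ 1 + w ^ 0 := by ring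
  rw [e]
  norm_num at h0 h1 h2 h3 ⊢
  omega

theorem na_lt (n : ℕ) : n + 2 < 2 ^ kk n :=
  Nat.lt_pow_succ_log_self (by norm_num) _

theorem na_le (n : ℕ) : 2 ^ kk n ≤ 2 * (n + 2) := by
  unfold kk
  rw [pow_succ, mul_comm]
  exact Nat.mul_le_mul_left _ (Nat.pow_log_le_self 2 (by omega))

theorem na_klt (n : ℕ) : kk n < 2 ^ ll n :=
  Nat.lt_pow_succ_log_self (by norm_num) _

theorem na_kge (n : ℕ) : 2 ^ ll n ≤ 2 * kk n := by
  unfold ll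
  rw [pow_succ, mul_comm]
  exact Nat.mul_le_mul_left _ (Nat.pow_log_le_self 2 (by unfold kk; omega))

theorem na_lgt {n : ℕ} (h : 200 ≤ ww n) : 40 * ww n ^ 4 < ll n :=
  Nat.findGreatest_of_ne_zero (P := fun j => 40 * j ^ 4 < ll n) (n := ll n) (m := ww n) rfl
    (by omega)

theorem na_lle {n : ℕ} (h : 200 ≤ ww n) : ll n ≤ 41 * ww n ^ 4 := by
  have h1 := na_lgt h
  have h2 : ww n ≤ ww n ^ 4 := Nat.le_self_pow (by norm_num) _
  have h3 : ¬ 40 * (ww n + 1) ^ 4 < ll n :=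
    Nat.findGreatest_is_greatest (P := fun j => 40 * j ^ 4 < ll n) (n := ll n) (k := ww n + 1)
      (Nat.lt_succ_self _) (by omega)
  have h4 := na_succ h
  omega

theorem na_k {n : ℕ} (h : 200 ≤ ww n) : 2 ^ (40 * ww n ^ 4) ≤ kk n := by
  have h1 := na_lgt h
  have h2 := na_kge n
  have h3 : 2 ^ (40 * ww n ^ 4 + 1) ≤ 2 ^ ll n := Nat.pow_le_pow_right (by norm_num) h1
  rw [pow_succ] at h3
  omega

theorem na_div {w k j : ℕ} (h : 200 ≤ w) (hk : 2 ^ (40 * w ^ 4) ≤ k) (hj : j ≤ 12) :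
    2 ^ (39 * w ^ 4) ≤ k / w ^ j := by
  have h0 : 0 < w ^ j := by positivity
  rw [Nat.le_div_iff_mul_le h0]
  have h1 : w ^ j ≤ w ^ 12 := Nat.pow_le_pow_right (by omega) hj
  calc 2 ^ (39 * w ^ 4) * w ^ j ≤ 2 ^ (39 * w ^ 4) * 2 ^ w ^ 4 :=
        Nat.mul_le_mul_left _ (h1.trans (na_pow h))
    _ = 2 ^ (40 * w ^ 4) := by rw [← pow_add]; ring_nf
    _ ≤ k := hk

theorem na_big {w : ℕ} (h : 200 ≤ w) : w ^ 12 ≤ 2 ^ (39 * w ^ 4) :=
  (na_pow h).trans (Nat.pow_le_pow_right (by norm_num) (by omega))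

theorem na_xs {w k l : ℕ} (h : 200 ≤ w) (hk : 2 ^ (40 * w ^ 4) ≤ k) (hl : l ≤ 41 * w ^ 4) :
    4 * l * ((k / w ^ 4 + 1) / w + 1) + 2 * l + 3 * w ^ 3 * (k / w ^ 4 + 1) ≤ 170 * (k / w) := by
  have hw : 0 < w := by omega
  have h1 : (k / w ^ 4 + 1) / w ≤ k / w ^ 4 / w + 1 := by
    calc (k / w ^ 4 + 1) / w ≤ (k / w ^ 4 + w) / w := Nat.div_le_div_right (by omega)
      _ = k / w ^ 4 / w + 1 := Nat.add_div_right _ hw
  have h2 : w ^ 4 * (k / w ^ 4 / w) ≤ k / w := by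
    rw [Nat.div_div_eq_div_mul, mul_comm (w ^ 4) w, ← Nat.div_div_eq_div_mul]
    exact Nat.mul_div_le _ _
  have h3 : w ^ 3 * (k / w ^ 4) ≤ k / w := by
    rw [show w ^ 4 = w * w ^ 3 by ring, ← Nat.div_div_eq_div_mul]
    exact Nat.mul_div_le _ _
  have h4 : w ^ 12 ≤ k / w := by
    have := na_div h hk (j := 1) (by norm_num)
    rw [pow_one] at this
    exact (na_big h).trans this
  have h5 : w ^ 5 ≤ w ^ 12 := Nat.pow_le_pow_right hw (by norm_num)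
  have h6 := na_mono h 3
  have h7 := na_mono h 4
  have h8 : 4 * l * ((k / w ^ 4 + 1) / w + 1) ≤ 4 * l * (k / w ^ 4 / w) + 8 * l := by
    calc 4 * l * ((k / w ^ 4 + 1) / w + 1) ≤ 4 * l * (k / w ^ 4 / w + 2) :=
          Nat.mul_le_mul_left _ (by omega)
      _ = _ := by ring
  have h9 : 4 * l * (k / w ^ 4 / w) ≤ 164 * (k / w) := by
    calc 4 * l * (k / w ^ 4 / w) ≤ 4 * (41 * w ^ 4) * (k / w ^ 4 / w) :=
          Nat.mul_le_mul_right _ (Nat.mul_le_mul_left _ hl)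
      _ = 164 * (w ^ 4 * (k / w ^ 4 / w)) := by ring
      _ ≤ _ := Nat.mul_le_mul_left _ h2
  have h10 : 3 * w ^ 3 * (k / w ^ 4 + 1) = 3 * (w ^ 3 * (k / w ^ 4)) + 3 * w ^ 3 := by ring
  norm_num at h6 h7
  omega

theorem sz_of {n : ℕ} (h : 200 ≤ ww n) : Sz n := by
  have hk := na_k h
  have hl := na_lle h
  have hw : 0 < ww n := by omega
  have p3 : 0 < ww n ^ 3 := by positivity
  have p4 : 0 < ww n ^ 4 := by positivity
  have p6 : 0 < ww n ^ 6 := by positivity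
  have hb : ww n ^ 12 ≤ kk n := by
    have := na_div h hk (j := 0) (by norm_num)
    rw [pow_zero, Nat.div_one] at this
    exact (na_big h).trans this
  have m0 := na_mono h 0
  have m3 := na_mono h 3
  have m4 := na_mono h 4
  have m5 := na_mono h 5
  have m6 : ww n ^ 6 ≤ ww n ^ 12 := Nat.pow_le_pow_right hw (by norm_num)
  have m7 : ww n ≤ ww n ^ 4 := Nat.le_self_pow (by norm_num) _
  norm_num at m3 m4 m5
  have hxs : xs n ≤ 170 * (kk n / ww n) := na_xs h hk hl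
  have hxs' : xs n ≤ kk n := by
    calc xs n ≤ 170 * (kk n / ww n) := hxs
      _ ≤ ww n * (kk n / ww n) := Nat.mul_le_mul_right _ (by omega)
      _ ≤ kk n := Nat.mul_div_le _ _
  have hd : ww n ^ 4 * (kk n / ww n ^ 4) ≤ kk n := Nat.mul_div_le _ _
  have hd' : 200 * (kk n / ww n ^ 4) ≤ kk n :=
    (Nat.mul_le_mul_right _ (by omega)).trans hd
  have hlP : lP n ≤ kk n + ww n ^ 4 := by
    unfold lP hh
    rw [mul_add, mul_one]
    omega
  refine ⟨h, hk, na_klt n, na_kge n, na_lgt h, hl, na_lt n, ?_, hlP, hxs, hxs', ?_, ?_, ?_, ?_,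
    ?_, ?_, ?_, ?_⟩
  · exact (Nat.lt_mul_div_succ _ p4).le
  · unfold lU ff
    have := Nat.mul_div_le (lP n - 0 + xs n) (ww n ^ 3)
    rw [mul_add, mul_one]
    omega
  · unfold lU ff
    have := Nat.lt_mul_div_succ (lP n - 0 + xs n) p3
    omega
  · intro ρ
    unfold ff
    exact Nat.succ_le_succ (Nat.div_le_div_right (by omega))
  · unfold hh
    omega
  · exact (Nat.lt_mul_div_succ _ p6).le
  · have h1 := na_div h hk (j := 10) (by norm_num)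
    have h2 : kk n / ww n ^ 10 = kk n / ww n ^ 4 / ww n ^ 6 := by
      rw [Nat.div_div_eq_div_mul, ← pow_add]
    have h3 : kk n / ww n ^ 4 / ww n ^ 6 ≤ hh n / ww n ^ 6 :=
      Nat.div_le_div_right (Nat.le_succ _)
    unfold tau
    omega
  · have h1 : ww n ^ 5 * (hh n / ww n ^ 6) ≤ hh n :=
      (Nat.mul_le_mul_right _ (Nat.pow_le_pow_right hw (by norm_num))).trans (Nat.mul_div_le _ _)
    have h2 : tau n * ww n ^ 5 = ww n ^ 5 * (hh n / ww n ^ 6) + ww n ^ 5 := by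
      unfold tau
      ring
    have h3 : tau n ≤ tau n * ww n ^ 5 := Nat.le_mul_of_pos_right _ (by positivity)
    have h4 : hh n = kk n / ww n ^ 4 + 1 := rfl
    have h5 : tc n = 2 * (tau n * ww n ^ 5) := by
      unfold tc
      ring
    omega
  · have h1 := na_div h hk (j := 1) (by norm_num)
    rw [pow_one] at h1
    have h2 : 2 * (2 * ll n + 2) ≤ 2 ^ ww n ^ 4 := by
      have := na_pow h
      omega
    calc 2 * (2 * ll n + 2) * 2 ^ ww n ^ 4 * 2 ^ ww n ^ 4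
        ≤ 2 ^ ww n ^ 4 * 2 ^ ww n ^ 4 * 2 ^ ww n ^ 4 :=
          Nat.mul_le_mul_right _ (Nat.mul_le_mul_right _ h2)
      _ = 2 ^ (3 * ww n ^ 4) := by rw [← pow_add, ← pow_add]; ring_nf
      _ ≤ 2 ^ (39 * ww n ^ 4) := Nat.pow_le_pow_right (by norm_num) (by omega)
      _ ≤ _ := h1

theorem small_bound (w0 : ℕ) : ∃ n0, ∀ n, ww n < w0 → n ≤ n0 := by
  refine ⟨2 ^ 2 ^ (40 * w0 ^ 4 + w0), fun n hn => ?_⟩
  have h1 : ll n ≤ 40 * w0 ^ 4 + w0 := by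
    by_contra hc
    have h2 : w0 ≤ ww n :=
      Nat.le_findGreatest (P := fun j => 40 * j ^ 4 < ll n) (by omega) (by omega)
    omega
  have h2 := na_klt n
  have h3 := na_lt n
  have h4 : 2 ^ ll n ≤ 2 ^ (40 * w0 ^ 4 + w0) := Nat.pow_le_pow_right (by norm_num) h1
  have h5 : 2 ^ kk n ≤ 2 ^ 2 ^ (40 * w0 ^ 4 + w0) := Nat.pow_le_pow_right (by norm_num) (by omega)
  omega

theorem na_kk_le (n : ℕ) : kk n ≤ n + 2 :=
  Nat.log_lt_self 2 (by omega)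

theorem time_big (c : ℕ) {ξ : ℝ} (hξ : 0 < ξ) : ∃ C : ℝ, 0 ≤ C ∧ ∀ n, 200 ≤ ww n →
    (2 : ℝ) ^ (kk n + c * (kk n / ww n)) ≤ C * ((n : ℝ) + 2) ^ (1 + ξ) := by
  obtain ⟨w0, hw0⟩ := exists_nat_ge ((c : ℝ) / ξ)
  obtain ⟨n0, hn0⟩ := small_bound w0
  have hA : (0 : ℝ) ≤ (2 : ℝ) ^ (1 + ξ) := by positivity
  have hB : (0 : ℝ) ≤ (2 : ℝ) ^ ((c + 1) * (n0 + 2)) := by positivity
  refine ⟨(2 : ℝ) ^ (1 + ξ) + (2 : ℝ) ^ ((c + 1) * (n0 + 2)), add_nonneg hA hB, fun n hn => ?_⟩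
  have hn2 : (1 : ℝ) ≤ (n : ℝ) + 2 := by
    have : (0 : ℝ) ≤ n := Nat.cast_nonneg n
    linarith
  have hp : (1 : ℝ) ≤ ((n : ℝ) + 2) ^ (1 + ξ) := Real.one_le_rpow hn2 (by linarith)
  rcases lt_or_ge (ww n) w0 with h | h
  · have h1 := hn0 n h
    have h2 := na_kk_le n
    have h3 : kk n / ww n ≤ n0 + 2 := (Nat.div_le_self _ _).trans (by omega)
    have h4 : kk n + c * (kk n / ww n) ≤ (c + 1) * (n0 + 2) := by
      have := Nat.mul_le_mul_left c h3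
      rw [add_mul, one_mul]
      omega
    have h5 : (2 : ℝ) ^ (kk n + c * (kk n / ww n)) ≤ (2 : ℝ) ^ ((c + 1) * (n0 + 2)) :=
      pow_le_pow_right₀ (by norm_num) h4
    calc (2 : ℝ) ^ (kk n + c * (kk n / ww n)) ≤ (2 : ℝ) ^ ((c + 1) * (n0 + 2)) := h5
      _ ≤ ((2 : ℝ) ^ (1 + ξ) + (2 : ℝ) ^ ((c + 1) * (n0 + 2))) * 1 := by linarith
      _ ≤ _ := mul_le_mul_of_nonneg_left hp (add_nonneg hA hB)
  · have h1 : (c : ℝ) ≤ ξ * ww n := by
      have h2 : (w0 : ℝ) ≤ ww n := by exact_mod_cast h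
      rw [div_le_iff₀ hξ] at hw0
      nlinarith
    have h2 : ((ww n * (kk n / ww n) : ℕ) : ℝ) ≤ kk n := by
      exact_mod_cast Nat.mul_div_le _ _
    have h3 : ((kk n + c * (kk n / ww n) : ℕ) : ℝ) ≤ kk n * (1 + ξ) := by
      have h4 : (0 : ℝ) ≤ ((kk n / ww n : ℕ) : ℝ) := Nat.cast_nonneg _
      rw [Nat.cast_mul] at h2
      rw [Nat.cast_add, Nat.cast_mul]
      have h5 := mul_le_mul_of_nonneg_right h1 h4
      have h6 := mul_le_mul_of_nonneg_left h2 hξ.le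
      nlinarith
    have h4 : (2 : ℝ) ^ kk n ≤ 2 * ((n : ℝ) + 2) := by exact_mod_cast na_le n
    calc (2 : ℝ) ^ (kk n + c * (kk n / ww n))
        = (2 : ℝ) ^ (((kk n + c * (kk n / ww n) : ℕ) : ℝ)) := (Real.rpow_natCast _ _).symm
      _ ≤ (2 : ℝ) ^ ((kk n : ℝ) * (1 + ξ)) := Real.rpow_le_rpow_of_exponent_le (by norm_num) h3
      _ = ((2 : ℝ) ^ kk n) ^ (1 + ξ) := by
          rw [Real.rpow_mul (by norm_num), Real.rpow_natCast]
      _ ≤ (2 * ((n : ℝ) + 2)) ^ (1 + ξ) := Real.rpow_le_rpow (by positivity) h4 (by linarith)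
      _ = (2 : ℝ) ^ (1 + ξ) * ((n : ℝ) + 2) ^ (1 + ξ) := Real.mul_rpow (by norm_num) (by linarith)
      _ ≤ _ := mul_le_mul_of_nonneg_right (by linarith) (by linarith)

theorem kk_le (n : ℕ) : kk n ≤ n + 2 := by
  exact na_kk_le n

theorem lt_pow_kk (n : ℕ) : n + 2 < 2 ^ kk n := by
  exact na_lt n

end Vale.Agent.P315
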