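import Vale.Agent.P315.ParD

/-! Structural facts and size bounds for the concrete parameters. -/

namespace Vale.Agent.P315

variable {n ρ : ℕ}

theorem numb_mul {x y a b : ℕ} (h1 : x ≤ 2 ^ a) (h2 : y ≤ 2 ^ b) : x * y ≤ 2 ^ (a + b) := by
  rw [pow_add]; exact Nat.mul_le_mul h1 h2

theorem numb_add {x y a : ℕ} (h1 : x ≤ 2 ^ a) (h2 : y ≤ 2 ^ a) : x + y ≤ 2 ^ (a + 1) := by
  rw [pow_succ]; omega

theorem numb_succ {x a : ℕ} (h1 : x ≤ 2 ^ a) : x + 1 ≤ 2 ^ (a + 1) :=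
  numb_add h1 Nat.one_le_two_pow

theorem numb_pow {a b : ℕ} (h : a ≤ b) : 2 ^ a ≤ 2 ^ b := Nat.pow_le_pow_right (by norm_num) h

theorem numb_mono {x a b : ℕ} (h1 : x ≤ 2 ^ a) (h : a ≤ b) : x ≤ 2 ^ b := h1.trans (numb_pow h)

theorem numb_self {x b : ℕ} (h : x ≤ b) : x ≤ 2 ^ b := h.trans Nat.lt_two_pow_self.le

theorem numb_w (h : Sz n) {j : ℕ} (hj : j ≤ 200) : ww n ^ j ≤ 2 ^ ww n ^ 4 := by
  have hw := h.w_ge
  refine (Nat.pow_le_pow_left (Nat.lt_two_pow_self (n := ww n)).le j).trans ?_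
  rw [← pow_mul]
  refine numb_pow ?_
  calc ww n * j ≤ ww n * ww n := Nat.mul_le_mul_left _ (hj.trans hw)
    _ = ww n ^ 2 := (sq _).symm
    _ ≤ ww n ^ 4 := Nat.pow_le_pow_right (by omega) (by norm_num)

theorem numb_wpos (h : Sz n) (j : ℕ) : 1 ≤ ww n ^ j :=
  Nat.one_le_pow _ _ (by have := h.w_ge; omega)

/-- Linear relations between the small quantities. -/
theorem numb_lin (h : Sz n) : 2 ≤ 2 ^ ww n ^ 4 ∧
    4 * ((2 * ll n + 2) * 2 ^ ww n ^ 4) ≤ kk n / ww n ∧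
    2 * (2 * ll n + 2) ≤ (2 * ll n + 2) * 2 ^ ww n ^ 4 ∧
    82 * 2 ^ ww n ^ 4 ≤ (2 * ll n + 2) * 2 ^ ww n ^ 4 ∧ 200 * (kk n / ww n) ≤ kk n ∧ 40 < ll n ∧
    ww n ≤ 2 ^ ww n ^ 4 ∧ ww n * ww n ≤ 2 ^ ww n ^ 4 ∧ ww n ^ 3 ≤ 2 ^ ww n ^ 4 ∧
    ww n ^ 4 ≤ 2 ^ ww n ^ 4 ∧ ww n ^ 5 ≤ 2 ^ ww n ^ 4 ∧ ww n ^ 9 ≤ 2 ^ ww n ^ 4 := by
  have h4 := numb_wpos h 4
  have hl := h.l_gt
  have hB : 2 ≤ 2 ^ ww n ^ 4 := numb_pow (a := 1) h4
  refine ⟨hB, ?_, ?_, Nat.mul_le_mul_right _ (by omega), ?_, by omega, ?_, ?_,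
    numb_w h (by norm_num), numb_w h (by norm_num), numb_w h (by norm_num), numb_w h (by norm_num)⟩
  · refine le_trans ?_ h.small
    calc 4 * ((2 * ll n + 2) * 2 ^ ww n ^ 4) = 2 * (2 * ll n + 2) * 2 ^ ww n ^ 4 * 2 := by ring
      _ ≤ _ := Nat.mul_le_mul_left _ hB
  · rw [mul_comm]; exact Nat.mul_le_mul_left _ hB
  · exact (Nat.mul_le_mul_right _ h.w_ge).trans (Nat.mul_div_le _ _)
  · simpa using numb_w h (j := 1) (by norm_num)
  · rw [← sq]; exact numb_w h (by norm_num)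

theorem numb_F (h : Sz n) (ρ : ℕ) : ww n ^ 3 * ff n ρ + 4 * ll n ≤ lU n :=
  Nat.add_le_add_right (Nat.mul_le_mul_left _ (h.ff_le ρ)) _

theorem numb_F2 (n ρ : ℕ) : ww n ^ 3 * ff n ρ ≤ lP n - ρ + xs n + ww n ^ 3 := by
  rw [ff, mul_add, mul_one]
  exact Nat.add_le_add_right (Nat.mul_div_le _ _) _

theorem numb_F3 (h : Sz n) (ρ : ℕ) : ff n ρ ≤ kk n / ww n := by
  have hw := h.w_ge
  have h1 := numb_F h ρ
  have h2 := h.lU_le
  have h3 : kk n < ww n * (kk n / ww n + 1) := Nat.lt_mul_div_succ _ (by omega)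
  have h4 : 3 * ww n ≤ ww n ^ 3 := by
    calc 3 * ww n ≤ ww n * ww n := Nat.mul_le_mul_right _ (by omega)
      _ = ww n ^ 2 := (sq _).symm
      _ ≤ ww n ^ 3 := Nat.pow_le_pow_right (by omega) (by norm_num)
  have h5 := Nat.mul_le_mul_right (kk n / ww n + 1) h4
  rw [mul_assoc] at h5
  have h6 : ww n ^ 3 * ff n ρ < ww n ^ 3 * (kk n / ww n + 1) := by omega
  have := Nat.lt_of_mul_lt_mul_left h6
  omega

theorem numb_H (n : ℕ) : ww n ^ 3 * hh n ≤ kk n / ww n + ww n ^ 3 := by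
  rw [hh, mul_add, mul_one, show ww n ^ 4 = ww n * ww n ^ 3 by ring, ← Nat.div_div_eq_div_mul]
  exact Nat.add_le_add_right (Nat.mul_div_le _ _) _

theorem numb_T (h : Sz n) :
    ww n ^ 4 * (2 * tc n + tau n + 1) ≤ 5 * (kk n / ww n) + 11 * 2 ^ ww n ^ 4 := by
  obtain ⟨-, -, -, -, -, -, -, -, a3, a4, -, a9⟩ := numb_lin h
  have h1 : ww n ^ 9 * tau n ≤ ww n ^ 3 * hh n + ww n ^ 9 := by
    rw [tau, mul_add, mul_one, show ww n ^ 9 = ww n ^ 3 * ww n ^ 6 by ring, mul_assoc]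
    exact Nat.add_le_add_right (Nat.mul_le_mul_left _ (Nat.mul_div_le _ _)) _
  have h2 := numb_H n
  have h3 : ww n ^ 4 * tau n ≤ ww n ^ 9 * tau n :=
    Nat.mul_le_mul_right _ (Nat.pow_le_pow_right (by have := h.w_ge; omega) (by norm_num))
  have h4 : ww n ^ 4 * (2 * tc n + tau n + 1) =
      4 * (ww n ^ 9 * tau n) + ww n ^ 4 * tau n + ww n ^ 4 := by rw [tc]; ring
  omega

theorem numb_pw {e : ℕ} (he : e ≤ 8 * kk n) : (par n ρ).pw e = 2 ^ e := if_pos he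

theorem par_ok (h : Sz n) (hρ : ρ ≤ kk n) : (par n ρ).Ok := by
  obtain ⟨b1, b2, b3, b4, b5, b6, a1, a2, a3, a4, a5, a9⟩ := numb_lin h
  have hw := h.w_ge
  have c1 := h.k_le
  have c2 := h.lP_le
  have c3 := h.lU_le
  have c4 := h.lU_ge
  have c5 := h.xs_le'
  have c6 := numb_F h ρ
  have c7 := numb_wpos h 3
  refine
    { ws_pos := c7
      r_pos := (by omega : 1 ≤ ww n)
      r0_pos := (by omega : 1 ≤ ww n)
      H_pos := Nat.le_add_left 1 _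
      P0_pos := Nat.one_le_two_pow
      Dh_pos := Nat.one_le_two_pow
      Q_pos := Nat.one_le_two_pow
      U_pos := Nat.one_le_two_pow
      cap1_pos := Nat.le_add_left 1 _
      T1_pos := Nat.le_add_left 1 _
      It1_pos := (by omega : 1 ≤ lU n + lP n + 2)
      gb_ge := (by omega : 2 ≤ 4 * ww n ^ 3)
      gb0_ge := (by have := Nat.one_le_two_pow (n := ll n); omega : 5 ≤ 8 * 2 ^ ll n)
      wb_eq := pow_succ _ 3
      b_eq := (by rw [← pow_mul, ← pow_succ] : 2 ^ ww n ^ 4 = (2 ^ ww n ^ 3) ^ ww n)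
      b0_eq := (by rw [← pow_mul, ← pow_succ] : 2 ^ ww n ^ 5 = (2 ^ ww n ^ 4) ^ ww n)
      rr1_eq := rfl
      P_eq := pow_mul _ _ _
      np1_eq := rfl
      N_eq := rfl
      wd_gt := ?_
      NS1_eq := rfl
      O_ge := ?_
      Dh_le := numb_pow (hρ.trans c1)
      len_eq := fun j hj => ?_
      sp_eq := fun j hj => ?_
      pw_wd := fun j hj => numb_pw ?_
      pw_sc := fun j hj => numb_pw ?_
      pw_it := fun j hj => numb_pw ?_
      pw_wy := fun j hj => numb_pw ?_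
      sF_dvd := ?_
      Q_dvd := pow_dvd_pow 2 (by omega : ll n + 2 ≤ lU n)
      It_ge := ?_ }
  · change 2 * 2 ^ (2 * ll n) < 2 ^ (2 * ll n + 2)
    have := Nat.one_le_two_pow (n := 2 * ll n)
    rw [pow_add]
    omega
  · change 2 ^ ρ + 2 ^ lP n * 2 ^ (2 * ll n) ≤ 2 ^ (lP n + 2 * ll n + 1)
    exact numb_add (numb_pow (by omega)) (pow_add _ _ _).ge
  · have h1 : ww n ^ 4 * j ≤ lP n := Nat.mul_le_mul_left _ hj
    exact (numb_pw (by change ww n ^ 4 * j ≤ _; omega)).trans (pow_mul _ _ _)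
  · refine (numb_pw ?_).trans (pow_mul _ _ _)
    change ww n ^ 3 * j ≤ _
    rcases hj with hj | hj
    · have h1 : ww n ^ 3 * j ≤ ww n ^ 3 * ff n ρ := Nat.mul_le_mul_left _ hj
      omega
    · have h1 : ww n ^ 3 * j ≤ ww n ^ 3 * (ww n * ww n) := Nat.mul_le_mul_left _ hj
      rw [show ww n ^ 3 * (ww n * ww n) = ww n ^ 5 by ring] at h1
      omega
  · have h1 : (2 * ll n + 2) * j ≤ (2 * ll n + 2) * 2 ^ ww n ^ 4 := Nat.mul_le_mul_left _ hj
    change (2 * ll n + 2) * j ≤ _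
    omega
  · change j ≤ lP n at hj
    omega
  · change j < lU n + lP n + 2 at hj
    omega
  · change j ≤ (hh n + ww n - 1) / ww n at hj
    have h1 : (hh n + ww n - 1) / ww n ≤ hh n / ww n + 1 := by
      rw [← Nat.add_div_right _ (by omega)]
      exact Nat.div_le_div_right (Nat.sub_le _ _)
    have h2 : 4 * ll n * j ≤ 4 * ll n * (hh n / ww n + 1) := Nat.mul_le_mul_left _ (hj.trans h1)
    change 4 * ll n * j ≤ _
    rw [xs] at c5
    omega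
  · change (2 ^ ww n ^ 3) ^ ff n ρ ∣ 2 ^ lU n
    rw [← pow_mul]
    exact pow_dvd_pow 2 (by omega)
  · change 2 * 2 ^ lU n * 2 ^ lP n ≤ 2 ^ (lU n + lP n + 2 - 1)
    rw [← pow_succ', ← pow_add]
    exact numb_pow (by omega)

theorem numb_np (l : ℕ) : 2 * 2 ^ (2 * l) + 1 ≤ 2 ^ (2 * l + 2) := by
  rw [← pow_succ']
  exact numb_succ le_rfl

theorem numb_k (h : Sz n) {x : ℕ} (hx : x ≤ 8 * kk n) : x ≤ 2 ^ (ll n + 3) := by
  have := h.k_lt
  rw [pow_add]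
  omega

theorem par_five (h : Sz n) : (par n ρ).b ≤ SS n ∧ (par n ρ).b0 ≤ SS n ∧ (par n ρ).r ≤ SS n ∧
    (par n ρ).rr1 ≤ SS n ∧ (par n ρ).np1 ≤ SS n ∧ (par n ρ).N ≤ SS n ∧ (par n ρ).cap1 ≤ SS n ∧
    (par n ρ).T1 ≤ SS n ∧ (par n ρ).It1 ≤ SS n ∧ (par n ρ).NS1 ≤ SS n ∧ SS n + 1 ≤ 2 ^ (kk n / ww n) := by
  obtain ⟨b1, b2, b3, b4, b5, b6, a1, a2, a3, a4, a5, a9⟩ := numb_lin h
  have c1 := h.k_le
  have c2 := h.lP_le
  have c3 := h.lU_le
  have c4 := h.T_le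
  have b7 : 82 * (2 * ll n + 2) ≤ (2 * ll n + 2) * 2 ^ ww n ^ 4 := by
    rw [mul_comm]
    exact Nat.mul_le_mul_left _ (by have := h.w_ge; omega)
  simp only [par, SS, mul_assoc 2 (2 * ll n + 2)]
  refine ⟨numb_pow (by omega), numb_pow (by omega), numb_self (by omega), numb_self (by omega),
    numb_mono (numb_np _) (by omega), numb_pow (by omega), ?_,
    numb_mono (numb_k h (by omega)) (by omega), numb_mono (numb_k h (by omega)) (by omega), ?_,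
    numb_mono (numb_succ le_rfl) (by omega)⟩
  · have h1 : lg n ≤ 2 ^ ((2 * ll n + 2) * 2 ^ ww n ^ 4 + 1) := by
      rw [lg]
      exact numb_add (numb_self le_rfl) (numb_self (by omega))
    exact numb_mono (numb_succ (numb_mul le_rfl h1)) (by omega)
  · exact numb_mono (numb_succ (numb_mul (numb_k h (by omega)) (numb_np _))) (by omega)

theorem par_exps (h : Sz n) : ∀ v ∈ [ww n ^ 4, ww n ^ 5, 2 * ll n, (2 * ll n + 2) * 2 ^ ww n ^ 4,
    ll n + 2, ll n, 2 * ww n ^ 4, lU n, lP n + 2 * ll n + 1, lP n, kk n], v ≤ 8 * kk n := by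
  obtain ⟨b1, b2, b3, b4, b5, b6, a1, a2, a3, a4, a5, a9⟩ := numb_lin h
  have c2 := h.lP_le
  have c3 := h.lU_le
  simp only [List.mem_cons, List.not_mem_nil, or_false, forall_eq_or_imp, forall_eq]
  omega

theorem numb_Nn (h : Sz n) : (par n ρ).Nn ≤ 2 ^ (ll n + 3 + lP n) :=
  numb_mul (numb_k h (by have := h.H_lt; change hh n + 1 ≤ _; omega)) le_rfl

theorem numb_K (n ρ : ℕ) : (par n ρ).K ≤ 2 ^ (ρ + 1 + 1) := by
  change 2 * 2 ^ ρ + 1 ≤ _
  rw [← pow_succ']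
  exact numb_succ le_rfl

theorem par_time (h : Sz n) (hρ : ρ ≤ kk n) :
    (par n ρ).runT ≤ 2 ^ (kk n + 200 * (kk n / ww n)) ∧
    (par n ρ).Nn * (par n ρ).Br + 1 ≤ 2 ^ (kk n + 3 * (kk n / ww n)) ∧
    (par n ρ).Nn * (par n ρ).Bf + 1 ≤ 2 ^ (kk n + 3 * (kk n / ww n)) ∧
    ld n + 1 ≤ 2 ^ (kk n / ww n) ∧ kk n + 1 ≤ 2 ^ (kk n / ww n) := by
  obtain ⟨b1, b2, b3, b4, b5, b6, a1, a2, a3, a4, a5, a9⟩ := numb_lin h
  obtain ⟨s1, s2, s3, s4, -, s6, s7, -, -, s10, -⟩ := par_five (ρ := ρ) h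
  have c1 := h.k_le
  have c2 := h.lP_le
  have c3 := h.xs_le
  have c4 := h.T_le
  have c5 := h.H_lt
  have d1 := numb_F2 n ρ
  have d2 := numb_F3 h ρ
  have d3 := numb_H n
  have d4 := numb_T h
  have hN := numb_Nn (ρ := ρ) h
  rw [SS, mul_assoc] at s1 s2 s3 s4 s6 s7 s10
  refine ⟨?_, numb_mono (numb_succ (numb_mul hN (numb_mul s4 s2))) (by omega),
    numb_mono (numb_succ (numb_mul hN (numb_add (numb_mul s3 s1)
      (numb_mul s6 ((Nat.sub_le _ _).trans s7))))) (by omega),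
    numb_self (by rw [ld]; omega), numb_mono (Nat.succ_le_of_lt h.k_lt) (by omega)⟩
  have e1 : (par n ρ).F + 1 ≤ 2 ^ (ll n + 3) := numb_k h (by change ff n ρ + 1 ≤ _; omega)
  have e2 : (par n ρ).T1 ≤ 2 ^ (ll n + 3) :=
    numb_k h (by change 2 * tc n + tau n + 1 ≤ _; omega)
  have e3 : (par n ρ).H + 1 ≤ 2 ^ (ll n + 3) := numb_k h (by change hh n + 1 ≤ _; omega)
  have e4 : (8 * (par n ρ).s) ^ (par n ρ).H ≤ 2 ^ (2 * (ww n ^ 3 * hh n)) := by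
    change (2 ^ 3 * 2 ^ ww n ^ 3) ^ hh n ≤ _
    rw [← pow_add, ← pow_mul, ← mul_assoc]
    refine numb_pow (Nat.mul_le_mul_right _ ?_)
    have hw := h.w_ge
    have : ww n ^ 1 ≤ ww n ^ 3 := Nat.pow_le_pow_right (by omega) (by norm_num)
    rw [pow_one] at this
    omega
  have e5 : (2 * (par n ρ).s) ^ (par n ρ).F ≤ 2 ^ (ww n ^ 3 * ff n ρ + ff n ρ) := by
    change (2 * 2 ^ ww n ^ 3) ^ ff n ρ ≤ _
    rw [← pow_succ', ← pow_mul, add_mul, one_mul]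
  have e6 : (par n ρ).b ^ (par n ρ).T1 ≤ 2 ^ (ww n ^ 4 * (2 * tc n + tau n + 1)) :=
    (pow_mul _ _ _).ge
  have e7 : 1 + 2 * ((par n ρ).NS1 * (par n ρ).K) ≤
      2 ^ (1 + (2 * ((2 * ll n + 2) * 2 ^ ww n ^ 4) + (ρ + 1 + 1)) + 1) :=
    numb_add Nat.one_le_two_pow (numb_mul (a := 1) le_rfl (numb_mul s10 (numb_K n ρ)))
  have f1 := numb_mul (x := 4) (a := 2) le_rfl (numb_mul (numb_mul hN e1) e2)
  have f2 := numb_mul (numb_mul (x := 3) (a := 2) (by norm_num) e7)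
    (numb_mul (numb_mul (numb_mul e3 e1) e2) (numb_mul (numb_mul e4 e5) e6))
  have f0 : 6 ≤ 2 ^ 3 := by norm_num
  exact numb_mono (numb_add (a := kk n + 195 * (kk n / ww n) + 1)
    (numb_add (numb_mono f0 (by omega)) (numb_mono f1 (by omega))) (numb_mono f2 (by omega)))
    (by omega)

theorem par_six (h : Sz n) (hρ : ρ ≤ kk n) : ∀ v ∈ [(par n ρ).P0, (par n ρ).r0, (par n ρ).ws,
    (par n ρ).wb, (par n ρ).wd, (par n ρ).wy, (par n ρ).Q, (par n ρ).gb, (par n ρ).k0, (par n ρ).gb0,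
    (par n ρ).k1, (par n ρ).et, (par n ρ).U, (par n ρ).O, (par n ρ).Dh, (par n ρ).F, (par n ρ).H,
    (par n ρ).P, (par n ρ).Nn * (par n ρ).Br, (par n ρ).Nn * (par n ρ).Bf, ld n, lP n, xs n, tau n,
    lU n, lg n, 2 ^ ld n, SS n, (par n ρ).Nn * ((par n ρ).F + 1) * (par n ρ).T1,
    (par n ρ).NS1 * (par n ρ).K, (par n ρ).U * ((par n ρ).P + (par n ρ).O + n + (par n ρ).P * (par n ρ).P0)],
    v ≤ 2 ^ (8 * kk n) := by
  obtain ⟨b1, b2, b3, b4, b5, b6, a1, a2, a3, a4, a5, a9⟩ := numb_lin h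
  obtain ⟨t1, t2, t3, -, -⟩ := par_time h hρ
  obtain ⟨-, -, -, -, -, -, -, -, -, s10, s11⟩ := par_five (ρ := ρ) h
  have c1 := h.k_le
  have c2 := h.lP_le
  have c3 := h.xs_le'
  have c4 := h.T_le
  have c5 := h.H_lt
  have c6 := h.lU_le
  have d2 := numb_F3 h ρ
  have d5 : ld n ≤ kk n := by rw [ld]; omega
  have d6 : 200 * ww n ^ 3 * ll n ≤ (2 * ll n + 2) * 2 ^ ww n ^ 4 := by
    rw [mul_comm]
    refine Nat.mul_le_mul (by omega) (le_trans ?_ a4)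
    rw [pow_succ' _ 3]
    exact Nat.mul_le_mul_right _ h.w_ge
  have hS : SS n ≤ 2 ^ (kk n / ww n) := by omega
  simp only [List.mem_cons, List.not_mem_nil, or_false, forall_eq_or_imp, forall_eq]
  refine ⟨numb_pow (by omega : 2 * ll n ≤ _), numb_self (by omega : ww n ≤ _),
    numb_self (by omega : ww n ^ 3 ≤ _), numb_self (by omega : ww n ^ 4 ≤ _),
    numb_self (by omega : 2 * ll n + 2 ≤ _), numb_self (by omega : 4 * ll n ≤ _),
    numb_pow (by omega : ll n + 2 ≤ _), numb_self (by omega : 4 * ww n ^ 3 ≤ _),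
    numb_self (by omega : 200 * ww n ^ 3 * ll n ≤ _),
    numb_mono (numb_mul (x := 8) (a := 3) (b := ll n) le_rfl le_rfl) (by omega),
    numb_mono (numb_mul (x := 128) (a := 7) (b := 2 * ll n) le_rfl le_rfl) (by omega),
    numb_pow (by omega : 2 * ww n ^ 4 ≤ _), numb_pow (by omega : lU n ≤ _),
    numb_pow (by omega : lP n + 2 * ll n + 1 ≤ _), numb_pow (by omega : ρ ≤ _),
    numb_self (by omega : ff n ρ ≤ _), numb_self (by omega : hh n ≤ _),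
    numb_pow (by omega : lP n ≤ _), numb_mono ((Nat.le_succ _).trans t2) (by omega),
    numb_mono ((Nat.le_succ _).trans t3) (by omega), numb_self (by omega), numb_self (by omega),
    numb_self (by omega), numb_self (by omega), numb_self (by omega),
    numb_self (by rw [lg]; omega), numb_pow (by omega), numb_mono hS (by omega),
    numb_mono (le_trans ?_ t1) (by omega),
    numb_mono (numb_mul (s10.trans hS) (numb_K n ρ)) (by omega), ?_⟩
  · rw [Par.runT]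
    omega
  · have g1 : n ≤ 2 ^ (lP n + 2 * ll n + 1 + 1) :=
      numb_mono (by have := h.n_lt; omega : n ≤ 2 ^ kk n) (by omega)
    have g2 : (par n ρ).P + (par n ρ).O ≤ 2 ^ (lP n + 2 * ll n + 1 + 1) :=
      numb_add (numb_pow (by omega : lP n ≤ _)) le_rfl
    have g3 : (par n ρ).P * (par n ρ).P0 ≤ 2 ^ (lP n + 2 * ll n + 1 + 1 + 1) :=
      numb_mono (numb_mul (a := lP n) (b := 2 * ll n) le_rfl le_rfl) (by omega)
    exact numb_mono (numb_mul (a := lU n) le_rfl (numb_add (numb_add g2 g1) g3)) (by omega)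

end Vale.Agent.P315
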