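import Vale.Agent.P315.NumD

/-! Numerical conditions for the failure probabilities. -/

namespace Vale.Agent.P315

variable {n ρ E : ℕ}

theorem ne_exp {x c y : ℝ} {m : ℕ} (hx : 0 ≤ x) (hc : 0 < c) (hy : (m : ℝ) ≤ y)
    (h : x * c ≤ 2 ^ m) : x * Real.exp (-y) ≤ 1 / c := by
  have h1 : (2 : ℝ) ^ m ≤ Real.exp y := by
    have h2 : (2 : ℝ) ≤ Real.exp 1 := by linarith [Real.add_one_le_exp (1 : ℝ)]
    calc (2 : ℝ) ^ m ≤ Real.exp 1 ^ m := pow_le_pow_left₀ (by norm_num) h2 m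
      _ = Real.exp m := by rw [← Real.exp_nat_mul, mul_one]
      _ ≤ Real.exp y := Real.exp_le_exp.2 hy
  rw [Real.exp_neg, ← div_eq_mul_inv, div_le_div_iff₀ (Real.exp_pos y) hc, one_mul]
  exact h.trans h1

theorem ne_w (h : Sz n) : 40 * ww n ^ 4 ≤ kk n ∧ 2 ^ ww n ^ 4 ≤ kk n ∧ ww n * ww n ≤ ww n ^ 4 ∧
    ww n ≤ ww n ^ 4 ∧ ff n ρ ≤ 3 * kk n := by
  have hw := h.w_ge
  refine ⟨Nat.lt_two_pow_self.le.trans h.k_ge,
    (Nat.pow_le_pow_right (by norm_num) (by omega)).trans h.k_ge, ?_,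
    Nat.le_self_pow (by norm_num) _, ?_⟩
  · rw [← pow_two]
    exact Nat.pow_le_pow_right (by omega) (by norm_num)
  · have h1 : ff n 0 ≤ ww n ^ 3 * ff n 0 := Nat.le_mul_of_pos_left _ (by positivity)
    have h2 := h.lU_le
    have h3 := h.ff_le ρ
    unfold lU at h2
    omega

theorem ne_rough (h : Sz n) (hρ : ρ ≤ kk n) : hh n * 2 ^ lP n * (ff n ρ + 1) * (2 * 2 ^ ρ + 1) *
    (2 * ww n * ww n) * (24 * (kk n + 1)) ≤ 2 ^ (8 * kk n) := by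
  obtain ⟨a1, -, a3, a4, a5⟩ := ne_w (ρ := ρ) h
  have hw := h.w_ge
  have hk : kk n < 2 ^ kk n := Nat.lt_two_pow_self
  have b1 : hh n ≤ 2 ^ kk n := by have := h.H_lt; omega
  have b2 : 2 ^ lP n ≤ 2 ^ (2 * kk n) :=
    Nat.pow_le_pow_right (by norm_num) (by have := h.lP_le; omega)
  have b3 : ff n ρ + 1 ≤ 4 * 2 ^ kk n := by omega
  have b4 : 2 * 2 ^ ρ + 1 ≤ 4 * 2 ^ kk n := by
    have : 2 ^ ρ ≤ 2 ^ kk n := Nat.pow_le_pow_right (by norm_num) hρ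
    omega
  have b5 : 2 * ww n * ww n ≤ 2 ^ kk n := by rw [mul_assoc]; omega
  have b6 : 24 * (kk n + 1) ≤ 32 * 2 ^ kk n := by omega
  calc hh n * 2 ^ lP n * (ff n ρ + 1) * (2 * 2 ^ ρ + 1) * (2 * ww n * ww n) * (24 * (kk n + 1))
      ≤ 2 ^ kk n * 2 ^ (2 * kk n) * (4 * 2 ^ kk n) * (4 * 2 ^ kk n) * 2 ^ kk n *
        (32 * 2 ^ kk n) := by gcongr
    _ = 2 ^ (7 * kk n + 9) := by ring
    _ ≤ 2 ^ (8 * kk n) := Nat.pow_le_pow_right (by norm_num) (by omega)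

theorem ne_prod {K H A R B C F T r I c : ℕ} (hK : 2 ≤ K) (hH : H ≤ K) (hA : A ≤ K ^ 2)
    (hR : R ≤ K ^ 7) (hB : B ≤ K ^ 5) (hC : C ≤ K ^ 3) (hF : F ≤ K ^ 2) (hT : T ≤ K) (hr : r ≤ K)
    (hI : I ≤ K ^ 2) (hc : c ≤ K ^ 2) :
    H * A ^ 2 * (2 * R ^ 2 * (B * C * (F * T ^ 3 * C ^ 2 * r * I))) * c ≤ K ^ 50 :=
  calc H * A ^ 2 * (2 * R ^ 2 * (B * C * (F * T ^ 3 * C ^ 2 * r * I))) * c
      ≤ K * (K ^ 2) ^ 2 * (K * (K ^ 7) ^ 2 * (K ^ 5 * K ^ 3 *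
        (K ^ 2 * K ^ 3 * (K ^ 3) ^ 2 * K * K ^ 2))) * K ^ 2 := by gcongr
    _ = K ^ 44 := by ring
    _ ≤ K ^ 50 := Nat.pow_le_pow_right (by omega) (by norm_num)

theorem ne_chain (h : Sz n) (hE : E ≤ ww n) : hh n * (ww n ^ 4 * hh n + 1) ^ 2 *
    (2 * (24 * (2 * E * hh n * (ww n ^ 4 * hh n + 1) ^ 2)) ^ 2 *
      ((ww n * 2 ^ ww n ^ 4 * 2 ^ (2 * ll n) + 1) * (2 * 2 ^ (2 * ll n) + 1) *
        (ff n ρ * (2 * tc n + tau n + 1) ^ 3 * (2 * 2 ^ (2 * ll n) + 1) ^ 2 * ww n *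
          (lU n + lP n + 2)))) * (24 * (kk n + 1)) ≤ 2 ^ (50 * ll n) := by
  obtain ⟨a1, a2, -, a4, a5⟩ := ne_w (ρ := ρ) h
  have hw := h.w_ge
  have hk := h.k_lt
  have hH := h.H_lt
  have hP := h.lP_le
  have hU := h.lU_le
  have hT := h.T_le
  have e2 : 2 ^ (2 * ll n) = (2 ^ ll n) ^ 2 := by rw [← pow_mul, mul_comm]
  have e50 : 2 ^ (50 * ll n) = (2 ^ ll n) ^ 50 := by rw [← pow_mul, mul_comm]
  rw [e2, e50]
  have hP' : ww n ^ 4 * hh n = lP n := rfl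
  rw [hP']
  generalize 2 ^ ll n = K at hk ⊢
  have hK : 48 ≤ K := by omega
  have s2 : 48 * K ≤ K ^ 2 := by rw [pow_two]; exact Nat.mul_le_mul_right _ hK
  have s3 : 48 * K ^ 2 ≤ K ^ 3 := by rw [pow_succ' K 2]; exact Nat.mul_le_mul_right _ hK
  have s5 : 48 * K ^ 4 ≤ K ^ 5 := by rw [pow_succ' K 4]; exact Nat.mul_le_mul_right _ hK
  have p1 : 0 < K := lt_of_lt_of_le (by norm_num) hK
  have p4 : 0 < K ^ 4 := pow_pos p1 _
  have hA : lP n + 1 ≤ K ^ 2 := by omega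
  have c1 : E ≤ K := by omega
  have c2 : hh n ≤ K := by omega
  have c3 : ww n ≤ K := by omega
  have c4 : 2 ^ ww n ^ 4 ≤ K := a2.trans hk.le
  have hR : 24 * (2 * E * hh n * (lP n + 1) ^ 2) ≤ K ^ 7 :=
    calc 24 * (2 * E * hh n * (lP n + 1) ^ 2) = 48 * E * hh n * (lP n + 1) ^ 2 := by ring
      _ ≤ K * K * K * (K ^ 2) ^ 2 := Nat.mul_le_mul (Nat.mul_le_mul (Nat.mul_le_mul hK c1) c2)
        (Nat.pow_le_pow_left hA 2)
      _ = K ^ 7 := by ring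
  have hB : ww n * 2 ^ ww n ^ 4 * K ^ 2 + 1 ≤ K ^ 5 := by
    have c5 : ww n * 2 ^ ww n ^ 4 * K ^ 2 ≤ K ^ 4 :=
      calc ww n * 2 ^ ww n ^ 4 * K ^ 2 ≤ K * K * K ^ 2 :=
            Nat.mul_le_mul_right _ (Nat.mul_le_mul c3 c4)
        _ = K ^ 4 := by ring
    clear * - c5 s5 p4
    omega
  have p2 : 0 < K ^ 2 := pow_pos p1 _
  have hC : 2 * K ^ 2 + 1 ≤ K ^ 3 := by clear * - s3 p2; omega
  have hF : ff n ρ ≤ K ^ 2 := by clear * - a5 hk s2; omega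
  have hI : lU n + lP n + 2 ≤ K ^ 2 := by clear * - a1 hk s2 hP hU hK; omega
  have hc : 24 * (kk n + 1) ≤ K ^ 2 := by clear * - hk s2; omega
  exact ne_prod ((by norm_num : 2 ≤ 48).trans hK) c2 hA hR hB hC hF (hT.trans hk.le) c3 hI hc

theorem num_rough (h : Sz n) (hρ : ρ ≤ kk n) : ((par n ρ).H : ℝ) * (par n ρ).P * ((par n ρ).F + 1) *
    (2 * (par n ρ).Dh + 1) * (2 * (par n ρ).r * (par n ρ).r0) *
    Real.exp (-((par n ρ).k1 / (par n ρ).gb0 / 2 : ℝ)) ≤ 1 / (24 * (kk n + 1 : ℕ)) := by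
  refine ne_exp (m := 8 * kk n) (by positivity) (by positivity) ?_ ?_
  · have h1 : ((par n ρ).k1 / (par n ρ).gb0 / 2 : ℝ) = 8 * 2 ^ ll n := by
      simp only [par]
      push_cast
      rw [two_mul (ll n), pow_add]
      field_simp
      norm_num
    rw [h1]
    exact_mod_cast Nat.mul_le_mul_left 8 h.k_lt.le
  · exact_mod_cast ne_rough h hρ

theorem num_chain (h : Sz n) (hE : E ≤ ww n) : ((par n ρ).H : ℝ) *
    ((par n ρ).wb * (par n ρ).H + 1) ^ 2 * (2 * (24 * (par n ρ).Rc E) ^ 2 *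
    (((par n ρ).r * (par n ρ).b * (par n ρ).P0 + 1) * (par n ρ).np1 * (par n ρ).fb)) ≤
    1 / (24 * (kk n + 1 : ℕ)) := by
  have h0 := ne_exp (m := 50 * ll n) (y := ((par n ρ).k0 / (par n ρ).gb : ℝ))
    (c := 24 * (kk n + 1 : ℕ))
    (x := ((par n ρ).H : ℝ) * ((par n ρ).wb * (par n ρ).H + 1) ^ 2 *
      (2 * (24 * (par n ρ).Rc E) ^ 2 *
        (((par n ρ).r * (par n ρ).b * (par n ρ).P0 + 1) * (par n ρ).np1 *
          ((par n ρ).F * (par n ρ).T1 ^ 3 * (par n ρ).np1 ^ 2 * (par n ρ).r * (par n ρ).It1))))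
    (by positivity) (by positivity) ?_ ?_
  · refine le_trans (le_of_eq ?_) h0
    unfold Par.fb
    ring
  · have hw : (ww n : ℝ) ≠ 0 := by
      have := h.w_ge
      positivity
    refine le_of_eq ?_
    simp only [par]
    push_cast
    field_simp
    ring
  · exact_mod_cast ne_chain (ρ := ρ) h hE

theorem par_num (h : Sz n) (hE1 : 16 ≤ E) (hE : E ≤ ww n) (hρ : ρ ≤ kk n) :
    (par n ρ).Num E (tau n) (tc n) (lg n) (2 ^ ld n) (kk n + 1) where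
  E_ge := hE1
  P0_ge := (num_misc h).1
  et_pos := Nat.one_le_two_pow
  tau_ge := (num_misc (ρ := ρ) h).2.1
  T1_eq := rfl
  b0_dvd := (num_misc h).2.2.1
  Q_dvd := (num_misc h).2.2.2.1
  Q_ge := (num_misc h).2.2.2.2
  cap_eq := Nat.add_sub_cancel _ _
  cap_big := num_cap h
  fail_le := num_fail h
  P0_big := num_P0 h hE
  L_ge := (num_et h).1
  et_big := (num_et h).2
  eta2 := num_eta2 h
  gb0_big := (num_wy h).1
  wy_big := (num_wy h).2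
  F_big := num_F h hE hρ
  Mb_tau := (num_Mb h hE).2.1
  Mb_b := (num_Mb h hE).2.2
  stageC := num_stageC h hE
  stageD := num_stageD h (by omega) hE
  rough := num_rough h hρ
  chain := num_chain h hE
  kappa_pos := by omega

end Vale.Agent.P315
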