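import Vale.Agent.P315.StrD

namespace Vale.Agent.P315

namespace StrA

variable (x y : List ℕ)

theorem dp_zl (j : ℕ) : dp x y 0 j = j := by rw [dp]

theorem dp_zr (i : ℕ) : dp x y i 0 = i := by cases i <;> rw [dp]

theorem dp_ss (i j : ℕ) : dp x y (i + 1) (j + 1) = min (dp x y i j + if mt x y i j then 0 else 1)
    (min (dp x y i (j + 1)) (dp x y (i + 1) j) + 1) := by rw [dp]

theorem dpA (i j : ℕ) : dp x y (i + 1) j ≤ dp x y i j + 1 := by
  cases j with
  | zero => rw [dp_zr, dp_zr]
  | succ j => rw [dp_ss]; omega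

theorem dpB (i j : ℕ) : dp x y i (j + 1) ≤ dp x y i j + 1 := by
  cases i with
  | zero => rw [dp_zl, dp_zl]
  | succ i => rw [dp_ss]; omega

theorem dpC (i j : ℕ) : dp x y i j ≤ dp x y (i + 1) j + 1 := by
  induction j with
  | zero => rw [dp_zr, dp_zr]; omega
  | succ j ih =>
    have := dpB x y i j
    rw [dp_ss]
    omega

theorem dpD (i j : ℕ) : dp x y i j ≤ dp x y i (j + 1) + 1 := by
  induction i with
  | zero => rw [dp_zl, dp_zl]; omega
  | succ i ih =>
    have := dpA x y i j
    rw [dp_ss]
    omega

theorem dpE (i j : ℕ) : dp x y i j ≤ dp x y (i + 1) (j + 1) := by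
  have h1 := dpC x y i j
  have h2 := dpD x y i j
  rw [dp_ss]
  omega

theorem dpG (i j : ℕ) : dp x y (i + 1) (j + 1) ≤ dp x y i j + if mt x y i j then 0 else 1 := by
  rw [dp_ss]
  exact min_le_left _ _

theorem dp_add (i j k : ℕ) : dp x y i (j + k) ≤ dp x y i j + k ∧ dp x y i j ≤ dp x y i (j + k) + k := by
  induction k with
  | zero => simp
  | succ k ih =>
    have h1 := dpB x y i (j + k)
    have h2 := dpD x y i (j + k)
    rw [← add_assoc]
    omega

theorem dp_lip (i j j' : ℕ) : dp x y i j ≤ dp x y i j' + Nat.dist j j' := by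
  unfold Nat.dist
  rcases le_total j j' with h | h
  · obtain ⟨k, rfl⟩ := Nat.exists_eq_add_of_le h
    have := (dp_add x y i j k).2
    omega
  · obtain ⟨k, rfl⟩ := Nat.exists_eq_add_of_le h
    have := (dp_add x y i j' k).1
    omega

theorem lip (O q d d' : ℕ) : hpS x y O q d ≤ hpS x y O q d' + Nat.dist d d' := by
  unfold hpS
  generalize min (q - 1) x.length = i
  have := dp_lip x y i (i + d - O) (i + d' - O)
  unfold Nat.dist at this ⊢
  omega

theorem same {q : ℕ} (h : q = 0 ∨ x.length < q) (O d : ℕ) :
    hpS x y O (q + 1) d = hpS x y O q d := by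
  have e : min (q + 1 - 1) x.length = min (q - 1) x.length := by omega
  rw [hpS, hpS, e]

theorem stp {i : ℕ} (h : i ≤ x.length) (O d : ℕ) :
    hpS x y O (i + 1) d = dp x y i (i + d - O) + (O - (i + d)) := by
  have e : min (i + 1 - 1) x.length = i := by omega
  rw [hpS, e]

end StrA

open StrA in
theorem pathSys_str (x y : List ℕ) (O : ℕ) : PathSys (hpS x y O) (misS x y O) := by
  refine ⟨lip x y O, fun q d => ?_, fun q d => ?_, fun q d => ?_, fun q d => ?_⟩
  · by_cases h : q = 0 ∨ x.length < q
    · rw [same x y h]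
      omega
    · obtain ⟨i, rfl⟩ : ∃ i, q = i + 1 := ⟨q - 1, by omega⟩
      rw [stp x y (i := i + 1) (by omega), stp x y (i := i) (by omega), misS, if_neg h, Nat.add_sub_cancel]
      rcases le_or_gt O (i + d) with h1 | h1
      · have h2 := dpG x y i (i + d - O)
        rw [show i + 1 + d - O = i + d - O + 1 by omega]
        simp only [h1, true_and]
        omega
      · rw [show i + 1 + d - O = 0 by omega, show i + d - O = 0 by omega, dp_zr, dp_zr]
        omega
  · by_cases h : q = 0 ∨ x.length < q
    · rw [same x y h]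
      have := lip x y O q d (d + 1)
      unfold Nat.dist at this
      omega
    · obtain ⟨i, rfl⟩ : ∃ i, q = i + 1 := ⟨q - 1, by omega⟩
      rw [stp x y (i := i + 1) (by omega), stp x y (i := i) (by omega), show i + (d + 1) = i + 1 + d by omega]
      have := dpA x y i (i + 1 + d - O)
      omega
  · by_cases h : q = 0 ∨ x.length < q
    · rw [same x y h]
    · obtain ⟨i, rfl⟩ : ∃ i, q = i + 1 := ⟨q - 1, by omega⟩
      rw [stp x y (i := i + 1) (by omega), stp x y (i := i) (by omega)]
      rcases le_or_gt O (i + d) with h1 | h1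
      · have h2 := dpE x y i (i + d - O)
        rw [show i + 1 + d - O = i + d - O + 1 by omega]
        omega
      · rw [show i + 1 + d - O = 0 by omega, show i + d - O = 0 by omega, dp_zr, dp_zr]
        omega
  · unfold misS
    split_ifs <;> omega

theorem hpS_source (x y : List ℕ) (O : ℕ) : hpS x y O 0 O = 0 := by
  simp [hpS, StrA.dp_zl]

theorem hpS_target (x y : List ℕ) {O P : ℕ} (hO : x.length ≤ O) (hP : x.length < P) :
    hpS x y O P (O + y.length - x.length) = dp x y x.length y.length := by
  have e : min (P - 1) x.length = x.length := by omega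
  rw [hpS, e, show x.length + (O + y.length - x.length) - O = y.length by omega]
  omega

end Vale.Agent.P315
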