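import Vale.Agent.P315.StrD

open Finset

namespace Vale.Agent.P315

/-- A path from `O` reaches `d` at time `n` with cost at most `c`. -/
def StrBR (mis : ℕ → ℕ → ℕ) (O n d c : ℕ) : Prop :=
  ∃ ds : ℕ → ℕ, ds 0 = O ∧ ds n = d ∧ ∑ q ∈ range n, leaf mis q (ds q) (ds (q + 1)) ≤ c

theorem strB_mono {mis : ℕ → ℕ → ℕ} {O n d c c' : ℕ} (h : StrBR mis O n d c) (hc : c ≤ c') :
    StrBR mis O n d c' := by
  obtain ⟨ds, h0, h1, h2⟩ := h
  exact ⟨ds, h0, h1, h2.trans hc⟩

theorem strB_step {mis : ℕ → ℕ → ℕ} {O n d c : ℕ} (h : StrBR mis O n d c) (e : ℕ) :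
    StrBR mis O (n + 1) e (c + leaf mis n d e) := by
  obtain ⟨ds, h0, h1, h2⟩ := h
  refine ⟨fun q => if q ≤ n then ds q else e, by simp [h0], by simp, ?_⟩
  rw [sum_range_succ]
  refine Nat.add_le_add (le_trans (le_of_eq ?_) h2) (le_of_eq ?_)
  · refine sum_congr rfl fun q hq => ?_
    have := mem_range.mp hq
    simp only [if_pos (show q ≤ n by omega), if_pos (show q + 1 ≤ n by omega)]
  · simp [h1]

theorem strB_lip (mis : ℕ → ℕ → ℕ) (n d e : ℕ) : leaf mis n d (e + 1) ≤ leaf mis n d e + 1 := by
  unfold leaf Nat.dist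
  omega

theorem strB_ins {mis : ℕ → ℕ → ℕ} {O n e c : ℕ} (h : StrBR mis O (n + 1) e c) :
    StrBR mis O (n + 1) (e + 1) (c + 1) := by
  obtain ⟨ds, h0, h1, h2⟩ := h
  have h3 : StrBR mis O n (ds n) (∑ q ∈ range n, leaf mis q (ds q) (ds (q + 1))) :=
    ⟨ds, h0, rfl, le_rfl⟩
  refine strB_mono (strB_step h3 (e + 1)) ?_
  rw [sum_range_succ, h1] at h2
  have := strB_lip mis n (ds n) e
  omega

theorem strB_del (mis : ℕ → ℕ → ℕ) (n e : ℕ) : leaf mis n (e + 1) e ≤ 1 := by
  unfold leaf Nat.dist
  omega

theorem strB_diag (mis : ℕ → ℕ → ℕ) (n d : ℕ) : leaf mis n d d ≤ mis n d := by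
  unfold leaf Nat.dist
  omega

theorem strB_dp_zero (x y : List ℕ) (i : ℕ) : dp x y i 0 = i := by
  cases i <;> simp [dp]

theorem strB_main (x y : List ℕ) {O : ℕ} (hO : x.length ≤ O) :
    ∀ i, i ≤ x.length → ∀ j, StrBR (misS x y O) O (i + 1) (O + j - i) (dp x y i j) := by
  intro i
  induction i with
  | zero =>
    intro _ j
    have h0 : StrBR (misS x y O) O 0 O 0 := ⟨fun _ => O, rfl, rfl, by simp⟩
    refine strB_mono (strB_step h0 _) ?_
    have : misS x y O 0 O = 0 := by simp [misS]
    simp only [dp]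
    unfold leaf Nat.dist
    omega
  | succ i ih =>
    intro hi j
    have hdel : ∀ j, StrBR (misS x y O) O (i + 1 + 1) (O + j - (i + 1)) (dp x y i j + 1) := by
      intro j
      have h1 := ih (by omega) j
      rw [show O + j - i = O + j - (i + 1) + 1 by omega] at h1
      exact strB_mono (strB_step h1 _) (Nat.add_le_add_left (strB_del _ _ _) _)
    induction j with
    | zero =>
      have := hdel 0
      rw [strB_dp_zero] at this ⊢
      exact this
    | succ j ihj =>
      have hdp : dp x y (i + 1) (j + 1) = min (dp x y i j + if mt x y i j then 0 else 1)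
          (min (dp x y i (j + 1)) (dp x y (i + 1) j) + 1) := by rw [dp]
      rw [hdp]
      rcases le_total (dp x y i j + if mt x y i j then 0 else 1)
        (min (dp x y i (j + 1)) (dp x y (i + 1) j) + 1) with h | h
      · rw [min_eq_left h, show O + (j + 1) - (i + 1) = O + j - i by omega]
        refine strB_mono (strB_step (ih (by omega) j) _)
          (Nat.add_le_add_left ((strB_diag _ _ _).trans (le_of_eq ?_)) _)
        unfold misS
        rw [if_neg (by omega), Nat.add_sub_cancel, show i + (O + j - i) - O = j by omega]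
        by_cases hm : mt x y i j
        · rw [if_pos hm, if_pos ⟨by omega, hm⟩]
        · rw [if_neg hm, if_neg fun h' => hm h'.2]
      · rw [min_eq_right h]
        rcases le_total (dp x y i (j + 1)) (dp x y (i + 1) j) with h' | h'
        · rw [min_eq_left h']
          exact hdel (j + 1)
        · rw [min_eq_right h', show O + (j + 1) - (i + 1) = O + j - (i + 1) + 1 by omega]
          exact strB_ins ihj

theorem exists_comparator (x y : List ℕ) {O P : ℕ} (hO : x.length ≤ O) (hP : x.length < P) :
    ∃ ds : ℕ → ℕ, ds 0 = O ∧ ds P = O + y.length - x.length ∧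
      ∑ q ∈ range P, leaf (misS x y O) q (ds q) (ds (q + 1)) ≤ dp x y x.length y.length := by
  have h : ∀ n, x.length + 1 ≤ n → StrBR (misS x y O) O n (O + y.length - x.length)
      (dp x y x.length y.length) := by
    intro n hn
    induction n, hn using Nat.le_induction with
    | base => exact strB_main x y hO _ le_rfl _
    | succ n hn ih =>
      refine strB_mono (strB_step ih _) ?_
      have h1 := strB_diag (misS x y O) n (O + y.length - x.length)
      have h2 : misS x y O n (O + y.length - x.length) = 0 := by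
        unfold misS
        rw [if_pos (Or.inr (by omega))]
      omega
  exact h P hP

end Vale.Agent.P315
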