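import Vale.Agent.P315.StrD

namespace Vale.Agent.P315

namespace StrCAux

theorem edit_symm {x y : List ℕ} (h : Edit x y) : Edit y x := by
  cases h with
  | ins p s a => exact Edit.del p s a
  | del p s a => exact Edit.ins p s a
  | sub p s a b => exact Edit.sub p s b a

theorem edits_trans {j k : ℕ} {x y z : List ℕ} (h1 : Edits j x y) (h2 : Edits k y z) :
    Edits (j + k) x z := by
  induction h1 with
  | refl x => simpa using h2
  | @step j x y w hs _ ih =>
    have := Edits.step hs (ih h2)
    rwa [show j + k + 1 = j + 1 + k by ring] at this

theorem edits_symm {k : ℕ} {x y : List ℕ} (h : Edits k x y) : Edits k y x := by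
  induction h with
  | refl x => exact Edits.refl x
  | step hs _ ih => exact edits_trans ih (Edits.step (edit_symm hs) (Edits.refl _))

theorem edit_cons {x y : List ℕ} (h : Edit x y) (c : ℕ) : Edit (c :: x) (c :: y) := by
  cases h with
  | ins p s a => exact Edit.ins (c :: p) s a
  | del p s a => exact Edit.del (c :: p) s a
  | sub p s a b => exact Edit.sub (c :: p) s a b

theorem edits_cons {k : ℕ} {x y : List ℕ} (h : Edits k x y) (c : ℕ) :
    Edits k (c :: x) (c :: y) := by
  induction h with
  | refl x => exact Edits.refl _
  | step hs _ ih => exact Edits.step (edit_cons hs c) ih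

theorem edit_rev {x y : List ℕ} (h : Edit x y) : Edit x.reverse y.reverse := by
  cases h with
  | ins p s a => simpa using Edit.ins s.reverse p.reverse a
  | del p s a => simpa using Edit.del s.reverse p.reverse a
  | sub p s a b => simpa using Edit.sub s.reverse p.reverse a b

theorem edits_rev {k : ℕ} {x y : List ℕ} (h : Edits k x y) : Edits k x.reverse y.reverse := by
  induction h with
  | refl x => exact Edits.refl _
  | step hs _ ih => exact Edits.step (edit_rev hs) ih

theorem ED_rev (x y : List ℕ) : ED x.reverse y.reverse = ED x y := by
  unfold ED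
  refine congrArg sInf (Set.ext fun k => ⟨fun h => ?_, fun h => edits_rev h⟩)
  simpa using edits_rev h

theorem edits_to_nil (x : List ℕ) : Edits x.length x [] := by
  induction x with
  | nil => exact Edits.refl _
  | cons a x ih => exact Edits.step (Edit.del [] x a) ih

/-- The recursion at the heads of the words. -/
def lev : List ℕ → List ℕ → ℕ
  | [], y => y.length
  | _ :: x, [] => x.length + 1
  | a :: x, b :: y => min (lev x y + if a = b then 0 else 1)
      (min (lev x (b :: y)) (lev (a :: x) y) + 1)

theorem lev_nil_left (y : List ℕ) : lev [] y = y.length := by rw [lev]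

theorem lev_nil_right (x : List ℕ) : lev x [] = x.length := by
  cases x with
  | nil => rw [lev]
  | cons a x => rw [lev, List.length_cons]

theorem lev_cons (a b : ℕ) (x y : List ℕ) : lev (a :: x) (b :: y) =
    min (lev x y + if a = b then 0 else 1) (min (lev x (b :: y)) (lev (a :: x) y) + 1) := by
  rw [lev]

theorem edits_lev (x y : List ℕ) : Edits (lev x y) x y := by
  induction x generalizing y with
  | nil => rw [lev_nil_left]; exact edits_symm (edits_to_nil y)
  | cons a x ihx =>
    induction y with
    | nil => rw [lev_nil_right]; exact edits_to_nil _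
    | cons b y ihy =>
      have h1 : Edits (lev x y + if a = b then 0 else 1) (a :: x) (b :: y) := by
        split_ifs with h
        · subst h
          exact edits_cons (ihx y) a
        · exact Edits.step (Edit.sub [] x a b) (edits_cons (ihx y) b)
      have h2 : Edits (lev x (b :: y) + 1) (a :: x) (b :: y) :=
        Edits.step (Edit.del [] x a) (ihx _)
      have h3 : Edits (lev (a :: x) y + 1) (a :: x) (b :: y) :=
        edits_trans ihy (Edits.step (Edit.ins [] y b) (Edits.refl _))
      rw [lev_cons]
      rcases min_choice (lev x y + if a = b then 0 else 1)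
        (min (lev x (b :: y)) (lev (a :: x) y) + 1) with h | h
      · rw [h]; exact h1
      · rw [h]
        rcases min_choice (lev x (b :: y)) (lev (a :: x) y) with h' | h'
        · rw [h']; exact h2
        · rw [h']; exact h3

theorem lev_self (x : List ℕ) : lev x x = 0 := by
  induction x with
  | nil => rw [lev_nil_left]; rfl
  | cons a x ih => rw [lev_cons, ih]; simp

theorem lev_cons_right (x y : List ℕ) (b : ℕ) : lev x (b :: y) ≤ lev x y + 1 := by
  cases x with
  | nil => simp [lev_nil_left]
  | cons a x => rw [lev_cons]; omega

theorem lev_cons_left (x y : List ℕ) (a : ℕ) : lev (a :: x) y ≤ lev x y + 1 := by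
  cases y with
  | nil => simp [lev_nil_right]
  | cons b y => rw [lev_cons]; omega

theorem lev_ins (x y : List ℕ) (a : ℕ) : lev x y ≤ lev (a :: x) y + 1 := by
  induction y with
  | nil => simp only [lev_nil_right, List.length_cons]; omega
  | cons b y ih =>
    have := lev_cons_right x y b
    rw [lev_cons]
    omega

theorem lev_sub (x y : List ℕ) (a a' : ℕ) : lev (a :: x) y ≤ lev (a' :: x) y + 1 := by
  induction y with
  | nil => simp [lev_nil_right]
  | cons b y ih =>
    rw [lev_cons, lev_cons]
    split_ifs <;> omega

theorem lev_ctx {u v : List ℕ} (h : ∀ y, lev u y ≤ lev v y + 1) (p y : List ℕ) :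
    lev (p ++ u) y ≤ lev (p ++ v) y + 1 := by
  induction p generalizing y with
  | nil => exact h y
  | cons c p ihp =>
    rw [List.cons_append, List.cons_append]
    induction y with
    | nil =>
      have := ihp []
      simp only [lev_nil_right, List.length_cons] at this ⊢
      omega
    | cons b y ihy =>
      have h1 := ihp y
      have h2 := ihp (b :: y)
      rw [lev_cons, lev_cons]
      omega

theorem lev_edit {x x' : List ℕ} (h : Edit x x') (y : List ℕ) : lev x y ≤ lev x' y + 1 := by
  cases h with
  | ins p s a => exact lev_ctx (fun y => lev_ins s y a) p y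
  | del p s a => exact lev_ctx (fun y => lev_cons_left s y a) p y
  | sub p s a b => exact lev_ctx (fun y => lev_sub s y a b) p y

theorem lev_le {k : ℕ} {x y : List ℕ} (h : Edits k x y) : lev x y ≤ k := by
  induction h with
  | refl x => exact (lev_self x).le
  | @step k x y z hs _ ih =>
    have := lev_edit hs z
    omega

theorem ED_eq_lev (x y : List ℕ) : ED x y = lev x y :=
  le_antisymm (Nat.sInf_le (edits_lev x y))
    (lev_le (Nat.sInf_mem (s := {k : ℕ | Edits k x y}) ⟨_, edits_lev x y⟩))

theorem take_rev (x : List ℕ) {i : ℕ} (hi : i < x.length) :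
    (x.take (i + 1)).reverse = x.getD i 0 :: (x.take i).reverse := by
  rw [List.take_succ_eq_append_getElem hi, List.reverse_append, List.getD_eq_getElem _ _ hi]
  rfl

theorem dp_eq_lev (x y : List ℕ) (i j : ℕ) (hi : i ≤ x.length) (hj : j ≤ y.length) :
    dp x y i j = lev (x.take i).reverse (y.take j).reverse := by
  induction i generalizing j with
  | zero =>
    rw [dp, List.take_zero, List.reverse_nil, lev_nil_left, List.length_reverse,
      List.length_take, min_eq_left hj]
  | succ i ihi =>
    induction j with
    | zero =>
      rw [dp, List.take_zero, List.reverse_nil, lev_nil_right, List.length_reverse,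
        List.length_take, min_eq_left hi]
    | succ j ihj =>
      have h1 := ihi j (by omega) (by omega)
      have h2 := ihi (j + 1) (by omega) hj
      have h3 := ihj (by omega)
      rw [take_rev y hj] at h2
      rw [take_rev x hi] at h3
      rw [dp, take_rev x hi, take_rev y hj, lev_cons, h1, h2, h3]
      have h4 : mt x y i j ↔ x.getD i 0 = y.getD j 0 := ⟨fun h => h.2.2, fun h => ⟨hi, hj, h⟩⟩
      simp only [h4]

end StrCAux

theorem ED_eq_dp (x y : List ℕ) : ED x y = dp x y x.length y.length := by
  rw [StrCAux.dp_eq_lev x y _ _ le_rfl le_rfl, List.take_length, List.take_length,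
    ← StrCAux.ED_eq_lev, StrCAux.ED_rev]

theorem dp_le (x y : List ℕ) (i j : ℕ) : dp x y i j ≤ i + j := by
  induction i generalizing j with
  | zero => rw [dp]; omega
  | succ i ih =>
    cases j with
    | zero => rw [dp]
    | succ j =>
      have := ih (j + 1)
      rw [dp]
      omega

end Vale.Agent.P315
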