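import Vale.Agent.P315.Spread
import Vale.Agent.P315.Cher

/-! The sampled credit compared with its targets. -/

open Finset
open scoped BigOperators

namespace Vale.Agent.P315

variable {p : Par} {Wc : Ev} {a t g Bk Dg : ℕ} [NeZero Dg] {X : Blk Bk Dg → ℕ → ℕ}

theorem lcbGap_mx {n : ℕ} (hn : 1 ≤ n) (f : ℕ → ℕ) : ∃ i < n, mx n f = f i := by
  obtain ⟨i, hi, h⟩ := exists_max_image (range n) f ⟨0, mem_range.2 hn⟩
  exact ⟨i, mem_range.1 hi, le_antisymm (mx_le fun j hj => h j (mem_range.2 hj))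
    (le_mx f (mem_range.1 hi))⟩

theorem lcbGap_and {Ω : Type} [Fintype Ω] {q : Prop} {E : Ω → Prop} {c : ℝ} (hc : 0 ≤ c)
    (h : q → pr E ≤ c) : pr (fun ω => q ∧ E ω) ≤ c := by
  by_cases hq : q
  · exact (pr_mono fun ω hω => hω.2).trans (h hq)
  · refine le_trans (le_of_eq ?_) hc
    unfold pr
    rw [expect_congr rfl fun ω _ => ind_neg fun hω : q ∧ E ω => hq hω.1]
    simp

theorem lcbGap_shift {r : ℕ} (hr : 1 ≤ r) (F : ℕ → ℕ) :
    ∑ j ∈ range r, F (if j = 0 then r else j) = ∑ j ∈ range r, F (j + 1) := by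
  obtain ⟨r', rfl⟩ : ∃ r', r = r' + 1 := ⟨r - 1, by omega⟩
  rw [sum_range_succ', sum_range_succ]
  simp

/-- The clipped drop. -/
def lcbGap_y (p : Par) (Wc : Ev) (a t g : ℕ) (x : ℕ → ℕ) (j i l : ℕ) : ℕ :=
  min (p.ej Wc a t j x l) (p.th g i)

/-- One term of the target. -/
def lcbGap_f (p : Par) (Wc : Ev) (a t g : ℕ) (x : ℕ → ℕ) (j i : ℕ) : ℕ :=
  (p.gb - 2) * (∑ l ∈ range p.b, min (p.ej Wc a t j x l) (p.th g i)) / p.gb -
    2 * p.k0 * (p.b / p.sp j) * p.th g i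

/-- One term of the sampled credit. -/
def lcbGap_l (p : Par) (Wc : Ev) (a t g : ℕ) (z x : ℕ → ℕ) (j i : ℕ) : ℕ :=
  (p.gb - 1) * (p.b / p.sp j * ∑ l ∈ range p.b, if l < p.sp j then
    min (p.ej Wc a t j x (z (j * p.b + l) % p.b)) (p.th g i) else 0) / p.gb -
    p.k0 * (p.b / p.sp j) * p.th g i

/-- The sample is too small. -/
def lcbGap_lo (p : Par) (Wc : Ev) (a t g : ℕ) (z x : ℕ → ℕ) (j i : ℕ) : Prop :=
  (1 + 1 / (p.gb : ℝ)) *
      (∑ l ∈ range (p.sp j), (lcbGap_y p Wc a t g x j i (z (j * p.b + l) % p.b) : ℝ)) +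
    p.k0 * (p.th g i : ℝ) <
    (p.sp j : ℝ) / p.b * ∑ l ∈ range p.b, (lcbGap_y p Wc a t g x j i l : ℝ)

/-- The sample is too large. -/
def lcbGap_up (p : Par) (Wc : Ev) (a t g : ℕ) (z x : ℕ → ℕ) (j i : ℕ) : Prop :=
  (1 + 1 / (p.gb : ℝ)) *
      ((p.sp j : ℝ) / p.b * ∑ l ∈ range p.b, (lcbGap_y p Wc a t g x j i l : ℝ)) +
    p.k0 * (p.th g i : ℝ) <
    ∑ l ∈ range (p.sp j), (lcbGap_y p Wc a t g x j i (z (j * p.b + l) % p.b) : ℝ)

theorem lcbGap_sp (hp : p.Ok) {j : ℕ} (hj : j < p.r) :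
    p.b / p.sp j * p.sp j = p.b ∧ p.sp j ≤ p.b ∧ 0 < p.b := by
  have h0 : 0 < p.b := by have := hp.two_le_b; omega
  have hd : p.sp j ∣ p.b := by
    rw [hp.sp_eq j (Or.inr (hj.le.trans (Nat.le_mul_of_pos_right _ hp.r0_pos))), hp.b_eq]
    exact pow_dvd_pow _ hj.le
  exact ⟨Nat.div_mul_cancel hd, Nat.le_of_dvd h0 hd, h0⟩

theorem lcbGap_pos (hp : p.Ok) {j : ℕ} (hj : j < p.r) : j * p.b + p.sp j ≤ p.r * p.b := by
  have h1 := (lcbGap_sp hp hj).2.1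
  have h2 : (j + 1) * p.b ≤ p.r * p.b := Nat.mul_le_mul_right _ hj
  rw [add_mul] at h2
  omega

omit [NeZero Dg] in
theorem lcbGap_inv {A : Type} (hp : p.Ok) {j : ℕ} (hj : j < p.r) (hX : Inv 0 (p.r * p.b) X)
    (F : (ℕ → ℕ) → A) : Inv (j * p.b) (p.sp j) fun β => F (X β) := by
  intro β β' h
  have := lcbGap_pos hp hj
  exact congrArg F (hX β β' fun i hi => h i (Or.inr (by omega)))

theorem lcbGap_gam (hp : p.Ok) : 0 < 1 / (p.gb : ℝ) ∧ 1 / (p.gb : ℝ) ≤ 1 := by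
  have h : (2 : ℝ) ≤ p.gb := by exact_mod_cast hp.gb_ge
  exact ⟨one_div_pos.2 (by linarith), (div_le_one (by linarith)).2 (by linarith)⟩

theorem lcbGap_pr_lo (hp : p.Ok) (hB : p.r * p.b ≤ Bk) (hD : p.b ∣ Dg) (hX : Inv 0 (p.r * p.b) X)
    {j : ℕ} (hj : j < p.r) (I : (ℕ → ℕ) → ℕ) :
    pr (fun β => lcbGap_lo p Wc a t g (bv β) (X β) j (I (X β))) ≤
      Real.exp (-(p.k0 / p.gb / 2 : ℝ)) := by
  have := chernoff_lower (k := p.k0) ((lcbGap_pos hp hj).trans hB) hD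
    (lcbGap_inv hp hj hX fun x l => (lcbGap_y p Wc a t g x j (I x) l : ℝ))
    (lcbGap_inv hp hj hX fun x => (p.th g (I x) : ℝ)) (fun _ _ => Nat.cast_nonneg _)
    (fun _ _ => Nat.cast_le.2 (min_le_right _ _)) (lcbGap_gam hp).1 (lcbGap_gam hp).2
    (Nat.cast_nonneg _)
  rw [one_div_mul_eq_div] at this
  exact this

theorem lcbGap_pr_up (hp : p.Ok) (hB : p.r * p.b ≤ Bk) (hD : p.b ∣ Dg) (hX : Inv 0 (p.r * p.b) X)
    {j : ℕ} (hj : j < p.r) (i : ℕ) :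
    pr (fun β => lcbGap_up p Wc a t g (bv β) (X β) j i) ≤ Real.exp (-(p.k0 / p.gb : ℝ)) := by
  have := chernoff_upper (k := p.k0) ((lcbGap_pos hp hj).trans hB) hD
    (lcbGap_inv hp hj hX fun x l => (lcbGap_y p Wc a t g x j i l : ℝ))
    (lcbGap_inv hp hj hX fun _ => (p.th g i : ℝ)) (fun _ _ => Nat.cast_nonneg _)
    (fun _ _ => Nat.cast_le.2 (min_le_right _ _)) (lcbGap_gam hp).1 (lcbGap_gam hp).2
  rw [one_div_mul_eq_div] at this
  exact this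

theorem lcbGap_n1 {G m n B S T k θ : ℕ} (hG : 2 ≤ G) (hm : m * n = B) (hB : 0 < B)
    (h : (n : ℝ) / B * T ≤ (1 + 1 / (G : ℝ)) * S + k * θ) :
    (G - 2) * T / G - 2 * k * m * θ ≤ (G - 1) * (m * S) / G - k * m * θ := by
  obtain ⟨u, rfl⟩ : ∃ u, G = u + 2 := ⟨G - 2, by omega⟩
  have hn : (0 : ℝ) < n := Nat.cast_pos.2 (Nat.pos_of_mul_pos_left (hm ▸ hB))
  have hm0 : (0 : ℝ) < m := Nat.cast_pos.2 (Nat.pos_of_mul_pos_right (hm ▸ hB))
  have h1 : (u + 2) * T ≤ (u + 3) * (m * S) + (u + 2) * (k * m * θ) := by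
    rw [← hm] at h
    push_cast at h
    have h2 := mul_le_mul_of_nonneg_left h (show (0 : ℝ) ≤ (u + 2) * m by positivity)
    have e1 : ((u : ℝ) + 2) * m * (n / (m * n) * T) = (u + 2) * T := by field_simp
    have e2 : ((u : ℝ) + 2) * m * ((1 + 1 / (u + 2)) * S + k * θ) =
        (u + 3) * (m * S) + (u + 2) * (k * m * θ) := by
      field_simp
      ring
    rw [e1, e2] at h2
    exact_mod_cast h2
  have e3 : 2 * k * m * θ = 2 * (k * m * θ) := by ring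
  rw [e3]
  generalize m * S = y at h1 ⊢
  generalize k * m * θ = K at h1 ⊢
  have h3 : u * T ≤ (u + 1) * y + (u + 2) * K := by
    refine Nat.le_of_mul_le_mul_left ?_ (show 0 < u + 2 by omega)
    nlinarith [Nat.mul_le_mul_left u h1]
  have h4 : u * T / (u + 2) ≤ (u + 1) * y / (u + 2) + K := by
    rw [← Nat.add_mul_div_left _ _ (show 0 < u + 2 by omega)]
    exact Nat.div_le_div_right h3
  rw [Nat.add_sub_cancel, show u + 2 - 1 = u + 1 from rfl]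
  omega

theorem lcbGap_n2 {G m n B S T k θ : ℕ} (hG : 2 ≤ G) (hm : m * n = B) (hB : 0 < B)
    (h : (S : ℝ) ≤ (1 + 1 / (G : ℝ)) * ((n : ℝ) / B * T) + k * θ) :
    (G - 1) * (m * S) / G - k * m * θ ≤ T := by
  obtain ⟨u, rfl⟩ : ∃ u, G = u + 2 := ⟨G - 2, by omega⟩
  have hn : (0 : ℝ) < n := Nat.cast_pos.2 (Nat.pos_of_mul_pos_left (hm ▸ hB))
  have hm0 : (0 : ℝ) < m := Nat.cast_pos.2 (Nat.pos_of_mul_pos_right (hm ▸ hB))
  have h1 : (u + 2) * (m * S) ≤ (u + 3) * T + (u + 2) * (k * m * θ) := by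
    rw [← hm] at h
    push_cast at h
    have h2 := mul_le_mul_of_nonneg_left h (show (0 : ℝ) ≤ (u + 2) * m by positivity)
    have e2 : ((u : ℝ) + 2) * m * ((1 + 1 / (u + 2)) * (n / (m * n) * T) + k * θ) =
        (u + 3) * T + (u + 2) * (k * m * θ) := by
      field_simp
      ring
    rw [e2, mul_assoc] at h2
    exact_mod_cast h2
  generalize m * S = y at h1 ⊢
  generalize k * m * θ = K at h1 ⊢
  have h3 : (u + 1) * y ≤ (u + 2) * (T + K) := by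
    refine Nat.le_of_mul_le_mul_left ?_ (show 0 < u + 2 by omega)
    nlinarith [Nat.mul_le_mul_left (u + 1) h1]
  have h4 : (u + 1) * y / (u + 2) ≤ T + K := Nat.div_le_of_le_mul h3
  rw [show u + 2 - 1 = u + 1 from rfl]
  omega

theorem lcbGap_lo_le (hp : p.Ok) {z x : ℕ → ℕ} {j i : ℕ} (hj : j < p.r)
    (h : ¬lcbGap_lo p Wc a t g z x j i) :
    lcbGap_f p Wc a t g x j i ≤ lcbGap_l p Wc a t g z x j i := by
  obtain ⟨h1, h2, h3⟩ := lcbGap_sp hp hj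
  unfold lcbGap_f lcbGap_l
  rw [sum_guard h2]
  refine lcbGap_n1 hp.gb_ge h1 h3 ?_
  rw [Nat.cast_sum, Nat.cast_sum]
  exact not_lt.1 h

theorem lcbGap_up_le (hp : p.Ok) {z x : ℕ → ℕ} {j i : ℕ} (hj : j < p.r)
    (h : ¬lcbGap_up p Wc a t g z x j i) :
    lcbGap_l p Wc a t g z x j i ≤ ∑ l ∈ range p.b, p.ej Wc a t j x l := by
  obtain ⟨h1, h2, h3⟩ := lcbGap_sp hp hj
  unfold lcbGap_l
  rw [sum_guard h2]
  refine le_trans (lcbGap_n2 (T := ∑ l ∈ range p.b, lcbGap_y p Wc a t g x j i l) hp.gb_ge h1 h3 ?_)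
    (sum_le_sum fun l _ => min_le_left _ _)
  rw [Nat.cast_sum, Nat.cast_sum]
  exact not_lt.1 h

theorem px_inv (d e a0 t' μ A : ℕ) :
    Inv 0 (p.r * p.b) fun β : Blk Bk Dg => p.px Wc (bv β) a t d e g a0 t' μ A := by
  intro β β' h
  have e : p.nz (bv β) = p.nz (bv β') := by
    funext idx
    unfold Par.nz
    refine mn_congr fun c _ => ?_
    rw [h _ (Or.inr (by omega))]
  simp only [Par.px, Par.play, e]

theorem lcb_gap (hp : p.Ok) (hW : ∀ l, Reg p.U (Wc l)) (ht : 1 ≤ t) (hB : p.r * p.b ≤ Bk)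
    (hD : p.b ∣ Dg) (hX : Inv 0 (p.r * p.b) X) {C : ℝ}
    (hC : ∀ β, (p.lsum Wc a (t - 1) p.b (X β) : ℝ) ≤ C) :
    𝔼 β, ((p.phi Wc a t g (X β) - p.lcb Wc (bv β) a t g (X β) : ℕ) : ℝ) ≤
      p.r * Real.exp (-(p.k0 / p.gb / 2 : ℝ)) * C := by
  have ex : ∀ (j : ℕ) (x : ℕ → ℕ), ∃ i < p.It1, (mx p.It1 fun i => lcbGap_f p Wc a t g x j i) =
      lcbGap_f p Wc a t g x j i := fun j x => lcbGap_mx hp.It1_pos _
  choose I hI hI' using ex
  let E : ℕ → Blk Bk Dg → Prop := fun j β => 1 ≤ j ∧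
    lcbGap_lo p Wc a t g (bv β) (X β) j (I j (X β))
  have hpr : pr (fun β => ∃ j < p.r, E j β) ≤ p.r * Real.exp (-(p.k0 / p.gb / 2 : ℝ)) :=
    pr_exists_lt _ _ fun j hj => lcbGap_and (Real.exp_pos _).le fun _ =>
      lcbGap_pr_lo hp hB hD hX hj (I j)
  have hC0 : 0 ≤ C := (Nat.cast_nonneg _).trans (hC fun _ => 0)
  refine le_trans (ex_mono (g := fun β => C * ind (∃ j < p.r, E j β)) fun β => ?_) ?_
  · by_cases h : ∃ j < p.r, E j β
    · rw [ind_pos h, mul_one]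
      refine le_trans (Nat.cast_le.2 ?_) (hC β)
      have := phi_le (a := a) (g := g) hp hW ht (X β)
      omega
    · rw [ind_neg h, mul_zero]
      have k : p.phi Wc a t g (X β) ≤ p.lcb Wc (bv β) a t g (X β) := by
        refine sum_le_sum fun j hj => ?_
        have hj' := mem_range.1 hj
        split_ifs with h0
        · exact le_rfl
        · refine (hI' j (X β)).le.trans (le_trans ?_
            (le_mx (fun i => lcbGap_l p Wc a t g (bv β) (X β) j i) (hI j (X β))))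
          exact lcbGap_lo_le hp hj' fun hh => h ⟨j, hj', Nat.one_le_iff_ne_zero.2 h0, hh⟩
      rw [Nat.sub_eq_zero_of_le k, Nat.cast_zero]
  · rw [ex_mul, mul_comm]
    exact mul_le_mul_of_nonneg_right hpr hC0

theorem lcb_over (hp : p.Ok) (hW : ∀ l, Reg p.U (Wc l)) (ht : 1 ≤ t) (hB : p.r * p.b ≤ Bk)
    (hD : p.b ∣ Dg) (hX : Inv 0 (p.r * p.b) X) :
    pr (fun β => p.lsum Wc a (t - 1) p.b (X β) <
      p.lcb Wc (bv β) a t g (X β) + p.lsum Wc a t p.b (X β)) ≤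
      p.r * p.It1 * Real.exp (-(p.k0 / p.gb : ℝ)) := by
  let E : ℕ → ℕ → Blk Bk Dg → Prop := fun j i β => lcbGap_up p Wc a t g (bv β) (X β) j i
  have hpr : pr (fun β => ∃ j < p.r, ∃ i < p.It1, E j i β) ≤
      p.r * (p.It1 * Real.exp (-(p.k0 / p.gb : ℝ))) :=
    pr_exists_lt _ _ fun j hj => pr_exists_lt _ _ fun i _ => lcbGap_pr_up hp hB hD hX hj i
  rw [mul_assoc]
  refine le_trans (pr_mono fun β hβ => ?_) hpr
  by_contra h
  have k : p.lcb Wc (bv β) a t g (X β) ≤ ∑ j ∈ range p.r,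
      ∑ l ∈ range p.b, p.ej Wc a t (if j = 0 then p.r else j) (X β) l := by
    refine sum_le_sum fun j hj => ?_
    have hj' := mem_range.1 hj
    split_ifs with h0
    · exact le_rfl
    · exact mx_le fun i hi => lcbGap_up_le hp hj' fun hh => h ⟨j, hj', i, hi, hh⟩
  rw [lcbGap_shift hp.r_pos fun j => ∑ l ∈ range p.b, p.ej Wc a t j (X β) l, sum_comm] at k
  have e : ∑ l ∈ range p.b, ∑ j ∈ range p.r, p.ej Wc a t (j + 1) (X β) l +
      p.lsum Wc a t p.b (X β) = p.lsum Wc a (t - 1) p.b (X β) := by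
    unfold Par.lsum
    rw [sum_guard le_rfl, sum_guard le_rfl, ← sum_add_distrib]
    exact sum_congr rfl fun l _ => ej_sum hp hW ht _ l
  omega

theorem pr_badN (hp : p.Ok) (hW : ∀ l, Reg p.U (Wc l)) (hB : p.r * p.b ≤ Bk) (hD : p.b ∣ Dg)
    (sl k : ℕ) : pr (fun β : Blk Bk Dg => p.BadN Wc (bv β) sl k) ≤ p.fb := by
  have e : p.fb = p.F * (p.T1 * (p.T1 * (p.T1 * (p.np1 * (p.np1 *
      (p.r * p.It1 * Real.exp (-(p.k0 / p.gb : ℝ)))))))) := by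
    unfold Par.fb
    ring
  rw [e]
  let E : ℕ → ℕ → ℕ → ℕ → ℕ → ℕ → Blk Bk Dg → Prop := fun a t a0 t' μ A β =>
    p.lsum Wc a (t - 1) p.b (p.px Wc (bv β) a t (p.sd sl k) (p.se sl k) (p.sg sl) a0 t' μ A) <
      p.lcb Wc (bv β) a t (p.sg sl)
        (p.px Wc (bv β) a t (p.sd sl k) (p.se sl k) (p.sg sl) a0 t' μ A) +
      p.lsum Wc a t p.b (p.px Wc (bv β) a t (p.sd sl k) (p.se sl k) (p.sg sl) a0 t' μ A)
  refine le_trans (pr_mono (E' := fun β => ∃ a < p.F, ∃ t < p.T1, 1 ≤ t ∧ ∃ a0 < p.T1,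
    ∃ t' < p.T1, ∃ μ < p.np1, ∃ A < p.np1, E (a + 1) t a0 t' μ A β) fun β hβ => ?_) ?_
  · obtain ⟨a, h1, h2, h3⟩ := hβ
    obtain ⟨a', rfl⟩ : ∃ a', a = a' + 1 := ⟨a - 1, by omega⟩
    exact ⟨a', h1, h3⟩
  · refine pr_exists_lt _ _ fun a _ => pr_exists_lt _ _ fun t _ =>
      lcbGap_and (by positivity) fun ht => pr_exists_lt _ _ fun a0 _ =>
      pr_exists_lt _ _ fun t' _ => pr_exists_lt _ _ fun μ _ => pr_exists_lt _ _ fun A _ => ?_
    exact lcb_over hp hW ht hB hD (px_inv _ _ a0 t' μ A)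

end Vale.Agent.P315
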