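import Vale.Agent.P315.Prob

/-! Events attached to different coordinates. -/

open Finset
open scoped BigOperators

namespace Vale.Agent.P315

theorem pr_prod {ι B : Type} [Fintype ι] [DecidableEq ι] [Fintype B] [Nonempty B] (I : Finset ℕ)
    (v : ℕ → ι) (E : ℕ → (ι → B) → Prop) {f : ℝ} (hf : 0 ≤ f)
    (hinv : ∀ i ∈ I, ∀ i' ∈ I, i ≠ i' → ∀ ω β, E i (Function.update ω (v i') β) ↔ E i ω)
    (hp : ∀ i ∈ I, ∀ ω, pr (fun β => E i (Function.update ω (v i) β)) ≤ f) :
    pr (fun ω => ∀ i ∈ I, E i ω) ≤ f ^ I.card := by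
  induction I using Finset.induction_on with
  | empty => exact ex_le fun _ => (ind_le_one _).trans (pow_zero f).ge
  | insert a s ha ih =>
    have h := ih (fun i hi i' hi' => hinv i (mem_insert_of_mem hi) i' (mem_insert_of_mem hi'))
      fun i hi => hp i (mem_insert_of_mem hi)
    rw [card_insert_of_notMem ha, pow_succ']
    refine le_trans ?_ (mul_le_mul_of_nonneg_left h hf)
    unfold pr
    rw [ex_update (v a), ← ex_mul]
    refine ex_mono fun ω => ?_
    by_cases hs : ∀ i ∈ s, E i ω
    · rw [ind_pos hs, mul_one]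
      exact (pr_mono fun β hβ => hβ a (mem_insert_self _ _)).trans (hp a (mem_insert_self _ _) ω)
    · rw [ind_neg hs, mul_zero]
      exact ex_le fun β => (ind_neg fun hβ => hs fun i hi =>
        (hinv i (mem_insert_of_mem hi) a (mem_insert_self _ _) (fun e => ha (e ▸ hi)) ω β).1
          (hβ i (mem_insert_of_mem hi))).le

/-- Two independent sources of randomness. -/
theorem pr_two {A B : Type} [Fintype A] [Fintype B] [Nonempty A] [Nonempty B] (E : A → B → Prop)
    (G : A → Prop) {c c' : ℝ} (hc' : 0 ≤ c') (h1 : pr (fun a => ¬G a) ≤ c)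
    (h2 : ∀ a, G a → pr (E a) ≤ c') : 𝔼 a, pr (E a) ≤ c + c' := by
  have h : ∀ a, pr (E a) ≤ ind (¬G a) + c' := fun a => by
    by_cases hG : G a
    · exact (h2 a hG).trans (le_add_of_nonneg_left (ind_nonneg _))
    · rw [ind_pos hG]
      exact (ex_le fun _ => ind_le_one _).trans (le_add_of_nonneg_right hc')
  refine (ex_mono h).trans ?_
  rw [ex_add, Fintype.expect_const]
  exact add_le_add_left h1 _

end Vale.Agent.P315
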