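import Vale.Agent.P315.ValidD
import Vale.Agent.P315.LcbGap
import Vale.Agent.P315.Prod

/-! Validity with high probability. -/

open Finset
open scoped BigOperators

namespace Vale.Agent.P315

variable {p : Par} {E τ Tc Lg Dg κ : ℕ} [NeZero Dg] {hp' mis : ℕ → ℕ → ℕ} {zr : ℕ → ℕ → ℕ → ℕ}

/-- The rare event of the node `(h + 1, i)` at grid scale `2 ^ gi` and gain scale `2 ^ ci`. -/
def validp_ev (p : Par) (hp' mis : ℕ → ℕ → ℕ) (zr : ℕ → ℕ → ℕ → ℕ) (h gi ci : ℕ)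
    (z : ℕ → ℕ → ℕ → ℕ) (i d : ℕ) : Prop :=
  (i < p.b ^ (p.H - (h + 1)) ∧
    hp' (i * p.b ^ (h + 1)) d + 2 ^ ci ≤ hp' ((i + 1) * p.b ^ (h + 1)) d) ∧
  2 ^ ci ≤ p.r * p.b * p.P0 * 2 ^ gi ∧
  ∃ m < p.np1, ∃ k, p.O - p.Dh + 2 ^ gi * k = d ∧
    p.BadN (Wch p mis z zr h i) (z (h + 1) i) (gi * p.np1 + m + 1) k

theorem validp_cell (c g n ζ α : ℕ) (hζ : 0 < ζ) (hn : ζ ≤ n * g) :
    ∃ k0, ∀ k, (c + g * k) / ζ = α → ∃ j < n + 1, k = k0 + j := by
  classical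
  by_cases h : ∃ k, (c + g * k) / ζ = α
  · refine ⟨Nat.find h, fun k hk => ?_⟩
    have h1 := Nat.find_spec h
    have h2 := Nat.find_min' h hk
    generalize Nat.find h = k0 at h1 h2
    refine ⟨k - k0, ?_, by omega⟩
    have e1 := Nat.div_add_mod (c + g * k) ζ
    have e2 := Nat.div_add_mod (c + g * k0) ζ
    have e3 := Nat.mod_lt (c + g * k) hζ
    rw [hk] at e1
    rw [h1] at e2
    have e4 : g * k < g * (k0 + n) := by
      rw [mul_add, mul_comm g n]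
      omega
    have := Nat.lt_of_mul_lt_mul_left e4
    omega
  · exact ⟨0, fun k hk => absurd ⟨k, hk⟩ h⟩

theorem validp_fb (p : Par) : 0 ≤ p.fb := by unfold Par.fb; positivity

theorem validp_loc (hp : p.Ok) (hD : p.b ∣ Dg) {Wc : Ev} (hW : ∀ l, Reg p.U (Wc l))
    (gi ci α : ℕ) :
    pr (fun β : Blk p.Bf Dg => ∃ d, d / ((2 ^ ci + 1) / 2) = α ∧
      2 ^ ci ≤ p.r * p.b * p.P0 * 2 ^ gi ∧ ∃ m < p.np1, ∃ k, p.O - p.Dh + 2 ^ gi * k = d ∧
        p.BadN Wc (bv β) (gi * p.np1 + m + 1) k) ≤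
      ((p.r * p.b * p.P0 + 1) * p.np1 * p.fb : ℝ) := by
  have hG : 1 ≤ 2 ^ ci := Nat.one_le_two_pow
  have hfb := validp_fb p
  by_cases hc : 2 ^ ci ≤ p.r * p.b * p.P0 * 2 ^ gi
  · obtain ⟨k0, hk0⟩ := validp_cell (p.O - p.Dh) (2 ^ gi) (p.r * p.b * p.P0) ((2 ^ ci + 1) / 2) α
      (by omega) (by omega)
    have h1 := pr_exists_lt (p.r * p.b * p.P0 + 1)
      (fun j (β : Blk p.Bf Dg) => ∃ m < p.np1, p.BadN Wc (bv β) (gi * p.np1 + m + 1) (k0 + j))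
      (c := p.np1 * p.fb) fun j _ => pr_exists_lt p.np1 _ fun m _ =>
        pr_badN hp hW (Nat.le_add_right _ _) hD _ _
    refine (pr_mono ?_).trans (h1.trans (le_of_eq ?_))
    · rintro β ⟨d, hd, -, m, hm, k, rfl, hb⟩
      obtain ⟨j, hj, rfl⟩ := hk0 k hd
      exact ⟨j, hj, m, hm, hb⟩
    · push_cast
      ring
  · have h1 := pr_exists_lt 0 (fun _ (_ : Blk p.Bf Dg) => False) (c := 0)
      fun _ hi => absurd hi (Nat.not_lt_zero _)
    refine (pr_mono ?_).trans (h1.trans ?_)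
    · rintro β ⟨d, -, h, -⟩
      exact absurd h hc
    · rw [mul_zero]
      positivity

theorem validp_prod (hp : p.Ok) (hD : p.b ∣ Dg) (hm : ∀ q d, mis q d ≤ 1) {h : ℕ} (hh : h < p.H)
    (gi ci : ℕ) (I : Finset ℕ) (α : ℕ → ℕ) (hI : ∀ i ∈ I, i < p.b ^ (p.H - (h + 1))) :
    pr (fun ω : Fin p.Nn → Blk p.Bf Dg => ∀ i ∈ I, ∃ d, d / ((2 ^ ci + 1) / 2) = α i ∧
      validp_ev p hp' mis zr h gi ci (zv p ω) i d) ≤
      ((p.r * p.b * p.P0 + 1) * p.np1 * p.fb : ℝ) ^ I.card := by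
  have hfb := validp_fb p
  have hN : 0 < p.Nn := by
    have := hp.nid_lt (h := 0) (i := 0) (Nat.zero_le _) (pow_pos (by have := hp.two_le_b; omega) _)
    omega
  refine pr_prod I (fun i => if hv : (h + 1) * p.P + i < p.Nn then ⟨_, hv⟩ else ⟨0, hN⟩)
    (fun i ω => ∃ d, d / ((2 ^ ci + 1) / 2) = α i ∧ validp_ev p hp' mis zr h gi ci (zv p ω) i d)
    (by positivity) (fun i _ i' hi' hne ω β => ?_) fun i hi ω => ?_
  · have hv := hp.nid_lt (h := h + 1) hh (hI i' hi')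
    have hP := hp.idx_lt (hI i' hi')
    simp only [dif_pos hv, validp_ev, Wch_update hp ω i hh hP hv β,
      zv_update_ne ω hP hv (Or.inr hne) β]
  · have hv := hp.nid_lt (h := h + 1) hh (hI i hi)
    have hP := hp.idx_lt (hI i hi)
    refine (pr_mono ?_).trans (validp_loc hp hD (Wc := Wch p mis (zv p ω) zr h i)
      (fun l => Wv_reg hp hm _ _) gi ci (α i))
    rintro β ⟨d, hd, -, h2, h3⟩
    rw [dif_pos hv, Wch_update hp ω i hh hP hv β, zv_update_self ω hP hv β] at h3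
    exact ⟨d, hd, h2, h3⟩

theorem validp_sum {ι : Type} (s : Finset ι) (a b : ι → ℝ) (c : ℝ) (h : ∀ x ∈ s, a x ≤ b x + c) :
    ∑ x ∈ s, a x ≤ ∑ x ∈ s, b x + s.card * c := by
  have := sum_le_sum h
  rwa [sum_add_distrib, sum_const, nsmul_eq_mul] at this

theorem validp_sum1 {ι : Type} (s : Finset ι) (a b : ι → ℝ) (c g : ℝ) (h : ∀ x ∈ s, a x ≤ b x + c)
    {x0 : ι} (hx : x0 ∈ s) (h0 : a x0 + g ≤ b x0 + c) :
    ∑ x ∈ s, a x + g ≤ ∑ x ∈ s, b x + s.card * c := by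
  have := single_le_sum (f := fun x => b x + c - a x) (fun x hx => sub_nonneg.2 (h x hx)) hx
  rw [sum_sub_distrib, sum_add_distrib, sum_const, nsmul_eq_mul] at this
  linarith

theorem validp_gain (hp : p.Ok) (hs : PathSys hp' mis) {z : ℕ → ℕ → ℕ → ℕ} {h i sl k : ℕ}
    (hh : h < p.H) (hi : i < p.b ^ (p.H - (h + 1))) (hsl : sl < p.NS1) (h1 : 1 ≤ sl)
    (hb : p.BadN (Wch p mis z zr h i) (z (h + 1) i) sl k) {Γ : ℕ}
    (hΓ : Γ = min (hp' ((i + 1) * p.b ^ (h + 1)) (p.sd sl k) - hp' (i * p.b ^ (h + 1)) (p.sd sl k))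
      (p.r * p.b * p.sg sl * p.P0)) (h0 : Γ ≠ 0) :
    ∃ gi < p.wb * p.H + 1, ∃ ci < p.wb * p.H + 1, Γ ≤ 2 * 2 ^ ci ∧
      validp_ev p hp' mis zr h gi ci z i (p.sd sl k) := by
  have hn : 0 < p.np1 := by rw [hp.np1_eq]; omega
  have hgi : (sl - 1) / p.np1 < p.wb * p.H + 1 := by
    rw [Nat.div_lt_iff_lt_mul hn]
    have := hp.NS1_eq
    omega
  have hsg : p.sg sl = 2 ^ ((sl - 1) / p.np1) := by
    rw [Par.sg, if_neg (by omega), hp.pw_sc _ (by omega)]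
  have e1 := Nat.pow_log_le_self 2 h0
  have e2 := Nat.lt_pow_succ_log_self (by norm_num : 1 < 2) Γ
  have e3 := dl_le_len hs (i * p.b ^ (h + 1)) (p.b ^ (h + 1)) (p.sd sl k) (p.sd sl k)
  rw [Nat.dist_self, add_zero, ← add_one_mul, dl] at e3
  have e4 : p.b ^ (h + 1) ≤ 2 ^ (p.wb * p.H) := by
    rw [pow_mul, ← hp.b_pow]
    exact Nat.pow_le_pow_right (by have := hp.two_le_b; omega) hh
  have e5 : 2 ^ Nat.log 2 Γ ≤ 2 ^ (p.wb * p.H) := by omega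
  have e6 := (Nat.pow_le_pow_iff_right (by norm_num : 1 < 2)).1 e5
  have e7 : 1 ≤ 2 ^ Nat.log 2 Γ := Nat.one_le_two_pow
  refine ⟨_, hgi, Nat.log 2 Γ, by omega, ?_, ⟨hi, by omega⟩, ?_, (sl - 1) % p.np1,
    Nat.mod_lt _ hn, k, by rw [← hsg]; rfl, ?_⟩
  · rw [Nat.succ_eq_add_one, pow_succ] at e2
    omega
  · rw [← hsg, mul_right_comm]
    omega
  · have := Nat.div_add_mod' (sl - 1) p.np1
    rwa [this, Nat.sub_add_cancel h1]

theorem valid (hp : p.Ok) (hn : p.Num E τ Tc Lg Dg κ) (hs : PathSys hp' mis) (h0 : hp' 0 p.O = 0)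
    (hg : p.GoodR mis zr) (e : ℕ) :
    pr (fun ω : Fin p.Nn → Blk p.Bf Dg => (Wv p mis (zv p ω) zr p.H 0 p.F (p.T1 - 1) p.O e : ℝ) <
      p.U * ((1 - 1 / (E : ℝ)) * hp' p.P e)) ≤ 1 / (24 * κ) := by
  have hD : p.b ∣ Dg := (hp.b0_eq ▸ dvd_pow_self p.b (by have := hp.r0_pos; omega)).trans hn.b0_dvd
  have hb := hp.two_le_b
  have hE : (16 : ℝ) ≤ E := by exact_mod_cast hn.E_ge
  have hH : (1 : ℝ) ≤ p.H := by exact_mod_cast hp.H_pos
  have hκ : (1 : ℝ) ≤ κ := by exact_mod_cast hn.kappa_pos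
  have hU : (0 : ℝ) < p.U := by exact_mod_cast hp.U_pos
  have hR : 1 ≤ p.Rc E := by
    have := hn.E_ge
    have := hp.H_pos
    exact Nat.succ_le_of_lt (by unfold Par.Rc; positivity)
  have hfb := validp_fb p
  have hch := hn.chain
  set f : ℝ := (p.r * p.b * p.P0 + 1) * p.np1 * p.fb with hf
  have hf0 : 0 ≤ f := by positivity
  have hW : (1 : ℝ) ≤ (p.wb * p.H + 1) ^ 2 := one_le_pow₀ (le_add_of_nonneg_left (by positivity))
  have hf1 : (24 * (p.Rc E : ℝ)) ^ 2 * f ≤ 1 / 2 := by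
    have e1 : (1 : ℝ) / (24 * κ) ≤ 1 := by
      rw [div_le_one (by positivity)]
      linarith
    have e2 : (0 : ℝ) ≤ 2 * (24 * (p.Rc E : ℝ)) ^ 2 * f := by positivity
    have e3 := mul_le_mul_of_nonneg_right (one_le_mul_of_one_le_of_one_le hH hW) e2
    linarith
  have key : ∀ h, h < p.H → ∀ x : ℕ × ℕ, ∃ π : (Fin p.Nn → Blk p.Bf Dg) → ℕ → ℕ → ℝ,
      (∀ ω, π ω 0 p.O = 0) ∧
      (∀ ω q d q' d', q ≤ q' → π ω q d ≤ π ω q' d' + 2 / p.Rc E * dl hp' q d q' d') ∧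
      (∀ ω i d d', validp_ev p hp' mis zr h x.1 x.2 (zv p ω) i d →
        π ω (i * p.b ^ (h + 1)) d + 2 * (2 ^ x.2 : ℕ) ≤ π ω ((i + 1) * p.b ^ (h + 1)) d' +
          2 / p.Rc E * dl hp' (i * p.b ^ (h + 1)) d ((i + 1) * p.b ^ (h + 1)) d') ∧
      pr (fun ω => ∃ q d, 0 < π ω q d) ≤ 2 * (24 * p.Rc E) ^ 2 * f := fun h hh x =>
    chain hs h0 (Nat.one_le_pow _ _ (by omega)) Nat.one_le_two_pow hR
      (fun ω i d => validp_ev p hp' mis zr h x.1 x.2 (zv p ω) i d) hf0 hf1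
      (fun _ _ _ h => h.1) (validp_prod hp hD hs.le_one hh x.1 x.2)
  choose! π k0 k1 k2 k3 using key
  set S := range (p.wb * p.H + 1) ×ˢ range (p.wb * p.H + 1) with hS
  have hc : (S.card : ℝ) = (p.wb * p.H + 1) ^ 2 := by
    rw [hS, card_product, card_range]
    push_cast
    ring
  have hε : (S.card : ℝ) * (2 / p.Rc E) = 1 / (E * p.H) := by
    rw [hc, Par.Rc]
    push_cast
    field_simp
  have hHε : (p.H : ℝ) * (1 / (E * p.H)) = 1 / E := by field_simp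
  have hE1 : (1 : ℝ) / E ≤ 1 := by
    rw [div_le_one (by positivity)]
    linarith
  have h1 := pr_exists_lt p.H (fun h ω => ∃ x ∈ S, ∃ q d, 0 < π h x ω q d)
    (c := S.card * (2 * (24 * p.Rc E) ^ 2 * f)) fun h hh => (pr_exists _ _).trans
      ((sum_le_card_nsmul _ _ _ fun x _ => k3 h hh x).trans (nsmul_eq_mul _ _).le)
  refine (pr_mono fun ω hω => ?_).trans (h1.trans (by rw [hc, ← mul_assoc]; exact hch))
  by_contra hno
  push Not at hno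
  have a1 : ∀ h < p.H, ∀ q d q' d', q ≤ q' → ∑ x ∈ S, π h x ω q d ≤
      ∑ x ∈ S, π h x ω q' d' + 1 / (E * p.H) * dl hp' q d q' d' := fun h hh q d q' d' hq => by
    rw [← hε, mul_assoc]
    exact validp_sum S _ _ _ fun x _ => k1 h hh x ω q d q' d' hq
  have hv := valid_det (z := zv p ω) hp hs hg (fun h q d => ∑ x ∈ S, π h x ω q d)
    (ε := 1 / (E * p.H)) (by positivity) (hHε.le.trans hE1) a1
    (fun h hh i hi sl hsl h1 k _ hb => by
      generalize hΓ : min (_ : ℕ) _ = Γ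
      by_cases hz : Γ = 0
      · rw [hz, Nat.cast_zero, add_zero]
        exact a1 h hh _ _ _ _ (Nat.mul_le_mul_right _ (Nat.le_succ i))
      · obtain ⟨gi, hgi, ci, hci, g1, g2⟩ := validp_gain hp hs hh hi hsl h1 hb hΓ.symm hz
        rw [← hε, mul_assoc]
        refine validp_sum1 S _ _ _ _ (fun x _ => k1 h hh x ω _ _ _ _
          (Nat.mul_le_mul_right _ (Nat.le_succ i))) (x0 := (gi, ci))
          (mem_product.2 ⟨mem_range.2 hgi, mem_range.2 hci⟩) ?_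
        have g3 : (Γ : ℝ) ≤ 2 * (2 ^ ci : ℕ) := by exact_mod_cast g1
        have := k2 h hh (gi, ci) ω i _ (p.se sl k) g2
        linarith)
    (h := p.H) le_rfl (i := 0) (pow_pos (by omega) _) (a := p.F) (t := p.T1 - 1) le_rfl
    (by have := hp.T1_pos; omega) p.O e
  rw [hHε, zero_mul, zero_add, one_mul, ← hp.P_eq] at hv
  have a2 : ∑ h' ∈ range p.H, (∑ x ∈ S, π h' x ω p.P e - ∑ x ∈ S, π h' x ω 0 p.O) ≤ 0 :=
    sum_nonpos fun h hh => by
      rw [sum_eq_zero fun x _ => k0 h (mem_range.1 hh) x ω, sub_zero]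
      exact sum_nonpos fun x hx => hno h (mem_range.1 hh) x hx _ _
  have a3 : (hp' p.P e : ℝ) ≤ dl hp' 0 p.O p.P e := by
    have : hp' p.P e ≤ dl hp' 0 p.O p.P e := by
      unfold dl
      omega
    exact_mod_cast this
  have a4 := mul_le_mul_of_nonneg_left a3 (sub_nonneg.2 hE1)
  have a5 := (le_div_iff₀' hU).1 (show (1 - 1 / (E : ℝ)) * hp' p.P e ≤
    (Wv p mis (zv p ω) zr p.H 0 p.F (p.T1 - 1) p.O e : ℝ) / p.U by linarith)
  linarith

end Vale.Agent.P315
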