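import Vale.Agent.P315.UpD
import Vale.Agent.P315.ValidP
import Vale.Agent.P315.NumA
import Vale.Agent.P315.NumB
import Vale.Agent.P315.NumE
import Vale.Agent.P315.StrA
import Vale.Agent.P315.StrB
import Vale.Agent.P315.StrC

/-! The output of the main algorithm is correct with probability at least `2 / 3`. -/

open Finset
open scoped BigOperators

namespace Vale.Agent.P315

theorem correct_arith {k U E D Dh ρ0 : ℕ} {W : ℕ → ℕ} (hU : 1 ≤ U) (hE : 16 ≤ E)
    (hlow : ∀ ρ < k + 1, (U : ℝ) * ((1 - 1 / (E : ℝ)) * D) ≤ W ρ) (hρ : ρ0 < k + 1)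
    (hup : (W ρ0 : ℝ) ≤ U * ((1 + 2 / (E : ℝ)) * D + 3 * Dh / E))
    (hDh : Dh ≤ 2 * D ∨ (D = 0 ∧ Dh = 1)) :
    D ≤ mn (k + 1) W * (E + 2) / (U * E) ∧
      ((mn (k + 1) W * (E + 2) / (U * E) : ℕ) : ℝ) ≤ (1 + 11 / E) * D := by
  have hE' : (16 : ℝ) ≤ E := by exact_mod_cast hE
  have hU' : (1 : ℝ) ≤ U := by exact_mod_cast hU
  have hE0 : (0 : ℝ) < E := by linarith
  have hUE : 0 < U * E := Nat.mul_pos hU (by omega)
  have hD0 : (0 : ℝ) ≤ D := Nat.cast_nonneg _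
  have hm : (mn (k + 1) W : ℝ) ≤ W ρ0 := by exact_mod_cast mn_le W hρ
  set u : ℝ := 1 / E with hu
  have hu0 : 0 < u := by positivity
  have huE : u * E = 1 := by rw [hu]; field_simp
  have hu1 : u ≤ 1 / 16 := one_div_le_one_div_of_le (by norm_num) hE'
  have e2 : 2 / (E : ℝ) = 2 * u := by rw [hu]; ring
  have e3 : 3 * (Dh : ℝ) / E = 3 * Dh * u := by rw [hu]; ring
  have e11 : 11 / (E : ℝ) = 11 * u := by rw [hu]; ring
  rw [e2, e3] at hup
  rw [e11]
  constructor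
  · obtain ⟨i, hi, e⟩ := exists_mn' (Nat.succ_pos k) W
    rw [Nat.le_div_iff_mul_le hUE, e]
    have h1 := mul_le_mul_of_nonneg_right (hlow i hi) (show (0 : ℝ) ≤ E + 2 by linarith)
    have h2 : (E : ℝ) ≤ (1 - u) * (E + 2) := by nlinarith
    have h3 := mul_le_mul_of_nonneg_left h2 (show (0 : ℝ) ≤ U * D by positivity)
    have h4 : (D : ℝ) * (U * E) ≤ W i * (E + 2) := by nlinarith
    exact_mod_cast h4
  · rcases hDh with h | ⟨h, h'⟩
    · refine Nat.cast_div_le.trans ?_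
      have hDh' : (Dh : ℝ) ≤ 2 * D := by exact_mod_cast h
      push_cast
      rw [div_le_iff₀ (by positivity)]
      have h1 : (1 + 2 * u) * D + 3 * Dh * u ≤ (1 + 8 * u) * D := by nlinarith
      have h2 : (mn (k + 1) W : ℝ) ≤ U * ((1 + 8 * u) * D) :=
        hm.trans (hup.trans (mul_le_mul_of_nonneg_left h1 (by positivity)))
      have h3 := mul_le_mul_of_nonneg_right h2 (show (0 : ℝ) ≤ E + 2 by linarith)
      have h4 : (1 + 8 * u) * (E + 2) ≤ (1 + 11 * u) * E := by nlinarith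
      have h5 := mul_le_mul_of_nonneg_left h4 (show (0 : ℝ) ≤ U * D by positivity)
      nlinarith
    · subst h h'
      have h1 : (mn (k + 1) W : ℝ) ≤ U * (3 * u) := by
        refine hm.trans (hup.trans (le_of_eq ?_))
        push_cast
        ring
      have h3 := mul_le_mul_of_nonneg_right h1 (show (0 : ℝ) ≤ E + 2 by linarith)
      have h4 : 3 * u * (E + 2) < E := by nlinarith
      have h5 := mul_lt_mul_of_pos_left h4 (show (0 : ℝ) < U by linarith)
      have h6 : (mn (k + 1) W : ℝ) * (E + 2) < U * E := by nlinarith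
      have h7 : mn (k + 1) W * (E + 2) < U * E := by exact_mod_cast h6
      rw [Nat.div_eq_of_lt h7]
      simp

theorem correct_scale {k D : ℕ} (h : D ≤ 2 ^ k) :
    ∃ ρ ≤ k, D ≤ 2 ^ ρ ∧ (2 ^ ρ ≤ 2 * D ∨ (D = 0 ∧ 2 ^ ρ = 1)) := by
  refine ⟨Nat.clog 2 D, (Nat.clog_le_iff_le_pow (by norm_num)).2 h,
    Nat.le_pow_clog (by norm_num) D, ?_⟩
  rcases Nat.lt_or_ge 1 D with h1 | h1
  · have h2 := Nat.pow_pred_clog_lt_self (by norm_num : 1 < 2) h1
    have h3 := Nat.clog_pos (by norm_num : 1 < 2) h1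
    obtain ⟨c, hc⟩ : ∃ c, Nat.clog 2 D = c + 1 := ⟨_, (Nat.succ_pred_eq_of_pos h3).symm⟩
    rw [hc] at h2 ⊢
    rw [Nat.pred_succ] at h2
    rw [pow_succ]
    omega
  · rw [Nat.clog_of_right_le_one h1]
    omega

theorem correct {E n : ℕ} (hE : 16 ≤ E) (x y : List ℕ) (hn : n = x.length + y.length)
    (hw : E + 200 ≤ ww n) :
    𝔼 ωr : Fin (par n 0).Nn → Blk (par n 0).Br (2 ^ ld n),
      pr (fun ω : Fin (par n 0).Nn → Blk (par n 0).Bf (2 ^ ld n) =>
        ¬(ED x y ≤ outv E n (misS x y (par n 0).O) (zv (par n 0) ω) (zv (par n 0) ωr)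
            ((par n 0).O + y.length - x.length) ∧
          (outv E n (misS x y (par n 0).O) (zv (par n 0) ω) (zv (par n 0) ωr)
            ((par n 0).O + y.length - x.length) : ℝ) ≤ (1 + 11 / E) * ED x y)) ≤ 1 / 3 := by
  have hS := sz_of (n := n) (by omega)
  have hok : ∀ ρ ≤ kk n, (par n ρ).Ok := fun ρ hρ => par_ok hS hρ
  have hnum : ∀ ρ ≤ kk n, (par n ρ).Num E (tau n) (tc n) (lg n) (2 ^ ld n) (kk n + 1) :=
    fun ρ hρ => par_num hS hE (by omega) hρ
  have : NeZero (2 ^ ld n) := ⟨by positivity⟩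
  have hlt := hS.n_lt
  have hP : x.length < (par n 0).P := by
    have : 2 ^ kk n ≤ 2 ^ lP n := Nat.pow_le_pow_right (by norm_num) hS.k_le
    show x.length < 2 ^ lP n
    omega
  have hO : x.length ≤ (par n 0).O := by
    have h1 := (hok 0 (Nat.zero_le _)).O_ge
    have h2 := Nat.le_mul_of_pos_right (par n 0).P (hok 0 (Nat.zero_le _)).P0_pos
    omega
  have hs := pathSys_str x y (par n 0).O
  have ht := hpS_target x y hO hP
  obtain ⟨ds, d0, d1, d2⟩ := exists_comparator x y hO hP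
  rw [← ED_eq_dp] at ht d2
  have hD : ED x y ≤ 2 ^ kk n := by
    have := dp_le x y x.length y.length
    rw [← ED_eq_dp] at this
    omega
  obtain ⟨ρ0, hρ0, r1, r2⟩ := correct_scale hD
  have hk : ((kk n + 1 : ℕ) : ℝ) * (1 / (24 * (kk n + 1 : ℕ))) = 1 / 24 := by
    have : ((kk n + 1 : ℕ) : ℝ) ≠ 0 := by positivity
    field_simp
  generalize (par n 0).O + y.length - x.length = e at ht d1 ⊢
  refine (pr_two _ (fun ωr : Fin (par n 0).Nn → Blk (par n 0).Br (2 ^ ld n) =>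
    ∀ ρ < kk n + 1, (par n ρ).GoodR (misS x y (par n 0).O) (zv (par n 0) ωr))
    (c := 1 / 24) (c' := 1 / 24 + 1 / 12) (by norm_num) ?_ fun ωr hg => ?_).trans (by norm_num)
  · have h1 := pr_exists_lt (kk n + 1) (fun ρ (ωr : Fin (par n 0).Nn → Blk (par n 0).Br (2 ^ ld n)) =>
      ¬(par n ρ).GoodR (misS x y (par n 0).O) (zv (par n 0) ωr)) (c := 1 / (24 * (kk n + 1 : ℕ)))
      fun ρ hρ => (pr_goodR (hok ρ (by omega)) (hnum ρ (by omega)).b0_dvd).trans
        (hnum ρ (by omega)).rough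
    rw [hk] at h1
    refine (pr_mono fun ωr h => ?_).trans h1
    by_contra hno
    exact h fun ρ hρ => by_contra fun h' => hno ⟨ρ, hρ, h'⟩
  · have h1 := pr_exists_lt (kk n + 1) (fun ρ (ω : Fin (par n 0).Nn → Blk (par n 0).Bf (2 ^ ld n)) =>
      (rootW (par n ρ) (misS x y (par n 0).O) (zv (par n 0) ω) (zv (par n 0) ωr) e : ℝ) <
        (par n 0).U * ((1 - 1 / (E : ℝ)) * hpS x y (par n 0).O (par n 0).P e))
      (c := 1 / (24 * (kk n + 1 : ℕ))) fun ρ hρ =>
        valid (hok ρ (by omega)) (hnum ρ (by omega)) hs (hpS_source x y _) (hg ρ hρ) e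
    rw [hk, ht] at h1
    have h2 : pr (fun ω : Fin (par n 0).Nn → Blk (par n 0).Bf (2 ^ ld n) =>
        (par n 0).U * ((1 + 2 / (E : ℝ)) * ED x y + 3 * (2 ^ ρ0 : ℕ) / E) <
        rootW (par n ρ0) (misS x y (par n 0).O) (zv (par n 0) ω) (zv (par n 0) ωr)
          (ds (par n 0).P)) ≤ 1 / 12 :=
      upper (hok ρ0 hρ0) (hnum ρ0 hρ0) hs.le_one d0 d2 r1 (hg ρ0 (by omega))
    rw [d1] at h2
    refine (pr_mono fun ω h => ?_).trans ((pr_or _ _).trans (add_le_add h1 h2))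
    by_contra hno
    rw [not_or] at hno
    exact h (correct_arith (hok 0 (Nat.zero_le _)).U_pos hE
      (fun ρ hρ => not_lt.1 fun h' => hno.1 ⟨ρ, hρ, h'⟩) (Nat.lt_succ_of_le hρ0) (not_lt.1 hno.2) r2)

end Vale.Agent.P315
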