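import Vale.Agent.P315.AnD
import Vale.Agent.P315.DetA

/-! The losses decrease in time and vary little in a box. -/

open Finset

namespace Vale.Agent.P315

variable {p : Par} {Wc : Ev} {a t g : ℕ} {z : ℕ → ℕ}

theorem spr_wj_mono (hW : ∀ l, Reg p.U (Wc l)) (j l d e : ℕ) :
    p.wj Wc a t j l d e ≤ p.wj Wc a t (j + 1) l d e := by
  unfold Par.wj
  have h1 : Wc l (a - (j - 1)) t d e ≤ Wc l (a - (j + 1 - 1)) t d e :=
    (hW l).anti d e (by omega) le_rfl
  split_ifs with h2 h3 h3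
  · exact le_rfl
  · omega
  · exact min_le_left _ _
  · exact min_le_min le_rfl h1

theorem spr_tel (hW : ∀ l, Reg p.U (Wc l)) (x : ℕ → ℕ) (l n : ℕ) :
    (∑ j ∈ range n, p.ej Wc a t (j + 1) x l) + p.wj Wc a t 1 l (x l) (x (l + 1)) =
      p.wj Wc a t (n + 1) l (x l) (x (l + 1)) := by
  induction n with
  | zero => simp
  | succ n ih =>
    rw [sum_range_succ, Par.ej]
    have := spr_wj_mono (a := a) (t := t) hW (n + 1) l (x l) (x (l + 1))
    omega

theorem ej_sum (hp : p.Ok) (hW : ∀ l, Reg p.U (Wc l)) (ht : 1 ≤ t) (x : ℕ → ℕ) (l : ℕ) :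
    (∑ j ∈ range p.r, p.ej Wc a t (j + 1) x l) + Wc l a t (x l) (x (l + 1)) =
      Wc l a (t - 1) (x l) (x (l + 1)) := by
  have h := spr_tel (a := a) (t := t) hW x l p.r
  have hr := hp.r_pos
  have h1 : Wc l a t (x l) (x (l + 1)) ≤ Wc l a (t - 1) (x l) (x (l + 1)) :=
    (hW l).anti _ _ le_rfl (by omega)
  rw [Par.wj, Par.wj, if_neg (by omega), if_pos (by omega), Nat.sub_self, Nat.sub_zero,
    min_eq_right h1] at h
  exact h

theorem spr_lsum (x : ℕ → ℕ) (t : ℕ) :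
    p.lsum Wc a t p.b x = ∑ l ∈ range p.b, Wc l a t (x l) (x (l + 1)) :=
  sum_guard le_rfl _

theorem spr_reindex (r : ℕ) (hr : 1 ≤ r) (E : ℕ → ℕ) :
    ∑ j ∈ range r, (if j = 0 then E r else E j) = ∑ j ∈ range r, E (j + 1) := by
  obtain ⟨n, rfl⟩ : ∃ n, r = n + 1 := ⟨r - 1, by omega⟩
  rw [sum_range_succ', sum_range_succ]
  simp

theorem spr_tot (hp : p.Ok) (hW : ∀ l, Reg p.U (Wc l)) (ht : 1 ≤ t) (x : ℕ → ℕ) :
    (∑ j ∈ range p.r, ∑ l ∈ range p.b, p.ej Wc a t (j + 1) x l) + p.lsum Wc a t p.b x =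
      p.lsum Wc a (t - 1) p.b x := by
  rw [spr_lsum, spr_lsum, sum_comm, ← sum_add_distrib]
  exact sum_congr rfl fun l _ => ej_sum hp hW ht x l

theorem spr_div (c g S : ℕ) (h : c ≤ g) : c * S / g ≤ S :=
  Nat.div_le_of_le_mul (Nat.mul_le_mul_right S h)

theorem phi_le (hp : p.Ok) (hW : ∀ l, Reg p.U (Wc l)) (ht : 1 ≤ t) (x : ℕ → ℕ) :
    p.phi Wc a t g x + p.lsum Wc a t p.b x ≤ p.lsum Wc a (t - 1) p.b x := by
  rw [← spr_tot hp hW ht x,
    ← spr_reindex p.r hp.r_pos fun j => ∑ l ∈ range p.b, p.ej Wc a t j x l]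
  refine Nat.add_le_add_right (sum_le_sum fun j _ => ?_) _
  split_ifs
  · exact le_rfl
  · refine mx_le fun i _ => (Nat.sub_le _ _).trans ((spr_div _ _ _ (Nat.sub_le _ _)).trans ?_)
    exact sum_le_sum fun l _ => min_le_left _ _

theorem spr_guard (b s c : ℕ) (f : ℕ → ℕ) (hf : ∀ l, f l ≤ c) :
    ∑ l ∈ range b, (if l < s then f l else 0) ≤ s * c := by
  rw [← sum_filter]
  calc ∑ l ∈ (range b).filter (fun l => l < s), f l ≤ ∑ l ∈ range s, f l :=
        sum_le_sum_of_subset fun l hl => mem_range.2 (mem_filter.1 hl).2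
    _ ≤ ∑ _l ∈ range s, c := sum_le_sum fun l _ => hf l
    _ = s * c := by simp

theorem lcb_le (hp : p.Ok) (hW : ∀ l, Reg p.U (Wc l)) (ht : 1 ≤ t) (x : ℕ → ℕ) :
    p.lcb Wc z a t g x + p.lsum Wc a t p.b x ≤
      p.lsum Wc a (t - 1) p.b x + p.U * (p.r * p.b * g * p.P0) := by
  have hr := hp.r_pos
  have h1 : p.lcb Wc z a t g x ≤ ∑ j ∈ range p.r,
      ((if j = 0 then ∑ l ∈ range p.b, p.ej Wc a t p.r x l else 0) +
        p.b * (p.U * g * p.P0)) := by
    refine sum_le_sum fun j _ => ?_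
    split_ifs
    · exact Nat.le_add_right _ _
    · rw [zero_add]
      refine mx_le fun i _ => (Nat.sub_le _ _).trans ((spr_div _ _ _ (Nat.sub_le _ _)).trans ?_)
      have h2 := spr_guard p.b (p.sp j) (p.U * g * p.P0)
        (fun l => min (p.ej Wc a t j x (z (j * p.b + l) % p.b)) (p.th g i))
        fun l => (min_le_right _ _).trans (min_le_right _ _)
      refine (Nat.mul_le_mul_left _ h2).trans ?_
      rw [← mul_assoc]
      exact Nat.mul_le_mul_right _ (Nat.div_mul_le_self _ _)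
  rw [sum_add_distrib, sum_ite_eq', if_pos (mem_range.2 (by omega)), sum_const, card_range,
    smul_eq_mul] at h1
  have h3 : ∑ l ∈ range p.b, p.ej Wc a t (p.r - 1 + 1) x l ≤
      ∑ j ∈ range p.r, ∑ l ∈ range p.b, p.ej Wc a t (j + 1) x l :=
    single_le_sum (f := fun j => ∑ l ∈ range p.b, p.ej Wc a t (j + 1) x l)
      (fun _ _ => Nat.zero_le _) (mem_range.2 (by omega))
  rw [Nat.sub_add_cancel hr] at h3
  have h4 := spr_tot (a := a) hp hW ht x
  have h5 : p.r * (p.b * (p.U * g * p.P0)) = p.U * (p.r * p.b * g * p.P0) := by ring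
  omega

theorem spr_gp (d g δ δ' A : ℕ) (h : δ ≤ δ' + 2 * A) : p.gp d g δ ≤ p.gp d g δ' + 2 * g * A := by
  unfold Par.gp
  have h1 := Nat.mul_le_mul_left g h
  have h2 : g * (δ' + 2 * A) = g * δ' + 2 * g * A := by ring
  omega

theorem xp_dist (d e t' μ A i j l : ℕ) :
    Nat.dist (p.xp Wc a d e g t' μ A i l) (p.xp Wc a d e g t' μ A j l) ≤ 2 * g * A := by
  unfold Par.xp Par.pt
  split_ifs
  · simp
  · simp
  · have h : ∀ i j, p.xd (p.cz Wc a t' μ d g) A i l ≤ p.xd (p.cz Wc a t' μ d g) A j l + 2 * A := by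
      intro i j
      unfold Par.xd
      omega
    have h1 := spr_gp (p := p) d g _ _ A (h i j)
    have h2 := spr_gp (p := p) d g _ _ A (h j i)
    unfold Nat.dist
    omega

theorem spr_lip (hW : ∀ l, Reg p.U (Wc l)) {x x' : ℕ → ℕ} {D : ℕ}
    (h : ∀ l, Nat.dist (x l) (x' l) ≤ D) (l a t : ℕ) :
    Wc l a t (x l) (x (l + 1)) ≤ Wc l a t (x' l) (x' (l + 1)) + 4 * D * p.U := by
  refine ((hW l).lip a t _ _ (x' l) (x' (l + 1))).trans (Nat.add_le_add_left ?_ _)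
  rw [mul_comm _ p.U]
  refine Nat.mul_le_mul_left _ ?_
  have h1 := h l
  have h2 := h (l + 1)
  unfold Nat.dist at *
  omega

theorem lsum_spread (hW : ∀ l, Reg p.U (Wc l)) {x x' : ℕ → ℕ} {D : ℕ}
    (h : ∀ l, Nat.dist (x l) (x' l) ≤ D) :
    p.lsum Wc a t p.b x ≤ p.lsum Wc a t p.b x' + 4 * p.b * D * p.U := by
  rw [spr_lsum, spr_lsum]
  refine (sum_le_sum fun l _ => spr_lip hW h l a t).trans ?_
  rw [sum_add_distrib, sum_const, card_range, smul_eq_mul]
  exact le_of_eq (by ring)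

theorem spr_wj (hW : ∀ l, Reg p.U (Wc l)) {x x' : ℕ → ℕ} {D : ℕ}
    (h : ∀ l, Nat.dist (x l) (x' l) ≤ D) (j l : ℕ) :
    p.wj Wc a t j l (x l) (x (l + 1)) ≤ p.wj Wc a t j l (x' l) (x' (l + 1)) + 4 * D * p.U := by
  unfold Par.wj
  have h1 := spr_lip hW h l a (t - 1)
  have h2 := spr_lip hW h l (a - (j - 1)) t
  split_ifs
  · exact h1
  · omega

theorem spr_ej (hW : ∀ l, Reg p.U (Wc l)) {x x' : ℕ → ℕ} {D : ℕ}
    (h : ∀ l, Nat.dist (x l) (x' l) ≤ D) (j l : ℕ) :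
    p.ej Wc a t j x l ≤ p.ej Wc a t j x' l + 8 * D * p.U := by
  unfold Par.ej
  have h1 := spr_wj (a := a) (t := t) hW h (j + 1) l
  have h2 := spr_wj (a := a) (t := t) hW (x := x') (x' := x)
    (fun l => by rw [Nat.dist_comm]; exact h l) j l
  have h3 : 8 * D * p.U = 4 * D * p.U + 4 * D * p.U := by ring
  omega

theorem spr_div_add (c g S S' K : ℕ) (hc : c ≤ g) (h : S ≤ S' + K) :
    c * S / g ≤ c * S' / g + K := by
  rcases Nat.eq_zero_or_pos g with rfl | hg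
  · simp
  · rw [← Nat.add_mul_div_left _ _ hg]
    refine Nat.div_le_div_right ?_
    have h1 := Nat.mul_le_mul_left c h
    have h2 := Nat.mul_le_mul_right K hc
    rw [mul_add] at h1
    omega

theorem phi_spread (hW : ∀ l, Reg p.U (Wc l)) {x x' : ℕ → ℕ} {D : ℕ}
    (h : ∀ l, Nat.dist (x l) (x' l) ≤ D) :
    p.phi Wc a t g x ≤ p.phi Wc a t g x' + 8 * p.r * p.b * D * p.U := by
  have e1 : 8 * p.r * p.b * D * p.U = ∑ _j ∈ range p.r, p.b * (8 * D * p.U) := by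
    rw [sum_const, card_range, smul_eq_mul]
    ring
  have e2 : p.b * (8 * D * p.U) = ∑ _j ∈ range p.b, 8 * D * p.U := by
    rw [sum_const, card_range, smul_eq_mul]
  rw [e1, Par.phi, Par.phi, ← sum_add_distrib]
  refine sum_le_sum fun j _ => ?_
  split_ifs
  · rw [e2, ← sum_add_distrib]
    exact sum_le_sum fun l _ => spr_ej hW h _ l
  · refine mx_le_add fun i _ => ?_
    have h1 : ∑ l ∈ range p.b, min (p.ej Wc a t j x l) (p.th g i) ≤
        ∑ l ∈ range p.b, min (p.ej Wc a t j x' l) (p.th g i) + p.b * (8 * D * p.U) := by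
      rw [e2, ← sum_add_distrib]
      refine sum_le_sum fun l _ => ?_
      have := spr_ej (a := a) (t := t) hW h j l
      omega
    have h2 := spr_div_add (p.gb - 2) p.gb _ _ _ (Nat.sub_le _ _) h1
    omega

theorem lt_spread (hp : p.Ok) (hW : ∀ l, Reg p.U (Wc l)) {x x' : ℕ → ℕ} {D : ℕ}
    (h : ∀ l, Nat.dist (x l) (x' l) ≤ D) :
    p.lt Wc a t g x ≤ p.lt Wc a t g x' + 12 * p.r * p.b * D * p.U := by
  unfold Par.lt
  have h1 := lsum_spread (a := a) (t := t - 1) hW h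
  have h2 := phi_spread (a := a) (t := t) (g := g) hW (x := x') (x' := x)
    (fun l => by rw [Nat.dist_comm]; exact h l)
  have h3 : 4 * p.b * D * p.U ≤ 4 * p.r * p.b * D * p.U := by
    have := Nat.mul_le_mul_right (4 * p.b * D * p.U) hp.r_pos
    calc 4 * p.b * D * p.U = 1 * (4 * p.b * D * p.U) := by ring
      _ ≤ _ := this
      _ = _ := by ring
  have h4 : 12 * p.r * p.b * D * p.U = 4 * p.r * p.b * D * p.U + 8 * p.r * p.b * D * p.U := by ring
  omega

end Vale.Agent.P315
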