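import Vale.Agent.P315.Round
import Vale.Agent.P315.Spread

/-! The loss of the rounded comparator. -/

open Finset

namespace Vale.Agent.P315

theorem credit_pow {m : ℝ} (hm : 0 ≤ m) (n : ℕ) (h : m ≤ 2 ^ n) :
    ∃ i ≤ n, m ≤ 2 ^ i ∧ (2 : ℝ) ^ i ≤ 1 + 2 * m := by
  induction n with
  | zero => exact ⟨0, le_rfl, h, by linarith [pow_zero (2 : ℝ)]⟩
  | succ n ih =>
    by_cases h1 : m ≤ 2 ^ n
    · obtain ⟨i, hi, h2⟩ := ih h1
      exact ⟨i, by omega, h2⟩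
    · refine ⟨n + 1, le_rfl, h, ?_⟩
      rw [pow_succ]
      linarith [not_le.1 h1]

theorem credit_sub (x y : ℕ) : (x : ℝ) - y ≤ ((x - y : ℕ) : ℝ) := by
  have h : x ≤ x - y + y := le_tsub_add
  have h' : (x : ℝ) ≤ ((x - y : ℕ) : ℝ) + y := by exact_mod_cast h
  linarith

theorem credit_term {gb : ℕ} (hgb : 2 ≤ gb) (S Y : ℕ) :
    (1 - 2 / (gb : ℝ)) * S - 1 - Y ≤ (((gb - 2) * S / gb - Y : ℕ) : ℝ) := by
  have h0 : (0 : ℝ) < gb := by exact_mod_cast (by omega : 0 < gb)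
  have h1 := credit_sub ((gb - 2) * S / gb) Y
  have h2 : (gb - 2) * S < gb * ((gb - 2) * S / gb + 1) := Nat.lt_mul_div_succ _ (by omega)
  have h3 : (((gb - 2 : ℕ) : ℝ)) * S < gb * ((((gb - 2) * S / gb : ℕ) : ℝ) + 1) := by
    exact_mod_cast h2
  rw [Nat.cast_sub hgb] at h3
  have h4 : (1 - 2 / (gb : ℝ)) * S = ((gb : ℝ) - (2 : ℕ)) * S / gb := by
    push_cast
    field_simp
  have h5 : ((gb : ℝ) - (2 : ℕ)) * S / gb < (((gb - 2) * S / gb : ℕ) : ℝ) + 1 := by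
    rw [div_lt_iff₀ h0]
    linarith
  linarith

theorem credit_reidx {r : ℕ} (hr : 1 ≤ r) (f : ℕ → ℝ) :
    ∑ j ∈ range r, f (if j = 0 then r else j) = ∑ j ∈ range r, f (j + 1) := by
  obtain ⟨n, rfl⟩ : ∃ n, r = n + 1 := ⟨r - 1, by omega⟩
  rw [sum_range_succ', sum_range_succ]
  simp

variable {p : Par} {E a c g sl k t : ℕ} {Wc : Ev} {xs fl cls dig : ℕ → ℕ} {ct cp : ℕ → ℝ}

theorem credit_wmono (hW : ∀ l, Reg p.U (Wc l)) (j l d e : ℕ) :
    p.wj Wc a t j l d e ≤ p.wj Wc a t (j + 1) l d e := by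
  unfold Par.wj
  split_ifs with h1 h2 h2
  · exact le_rfl
  · omega
  · exact min_le_left _ _
  · exact min_le_min le_rfl ((hW l).anti d e (by omega) le_rfl)

theorem credit_wle (j l d e : ℕ) (hj : j ≤ p.r) :
    p.wj Wc a t j l d e ≤ Wc l (a - (j - 1)) t d e := by
  unfold Par.wj
  rw [if_neg (by omega)]
  exact min_le_right _ _

theorem credit_wtop (l d e : ℕ) : p.wj Wc a (t + 1) (p.r + 1) l d e = Wc l a t d e := by
  unfold Par.wj
  rw [if_pos (by omega), Nat.add_sub_cancel]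

theorem credit_child (hp : p.Ok) (hc : p.NodeCtx E Wc a xs c fl cls ct cp)
    (hr : p.Rnd xs c g sl k dig) {l : ℕ} (hl : l < p.b) {a' : ℕ} (ha : fl l ≤ a') (t : ℕ) :
    (Wc l a' t (p.rx g sl k dig l) (p.rx g sl k dig (l + 1)) : ℝ) ≤
      p.U * (cp l + p.wl Wc xs fl cp l t + 3 * (g - 1)) := by
  have h1 := (hc.reg l).anti (p.rx g sl k dig l) (p.rx g sl k dig (l + 1)) ha (le_refl t)
  have h2 := hr.child_le hp hc.reg hl (fl l) t
  have h3 := le_exc hp (Wc l (fl l) t (xs l) (xs (l + 1))) (cp l)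
  have h4 : (Wc l a' t (p.rx g sl k dig l) (p.rx g sl k dig (l + 1)) : ℝ) ≤
      Wc l (fl l) t (xs l) (xs (l + 1)) + 3 * p.U * ((g - 1 : ℕ) : ℝ) := by
    exact_mod_cast h1.trans h2
  rw [Nat.cast_sub (hr.g_pos hp), Nat.cast_one] at h4
  unfold Par.wl
  linarith

/-- One sampled layer. -/
theorem credit_layer (hp : p.Ok) {j : ℕ} (hj : j < p.r) {e : ℕ → ℕ} {F : ℕ → ℝ} {NS : Finset ℕ}
    (hNS : NS ⊆ range p.b) {Z : ℝ} (hZ : 0 ≤ Z)
    (h : ∀ l ∈ NS, F l ≤ e l ∧ F l * (p.s * p.b) ≤ Z * p.s ^ j ∧ F l ≤ p.U * (g * p.P0) ∧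
      F l ≤ p.U * (2 * p.P)) :
    (1 - 2 / (p.gb : ℝ)) * ∑ l ∈ NS, F l - (1 + 2 * p.k0 * p.b + 4 * p.k0 * Z / p.s) ≤
      ((mx p.It1 fun i => (p.gb - 2) * (∑ l ∈ range p.b, min (e l) (p.th g i)) / p.gb -
        2 * p.k0 * (p.b / p.sp j) * p.th g i : ℕ) : ℝ) := by
  have hs : (1 : ℝ) ≤ p.s := by exact_mod_cast Nat.one_le_two_pow
  have hb : (0 : ℝ) < p.b := by exact_mod_cast lt_of_lt_of_le two_pos hp.two_le_b
  have hsj : (1 : ℝ) ≤ (p.s : ℝ) ^ j := one_le_pow₀ hs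
  have hM : 0 ≤ Z * p.s ^ j / (p.s * p.b) := by positivity
  obtain ⟨i, hi, h1, h2⟩ := credit_pow (m := min (Z * p.s ^ j / (p.s * p.b)) (2 ^ (p.It1 - 1)))
    (le_min hM (by positivity)) (p.It1 - 1) (min_le_right _ _)
  have hi' : i < p.It1 := by have := hp.It1_pos; omega
  have hth : (p.th g i : ℝ) = min ((2 : ℝ) ^ i) (p.U * (g * p.P0)) := by
    unfold Par.th
    rw [hp.pw_it i hi']
    push_cast
    rw [mul_assoc]
  have hIt : (p.U : ℝ) * (2 * p.P) ≤ 2 ^ (p.It1 - 1) := by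
    have h3 : ((2 * p.U * p.P : ℕ) : ℝ) ≤ ((2 ^ (p.It1 - 1) : ℕ) : ℝ) := Nat.cast_le.2 hp.It_ge
    push_cast at h3
    linarith
  have hS : ∑ l ∈ NS, F l ≤ ((∑ l ∈ range p.b, min (e l) (p.th g i) : ℕ) : ℝ) := by
    rw [Nat.cast_sum]
    refine le_trans (sum_le_sum fun l hl => ?_)
      (sum_le_sum_of_subset_of_nonneg hNS fun l _ _ => Nat.cast_nonneg _)
    obtain ⟨a1, a2, a3, a4⟩ := h l hl
    rw [Nat.cast_min, hth]
    refine le_min a1 (le_min (le_trans (le_min ?_ (a4.trans hIt)) h1) a3)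
    rw [le_div_iff₀ (by positivity)]
    exact a2
  have hgb : (2 : ℝ) ≤ p.gb := by exact_mod_cast hp.gb_ge
  have hq : 0 ≤ 1 - 2 / (p.gb : ℝ) := by
    rw [sub_nonneg, div_le_one (by linarith)]
    exact hgb
  have h3 := credit_term hp.gb_ge (∑ l ∈ range p.b, min (e l) (p.th g i))
    (2 * p.k0 * (p.b / p.sp j) * p.th g i)
  have h4 := (Nat.cast_le (α := ℝ)).2 (le_mx (fun i => (p.gb - 2) *
    (∑ l ∈ range p.b, min (e l) (p.th g i)) / p.gb - 2 * p.k0 * (p.b / p.sp j) * p.th g i) hi')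
  have h5 := mul_le_mul_of_nonneg_left hS hq
  have hsp : p.sp j = p.s ^ j := hp.sp_eq j (Or.inr (by
    have := Nat.mul_le_mul_left p.r hp.r0_pos
    omega))
  have h6 : ((p.b / p.sp j : ℕ) : ℝ) ≤ p.b / p.s ^ j := by
    rw [hsp]
    exact Nat.cast_div_le.trans (le_of_eq (by rw [Nat.cast_pow]))
  have h7 : (p.th g i : ℝ) ≤ 1 + 2 * (Z * p.s ^ j / (p.s * p.b)) := by
    rw [hth]
    have := min_le_left (Z * p.s ^ j / (p.s * p.b)) (2 ^ (p.It1 - 1))
    linarith [min_le_left ((2 : ℝ) ^ i) (p.U * (g * p.P0))]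
  have h8 := mul_le_mul h6 h7 (Nat.cast_nonneg _) (by positivity)
  have h9 : (p.b : ℝ) / p.s ^ j * (1 + 2 * (Z * p.s ^ j / (p.s * p.b))) =
      p.b / p.s ^ j + 2 * Z / p.s := by
    field_simp
  have h10 : (p.b : ℝ) / p.s ^ j ≤ p.b := div_le_self hb.le hsj
  have h11 := mul_le_mul_of_nonneg_left (h8.trans (h9.le.trans (add_le_add_left h10 _)))
    (by positivity : (0 : ℝ) ≤ 2 * p.k0)
  have h12 : ((2 * p.k0 * (p.b / p.sp j) * p.th g i : ℕ) : ℝ) =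
      2 * p.k0 * (((p.b / p.sp j : ℕ) : ℝ) * p.th g i) := by
    rw [Nat.cast_mul, Nat.cast_mul, Nat.cast_mul, Nat.cast_ofNat, mul_assoc]
  have h13 : 2 * (p.k0 : ℝ) * (p.b + 2 * Z / p.s) = 2 * p.k0 * p.b + 4 * p.k0 * Z / p.s := by ring
  linarith

theorem credit (hp : p.Ok) (hc : p.NodeCtx E Wc a xs c fl cls ct cp) (hr : p.Rnd xs c g sl k dig)
    (hg : p.xl Wc xs fl cp t ≤ g * p.P0) :
    (p.lt Wc a (t + 1) g (p.rx g sl k dig) : ℝ) ≤
      p.U * ((∑ l ∈ range p.b, cp l) + p.xl Wc xs fl cp (t + 1) + 3 * p.b * (g - 1) +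
        (2 / (p.gb : ℝ) + 4 * p.r * p.k0 / p.s) * (p.xl Wc xs fl cp t - p.xl Wc xs fl cp (t + 1)) +
        spk p.b p.s (fun l => p.wl Wc xs fl cp l t - p.wl Wc xs fl cp l (t + 1)) ct) +
      p.r * (1 + 2 * p.k0 * p.b) := by
  classical
  obtain ⟨w, hw⟩ : ∃ w : ℕ → ℕ → ℕ, ∀ j l, w j l =
      p.wj Wc a (t + 1) j l (p.rx g sl k dig l) (p.rx g sl k dig (l + 1)) := ⟨_, fun _ _ => rfl⟩
  obtain ⟨Wh, hWh⟩ : ∃ Wh : ℕ → ℝ, ∀ l, Wh l =
      p.U * (cp l + p.wl Wc xs fl cp l (t + 1) + 3 * (g - 1)) := ⟨_, fun _ => rfl⟩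
  obtain ⟨D, hD⟩ : ∃ D : ℕ → ℝ,
      D = fun l => p.wl Wc xs fl cp l t - p.wl Wc xs fl cp l (t + 1) := ⟨_, rfl⟩
  obtain ⟨F, hF⟩ : ∃ F : ℕ → ℕ → ℝ, ∀ j l, F j l =
      max (w (j + 1) l : ℝ) (Wh l) - max (w j l : ℝ) (Wh l) := ⟨_, fun _ _ => rfl⟩
  obtain ⟨D', hD'⟩ : ∃ D' : ℕ → ℝ, ∀ l, D' l = max (w (p.r + 1) l : ℝ) (Wh l) - Wh l :=
    ⟨_, fun _ => rfl⟩
  have hDl : ∀ l, D l = p.wl Wc xs fl cp l t - p.wl Wc xs fl cp l (t + 1) := fun l => by rw [hD]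
  have hDb : p.xl Wc xs fl cp t - p.xl Wc xs fl cp (t + 1) = ∑ l ∈ range p.b, D l := by
    unfold Par.xl
    rw [← sum_sub_distrib]
    exact sum_congr rfl fun l _ => (hDl l).symm
  rw [← hD, hDb]
  have hU : (0 : ℝ) ≤ p.U := Nat.cast_nonneg _
  have hs : (1 : ℝ) ≤ p.s := by exact_mod_cast Nat.one_le_two_pow
  have hg1 : (1 : ℝ) ≤ g := by exact_mod_cast hr.g_pos hp
  have wl0 : ∀ l t, 0 ≤ p.wl Wc xs fl cp l t := fun l t => exc_nonneg _ _
  have D0 : ∀ l, 0 ≤ D l := fun l => by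
    rw [hDl]
    exact sub_nonneg.2 (wl_anti hc.reg l (Nat.le_succ t))
  have Db0 : 0 ≤ ∑ l ∈ range p.b, D l := sum_nonneg fun l _ => D0 l
  have wm : ∀ j l, w j l ≤ w (j + 1) l := fun j l => by
    rw [hw, hw]
    exact credit_wmono hc.reg _ _ _ _
  have wmono : ∀ l, Monotone fun j => w j l := fun l => monotone_nat_of_le_succ fun j => wm j l
  have hej : ∀ j l, (p.ej Wc a (t + 1) j (p.rx g sl k dig) l : ℝ) = w (j + 1) l - w j l :=
    fun j l => by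
      unfold Par.ej
      rw [← hw, ← hw, Nat.cast_sub (wm j l)]
  have F0 : ∀ j l, 0 ≤ F j l := fun j l => by
    rw [hF]
    exact sub_nonneg.2 (max_le_max (Nat.cast_le.2 (wm j l)) le_rfl)
  have Fe : ∀ j l, F j l ≤ p.ej Wc a (t + 1) j (p.rx g sl k dig) l := fun j l => by
    rw [hF, hej]
    have h1 : (w j l : ℝ) ≤ w (j + 1) l := Nat.cast_le.2 (wm j l)
    have h2 := le_max_left (w j l : ℝ) (Wh l)
    have h3 := le_max_right (w j l : ℝ) (Wh l)
    have h4 : max (w (j + 1) l : ℝ) (Wh l) ≤ max (w j l : ℝ) (Wh l) + (w (j + 1) l - w j l) :=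
      max_le (by linarith) (by linarith)
    linarith
  have wc : ∀ l < p.b, ∀ j ≤ cls l, (w j l : ℝ) ≤ Wh l := fun l hl j hj => by
    have h1 := credit_wle (p := p) (Wc := Wc) (a := a) (t := t + 1) j l (p.rx g sl k dig l)
      (p.rx g sl k dig (l + 1)) (hj.trans (hc.cls_le l hl))
    have h2 := credit_child hp hc hr hl (a' := a - (j - 1)) (by rw [hc.fl_eq l hl]; omega) (t + 1)
    rw [hw, hWh]
    exact (Nat.cast_le.2 h1).trans h2
  have Fz : ∀ l < p.b, ∀ j < cls l, F j l = 0 := fun l hl j hj => by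
    rw [hF, max_eq_right (wc l hl _ hj), max_eq_right (wc l hl _ hj.le), sub_self]
  have Fs : ∀ l < p.b, ∑ j ∈ range p.r, F (j + 1) l = D' l := fun l hl => by
    simp only [hF]
    rw [sum_range_sub (fun j => max (w (j + 1) l : ℝ) (Wh l)), hD',
      max_eq_right (wc l hl _ (hc.cls_pos l hl))]
  have FD : ∀ j ≤ p.r, ∀ l, F j l ≤ D' l := fun j hj l => by
    rw [hF, hD']
    have h1 : (w (j + 1) l : ℝ) ≤ w (p.r + 1) l := Nat.cast_le.2 (wmono l (by omega))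
    exact sub_le_sub (max_le_max h1 le_rfl) (le_max_right _ _)
  have DD : ∀ l < p.b, D' l ≤ p.U * D l := fun l hl => by
    have h2 := credit_child hp hc hr hl (a' := a) (by rw [hc.fl_eq l hl]; omega) t
    have h3 := mul_nonneg hU (D0 l)
    rw [hD', hw, credit_wtop, sub_le_iff_le_add]
    refine max_le ?_ (by linarith)
    rw [hDl, hWh]
    linarith
  have hls : (p.lsum Wc a t p.b (p.rx g sl k dig) : ℝ) ≤
      p.U * ((∑ l ∈ range p.b, cp l) + p.xl Wc xs fl cp (t + 1) + 3 * p.b * (g - 1)) +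
        ∑ l ∈ range p.b, D' l := by
    have e : (p.U : ℝ) * ((∑ l ∈ range p.b, cp l) + p.xl Wc xs fl cp (t + 1) + 3 * p.b * (g - 1)) =
        ∑ l ∈ range p.b, Wh l := by
      simp only [hWh]
      unfold Par.xl
      rw [← mul_sum, sum_add_distrib, sum_add_distrib, sum_const, card_range, nsmul_eq_mul]
      ring
    rw [e, ← sum_add_distrib]
    unfold Par.lsum
    rw [Nat.cast_sum]
    refine sum_le_sum fun l hl => ?_
    rw [if_pos (mem_range.1 hl), hD', hw, credit_wtop]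
    linarith [le_max_left (Wc l a t (p.rx g sl k dig l) (p.rx g sl k dig (l + 1)) : ℝ) (Wh l)]
  obtain ⟨NS, hNS⟩ : ∃ NS, NS = (range p.b).filter fun l =>
      ¬ ((p.s : ℝ) * (∑ l' ∈ range p.b, D l') * ct l < D l * ∑ l' ∈ range p.b, ct l') := ⟨_, rfl⟩
  have NSs : NS ⊆ range p.b := hNS ▸ filter_subset _ _
  have spk0 : 0 ≤ spk p.b p.s D ct := sum_nonneg fun l _ => by
    split_ifs
    exacts [D0 l, le_rfl]
  have hspk : ∑ l ∈ range p.b, D' l ≤ ∑ l ∈ NS, D' l + p.U * spk p.b p.s D ct := by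
    unfold spk
    rw [hNS, sum_filter, mul_sum (range p.b) _ (p.U : ℝ), ← sum_add_distrib]
    refine sum_le_sum fun l hl => ?_
    have := DD l (mem_range.1 hl)
    split_ifs <;> linarith
  have hNSle : ∑ l ∈ NS, D' l ≤ p.U * ∑ l ∈ range p.b, D l := by
    rw [mul_sum]
    exact le_trans (sum_le_sum fun l hl => DD l (mem_range.1 (NSs hl)))
      (sum_le_sum_of_subset_of_nonneg NSs fun l _ _ => mul_nonneg hU (D0 l))
  have hC : 0 < ∑ l ∈ range p.b, ct l :=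
    sum_pos (fun l hl => hc.ct_pos l (mem_range.1 hl))
      ⟨0, mem_range.2 (lt_of_lt_of_le two_pos hp.two_le_b)⟩
  have hxl : ∀ l < p.b, ∀ t' ≤ t, D l ≤ p.xl Wc xs fl cp t' := fun l hl t' ht' => by
    have h1 := single_le_sum (f := fun l => p.wl Wc xs fl cp l t') (fun l _ => wl0 l t')
      (mem_range.2 hl)
    have h2 := wl_anti (xs := xs) (fl := fl) (cp := cp) hc.reg l ht'
    have h3 := wl0 l (t + 1)
    rw [hDl]
    unfold Par.xl
    linarith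
  have hgb : (2 : ℝ) ≤ p.gb := by exact_mod_cast hp.gb_ge
  have hq0 : 0 ≤ 2 / (p.gb : ℝ) := by positivity
  have hphi : (1 - 2 / (p.gb : ℝ)) * ∑ l ∈ NS, D' l -
      p.r * (1 + 2 * p.k0 * p.b + 4 * p.k0 * (p.U * ∑ l ∈ range p.b, D l) / p.s) ≤
      p.phi Wc a (t + 1) g (p.rx g sl k dig) := by
    have e1 : ∑ l ∈ NS, D' l = ∑ j ∈ range p.r, ∑ l ∈ NS, F (if j = 0 then p.r else j) l := by
      rw [credit_reidx hp.r_pos (fun j => ∑ l ∈ NS, F j l), sum_comm]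
      exact sum_congr rfl fun l hl => (Fs l (mem_range.1 (NSs hl))).symm
    have e2 : ∀ K : ℝ, (p.r : ℝ) * K = ∑ _j ∈ range p.r, K := fun K => by
      rw [sum_const, card_range, nsmul_eq_mul]
    rw [e1, e2, mul_sum, ← sum_sub_distrib]
    unfold Par.phi
    rw [Nat.cast_sum]
    refine sum_le_sum fun j hj => ?_
    split_ifs with h0
    · have h1 : ∑ l ∈ NS, F p.r l ≤
          ((∑ l ∈ range p.b, p.ej Wc a (t + 1) p.r (p.rx g sl k dig) l : ℕ) : ℝ) := by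
        rw [Nat.cast_sum]
        exact le_trans (sum_le_sum fun l _ => Fe p.r l)
          (sum_le_sum_of_subset_of_nonneg NSs fun l _ _ => Nat.cast_nonneg _)
      have h2 := mul_nonneg hq0 (sum_nonneg (s := NS) fun l _ => F0 p.r l)
      have h3 : (0 : ℝ) ≤
          1 + 2 * p.k0 * p.b + 4 * p.k0 * (p.U * ∑ l ∈ range p.b, D l) / p.s := by positivity
      linarith
    · have hj' := mem_range.1 hj
      refine credit_layer hp hj' NSs (mul_nonneg hU Db0) fun l hl => ?_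
      have hl' := mem_range.1 (NSs hl)
      have h1 := (FD j hj'.le l).trans (DD l hl')
      refine ⟨Fe j l, ?_, h1.trans (mul_le_mul_of_nonneg_left ((hxl l hl' t le_rfl).trans hg) hU),
        h1.trans (mul_le_mul_of_nonneg_left ((hxl l hl' 0 (Nat.zero_le _)).trans hc.xl_le) hU)⟩
      by_cases h2 : j < cls l
      · rw [Fz l hl' j h2, zero_mul]
        positivity
      · have h3 := hc.cls_lt l hl' (by omega)
        rw [hNS, mem_filter, not_lt] at hl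
        have h4 := hl.2
        have h5 : (p.s : ℝ) ^ cls l ≤ (p.s : ℝ) ^ j := pow_le_pow_right₀ hs (by omega)
        have h6 := h3.trans (mul_le_mul_of_nonneg_right h5 hC.le)
        have h7 := mul_le_mul_of_nonneg_right h4 (by positivity : (0 : ℝ) ≤ p.s * p.b)
        have h8 := mul_le_mul_of_nonneg_left h6 Db0
        have h9 : D l * (p.s * p.b) ≤ (∑ l ∈ range p.b, D l) * p.s ^ j := by
          refine le_of_mul_le_mul_right ?_ hC
          linarith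
        have h10 := mul_le_mul_of_nonneg_right h1 (by positivity : (0 : ℝ) ≤ p.s * p.b)
        have h11 := mul_le_mul_of_nonneg_left h9 hU
        linarith
  have h1 := mul_le_mul_of_nonneg_left hNSle hq0
  have e : (p.r : ℝ) * (1 + 2 * p.k0 * p.b + 4 * p.k0 * (p.U * ∑ l ∈ range p.b, D l) / p.s) =
      p.r * (1 + 2 * p.k0 * p.b) + p.U * (4 * p.r * p.k0 / p.s * ∑ l ∈ range p.b, D l) := by ring
  unfold Par.lt
  rw [Nat.add_sub_cancel]
  rcases le_total (p.lsum Wc a t p.b (p.rx g sl k dig)) (p.phi Wc a (t + 1) g (p.rx g sl k dig))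
    with h2 | h2
  · rw [Nat.sub_eq_zero_of_le h2, Nat.cast_zero]
    have a1 : 0 ≤ ∑ l ∈ range p.b, cp l := sum_nonneg fun l hl => (hc.cp_pos l (mem_range.1 hl)).le
    have a2 : 0 ≤ p.xl Wc xs fl cp (t + 1) := sum_nonneg fun l _ => wl0 l _
    have a3 : (0 : ℝ) ≤ g - 1 := by linarith
    positivity
  · rw [Nat.cast_sub h2]
    linarith

end Vale.Agent.P315
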