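import Vale.Agent.P315.MemD

/-! The estimates are computed by terms. -/

open Finset

namespace Vale.Agent.P315

variable {Wc Wr : Env → Mem → Ev} {a t j0 d g e δ idx j h i sl k : Env → Mem → ℕ}
  {x z zr : Env → Mem → ℕ → ℕ}

theorem cx_lsum (hW : Cx5 Wc) (ha : Cx a) (ht : Cx t) (hj : Cx j0) (hx : Cx1 x) :
    Cx fun e m => (PM m).lsum (Wc e m) (a e m) (t e m) (j0 e m) (x e m) :=
  Cx.sum 0 (Cx.ite (CxP.lt (Cx.var 0) hj.tail) (hW.tail.app (Cx.var 0) ha.tail ht.tail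
    (hx.tail.app (Cx.var 0)) (hx.tail.app ((Cx.var 0).add (Cx.const 1)))) (Cx.const 0))

theorem cx_gp (hd : Cx d) (hg : Cx g) (hδ : Cx δ) :
    Cx fun e m => (PM m).gp (d e m) (g e m) (δ e m) :=
  (hd.add (hg.mul hδ)).sub (hg.mul (Cx.cell 6 0))

theorem cx_dg (hi : Cx idx) : Cx1 fun e m => (PM m).dg (idx e m) :=
  ((hi.tail.div (Cx.get 4 ((Cx.cell 6 4).mul (Cx.var 0)))).mod (Cx.get 4 (Cx.cell 6 4))).min
    ((Cx.const 2).mul (Cx.cell 6 0))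

theorem cx_pt (hd : Cx d) (hg : Cx g) (hj : Cx j0) (he : Cx e) (hx : Cx1 x) :
    Cx1 fun v m => (PM m).pt (d v m) (g v m) (j0 v m) (e v m) (x v m) :=
  Cx.ite (CxP.eq (Cx.var 0) (Cx.const 0)) hd.tail (Cx.ite (CxP.le hj.tail (Cx.var 0)) he.tail
    (cx_gp hd.tail hg.tail hx))

theorem cx_ug (hW : Cx5 Wc) (ha : Cx a) (ht : Cx t) (hd : Cx d) (hg : Cx g) (hj : Cx j0)
    (he : Cx e) :
    Cx fun v m => (PM m).ug (Wc v m) (a v m) (t v m) (d v m) (g v m) (j0 v m) (e v m) :=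
  Cx.mn 5 (cx_lsum hW.tail ha.tail ht.tail hj.tail
    (cx_pt hd.tail hg.tail hj.tail he.tail (cx_dg (Cx.var 0))))

theorem cx_sp (hj : Cx j) : Cx fun _v m => (PM m).sp (j _v m) :=
  Cx.get 4 ((Cx.cell 6 2).mul hj)

theorem cx_res {μ : Env → Mem → ℕ} (hW : Cx5 Wc) (ha : Cx a) (ht : Cx t) (hμ : Cx μ) (hd : Cx d)
    (hg : Cx g) (hj : Cx j) (hδ : Cx δ) :
    Cx fun v m => (PM m).res (Wc v m) (a v m) (t v m) (μ v m) (d v m) (g v m) (j v m) (δ v m) :=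
  Cx.dist ((((Cx.cell 6 0).mul (Cx.cell 6 12)).mul (cx_gp hd hg hδ)).add
      ((Cx.cell 6 0).mul (cx_ug hW ha ht hd hg hj (cx_gp hd hg hδ))))
    ((((Cx.cell 6 0).mul (Cx.cell 6 12)).mul hd).add
      (hμ.mul (cx_ug hW ha ht hd hg hj (cx_gp hd hg hδ))))

theorem cx_cz0 {μ : Env → Mem → ℕ} (hW : Cx5 Wc) (ha : Cx a) (ht : Cx t) (hμ : Cx μ) (hd : Cx d)
    (hg : Cx g) (hj : Cx j) :
    Cx fun v m => (PM m).cz (Wc v m) (a v m) (t v m) (μ v m) (d v m) (g v m) (j v m) :=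
  Cx.ite (CxP.eq ht (Cx.const 0)) (Cx.cell 6 0)
    (Cx.amn 4 (cx_res hW.tail ha.tail (ht.tail.sub (Cx.const 1)) hμ.tail hd.tail hg.tail hj.tail
      (Cx.var 0)))

theorem cx_cz {μ : Env → Mem → ℕ} (hW : Cx5 Wc) (ha : Cx a) (ht : Cx t) (hμ : Cx μ) (hd : Cx d)
    (hg : Cx g) :
    Cx1 fun v m => (PM m).cz (Wc v m) (a v m) (t v m) (μ v m) (d v m) (g v m) :=
  cx_cz0 hW.tail ha.tail ht.tail hμ.tail hd.tail hg.tail (Cx.var 0)

theorem cx_xd {A : Env → Mem → ℕ} (hz : Cx1 z) (hA : Cx A) (hi : Cx idx) :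
    Cx1 fun v m => (PM m).xd (z v m) (A v m) (idx v m) :=
  Cx.max (Cx.sub hz hA.tail) (Cx.min (cx_dg hi) (Cx.add hz hA.tail))

theorem cx_wj {l : Env → Mem → ℕ} (hW : Cx5 Wc) (ha : Cx a) (ht : Cx t) (hj : Cx j) (hl : Cx l)
    (hd : Cx d) (he : Cx e) :
    Cx fun v m => (PM m).wj (Wc v m) (a v m) (t v m) (j v m) (l v m) (d v m) (e v m) :=
  Cx.ite (CxP.lt (Cx.cell 5 2) hj) (hW.app hl ha (ht.sub (Cx.const 1)) hd he)
    ((hW.app hl ha (ht.sub (Cx.const 1)) hd he).min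
      (hW.app hl (ha.sub (hj.sub (Cx.const 1))) ht hd he))

theorem cx_ej {l : Env → Mem → ℕ} (hW : Cx5 Wc) (ha : Cx a) (ht : Cx t) (hj : Cx j) (hx : Cx1 x)
    (hl : Cx l) :
    Cx fun v m => (PM m).ej (Wc v m) (a v m) (t v m) (j v m) (x v m) (l v m) :=
  (cx_wj hW ha ht (hj.add (Cx.const 1)) hl (hx.app hl) (hx.app (hl.add (Cx.const 1)))).sub
    (cx_wj hW ha ht hj hl (hx.app hl) (hx.app (hl.add (Cx.const 1))))

theorem cx_th (hg : Cx g) (hi : Cx i) : Cx fun v m => (PM m).th (g v m) (i v m) :=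
  (Cx.get 4 hi).min (((Cx.cell 6 12).mul hg).mul (Cx.cell 6 0))

theorem cx_full (hW : Cx5 Wc) (ha : Cx a) (ht : Cx t) (hx : Cx1 x) :
    Cx fun v m => ∑ l ∈ range (PM m).b,
      (PM m).ej (Wc v m) (a v m) (t v m) (PM m).r (x v m) l :=
  Cx.sum 0 (cx_ej hW.tail ha.tail ht.tail (Cx.cell 5 2) hx.tail (Cx.var 0))

theorem cx_phi1 (hW : Cx5 Wc) (ha : Cx a) (ht : Cx t) (hg : Cx g) (hx : Cx1 x) (hj : Cx j)
    (hi : Cx i) :
    Cx fun v m => ∑ l ∈ range (PM m).b,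
      min ((PM m).ej (Wc v m) (a v m) (t v m) (j v m) (x v m) l) ((PM m).th (g v m) (i v m)) :=
  Cx.sum 0 ((cx_ej hW.tail ha.tail ht.tail hj.tail hx.tail (Cx.var 0)).min
    (cx_th hg.tail hi.tail))

theorem cx_phi2 (hW : Cx5 Wc) (ha : Cx a) (ht : Cx t) (hg : Cx g) (hx : Cx1 x) (hj : Cx j) :
    Cx fun v m => mx (PM m).It1 fun i => ((PM m).gb - 2) * (∑ l ∈ range (PM m).b,
      min ((PM m).ej (Wc v m) (a v m) (t v m) (j v m) (x v m) l) ((PM m).th (g v m) i)) / (PM m).gb -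
      2 * (PM m).k0 * ((PM m).b / (PM m).sp (j v m)) * (PM m).th (g v m) i :=
  Cx.mx 8 (((((Cx.cell 6 7).sub (Cx.const 2)).mul
      (cx_phi1 hW.tail ha.tail ht.tail hg.tail hx.tail hj.tail (Cx.var 0))).div (Cx.cell 6 7)).sub
    ((((Cx.const 2).mul (Cx.cell 6 8)).mul ((Cx.cell 5 0).div (cx_sp hj.tail))).mul
      (cx_th hg.tail (Cx.var 0))))

theorem cx_phi (hW : Cx5 Wc) (ha : Cx a) (ht : Cx t) (hg : Cx g) (hx : Cx1 x) :
    Cx fun v m => (PM m).phi (Wc v m) (a v m) (t v m) (g v m) (x v m) :=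
  Cx.sum 2 (Cx.ite (CxP.eq (Cx.var 0) (Cx.const 0)) (cx_full hW.tail ha.tail ht.tail hx.tail)
    (cx_phi2 hW.tail ha.tail ht.tail hg.tail hx.tail (Cx.var 0)))

theorem cx_lcb1 (hW : Cx5 Wc) (hz : Cx1 z) (ha : Cx a) (ht : Cx t) (hg : Cx g) (hx : Cx1 x)
    (hj : Cx j) (hi : Cx i) :
    Cx fun v m => ∑ l ∈ range (PM m).b, if l < (PM m).sp (j v m) then
      min ((PM m).ej (Wc v m) (a v m) (t v m) (j v m) (x v m)
        (z v m (j v m * (PM m).b + l) % (PM m).b)) ((PM m).th (g v m) (i v m)) else 0 :=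
  Cx.sum 0 (Cx.ite (CxP.lt (Cx.var 0) (cx_sp hj.tail))
    ((cx_ej hW.tail ha.tail ht.tail hj.tail hx.tail
      ((hz.tail.app ((hj.tail.mul (Cx.cell 5 0)).add (Cx.var 0))).mod (Cx.cell 5 0))).min
      (cx_th hg.tail hi.tail)) (Cx.const 0))

theorem cx_lcb2 (hW : Cx5 Wc) (hz : Cx1 z) (ha : Cx a) (ht : Cx t) (hg : Cx g) (hx : Cx1 x)
    (hj : Cx j) :
    Cx fun v m => mx (PM m).It1 fun i => ((PM m).gb - 1) * ((PM m).b / (PM m).sp (j v m) *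
      ∑ l ∈ range (PM m).b, if l < (PM m).sp (j v m) then
        min ((PM m).ej (Wc v m) (a v m) (t v m) (j v m) (x v m)
          (z v m (j v m * (PM m).b + l) % (PM m).b)) ((PM m).th (g v m) i) else 0) / (PM m).gb -
      (PM m).k0 * ((PM m).b / (PM m).sp (j v m)) * (PM m).th (g v m) i :=
  Cx.mx 8 (((((Cx.cell 6 7).sub (Cx.const 1)).mul (((Cx.cell 5 0).div (cx_sp hj.tail)).mul
      (cx_lcb1 hW.tail hz.tail ha.tail ht.tail hg.tail hx.tail hj.tail (Cx.var 0)))).div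
      (Cx.cell 6 7)).sub
    (((Cx.cell 6 8).mul ((Cx.cell 5 0).div (cx_sp hj.tail))).mul (cx_th hg.tail (Cx.var 0))))

theorem cx_lcb (hW : Cx5 Wc) (hz : Cx1 z) (ha : Cx a) (ht : Cx t) (hg : Cx g) (hx : Cx1 x) :
    Cx fun v m => (PM m).lcb (Wc v m) (z v m) (a v m) (t v m) (g v m) (x v m) :=
  Cx.sum 2 (Cx.ite (CxP.eq (Cx.var 0) (Cx.const 0)) (cx_full hW.tail ha.tail ht.tail hx.tail)
    (cx_lcb2 hW.tail hz.tail ha.tail ht.tail hg.tail hx.tail (Cx.var 0)))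

theorem cx_nz (hz : Cx1 z) (hi : Cx idx) : Cx fun v m => (PM m).nz (z v m) (idx v m) :=
  Cx.mn 6 (Cx.ite (CxP.and (CxP.lt (Cx.var 0) ((Cx.cell 5 6).sub (Cx.const 1)))
    (CxP.ne ((hz.tail.app ((((Cx.cell 5 2).mul (Cx.cell 5 0)).add
      (hi.tail.mul ((Cx.cell 5 6).sub (Cx.const 1)))).add (Cx.var 0))).mod (Cx.cell 6 6))
      (Cx.const 0))) ((Cx.cell 5 6).sub (Cx.const 1)) (Cx.var 0))

theorem cx_lt (hW : Cx5 Wc) (ha : Cx a) (ht : Cx t) (hg : Cx g) (hx : Cx1 x) :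
    Cx fun v m => (PM m).lt (Wc v m) (a v m) (t v m) (g v m) (x v m) :=
  (cx_lsum hW ha (ht.sub (Cx.const 1)) (Cx.cell 5 0) hx).sub (cx_phi hW ha ht hg hx)

theorem cx_u0 {A : Env → Mem → ℕ} (hg : Cx g) (hA : Cx A) :
    Cx fun v m => (PM m).u0 (g v m) (A v m) :=
  ((((((Cx.const 48).mul (Cx.cell 5 2)).mul (Cx.cell 5 0)).mul hg).mul hA).mul
    (Cx.cell 6 11)).mul ((Cx.cell 6 12).div (Cx.cell 6 6))

theorem cx_xp {t' μ A : Env → Mem → ℕ} (hW : Cx5 Wc) (ha : Cx a) (hd : Cx d) (he : Cx e)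
    (hg : Cx g) (ht' : Cx t') (hμ : Cx μ) (hA : Cx A) (hi : Cx idx) :
    Cx1 fun v m => (PM m).xp (Wc v m) (a v m) (d v m) (e v m) (g v m) (t' v m) (μ v m) (A v m)
      (idx v m) :=
  cx_pt hd hg (Cx.cell 5 0) he (cx_xd (cx_cz hW ha ht' hμ hd hg) hA hi)

theorem cx_play1 {a0 : Env → Mem → ℕ} (hW : Cx5 Wc) (ha : Cx a) (ht : Cx t) (hg : Cx g)
    (h0 : Cx a0) (hx : Cx1 x) :
    Cx fun v m => ∑ t' ∈ range (PM m).T1, if a0 v m ≤ t' ∧ t' < t v m then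
      (PM m).lt (Wc v m) (a v m) t' (g v m) (x v m) else 0 :=
  Cx.sum 7 (Cx.ite (CxP.and (CxP.le h0.tail (Cx.var 0)) (CxP.lt (Cx.var 0) ht.tail))
    (cx_lt hW.tail ha.tail (Cx.var 0) hg.tail hx.tail) (Cx.const 0))

theorem cx_play {a0 A : Env → Mem → ℕ} {X : Env → Mem → ℕ → ℕ → ℕ} (hW : Cx5 Wc) (hz : Cx1 z)
    (ha : Cx a) (ht : Cx t) (hg : Cx g) (hA : Cx A) (h0 : Cx a0)
    (hX : Cx1 fun v m => X (tail v) m (v 0)) :
    Cx fun v m => (PM m).play (Wc v m) (z v m) (a v m) (t v m) (g v m) (A v m) (a0 v m) (X v m) :=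
  Cx.amn 5 (((cx_play1 hW.tail ha.tail ht.tail hg.tail h0.tail hX).add
    (cx_lsum hW.tail ha.tail (ht.tail.sub (Cx.const 1)) (Cx.cell 5 0) hX)).add
    ((cx_u0 hg.tail hA.tail).mul (((Cx.cell 5 6).sub (Cx.const 1)).sub
      (cx_nz hz.tail (Cx.var 0)))))

theorem cx_xpl {a0 t' μ A : Env → Mem → ℕ} (hW : Cx5 Wc) (hz : Cx1 z) (ha : Cx a) (ht : Cx t)
    (hd : Cx d) (he : Cx e) (hg : Cx g) (h0 : Cx a0) (ht' : Cx t') (hμ : Cx μ) (hA : Cx A) :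
    Cx1 fun v m => (PM m).xp (Wc v m) (a v m) (d v m) (e v m) (g v m) (t' v m) (μ v m) (A v m)
      ((PM m).play (Wc v m) (z v m) (a v m) (t v m) (g v m) (A v m) (a0 v m)
        ((PM m).xp (Wc v m) (a v m) (d v m) (e v m) (g v m) (t' v m) (μ v m) (A v m))) :=
  cx_xp hW ha hd he hg ht' hμ hA (cx_play hW hz ha ht hg hA h0
    (cx_xp hW.tail ha.tail hd.tail he.tail hg.tail ht'.tail hμ.tail hA.tail (Cx.var 0)))

theorem cx_cand1 {a0 t' μ A : Env → Mem → ℕ} (hW : Cx5 Wc) (hz : Cx1 z) (ha : Cx a) (ht : Cx t)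
    (hd : Cx d) (he : Cx e) (hg : Cx g) (h0 : Cx a0) (ht' : Cx t') (hμ : Cx μ) (hA : Cx A) :
    Cx fun v m => (PM m).cand1 (Wc v m) (z v m) (a v m) (t v m) (d v m) (e v m) (g v m) (a0 v m)
      (t' v m) (μ v m) (A v m) :=
  ((Cx.cell 6 12).mul (hd.dist he)).max
    ((cx_lsum hW ha (ht.sub (Cx.const 1)) (Cx.cell 5 0)
      (cx_xpl hW hz ha ht hd he hg h0 ht' hμ hA)).sub
      (cx_lcb hW hz ha ht hg (cx_xpl hW hz ha ht hd he hg h0 ht' hμ hA)))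

theorem cx_cand2 {a0 t' μ : Env → Mem → ℕ} (hW : Cx5 Wc) (hz : Cx1 z) (ha : Cx a) (ht : Cx t)
    (hd : Cx d) (he : Cx e) (hg : Cx g) (h0 : Cx a0) (ht' : Cx t') (hμ : Cx μ) :
    Cx fun v m => mn (PM m).np1 fun A => (PM m).cand1 (Wc v m) (z v m) (a v m) (t v m) (d v m)
      (e v m) (g v m) (a0 v m) (t' v m) (μ v m) A :=
  Cx.mn 4 (cx_cand1 hW.tail hz.tail ha.tail ht.tail hd.tail he.tail hg.tail h0.tail ht'.tail
    hμ.tail (Cx.var 0))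

theorem cx_cand3 {a0 t' : Env → Mem → ℕ} (hW : Cx5 Wc) (hz : Cx1 z) (ha : Cx a) (ht : Cx t)
    (hd : Cx d) (he : Cx e) (hg : Cx g) (h0 : Cx a0) (ht' : Cx t') :
    Cx fun v m => mn (PM m).np1 fun μ => mn (PM m).np1 fun A => (PM m).cand1 (Wc v m) (z v m)
      (a v m) (t v m) (d v m) (e v m) (g v m) (a0 v m) (t' v m) μ A :=
  Cx.mn 4 (cx_cand2 hW.tail hz.tail ha.tail ht.tail hd.tail he.tail hg.tail h0.tail ht'.tail
    (Cx.var 0))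

theorem cx_cand4 {a0 : Env → Mem → ℕ} (hW : Cx5 Wc) (hz : Cx1 z) (ha : Cx a) (ht : Cx t)
    (hd : Cx d) (he : Cx e) (hg : Cx g) (h0 : Cx a0) :
    Cx fun v m => mn (PM m).T1 fun t' => mn (PM m).np1 fun μ => mn (PM m).np1 fun A =>
      (PM m).cand1 (Wc v m) (z v m) (a v m) (t v m) (d v m) (e v m) (g v m) (a0 v m)
        (min t' (t v m)) μ A :=
  Cx.mn 7 (cx_cand3 hW.tail hz.tail ha.tail ht.tail hd.tail he.tail hg.tail h0.tail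
    ((Cx.var 0).min ht.tail))

theorem cx_cand (hW : Cx5 Wc) (hz : Cx1 z) (ha : Cx a) (ht : Cx t) (hd : Cx d) (he : Cx e)
    (hg : Cx g) :
    Cx fun v m => (PM m).cand (Wc v m) (z v m) (a v m) (t v m) (d v m) (e v m) (g v m) := by
  exact (cx_ug hW ha (ht.sub (Cx.const 1)) hd hg (Cx.cell 5 0) he).min
    (Cx.mn 7 (cx_cand4 hW.tail hz.tail ha.tail ht.tail hd.tail he.tail hg.tail (Cx.var 0)))

end Vale.Agent.P315
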