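import Vale.Agent.P315.CxA

/-! The table entries and the flags are computed by terms. -/

open Finset

namespace Vale.Agent.P315

variable {Wr : Env → Mem → Ev} {a t d e h i sl k n : Env → Mem → ℕ} {z : Env → Mem → ℕ → ℕ}

theorem cxB_sp (hk : Cx k) : Cx fun v m => (PM m).sp (k v m) := Cx.get 4 ((Cx.cell 6 2).mul hk)

theorem cxB_len (hh : Cx h) : Cx fun v m => (PM m).len (h v m) := Cx.get 4 ((Cx.cell 6 3).mul hh)

theorem cxB_pred (hk : Cx k) : Cx fun v m => k v m - 1 := hk.sub (Cx.const 1)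

theorem cxB_succ (hk : Cx k) : Cx fun v m => k v m + 1 := hk.add (Cx.const 1)

theorem cxB_z (hk : Cx k) : CxP fun v m => k v m = 0 := CxP.eq hk (Cx.const 0)

theorem cxB_tt (hh : Cx h) (ha : Cx a) (hk : Cx k) :
    Cx fun v m => (PM m).tt (h v m) (a v m) (k v m) :=
  Cx.ite (cxB_z hk) (Cx.const 0) (((((Cx.cell 6 9).mul (Cx.get 4 ((Cx.cell 6 5).mul
    ((cxB_pred (hh.add (Cx.cell 6 1))).div (Cx.cell 6 1))))).mul (cxB_sp hk)).mul
      (cxB_len hh)).mul ((Cx.cell 6 12).div (cxB_sp ha)))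

theorem cxB_e1 (hW : Cx5 Wr) (hn : Cx n) (hh : Cx h) (ha : Cx a) (hd : Cx d) (hk : Cx k) :
    Cx fun v m => ∑ l ∈ range (PM m).b0, if l < (PM m).len (n v m) then
      Wr v m l (a v m - (k v m - 1)) 0 (d v m) (d v m) -
        (PM m).tt (h v m) (a v m) (k v m - 1) else 0 :=
  Cx.sum 1 (Cx.ite (CxP.lt (Cx.var 0) (cxB_len hn.tail))
    ((hW.tail.app (Cx.var 0) (ha.sub (cxB_pred hk)).tail (Cx.const 0) hd.tail hd.tail).sub
      (cxB_tt hh ha (cxB_pred hk)).tail) (Cx.const 0))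

theorem cxB_e2 (hW : Cx5 Wr) (hz : Cx1 z) (hn : Cx n) (hh : Cx h) (ha : Cx a) (hd : Cx d)
    (hk : Cx k) : Cx fun v m => ∑ l ∈ range (PM m).b0, if l < (PM m).sp (k v m) then
      min (Wr v m (z v m (k v m * (PM m).b0 + l) % (PM m).len (n v m)) (a v m - (k v m - 1)) 0
        (d v m) (d v m)) ((PM m).tt (h v m) (a v m) (k v m)) -
        (PM m).tt (h v m) (a v m) (k v m - 1) else 0 :=
  Cx.sum 1 (Cx.ite (CxP.lt (Cx.var 0) (cxB_sp hk.tail))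
    (((hW.tail.app ((hz.tail.app ((hk.tail.mul (Cx.cell 5 1)).add (Cx.var 0))).mod
      (cxB_len hn.tail)) (ha.sub (cxB_pred hk)).tail (Cx.const 0) hd.tail hd.tail).min
      (cxB_tt hh ha hk).tail).sub (cxB_tt hh ha (cxB_pred hk)).tail) (Cx.const 0))

theorem cx_est (hW : Cx5 Wr) (hz : Cx1 z) (hh : Cx h) (ha : Cx a) (hd : Cx d) :
    Cx fun v m => (PM m).est (Wr v m) (z v m) (h v m) (a v m) (d v m) := by
  have h1 := ((Cx.cell 6 1).min hh).tail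
  have h2 := (hh.sub ((Cx.cell 6 1).min hh)).tail
  have h3 := (Cx.cell 5 2).mul h1
  have h4 := (cxB_len h1).div (cxB_sp (Cx.var 0))
  exact Cx.sum 3 (Cx.ite ((cxB_z (Cx.var 0)).or (CxP.lt h3 (Cx.var 0))) (Cx.const 0)
    (Cx.ite (CxP.eq (Cx.var 0) h3) (cxB_e1 hW.tail h1 h2 ha.tail hd.tail (Cx.var 0))
      ((((cxB_succ (Cx.cell 6 9)).mul (h4.mul
        (cxB_e2 hW.tail hz.tail h1 h2 ha.tail hd.tail (Cx.var 0)))).div (Cx.cell 6 9)).add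
        (((Cx.cell 6 10).mul h4).mul (cxB_tt h2 ha.tail (Cx.var 0))))))

theorem cxB_sg (hsl : Cx sl) : Cx fun v m => (PM m).sg (sl v m) :=
  Cx.ite (cxB_z hsl) (Cx.const 1) (Cx.get 4 ((cxB_pred hsl).div (Cx.cell 5 4)))

theorem cxB_sm (hsl : Cx sl) : Cx fun v m => (PM m).sm (sl v m) :=
  Cx.ite (cxB_z hsl) (Cx.cell 6 0) ((cxB_pred hsl).mod (Cx.cell 5 4))

theorem cxB_sd (hsl : Cx sl) (hk : Cx k) : Cx fun v m => (PM m).sd (sl v m) (k v m) :=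
  ((Cx.cell 6 13).sub (Cx.cell 6 14)).add ((cxB_sg hsl).mul hk)

theorem cxB_se (hsl : Cx sl) (hk : Cx k) : Cx fun v m => (PM m).se (sl v m) (k v m) :=
  cx_gp (cxB_sd hsl hk) (cxB_sg hsl) (cxB_sm hsl)

theorem cxB_big (hh : Cx h) (hsl : Cx sl) : Cx fun v m => (PM m).big (h v m) (sl v m) :=
  (Cx.cell 6 12).mul ((cxB_len hh).add ((cxB_sg hsl).mul (Cx.cell 6 0)))

theorem cxB_tx (hh : Cx h) (hi : Cx i) (ha : Cx a) (ht : Cx t) :
    Cx fun v m => (PM m).tx (h v m) (i v m) (a v m) (t v m) :=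
  (((((hh.mul (Cx.cell 6 17)).add hi).mul (cxB_succ (Cx.cell 6 15))).add ha).mul
    (Cx.cell 5 7)).add ht

theorem cxB_D : Cx fun _ m => 2 * (PM m).Dh := (Cx.const 2).mul (Cx.cell 6 14)

theorem cxB_ad (hh : Cx h) (hi : Cx i) (ha : Cx a) (ht : Cx t) (hsl : Cx sl) (hk : Cx k) :
    Cx fun v m => (PM m).ad (h v m) (i v m) (a v m) (t v m) (sl v m) (k v m) :=
  ((cxB_tx hh hi ha ht).mul ((Cx.cell 5 9).mul (cxB_succ cxB_D))).add
    ((hsl.mul (cxB_succ cxB_D)).add hk)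

theorem cxB_kl0 (hsl : Cx sl) (hd : Cx d) : Cx fun v m => (PM m).kl0 (sl v m) (d v m) :=
  ((hd.sub ((Cx.cell 6 13).sub (Cx.cell 6 14))).div (cxB_sg hsl)).min cxB_D

theorem cxB_colT (hh : Cx h) (hi : Cx i) (ha : Cx a) (ht : Cx t) (hsl : Cx sl) (hd : Cx d) :
    Cx fun v m => (PM m).colT
      (fun k => m 11 ((PM m).ad (h v m) (i v m) (a v m) (t v m) (sl v m) k))
      (fun k => m 12 ((PM m).ad (h v m) (i v m) (a v m) (t v m) (sl v m) k)) (sl v m) (d v m) := by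
  have h1 := cxB_kl0 hsl hd
  have h2 := (cxB_succ h1).min cxB_D
  have h3 := (Cx.const 2).mul (Cx.cell 6 12)
  exact ((Cx.get 11 (cxB_ad hh hi ha ht hsl h1)).add (h3.mul (hd.dist (cxB_sd hsl h1)))).min
    ((Cx.get 12 (cxB_ad hh hi ha ht hsl (cxB_D.sub h2))).add (h3.mul (hd.dist (cxB_sd hsl h2))))

theorem cxB_mis (hi : Cx i) (hd : Cx d) : Cx fun v m => misM m (i v m) (d v m) := by
  have h1 := cxB_pred hi
  have h2 := (h1.add hd).sub (Cx.cell 6 13)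
  exact Cx.ite ((cxB_z hi).or (CxP.lt (Cx.cell 0 0) hi)) (Cx.const 0)
    (Cx.ite ((CxP.le (Cx.cell 6 13) (h1.add hd)).and ((CxP.lt h1 (Cx.cell 0 0)).and
      ((CxP.lt h2 (Cx.cell 0 1)).and (CxP.eq (Cx.get 1 h1) (Cx.get 2 h2))))) (Cx.const 0)
      (Cx.const 1))

theorem cx_WM (hh : Cx h) (hi : Cx i) (ha : Cx a) (ht : Cx t) (hd : Cx d) (he : Cx e) :
    Cx fun v m => WM m (h v m) (i v m) (a v m) (t v m) (d v m) (e v m) := by
  have h1 := (Cx.cell 6 12).mul ((cxB_len hh).add (hd.dist he))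
  have h2 := cxB_sg (Cx.var 0)
  exact Cx.ite (cxB_z hh) ((Cx.cell 6 12).mul (((cxB_mis hi hd).add (hd.dist he)).min
    ((Cx.const 1).add (hd.dist (cxB_succ he))))) (Cx.ite (cxB_z ha) h1 (h1.min (Cx.mn 9
      ((cxB_colT hh.tail hi.tail ha.tail ht.tail (Cx.var 0) hd.tail).add ((Cx.cell 6 12).mul
        ((he.tail.add (h2.mul (Cx.cell 6 0))).dist (hd.tail.add (h2.mul (cxB_sm (Cx.var 0))))))))))

theorem cxB_W5 (hh : Cx h) (hi : Cx i) : Cx5 fun v m l => WM m (h v m) (i v m + l) :=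
  cx_WM (hh.ren (· + 5)) ((hi.ren (· + 5)).add (Cx.var 0)) (Cx.var 1) (Cx.var 2) (Cx.var 3)
    (Cx.var 4)

theorem cxB_zM (hh : Cx h) (hi : Cx i) : Cx1 fun v m => zM m (h v m) (i v m) := by
  have h1 := ((Cx.cell 5 2).mul (Cx.cell 5 0)).add ((Cx.cell 5 5).mul (cxB_pred (Cx.cell 5 6)))
  exact Cx.ite (CxP.lt (Cx.var 0) h1)
    (Cx.get 8 ((((hh.tail.mul (Cx.cell 6 17)).add hi.tail).mul h1).add (Cx.var 0))) (Cx.const 0)

theorem cxB_zrM (hh : Cx h) (hi : Cx i) : Cx1 fun v m => zrM m (h v m) (i v m) := by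
  have h1 := (Cx.cell 5 3).mul (Cx.cell 5 1)
  exact Cx.ite (CxP.lt (Cx.var 0) h1)
    (Cx.get 7 ((((hh.tail.mul (Cx.cell 6 17)).add hi.tail).mul h1).add (Cx.var 0))) (Cx.const 0)

theorem cx_nvM (hh : Cx h) (hi : Cx i) (ha : Cx a) (ht : Cx t) (hsl : Cx sl) (hk : Cx k) :
    Cx fun v m => nvM m (h v m) (i v m) (a v m) (t v m) (sl v m) (k v m) := by
  have h1 := cxB_succ hh
  have h2 := (Cx.cell 6 1).min h1
  exact Cx.ite (cxB_z ht) (Cx.ite (cxB_z hsl) (cx_est (cxB_W5 (hh.sub (cxB_pred h2))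
    (hi.mul (cxB_len h2))) (cxB_zrM h1 hi) h1 ha (cxB_sd hsl hk)) (cxB_big h1 hsl))
    (Cx.ite (cxB_z hsl) (cxB_big h1 hsl) (cx_cand (cxB_W5 hh (hi.mul (Cx.cell 5 0))) (cxB_zM h1 hi)
      ha ht (cxB_sd hsl hk) (cxB_se hsl hk) (cxB_sg hsl)))

theorem cxB_fM (hn : Cx n) (hi : Cx i) (ha : Cx a) (ht : Cx t) :
    Cx fun v m => fM m (n v m) (i v m) (a v m) (t v m) :=
  Cx.ite ((CxP.le ha (Cx.cell 6 15)).and (CxP.lt ht (Cx.cell 5 7))) (Cx.get 9 (cxB_tx hn hi ha ht))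
    (Cx.const 0)

theorem cxB_sel (c : ℕ) (hz : Cx1 z) (hk : Cx k) (hi : Cx i) :
    Cx fun v m => (PM m).sel (z v m) (m 5 c) (k v m) (i v m) :=
  Cx.sum c (Cx.ite ((CxP.lt (Cx.var 0) (cxB_sp hk.tail)).and (CxP.eq ((hz.tail.app
    ((hk.tail.mul (Cx.cell 5 c)).add (Cx.var 0))).mod (Cx.cell 5 c)) hi.tail)) (Cx.const 1)
    (Cx.const 0))

theorem cx_nstep (hn : Cx n) (hi : Cx i) (ha : Cx a) (ht : Cx t) :
    Cx fun v m => (PM m).nstep (zM m ((PM m).H - n v m) (i v m / (PM m).b))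
      (zrM m ((PM m).H - (n v m - ((PM m).r0 - 1))) (i v m / (PM m).b0))
      (fM m (n v m) (i v m / (PM m).b)) (fM m (n v m - ((PM m).r0 - 1)) (i v m / (PM m).b0))
      ((PM m).r0 ≤ n v m + 1) (i v m) (a v m) (t v m) := by
  have i0 := hi.div (Cx.cell 5 0)
  have i1 := hi.div (Cx.cell 5 1)
  have n1 := hn.sub (cxB_pred (Cx.cell 6 1))
  have t1 := ht.max (Cx.const 1)
  have a1 := ha.tail.add (cxB_pred (Cx.var 0))
  have rr := (Cx.cell 5 2).mul (Cx.cell 6 1)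
  have s0 := Cx.sum 2 (F := fun j v m => if j = 0 then 0 else
      (PM m).sel (zM m ((PM m).H - n v m) (i v m / (PM m).b)) (PM m).b j (i v m % (PM m).b) *
        fM m (n v m) (i v m / (PM m).b) (a v m + (j - 1)) (max (t v m) 1))
    (Cx.ite (cxB_z (Cx.var 0)) (Cx.const 0) ((cxB_sel 0 (cxB_zM ((Cx.cell 6 16).sub hn) i0).tail
      (Cx.var 0) (hi.mod (Cx.cell 5 0)).tail).mul (cxB_fM hn.tail i0.tail a1 t1.tail)))
  have s1 := Cx.sum 3 (F := fun j v m => if j = 0 ∨ (PM m).r * (PM m).r0 ≤ j then 0 else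
      (PM m).sel (zrM m ((PM m).H - (n v m - ((PM m).r0 - 1))) (i v m / (PM m).b0)) (PM m).b0 j
        (i v m % (PM m).b0) *
        fM m (n v m - ((PM m).r0 - 1)) (i v m / (PM m).b0) (a v m + (j - 1)) 0)
    (Cx.ite ((cxB_z (Cx.var 0)).or (CxP.le rr (Cx.var 0))) (Cx.const 0)
      ((cxB_sel 1 (cxB_zrM ((Cx.cell 6 16).sub n1) i1).tail (Cx.var 0)
        (hi.mod (Cx.cell 5 1)).tail).mul (cxB_fM n1.tail i1.tail a1 (Cx.const 0))))
  exact (Cx.const 1).min ((((cxB_fM hn i0 ha (cxB_succ ht)).add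
    (cxB_fM hn i0 (ha.add (cxB_pred (Cx.cell 5 2))) t1)).add s0).add
    (Cx.ite ((cxB_z ht).and (CxP.le (Cx.cell 6 1) (cxB_succ hn)))
      ((cxB_fM n1 i1 (ha.add (cxB_pred rr)) (Cx.const 0)).add s1) (Cx.const 0)))

end Vale.Agent.P315
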