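import Mathlib

/-!
Edit distance, and a word RAM with fair coins. Registers and array cells hold `w`-bit words; every arithmetic
instruction acts on registers and is reduced modulo `2 ^ w`.
-/

namespace Vale.Agent.P315

/-- One unit-cost edit operation: insertion, deletion or substitution of a single symbol. -/
inductive Edit : List ℕ → List ℕ → Prop
  | ins (p s : List ℕ) (a : ℕ) : Edit (p ++ s) (p ++ a :: s)
  | del (p s : List ℕ) (a : ℕ) : Edit (p ++ a :: s) (p ++ s)
  | sub (p s : List ℕ) (a b : ℕ) : Edit (p ++ a :: s) (p ++ b :: s)

/-- `Edits k x y`: the word `x` is transformed into `y` by a sequence of `k` edit operations. -/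
inductive Edits : ℕ → List ℕ → List ℕ → Prop
  | refl (x : List ℕ) : Edits 0 x x
  | step {k : ℕ} {x y z : List ℕ} : Edit x y → Edits k y z → Edits (k + 1) x z

/-- Edit distance: the least number of edit operations transforming `x` into `y`. -/
noncomputable def ED (x y : List ℕ) : ℕ := sInf {k : ℕ | Edits k x y}

/-- Memory: arrays numbered by `ℕ`, each indexed by `ℕ`. -/
abbrev Mem : Type := ℕ → ℕ → ℕ

/-- Write `v` into cell `i` of array `a`. -/
def Mem.write (m : Mem) (a i v : ℕ) : Mem :=
  fun a' i' => if a' = a ∧ i' = i then v else m a' i'

/-- Arithmetic instructions: sum, truncated difference, product, integer quotient. -/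
inductive Op : Type
  | add : Op
  | sub : Op
  | mul : Op
  | div : Op

/-- The value of an arithmetic instruction. -/
def Op.app : Op → ℕ → ℕ → ℕ
  | .add, x, y => x + y
  | .sub, x, y => x - y
  | .mul, x, y => x * y
  | .div, x, y => x / y

/-- Programs. The numbers `r`, `x`, `y`, `i`, `v` name registers, `a` names an array. -/
inductive Stmt : Type
  | const (r c : ℕ) : Stmt
  | op (o : Op) (r x y : ℕ) : Stmt
  | load (r a i : ℕ) : Stmt
  | store (a i v : ℕ) : Stmt
  | flip (r : ℕ) : Stmt
  | seq (p q : Stmt) : Stmt
  | ite (r : ℕ) (p q : Stmt) : Stmt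
  | loop (r : ℕ) (p : Stmt) : Stmt

/-- A configuration: the statements still to run, the registers, the memory. -/
abbrev Config : Type := List Stmt × (ℕ → ℕ) × Mem

/-- One machine step with word size `w`; `coin` is the fair coin available in this step. -/
def step (w : ℕ) (coin : Bool) : Config → Config
  | ([], g, m) => ([], g, m)
  | (.const r c :: k, g, m) => (k, Function.update g r (c % 2 ^ w), m)
  | (.op o r x y :: k, g, m) => (k, Function.update g r (o.app (g x) (g y) % 2 ^ w), m)
  | (.load r a i :: k, g, m) => (k, Function.update g r (m a (g i)), m)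
  | (.store a i v :: k, g, m) => (k, g, m.write a (g i) (g v))
  | (.flip r :: k, g, m) => (k, Function.update g r (if coin then 1 else 0), m)
  | (.seq p q :: k, g, m) => (p :: q :: k, g, m)
  | (.ite r p q :: k, g, m) => if g r = 0 then (q :: k, g, m) else (p :: k, g, m)
  | (.loop r p :: k, g, m) => if g r = 0 then (k, g, m) else (p :: .loop r p :: k, g, m)

/-- The input memory: array `0` holds the two lengths, arrays `1` and `2` hold the strings,
every other cell is `0`. -/
def input (x y : List ℕ) : Mem := fun a i =>
  if a = 0 then [x.length, y.length].getD i 0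
  else if a = 1 then x.getD i 0 else if a = 2 then y.getD i 0 else 0

/-- The configuration after `T` steps of program `P` on input `x`, `y` with coins `ω`. -/
def run (w : ℕ) (P : Stmt) (x y : List ℕ) {T : ℕ} (ω : Fin T → Bool) : Config :=
  (List.ofFn ω).foldl (fun c coin => step w coin c) ([P], fun _ => 0, input x y)

/-- The output is cell `0` of array `3`. -/
def output (c : Config) : ℕ := c.2.2 3 0

end Vale.Agent.P315
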