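import Vale.Agent.P315.DetA
import Vale.Agent.P315.Prob

/-! Congruence and locality. -/

open Finset

namespace Vale.Agent.P315

variable {p : Par} {mis : ℕ → ℕ → ℕ} {z z' zr zr' : ℕ → ℕ → ℕ → ℕ} {Wc Wc' Wr Wr' : Ev}
  {y yr : ℕ → ℕ}

namespace DetB

theorem lsum_c {a t : ℕ} (h : ∀ l < p.b, Wc l a t = Wc' l a t) :
    p.lsum Wc a t = p.lsum Wc' a t := by
  funext j0 x
  exact sum_congr rfl fun l hl => by rw [h l (mem_range.1 hl)]

theorem ug_c {a t : ℕ} (h : ∀ l < p.b, Wc l a t = Wc' l a t) : p.ug Wc a t = p.ug Wc' a t := by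
  funext d g j0 e
  simp only [Par.ug, lsum_c h]

theorem cz_c {a t : ℕ} (h : t ≠ 0 → ∀ l < p.b, Wc l a (t - 1) = Wc' l a (t - 1)) :
    p.cz Wc a t = p.cz Wc' a t := by
  funext μ d g j
  unfold Par.cz
  split_ifs with h0
  · rfl
  · simp only [Par.res, ug_c (h h0)]

theorem wj_c {a t j l : ℕ} (h1 : Wc l a (t - 1) = Wc' l a (t - 1))
    (h2 : j ≤ p.r → Wc l (a - (j - 1)) t = Wc' l (a - (j - 1)) t) :
    p.wj Wc a t j l = p.wj Wc' a t j l := by
  funext d e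
  unfold Par.wj
  split_ifs with h
  · rw [h1]
  · rw [h1, h2 (by omega)]

theorem ej_c {a t j l : ℕ} (x : ℕ → ℕ) (h1 : Wc l a (t - 1) = Wc' l a (t - 1))
    (h2 : ∀ a' ≤ a - (j - 1), Wc l a' t = Wc' l a' t) :
    p.ej Wc a t j x l = p.ej Wc' a t j x l := by
  unfold Par.ej
  rw [wj_c h1 fun _ => h2 _ (by omega), wj_c h1 fun _ => h2 _ le_rfl]

theorem lt_c {a t : ℕ} (h1 : ∀ l < p.b, Wc l a (t - 1) = Wc' l a (t - 1))
    (h2 : ∀ l < p.b, ∀ a' ≤ a, Wc l a' t = Wc' l a' t) : p.lt Wc a t = p.lt Wc' a t := by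
  funext g x
  have he : ∀ j, ∀ l ∈ range p.b, p.ej Wc a t j x l = p.ej Wc' a t j x l := fun j l hl =>
    ej_c x (h1 l (mem_range.1 hl)) fun a' ha => h2 l (mem_range.1 hl) a' (by omega)
  unfold Par.lt Par.phi
  rw [lsum_c h1]
  congr 1
  refine sum_congr rfl fun j _ => ?_
  rw [sum_congr rfl (he p.r)]
  congr 2
  funext i
  rw [sum_congr rfl fun l hl => by rw [he j l hl]]

theorem lcb_c (hb : 0 < p.b) {a t : ℕ} (ht : 1 ≤ t)
    (hW : ∀ l a' t', p.UsedF y a t l a' t' → Wc l a' t' = Wc' l a' t') :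
    p.lcb Wc y a t = p.lcb Wc' y a t := by
  funext g x
  unfold Par.lcb
  refine sum_congr rfl fun j hj => ?_
  split_ifs with h0
  · exact sum_congr rfl fun l hl => ej_c x
      (hW _ _ _ ⟨mem_range.1 hl, Or.inl ⟨le_rfl, by omega⟩⟩)
      fun a' ha => hW _ _ _ ⟨mem_range.1 hl, Or.inr (Or.inl ⟨ha, le_rfl⟩)⟩
  · congr 1
    funext i
    congr 4
    refine sum_congr rfl fun l _ => ?_
    split_ifs with hl
    · rw [ej_c x (hW _ _ _ ⟨Nat.mod_lt _ hb, Or.inl ⟨le_rfl, by omega⟩⟩)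
        fun a' ha => hW _ _ _ ⟨Nat.mod_lt _ hb, Or.inr (Or.inr
          ⟨j, by omega, mem_range.1 hj, l, hl, rfl, ha, le_rfl⟩)⟩]
    · rfl

theorem play_c {a t : ℕ} (ht : 1 ≤ t)
    (h : ∀ l < p.b, ∀ a' ≤ a, ∀ t' < t, Wc l a' t' = Wc' l a' t') :
    p.play Wc y a t = p.play Wc' y a t := by
  funext g A a0 X
  unfold Par.play
  rw [lsum_c fun l hl => h l hl a le_rfl (t - 1) (by omega)]
  congr 1
  funext idx
  congr 2
  refine sum_congr rfl fun t' _ => ?_
  split_ifs with h0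
  · rw [lt_c (fun l hl => h l hl a le_rfl (t' - 1) (by omega))
      fun l hl a' ha => h l hl a' ha t' h0.2]
  · rfl

theorem raw_zero (B : ℕ) {nv nv' : ℕ → ℕ → ℕ} (h : ∀ a, nv a 0 = nv' a 0) (a : ℕ) :
    Par.raw B nv a 0 = Par.raw B nv' a 0 := by
  induction a with
  | zero => simp [Par.raw]
  | succ a ih => rw [Par.raw, Par.raw, ih, h]

theorem len_min (hp : p.Ok) {h : ℕ} (hh : h ≤ p.H) :
    p.len (min p.r0 h) = p.b ^ min p.r0 h := hp.len_eq _ ((min_le_right _ _).trans hh)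

theorem desc {b i l m n i' : ℕ} (hl : l < b ^ m) (h : i' / b ^ n = i * b ^ m + l) :
    i' / b ^ (n + m) = i := by
  have h0 : 0 < b ^ m := by omega
  rw [pow_add, ← Nat.div_div_eq_div_mul, h, add_comm, Nat.add_mul_div_right _ _ h0,
    Nat.div_eq_of_lt hl, zero_add]

end DetB

open DetB

theorem cand_congr (hp : p.Ok) {a t : ℕ} (ht : 1 ≤ t)
    (hW : ∀ l a' t', p.UsedF y a t l a' t' → Wc l a' t' = Wc' l a' t') (d e g : ℕ) :
    p.cand Wc y a t d e g = p.cand Wc' y a t d e g := by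
  have hb : 0 < p.b := by have := hp.two_le_b; omega
  have h : ∀ l < p.b, ∀ a' ≤ a, ∀ t' < t, Wc l a' t' = Wc' l a' t' :=
    fun l hl a' ha t' ht' => hW _ _ _ ⟨hl, Or.inl ⟨ha, ht'⟩⟩
  have h1 : ∀ l < p.b, Wc l a (t - 1) = Wc' l a (t - 1) :=
    fun l hl => h l hl a le_rfl _ (by omega)
  have h2 : ∀ t', p.cz Wc a (min t' t) = p.cz Wc' a (min t' t) := fun t' =>
    cz_c fun h0 l hl => h l hl a le_rfl _ (by omega)
  have h3 : ∀ t' μ A, p.xp Wc a d e g (min t' t) μ A = p.xp Wc' a d e g (min t' t) μ A := by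
    intro t' μ A
    funext idx
    simp only [Par.xp, h2]
  simp only [Par.cand, Par.cand1, ug_c h1, lsum_c h1, lcb_c hb ht hW, play_c ht h, h3]

theorem est_congr (hp : p.Ok) {h a : ℕ} (h1 : 1 ≤ h) (hh : h ≤ p.H)
    (hW : ∀ l a', p.UsedR yr h a l a' → Wr l a' 0 = Wr' l a' 0) (d : ℕ) :
    p.est Wr yr h a d = p.est Wr' yr h a d := by
  have hb : 0 < p.len (min p.r0 h) := by
    rw [len_min hp hh]
    have := hp.two_le_b
    positivity
  unfold Par.est
  refine sum_congr rfl fun j _ => ?_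
  split_ifs with h0 h2
  · rfl
  · refine sum_congr rfl fun l _ => ?_
    split_ifs with hl
    · rw [hW l _ ⟨hl, Or.inl (by rw [h2])⟩]
    · rfl
  · congr 4
    refine sum_congr rfl fun l _ => ?_
    split_ifs with hl
    · rw [hW _ _ ⟨Nat.mod_lt _ hb, Or.inr ⟨j, by omega, by omega, l, hl, rfl, le_rfl⟩⟩]
    · rfl

theorem node_congr (hp : p.Ok) {h : ℕ} (h1 : 1 ≤ h) (hh : h ≤ p.H) (hc : ∀ l < p.b, Wc l = Wc' l)
    (hr : ∀ l < p.len (min p.r0 h), ∀ a, Wr l a 0 = Wr' l a 0) :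
    p.node Wc Wr y yr h = p.node Wc' Wr' y yr h := by
  have hn : ∀ a t sl k, p.newv Wc Wr y yr h a t sl k = p.newv Wc' Wr' y yr h a t sl k := by
    intro a t sl k
    unfold Par.newv
    split_ifs with h0 h2 h3
    · exact est_congr hp h1 hh (fun l a' hu => hr l hu.1 a') _
    · rfl
    · rfl
    · exact cand_congr hp (by omega) (fun l a' t' hu => by rw [hc l hu.1]) _ _ _
  funext a t d e
  simp only [Par.node, Par.tab, hn]
  congr 1
  funext sl
  congr 1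
  funext k
  simp only [Par.tab, hn]

/-- A value function depends only on the digits of the descendants. -/
theorem Wv_loc (hp : p.Ok) {h : ℕ} (hh : h ≤ p.H) (i : ℕ)
    (hz : ∀ h' ≤ h, ∀ i', i' / p.b ^ (h - h') = i → z h' i' = z' h' i' ∧ zr h' i' = zr' h' i') :
    Wv p mis z zr h i = Wv p mis z' zr' h i := by
  induction h using Nat.strong_induction_on generalizing i with
  | _ h ih =>
    rcases h with _ | h
    · funext a t d e
      rw [Wv_zero, Wv_zero]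
    · have h0 := hz (h + 1) le_rfl i (by simp)
      have r0 := hp.r0_pos
      rw [Wv_succ, Wv_succ, h0.1, h0.2]
      refine node_congr hp (by omega) hh (fun l hl => ?_) fun l hl a => ?_
      · refine ih h (by omega) (by omega) _ fun h' hh' i' hi' => hz h' (by omega) i' ?_
        rw [show h + 1 - h' = h - h' + 1 by omega]
        exact desc (m := 1) (by simpa using hl) (by simpa using hi')
      · rw [len_min hp hh] at hl
        have := ih (h - (min p.r0 (h + 1) - 1)) (by omega) (by omega)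
          (i * p.len (min p.r0 (h + 1)) + l) fun h' hh' i' hi' => hz h' (by omega) i' (by
            rw [len_min hp hh] at hi'
            rw [show h + 1 - h' = h - (min p.r0 (h + 1) - 1) - h' + min p.r0 (h + 1) by omega]
            exact desc hl hi')
        simp only [Wpc, this]

/-- Round `0` does not depend on the digits of the later rounds. -/
theorem Wv_round0 (hp : p.Ok) {h : ℕ} (hh : h ≤ p.H) (i a : ℕ) :
    Wv p mis z zr h i a 0 = Wv p mis z' zr h i a 0 := by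
  induction h using Nat.strong_induction_on generalizing i a with
  | _ h ih =>
    rcases h with _ | h
    · funext d e
      rw [Wv_zero, Wv_zero]
    · rw [Wv_succ, Wv_succ]
      funext d e
      unfold Par.node
      congr 1
      funext sl
      congr 1
      funext k
      refine raw_zero _ (fun a' => ?_) a
      simp only [Par.newv, if_true]
      split_ifs
      · exact est_congr hp (by omega) hh (fun l a'' _ => ih _ (by omega) (by omega) _ _) _
      · rfl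

/-- The digits of the node `(h, i)`. -/
def zv (p : Par) {Bk Dg : ℕ} (ω : Fin p.Nn → Blk Bk Dg) (h i : ℕ) : ℕ → ℕ :=
  if i < p.P then vw ω (h * p.P + i) else fun _ => 0

theorem Par.Ok.nid_lt (hp : p.Ok) {h i : ℕ} (hh : h ≤ p.H) (hi : i < p.b ^ (p.H - h)) :
    h * p.P + i < p.Nn := by
  have hb := hp.two_le_b
  have h1 : p.b ^ (p.H - h) ≤ p.P := by
    rw [hp.P_eq]
    exact Nat.pow_le_pow_right (by omega) (by omega)
  have h2 := Nat.mul_le_mul_right p.P hh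
  rw [Par.Nn, add_mul, one_mul]
  omega

theorem Par.Ok.idx_lt (hp : p.Ok) {h i : ℕ} (hi : i < p.b ^ (p.H - h)) : i < p.P := by
  have hb := hp.two_le_b
  refine hi.trans_le ?_
  rw [hp.P_eq]
  exact Nat.pow_le_pow_right (by omega) (by omega)

theorem zv_update_self {Bk Dg : ℕ} (ω : Fin p.Nn → Blk Bk Dg) {h i : ℕ} (hi : i < p.P)
    (hv : h * p.P + i < p.Nn) (β : Blk Bk Dg) :
    zv p (Function.update ω ⟨h * p.P + i, hv⟩ β) h i = bv β := by
  rw [zv, if_pos hi]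
  exact vw_update_self ω ⟨h * p.P + i, hv⟩ β

theorem zv_update_ne {Bk Dg : ℕ} (ω : Fin p.Nn → Blk Bk Dg) {h i h0 i0 : ℕ} (hi0 : i0 < p.P)
    (hv : h0 * p.P + i0 < p.Nn) (hne : h ≠ h0 ∨ i ≠ i0) (β : Blk Bk Dg) :
    zv p (Function.update ω ⟨h0 * p.P + i0, hv⟩ β) h i = zv p ω h i := by
  unfold zv
  split_ifs with hi
  · refine vw_update_ne ω _ β fun e => ?_
    have e' : h * p.P + i = h0 * p.P + i0 := e
    have h1 : h = h0 := by
      have e2 := congrArg (· / p.P) e'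
      have hP : 0 < p.P := by omega
      simpa only [Nat.mul_comm _ p.P, Nat.mul_add_div hP, Nat.div_eq_of_lt hi,
        Nat.div_eq_of_lt hi0, add_zero] using e2
    subst h1
    omega
  · rfl

theorem DetB_ne {h i h0 i0 h' i' : ℕ} (hne : h < h0 ∨ (h = h0 ∧ i ≠ i0)) (hh' : h' ≤ h)
    (hi' : i' / p.b ^ (h - h') = i) : h' ≠ h0 ∨ i' ≠ i0 := by
  by_cases e : h' = h0
  · have h5 : h = h' := by omega
    rw [h5, Nat.sub_self, pow_zero, Nat.div_one] at hi'
    omega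
  · exact Or.inl e

theorem Wv_update (hp : p.Ok) {Bk Dg : ℕ} (ω : Fin p.Nn → Blk Bk Dg) {h i h0 i0 : ℕ}
    (hh : h ≤ p.H) (hi0 : i0 < p.P) (hv : h0 * p.P + i0 < p.Nn)
    (hne : h < h0 ∨ (h = h0 ∧ i ≠ i0)) (β : Blk Bk Dg) :
    Wv p mis (zv p (Function.update ω ⟨h0 * p.P + i0, hv⟩ β)) zr h i = Wv p mis (zv p ω) zr h i :=
  Wv_loc hp hh i fun _ hh' _ hi' => ⟨zv_update_ne ω hi0 hv (DetB_ne hne hh' hi') β, rfl⟩

theorem Wv_update_r (hp : p.Ok) {Bk Dg : ℕ} (ω : Fin p.Nn → Blk Bk Dg) {h i h0 i0 : ℕ}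
    (hh : h ≤ p.H) (hi0 : i0 < p.P) (hv : h0 * p.P + i0 < p.Nn)
    (hne : h < h0 ∨ (h = h0 ∧ i ≠ i0)) (β : Blk Bk Dg) :
    Wv p mis z (zv p (Function.update ω ⟨h0 * p.P + i0, hv⟩ β)) h i = Wv p mis z (zv p ω) h i :=
  Wv_loc hp hh i fun _ hh' _ hi' => ⟨rfl, zv_update_ne ω hi0 hv (DetB_ne hne hh' hi') β⟩

theorem Wch_update (hp : p.Ok) {Bk Dg : ℕ} (ω : Fin p.Nn → Blk Bk Dg) {h i0 : ℕ} (i : ℕ)
    (hh : h < p.H) (hi0 : i0 < p.P) (hv : (h + 1) * p.P + i0 < p.Nn) (β : Blk Bk Dg) :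
    Wch p mis (zv p (Function.update ω ⟨(h + 1) * p.P + i0, hv⟩ β)) zr h i =
      Wch p mis (zv p ω) zr h i :=
  funext fun _ => Wv_update hp ω hh.le hi0 hv (Or.inl (Nat.lt_succ_self h)) β

theorem Wpc_update (hp : p.Ok) {Bk Dg : ℕ} (ω : Fin p.Nn → Blk Bk Dg) {h i0 : ℕ} (i : ℕ)
    (hh : h < p.H) (hi0 : i0 < p.P) (hv : (h + 1) * p.P + i0 < p.Nn) (β : Blk Bk Dg) :
    Wpc p mis (zv p (Function.update ω ⟨(h + 1) * p.P + i0, hv⟩ β)) zr h i =
      Wpc p mis (zv p ω) zr h i :=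
  funext fun _ => Wv_update hp ω (by omega) hi0 hv (Or.inl (by omega)) β

theorem Wpc_update_r (hp : p.Ok) {Bk Dg : ℕ} (ω : Fin p.Nn → Blk Bk Dg) {h i0 : ℕ} (i : ℕ)
    (hh : h < p.H) (hi0 : i0 < p.P) (hv : (h + 1) * p.P + i0 < p.Nn) (β : Blk Bk Dg) :
    Wpc p mis z (zv p (Function.update ω ⟨(h + 1) * p.P + i0, hv⟩ β)) h i =
      Wpc p mis z (zv p ω) h i :=
  funext fun _ => Wv_update_r hp ω (by omega) hi0 hv (Or.inl (by omega)) β

end Vale.Agent.P315
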