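import Vale.Agent.P315.Learn
import Vale.Agent.P315.Credit

/-! The inequality without delay for one node. -/

open Finset
open scoped BigOperators

namespace Vale.Agent.P315

variable {p : Par} {E τ Tc Lg Dg κ a c : ℕ} [NeZero Dg] {Wc Wr : Ev} {xs fl cls yr : ℕ → ℕ}
  {ct cp : ℕ → ℝ}

theorem f2_cut (Q : ℕ → Prop) (hQ : ∀ s t, s ≤ t → Q t → Q s) (n : ℕ) :
    ∃ m ≤ n, (∀ t < m, Q t) ∧ ∀ t, m ≤ t → t < n → ¬ Q t := by
  induction n with
  | zero => exact ⟨0, le_rfl, fun _ h => absurd h (Nat.not_lt_zero _), fun _ _ h => by omega⟩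
  | succ n ih =>
    by_cases h : Q n
    · exact ⟨n + 1, le_rfl, fun t ht => hQ t n (by omega) h, fun _ _ _ => by omega⟩
    · obtain ⟨m, h1, h2, h3⟩ := ih
      refine ⟨m, by omega, h2, fun t a b => ?_⟩
      rcases Nat.lt_succ_iff_lt_or_eq.1 b with b | rfl
      · exact h3 t a b
      · exact h

theorem f2_spk {b : ℕ} {Λ : ℝ} {D y : ℕ → ℝ} (h : ∀ l, 0 ≤ D l) : 0 ≤ spk b Λ D y :=
  sum_nonneg fun l _ => by
    split_ifs
    · exact h l
    · exact le_rfl

theorem f2_node (hp : p.Ok) (hn : p.Num E τ Tc Lg Dg κ) (hc : p.NodeCtx E Wc a xs c fl cls ct cp)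
    (h : ℕ) {a0 n : ℕ} (hnτ : n ≤ τ) (hT : a0 + n < p.T1) {R : ℝ} (hR0 : 0 ≤ R)
    (hR : p.Radius Wc a xs c cp a0 R (p.KR E)) :
    𝔼 β : Blk p.Bf Dg, ∑ t ∈ range n,
      p.exc (p.node Wc Wr (bv β) yr h a (a0 + t + 1) (xs 0) (xs p.b)) (∑ l ∈ range p.b, cp l) ≤
      1 / p.L * p.xl Wc xs fl cp a0 + (∑ t ∈ range n, (p.xl Wc xs fl cp (a0 + t + 1) +
        1 / p.L * (p.xl Wc xs fl cp (a0 + t) - p.xl Wc xs fl cp (a0 + t + 1)) +
        spk p.b p.s (fun l => p.wl Wc xs fl cp l (a0 + t) - p.wl Wc xs fl cp l (a0 + t + 1)) ct)) +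
      (3 * (∑ l ∈ range p.b, cp l) / p.et + p.un τ + p.Ks Lg * R) := by
  have hX0 : ∀ t, 0 ≤ p.xl Wc xs fl cp t := fun t => sum_nonneg fun l _ => exc_nonneg _ _
  have hXa : Antitone (p.xl Wc xs fl cp) := fun s t hst =>
    sum_le_sum fun l _ => wl_anti hc.reg l hst
  have hc0 : (0 : ℝ) ≤ c := Nat.cast_nonneg c
  have hcC : (c : ℝ) ≤ ∑ l ∈ range p.b, cp l := by
    have h1 := hc.cp_ge
    have h2 : 0 ≤ 2 / (E : ℝ) * c := by positivity
    linarith
  have hP0 : (3 : ℝ) ≤ p.P0 := by exact_mod_cast hn.P0_ge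
  have hU : (0 : ℝ) < p.U := by exact_mod_cast hp.U_pos
  have het : (1 : ℝ) ≤ p.et := by exact_mod_cast hn.et_pos
  have hL : 0 < p.L := by linarith [hn.L_ge]
  have hτ : (n : ℝ) ≤ τ := by exact_mod_cast hnτ
  obtain ⟨g, sl, k, dig, hr, hg1, hg2⟩ := exists_rnd hp hc (x := c + p.xl Wc xs fl cp a0)
    (by linarith [hX0 a0]) (by
      have h1 : (c : ℝ) ≤ p.P := by exact_mod_cast hc.c_le.trans hp.Dh_le
      have h2 := (hXa (Nat.zero_le a0)).trans hc.xl_le
      have h3 := mul_le_mul_of_nonneg_left hP0 (Nat.cast_nonneg p.P)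
      linarith)
  have hg := hr.g_pos hp
  have hk0 : (0 : ℝ) ≤ (g : ℝ) - 1 := sub_nonneg.2 (by exact_mod_cast hg)
  have hcast : ((g - 1 : ℕ) : ℝ) = (g : ℝ) - 1 := by rw [Nat.cast_sub hg, Nat.cast_one]
  have hcr : ∀ t, 0 ≤ p.xl Wc xs fl cp (a0 + t + 1) +
      1 / p.L * (p.xl Wc xs fl cp (a0 + t) - p.xl Wc xs fl cp (a0 + t + 1)) +
      spk p.b p.s (fun l => p.wl Wc xs fl cp l (a0 + t) - p.wl Wc xs fl cp l (a0 + t + 1)) ct :=
    fun t => add_nonneg (add_nonneg (hX0 _) (mul_nonneg (by positivity)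
      (sub_nonneg.2 (hXa (Nat.le_succ _)))))
      (f2_spk fun l => sub_nonneg.2 (wl_anti hc.reg l (Nat.le_succ _)))
  have hcred : ∀ t, (p.lt Wc a (a0 + t + 1) g (p.rx g sl k dig) : ℝ) ≤
      p.U * ((∑ l ∈ range p.b, cp l) + 3 * p.b * (g - 1) + (p.xl Wc xs fl cp (a0 + t + 1) +
      1 / p.L * (p.xl Wc xs fl cp (a0 + t) - p.xl Wc xs fl cp (a0 + t + 1)) +
      spk p.b p.s (fun l => p.wl Wc xs fl cp l (a0 + t) - p.wl Wc xs fl cp l (a0 + t + 1)) ct)) +
      p.r * (1 + 2 * p.k0 * p.b) := by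
    intro t
    refine (credit hp hc hr (t := a0 + t) (by linarith [hXa (Nat.le_add_right a0 t)])).trans
      (add_le_add_left (mul_le_mul_of_nonneg_left ?_ hU.le) _)
    have := mul_le_mul_of_nonneg_right hn.eta2 (sub_nonneg.2 (hXa (Nat.le_succ (a0 + t))))
    linarith
  have hls := hr.lsum_le hp hc a0
  have hR' := hR g sl k dig hr
  generalize (∑ l ∈ range p.b, cp l) = C at *
  obtain ⟨cr, hcr'⟩ : ∃ cr : ℕ → ℝ, ∀ t, p.xl Wc xs fl cp (a0 + t + 1) +
      1 / p.L * (p.xl Wc xs fl cp (a0 + t) - p.xl Wc xs fl cp (a0 + t + 1)) +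
      spk p.b p.s (fun l => p.wl Wc xs fl cp l (a0 + t) - p.wl Wc xs fl cp l (a0 + t + 1)) ct =
      cr t := ⟨_, fun _ => rfl⟩
  simp only [hcr'] at hcr hcred ⊢
  have hX := hX0 a0
  generalize p.xl Wc xs fl cp a0 = X at hg1 hg2 hls hX ⊢
  have hK : ((τ : ℝ) * (3 * p.b + 4) + 6 * p.b + p.Ks Lg * p.KR E) * ((g : ℝ) - 1) ≤
      (C + X) / p.et := by
    have h1 : 2 * ((τ : ℝ) * (3 * p.b + 4) + 6 * p.b + p.Ks Lg * p.KR E) * p.et ≤ p.P0 := by
      exact_mod_cast hn.P0_big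
    rw [le_div_iff₀ (by linarith)] at hg2 ⊢
    have h2 := mul_le_mul_of_nonneg_left h1 hk0
    linarith
  have hXL : 3 * (X / p.et) ≤ 1 / p.L * X := by
    rw [← mul_div_assoc, div_le_iff₀ (by linarith), one_div, mul_assoc, le_inv_mul_iff₀ hL]
    have := mul_le_mul_of_nonneg_left hn.et_big hX
    linarith
  have hun : 0 ≤ p.un τ := by unfold Par.un; positivity
  have hKR : 0 ≤ (p.Ks Lg : ℝ) * R := by positivity
  have hS : 0 ≤ ∑ t ∈ range n, cr t := sum_nonneg fun t _ => hcr t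
  have hC0 : 0 ≤ C / p.et := div_nonneg (hc0.trans hcC) (by linarith)
  have hX1 : 0 ≤ X / p.et := div_nonneg hX (by linarith)
  have hb : (0 : ℝ) ≤ p.b := Nat.cast_nonneg _
  rw [add_div] at hK
  rw [mul_div_assoc]
  have hnode : ∀ (y : ℕ → ℕ) (t : ℕ), (p.node Wc Wr y yr h a (t + 1) (xs 0) (xs p.b) : ℝ) ≤
      p.cand Wc y a (t + 1) (p.sd sl k) (p.se sl k) g + 3 * p.U * ((g : ℝ) - 1) := by
    intro y t
    rw [← hcast]
    exact_mod_cast hr.node_le hp h hc.a_pos (Nat.succ_pos t)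
  rcases hR' with ⟨t0, h1, h2⟩ | ⟨t', h1, μ, A, hb', hA⟩
  · refine ex_le fun β => (sum_le_card_nsmul _ _ (3 * ((g : ℝ) - 1)) fun t _ => ?_).trans ?_
    · refine exc_le hp (by positivity) ?_
      have a1 : (p.node Wc Wr (bv β) yr h a (a0 + t + 1) (xs 0) (xs p.b) : ℝ) ≤
          p.node Wc Wr (bv β) yr h a (t0 + 1) (xs 0) (xs p.b) := by
        exact_mod_cast (node_reg hp hc.reg h).anti _ _ le_rfl (by omega)
      have a2 : (p.cand Wc (bv β) a (t0 + 1) (p.sd sl k) (p.se sl k) g : ℝ) ≤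
          p.ug Wc a t0 (p.sd sl k) g p.b (p.se sl k) := by
        exact_mod_cast min_le_left _ _
      have a3 := hnode (bv β) t0
      linarith
    · rw [card_range, nsmul_eq_mul]
      have a1 := mul_le_mul_of_nonneg_right hτ hk0
      have a2 : 0 ≤ ((τ : ℝ) * (3 * p.b + 1) + 6 * p.b + p.Ks Lg * p.KR E) * ((g : ℝ) - 1) := by
        positivity
      linarith
  · obtain ⟨Rg, l1, l2⟩ := learn hp hn hc.reg hr hb' hnτ hT
    have key : ∀ β : Blk p.Bf Dg, ∑ t ∈ range n,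
        p.exc (p.node Wc Wr (bv β) yr h a (a0 + t + 1) (xs 0) (xs p.b)) C ≤
        1 / p.U * Rg β + (∑ t ∈ range n, cr t + τ * (3 * p.b + 4) * ((g : ℝ) - 1) + p.un τ) := by
      intro β
      obtain ⟨m, m1, m2, m3⟩ := f2_cut (fun t => p.U * (C + 4 * ((g : ℝ) - 1)) <
        p.node Wc Wr (bv β) yr h a (a0 + t + 1) (xs 0) (xs p.b)) (fun s t hst hq =>
          hq.trans_le (by exact_mod_cast (node_reg hp hc.reg h).anti _ _ le_rfl (by omega))) n
      have l3 := l1 β m m1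
      obtain ⟨v, hv⟩ : ∃ v : ℕ → ℕ, ∀ t, p.lsum Wc a (a0 + t) p.b
          (p.px Wc (bv β) a (a0 + t + 1) (p.sd sl k) (p.se sl k) g (a0 + 1) t' μ A) -
        p.lcb Wc (bv β) a (a0 + t + 1) g
          (p.px Wc (bv β) a (a0 + t + 1) (p.sd sl k) (p.se sl k) g (a0 + 1) t' μ A) = v t :=
        ⟨_, fun _ => rfl⟩
      simp only [hv] at l3
      have hρ : (0 : ℝ) ≤ p.r * (1 + 2 * p.k0 * p.b) := by positivity
      have b1 : ∀ t ∈ range n,
          p.U * p.exc (p.node Wc Wr (bv β) yr h a (a0 + t + 1) (xs 0) (xs p.b)) C ≤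
          (if t < m then (v t : ℝ) - p.lt Wc a (a0 + t + 1) g (p.rx g sl k dig) else 0) +
          (p.U * cr t + (p.U * ((3 * p.b + 4) * ((g : ℝ) - 1)) + p.r * (1 + 2 * p.k0 * p.b))) := by
        intro t ht
        have ht' := mem_range.1 ht
        have c0 := mul_nonneg hU.le hk0
        by_cases htm : t < m
        · rw [if_pos htm]
          have c1 := m2 t htm
          have c2 := hnode (bv β) (a0 + t)
          have c3 : p.cand Wc (bv β) a (a0 + t + 1) (p.sd sl k) (p.se sl k) g ≤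
              max (p.U * Nat.dist (p.sd sl k) (p.se sl k)) (v t) := by
            rw [← hv]
            exact cand_le hp (bv β) _ _ (by omega) (by omega) (by omega) hb'.1 hb'.2.1
          have c4 : (Nat.dist (p.sd sl k) (p.se sl k) : ℝ) ≤ c + ((g : ℝ) - 1) := by
            rw [← hcast]
            exact_mod_cast hr.mov_le hp hc
          have c5 := mul_le_mul_of_nonneg_left (c4.trans (add_le_add_left hcC _)) hU.le
          have c6 : (p.cand Wc (bv β) a (a0 + t + 1) (p.sd sl k) (p.se sl k) g : ℝ) ≤ v t := by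
            rcases le_max_iff.1 c3 with c7 | c7
            · have c8 : (p.cand Wc (bv β) a (a0 + t + 1) (p.sd sl k) (p.se sl k) g : ℝ) ≤
                  p.U * Nat.dist (p.sd sl k) (p.se sl k) := by exact_mod_cast c7
              linarith
            · exact_mod_cast c7
          have c9 := hcred t
          unfold Par.exc
          rw [max_eq_right (by rw [sub_nonneg, le_div_iff₀ hU]; linarith), mul_sub,
            mul_div_cancel₀ _ hU.ne']
          linarith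
        · rw [if_neg htm]
          have c1 := mul_le_mul_of_nonneg_left
            (exc_le hp (by positivity) (not_lt.1 (m3 t (not_lt.1 htm) ht'))) hU.le
          have c2 := mul_nonneg hU.le (hcr t)
          have c3 := mul_nonneg hb c0
          linarith
      have b2 := sum_le_sum b1
      rw [sum_add_distrib, sum_guard m1, sum_sub_distrib, sum_add_distrib, ← mul_sum, ← mul_sum,
        sum_const, card_range, nsmul_eq_mul] at b2
      have b3 := mul_le_mul_of_nonneg_right hτ (show 0 ≤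
        p.U * ((3 * p.b + 4) * ((g : ℝ) - 1)) + p.r * (1 + 2 * p.k0 * p.b) by positivity)
      refine le_of_mul_le_mul_left ?_ hU
      have b4 : (p.U : ℝ) * (1 / p.U * Rg β + (∑ t ∈ range n, cr t +
          τ * (3 * p.b + 4) * ((g : ℝ) - 1) + p.un τ)) = Rg β + (p.U * ∑ t ∈ range n, cr t +
          τ * (p.U * ((3 * p.b + 4) * ((g : ℝ) - 1)) + p.r * (1 + 2 * p.k0 * p.b))) := by
        unfold Par.un
        field_simp
        ring
      rw [b4]
      linarith
    refine (ex_mono key).trans ?_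
    rw [ex_add, ex_mul, Fintype.expect_const]
    have d1 : 1 / (p.U : ℝ) * 𝔼 β, Rg β ≤
        p.Ks Lg * (g * A) + 2 / p.et * (C + X + 3 * p.b * ((g : ℝ) - 1)) := by
      rw [one_div, inv_mul_le_iff₀ hU]
      have := mul_le_mul_of_nonneg_left hls (show 0 ≤ 2 / (p.et : ℝ) by positivity)
      linarith
    have d2 := mul_le_mul_of_nonneg_left hA (Nat.cast_nonneg (p.Ks Lg))
    have d3 : 2 / (p.et : ℝ) * (3 * p.b * ((g : ℝ) - 1)) ≤ 2 * (3 * p.b * ((g : ℝ) - 1)) :=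
      mul_le_mul_of_nonneg_right (div_le_self (by norm_num) het) (by positivity)
    have d4 : 2 / (p.et : ℝ) * (C + X + 3 * p.b * ((g : ℝ) - 1)) =
        2 * (C / p.et) + 2 * (X / p.et) + 2 / (p.et : ℝ) * (3 * p.b * ((g : ℝ) - 1)) := by ring
    linarith

end Vale.Agent.P315
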