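import Mathlib

/-! Bounded minima, maxima and minimisers of natural-number functions. -/

open Finset

namespace Vale.Agent.P315

/-- Fold of a binary operation over `f 0, …, f (n - 1)` starting from `x`. -/
def fold (o : ℕ → ℕ → ℕ) (x : ℕ) (f : ℕ → ℕ) : ℕ → ℕ
  | 0 => x
  | n + 1 => o (fold o x f n) (f n)

/-- Minimum of `f 0` and the `f i`, `i < n`. -/
def mn (n : ℕ) (f : ℕ → ℕ) : ℕ := fold min (f 0) f n

/-- Maximum of the `f i`, `i < n` (and `0`). -/
def mx (n : ℕ) (f : ℕ → ℕ) : ℕ := fold max 0 f n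

/-- The least minimiser of `f` below `n`. -/
def amn (n : ℕ) (f : ℕ → ℕ) : ℕ := mn n (fun i => f i * n + i) % n

theorem fold_add (x : ℕ) (f : ℕ → ℕ) (n : ℕ) :
    fold (· + ·) x f n = x + ∑ i ∈ range n, f i := by
  induction n with
  | zero => simp [fold]
  | succ n ih => rw [fold, ih, sum_range_succ, add_assoc]

theorem fold_congr {o : ℕ → ℕ → ℕ} {x n : ℕ} {f g : ℕ → ℕ} (h : ∀ i < n, f i = g i) :
    fold o x f n = fold o x g n := by
  induction n with
  | zero => rfl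
  | succ n ih => rw [fold, fold, ih fun i hi => h i (by omega), h n (by omega)]

theorem mn_le_zero (n : ℕ) (f : ℕ → ℕ) : mn n f ≤ f 0 := by
  unfold mn
  induction n with
  | zero => exact le_rfl
  | succ n ih => exact (min_le_left _ _).trans ih

theorem mn_le {n i : ℕ} (f : ℕ → ℕ) (hi : i < n) : mn n f ≤ f i := by
  unfold mn
  induction n with
  | zero => omega
  | succ n ih =>
    rcases Nat.lt_succ_iff_lt_or_eq.1 hi with h | rfl
    · exact (min_le_left _ _).trans (ih h)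
    · exact min_le_right _ _

theorem exists_mn (n : ℕ) (f : ℕ → ℕ) : ∃ i, (i < n ∨ i = 0) ∧ mn n f = f i := by
  unfold mn
  induction n with
  | zero => exact ⟨0, Or.inr rfl, rfl⟩
  | succ n ih =>
    obtain ⟨i, hi, e⟩ := ih
    rcases le_total (fold min (f 0) f n) (f n) with h | h
    · exact ⟨i, by omega, by rw [fold, min_eq_left h, e]⟩
    · exact ⟨n, by omega, by rw [fold, min_eq_right h]⟩

theorem exists_mn' {n : ℕ} (hn : 0 < n) (f : ℕ → ℕ) : ∃ i < n, mn n f = f i := by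
  obtain ⟨i, hi, e⟩ := exists_mn n f
  exact ⟨i, by omega, e⟩

theorem le_mn {n c : ℕ} {f : ℕ → ℕ} (h : ∀ i, i < n ∨ i = 0 → c ≤ f i) : c ≤ mn n f := by
  obtain ⟨i, hi, e⟩ := exists_mn n f
  exact e ▸ h i hi

theorem mn_congr {n : ℕ} {f g : ℕ → ℕ} (h : ∀ i, i < n ∨ i = 0 → f i = g i) : mn n f = mn n g := by
  unfold mn
  rw [h 0 (Or.inr rfl), fold_congr fun i hi => h i (Or.inl hi)]

theorem mn_le_add {n c : ℕ} {f g : ℕ → ℕ} (h : ∀ i, i < n ∨ i = 0 → f i ≤ g i + c) :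
    mn n f ≤ mn n g + c := by
  obtain ⟨i, hi, e⟩ := exists_mn n g
  rw [e]
  refine le_trans ?_ (h i hi)
  rcases hi with hi | rfl
  exacts [mn_le f hi, mn_le_zero n f]

theorem mn_mono {n : ℕ} {f g : ℕ → ℕ} (h : ∀ i, i < n ∨ i = 0 → f i ≤ g i) : mn n f ≤ mn n g :=
  mn_le_add (c := 0) h

theorem le_mx {n i : ℕ} (f : ℕ → ℕ) (hi : i < n) : f i ≤ mx n f := by
  unfold mx
  induction n with
  | zero => omega
  | succ n ih =>
    rcases Nat.lt_succ_iff_lt_or_eq.1 hi with h | rfl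
    · exact (ih h).trans (le_max_left _ _)
    · exact le_max_right _ _

theorem mx_le {n c : ℕ} {f : ℕ → ℕ} (h : ∀ i < n, f i ≤ c) : mx n f ≤ c := by
  unfold mx
  induction n with
  | zero => exact Nat.zero_le _
  | succ n ih => exact max_le (ih fun i hi => h i (by omega)) (h n (by omega))

theorem mx_congr {n : ℕ} {f g : ℕ → ℕ} (h : ∀ i < n, f i = g i) : mx n f = mx n g :=
  fold_congr h

theorem mx_le_add {n c : ℕ} {f g : ℕ → ℕ} (h : ∀ i < n, f i ≤ g i + c) : mx n f ≤ mx n g + c :=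
  mx_le fun i hi => (h i hi).trans (Nat.add_le_add_right (le_mx g hi) c)

theorem amn_lt {n : ℕ} (hn : 0 < n) (f : ℕ → ℕ) : amn n f < n := Nat.mod_lt _ hn

theorem amn_congr {n : ℕ} (hn : 0 < n) {f g : ℕ → ℕ} (h : ∀ i < n, f i = g i) :
    amn n f = amn n g := by
  unfold amn
  rw [mn_congr fun i hi => by rw [h i (by omega)]]

theorem amn_key {n : ℕ} (hn : 0 < n) (f : ℕ → ℕ) {i : ℕ} (hi : i < n) :
    f (amn n f) * n + amn n f ≤ f i * n + i := by
  obtain ⟨j, hj, e⟩ := exists_mn' hn fun i => f i * n + i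
  have h1 : amn n f = j := by
    rw [amn, e, Nat.mul_comm, Nat.mul_add_mod, Nat.mod_eq_of_lt hj]
  rw [h1, ← e]
  exact mn_le (fun i => f i * n + i) hi

theorem amn_le {n : ℕ} (f : ℕ → ℕ) {i : ℕ} (hi : i < n) : f (amn n f) ≤ f i := by
  have hn : 0 < n := by omega
  have h1 := amn_key hn f hi
  by_contra h
  have h2 : (f i + 1) * n ≤ f (amn n f) * n := Nat.mul_le_mul_right _ (by omega)
  rw [add_mul] at h2
  omega

theorem amn_eq_iff {n a : ℕ} (ha : a < n) (f : ℕ → ℕ) :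
    amn n f = a ↔ ∀ i < n, f a * n + a ≤ f i * n + i := by
  have hn : 0 < n := by omega
  refine ⟨fun h i hi => h ▸ amn_key hn f hi, fun h => ?_⟩
  have h1 := le_antisymm (amn_key hn f ha) (h _ (amn_lt hn f))
  have h2 := congrArg (· % n) h1
  simpa only [Nat.mul_comm _ n, Nat.mul_add_mod, Nat.mod_eq_of_lt ha,
    Nat.mod_eq_of_lt (amn_lt hn f)] using h2

theorem sum_guard {M : Type} [AddCommMonoid M] {n N : ℕ} (h : n ≤ N) (f : ℕ → M) :
    ∑ l ∈ range N, (if l < n then f l else 0) = ∑ l ∈ range n, f l := by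
  rw [← sum_filter]
  congr 1
  ext l
  simp only [mem_filter, mem_range]
  omega

end Vale.Agent.P315
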