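import Vale.Agent.P315.Fold
import Vale.Agent.P315.Prob

/-! Optimistic follow-the-perturbed-leader with truncated geometric noise. -/

open Finset
open scoped BigOperators

namespace Vale.Agent.P315

/-- Truncated geometric noise read from the digits `o + idx * cap + c`, `c < cap`. -/
def geo (o cap Q : ℕ) (z : ℕ → ℕ) (idx : ℕ) : ℕ :=
  mn (cap + 1) fun c => if c < cap ∧ z (o + idx * cap + c) % Q ≠ 0 then cap else c

/-- The expert played in round `t` (rounds are numbered from `0`). -/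
def pl (o cap Q N u0 : ℕ) (ls ph : ℕ → ℕ → ℕ) (z : ℕ → ℕ) (t : ℕ) : ℕ :=
  amn N fun idx => (∑ t' ∈ range t, ls t' idx) + (ls t idx + ph t idx) +
    u0 * (cap - geo o cap Q z idx)

namespace FtplAux

theorem geo_le (o cap Q : ℕ) (z : ℕ → ℕ) (i : ℕ) : geo o cap Q z i ≤ cap := by
  refine (mn_le _ (Nat.lt_succ_self cap)).trans ?_
  simp

theorem le_geo {o cap Q j : ℕ} (z : ℕ → ℕ) (i : ℕ) (hj : j ≤ cap) :
    j ≤ geo o cap Q z i ↔ ∀ c < j, z (o + i * cap + c) % Q ≠ 0 := by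
  constructor
  · intro h c hc h0
    have h1 := mn_le (n := cap + 1) (i := c)
      (fun c => if c < cap ∧ z (o + i * cap + c) % Q ≠ 0 then cap else c) (by omega)
    rw [if_neg (fun h => h.2 h0)] at h1
    have : geo o cap Q z i ≤ c := h1
    omega
  · intro h
    refine le_mn fun c hc => ?_
    split_ifs with h1
    · exact hj
    · by_contra h2
      exact h1 ⟨by omega, h c (by omega)⟩

theorem geo_congr {o cap Q : ℕ} {z z' : ℕ → ℕ} {i : ℕ}
    (h : ∀ c < cap, z (o + i * cap + c) = z' (o + i * cap + c)) :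
    geo o cap Q z i = geo o cap Q z' i := by
  refine mn_congr fun c _ => ?_
  by_cases hc : c < cap
  · rw [h c hc]
  · simp [hc]

theorem bv_update {Bk Dg : ℕ} (β : Blk Bk Dg) (p : Fin Bk) (b : Fin Dg) {k : ℕ} (h : k ≠ p) :
    bv (Function.update β p b) k = bv β k := by
  unfold bv
  split_ifs with hk
  · rw [Function.update_of_ne fun h' => h (congrArg Fin.val h')]
  · rfl

theorem blk_ne {o cap i c j j' : ℕ} (hi : i ≠ c) (hj : j < cap) (hj' : j' < cap) :
    o + i * cap + j' ≠ o + c * cap + j := by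
  intro h
  rcases Nat.lt_or_gt_of_ne hi with h1 | h1
  · have := Nat.mul_le_mul_right cap (Nat.succ_le_of_lt h1)
    rw [Nat.succ_mul] at this
    omega
  · have := Nat.mul_le_mul_right cap (Nat.succ_le_of_lt h1)
    rw [Nat.succ_mul] at this
    omega

theorem blk_lt {o cap N Bk c j : ℕ} (ho : o + N * cap ≤ Bk) (hc : c < N) (hj : j < cap) :
    o + c * cap + j < Bk := by
  have := Nat.mul_le_mul_right cap (Nat.succ_le_of_lt hc)
  rw [Nat.succ_mul] at this
  omega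

theorem ex_zero {Dg Q : ℕ} [NeZero Dg] (hQ : Q ∣ Dg) :
    𝔼 b : Fin Dg, ind ((b : ℕ) % Q = 0) = 1 / (Q : ℝ) := by
  obtain ⟨k, hk⟩ := hQ
  have hD : Dg ≠ 0 := NeZero.ne Dg
  have hQ0 : 0 < Q := Nat.pos_of_ne_zero (by rintro rfl; simp at hk; exact hD hk)
  have hk0 : k ≠ 0 := by rintro rfl; simp at hk; exact hD hk
  have h1 : ∑ b : Fin Dg, ind ((b : ℕ) % Q = 0) = (k : ℝ) := by
    rw [Fin.sum_univ_eq_sum_range (fun b => ind (b % Q = 0)) Dg]
    have h2 := Nat.count_modEq_card Dg hQ0 0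
    rw [Nat.count_eq_card_filter_range] at h2
    have h3 : Dg / Q = k := by rw [hk, Nat.mul_div_cancel_left _ hQ0]
    have h4 : Dg % Q = 0 := by rw [hk, Nat.mul_mod_right]
    rw [h3, h4] at h2
    simp only [Nat.zero_mod, lt_self_iff_false, if_false, add_zero] at h2
    rw [← h2, card_filter]
    push_cast
    refine sum_congr rfl fun b _ => ?_
    by_cases h : b % Q = 0
    · rw [ind_pos h, if_pos (by simpa [Nat.ModEq] using h)]
    · rw [ind_neg h, if_neg (by simpa [Nat.ModEq] using h)]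
  rw [Fintype.expect_eq_sum_div_card, h1, Fintype.card_fin, hk]
  have : (k : ℝ) ≠ 0 := Nat.cast_ne_zero.2 hk0
  push_cast
  field_simp

theorem ex_digit {Bk Dg Q : ℕ} [NeZero Dg] (hQ : Q ∣ Dg) (p : Fin Bk) (H : Blk Bk Dg → ℝ)
    (hH : ∀ β b, H (Function.update β p b) = H β) :
    𝔼 β, ind (bv β p % Q = 0) * H β = 1 / (Q : ℝ) * 𝔼 β, H β := by
  rw [ex_update p, ← ex_mul]
  refine expect_congr rfl fun β _ => ?_
  have : ∀ b : Fin Dg, ind (bv (Function.update β p b) p % Q = 0) * H (Function.update β p b) =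
      H β * ind ((b : ℕ) % Q = 0) := by
    intro b
    rw [hH, mul_comm]
    simp [bv]
  simp only [this]
  rw [ex_mul, ex_zero hQ, mul_comm]

theorem ind_and (q q' : Prop) : ind (q ∧ q') = ind q * ind q' := by
  by_cases h : q
  · rw [ind_pos h, one_mul]
    simp [h]
  · rw [ind_neg h, zero_mul, ind_neg fun h' => h h'.1]

theorem ind_congr {q q' : Prop} (h : q ↔ q') : ind q = ind q' := by rw [propext h]

theorem ind_not (q : Prop) : ind (¬ q) = 1 - ind q := by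
  by_cases h : q
  · rw [ind_pos h, ind_neg (not_not.2 h)]; ring
  · rw [ind_neg h, ind_pos h]; ring

section
variable {Bk Dg : ℕ} [NeZero Dg] {o cap Q N : ℕ}

omit [NeZero Dg] in
theorem le_geo_update {c j : ℕ} (hj : j < cap) (hp : o + c * cap + j < Bk) (β : Blk Bk Dg)
    (b : Fin Dg) : j ≤ geo o cap Q (bv (Function.update β ⟨_, hp⟩ b)) c ↔
      j ≤ geo o cap Q (bv β) c := by
  rw [le_geo _ _ hj.le, le_geo _ _ hj.le]
  refine forall_congr' fun k => forall_congr' fun hk => ?_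
  rw [bv_update _ _ _ (by simp only; omega)]

theorem pr_geo (ho : o + N * cap ≤ Bk) (hQ : Q ∣ Dg) {c : ℕ} (hc : c < N) {j : ℕ}
    (hj : j ≤ cap) :
    𝔼 β : Blk Bk Dg, ind (j ≤ geo o cap Q (bv β) c) = (1 - 1 / (Q : ℝ)) ^ j := by
  induction j with
  | zero => simp [ind]
  | succ j ih =>
    have hp := blk_lt ho hc (show j < cap by omega)
    have h1 := ex_digit hQ ⟨_, hp⟩ (fun β : Blk Bk Dg => ind (j ≤ geo o cap Q (bv β) c))
      fun β b => ind_congr (le_geo_update (by omega) hp β b)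
    have h2 : ∀ β : Blk Bk Dg, ind (j + 1 ≤ geo o cap Q (bv β) c) =
        ind (j ≤ geo o cap Q (bv β) c) +
          (-1) * (ind (bv β (o + c * cap + j) % Q = 0) * ind (j ≤ geo o cap Q (bv β) c)) := by
      intro β
      have h3 : j + 1 ≤ geo o cap Q (bv β) c ↔
          ¬ (bv β (o + c * cap + j) % Q = 0) ∧ j ≤ geo o cap Q (bv β) c := by
        rw [le_geo _ _ hj, le_geo _ _ (show j ≤ cap by omega)]
        constructor
        · exact fun h => ⟨h j (by omega), fun k hk => h k (by omega)⟩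
        · rintro ⟨h, h'⟩ k hk
          rcases Nat.lt_succ_iff_lt_or_eq.1 hk with hk | rfl
          exacts [h' k hk, h]
      rw [ind_congr h3, ind_and, ind_not]
      ring
    simp only [h2]
    rw [ex_add, ex_mul, h1, ih (by omega)]
    ring

theorem count_le {A : ℕ → Prop} (hm : ∀ j j', j ≤ j' → A j → A j') (κ g n : ℕ) :
    ∑ j ∈ range n, ind (j ≤ g ∧ A j ∧ ¬ (κ ≤ j ∧ A (j - κ))) ≤ κ * ind (A g) := by
  classical
  by_cases hg : A g
  · rw [ind_pos hg, mul_one]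
    have hex : ∃ j, A j := ⟨g, hg⟩
    have h1 : ∀ j ∈ range n, ind (j ≤ g ∧ A j ∧ ¬ (κ ≤ j ∧ A (j - κ))) ≤
        if j ∈ Ico (Nat.find hex) (Nat.find hex + κ) then 1 else 0 := by
      intro j _
      split_ifs with h
      · exact ind_le_one _
      · refine (ind_neg ?_).le
        rintro ⟨-, h2, h3⟩
        have h4 := Nat.find_min' hex h2
        rw [mem_Ico] at h
        exact h3 ⟨by omega, hm _ _ (by omega) (Nat.find_spec hex)⟩
    refine (sum_le_sum h1).trans ?_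
    rw [sum_ite_mem, sum_const, nsmul_eq_mul, mul_one]
    have := card_le_card (inter_subset_right (s₁ := range n)
      (s₂ := Ico (Nat.find hex) (Nat.find hex + κ)))
    rw [Nat.card_Ico, Nat.add_sub_cancel_left] at this
    exact_mod_cast this
  · rw [ind_neg hg, mul_zero]
    refine (sum_eq_zero fun j _ => ind_neg ?_).le
    exact fun h => hg (hm _ _ h.1 h.2.1)

theorem key (ho : o + N * cap ≤ Bk) (hQ : Q ∣ Dg) {c : ℕ} (hc : c < N)
    (A : Blk Bk Dg → ℕ → Prop) (hm : ∀ β j j', j ≤ j' → A β j → A β j')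
    (hA : ∀ β j (_ : j < cap) (hp : o + c * cap + j < Bk) b k,
      A (Function.update β ⟨_, hp⟩ b) k ↔ A β k) (κ : ℕ) :
    𝔼 β : Blk Bk Dg, ind (A β (geo o cap Q (bv β) c) ∧
      ¬ (κ ≤ geo o cap Q (bv β) c ∧ A β (geo o cap Q (bv β) c - κ))) ≤
      κ / Q * 𝔼 β : Blk Bk Dg, ind (A β (geo o cap Q (bv β) c)) + (1 - 1 / (Q : ℝ)) ^ cap := by
  set H : ℕ → Blk Bk Dg → ℝ := fun j β =>
    ind (j ≤ geo o cap Q (bv β) c ∧ A β j ∧ ¬ (κ ≤ j ∧ A β (j - κ))) with hH
  have h1 : ∀ β : Blk Bk Dg, ind (A β (geo o cap Q (bv β) c) ∧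
      ¬ (κ ≤ geo o cap Q (bv β) c ∧ A β (geo o cap Q (bv β) c - κ))) ≤
      ∑ j ∈ range cap, ind (bv β (o + c * cap + j) % Q = 0) * H j β +
        ind (cap ≤ geo o cap Q (bv β) c) := by
    intro β
    have hnn : ∀ j ∈ range cap, 0 ≤ ind (bv β (o + c * cap + j) % Q = 0) * H j β :=
      fun j _ => mul_nonneg (ind_nonneg _) (ind_nonneg _)
    by_cases hg : cap ≤ geo o cap Q (bv β) c
    · rw [ind_pos hg]
      linarith [sum_nonneg hnn, ind_le_one (A β (geo o cap Q (bv β) c) ∧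
        ¬ (κ ≤ geo o cap Q (bv β) c ∧ A β (geo o cap Q (bv β) c - κ)))]
    · rw [ind_neg hg, add_zero]
      refine le_trans ?_ (single_le_sum hnn (mem_range.2 (not_le.1 hg)))
      have h0 : bv β (o + c * cap + geo o cap Q (bv β) c) % Q = 0 := by
        by_contra h
        have h2 := (le_geo (o := o) (Q := Q) (bv β) c (not_le.1 hg).le).1 le_rfl
        have h3 := (le_geo (o := o) (Q := Q) (j := geo o cap Q (bv β) c + 1) (bv β) c
          (not_le.1 hg)).2 fun k hk => by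
            rcases Nat.lt_succ_iff_lt_or_eq.1 hk with hk | rfl
            exacts [h2 k hk, h]
        omega
      rw [ind_pos h0, one_mul]
      exact ind_mono fun h => ⟨le_rfl, h⟩
  refine (ex_mono h1).trans ?_
  rw [ex_add, ex_sum, pr_geo ho hQ hc le_rfl]
  refine add_le_add ?_ le_rfl
  have h2 : ∀ j ∈ range cap, 𝔼 β : Blk Bk Dg, ind (bv β (o + c * cap + j) % Q = 0) * H j β =
      1 / (Q : ℝ) * 𝔼 β, H j β := by
    intro j hj
    have hj := mem_range.1 hj
    have hp := blk_lt ho hc hj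
    refine ex_digit hQ ⟨_, hp⟩ (H j) fun β b => ind_congr ?_
    rw [le_geo_update hj hp, hA β j hj hp, hA β j hj hp]
  rw [sum_congr rfl h2, ← mul_sum, ← ex_sum, div_eq_mul_one_div (κ : ℝ), mul_comm (κ : ℝ),
    mul_assoc, ← ex_mul (κ : ℝ)]
  refine mul_le_mul_of_nonneg_left (ex_mono fun β => ?_) (by positivity)
  exact count_le (hm β) κ _ cap

end

/-- Cumulative loss plus noise. -/
def Lam (ls : ℕ → ℕ → ℕ) (ν : ℕ → ℕ) (t i : ℕ) : ℕ := (∑ t' ∈ range t, ls t' i) + ν i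

/-- The leader. -/
def M (N : ℕ) (ls : ℕ → ℕ → ℕ) (ν : ℕ → ℕ) (t : ℕ) : ℕ := amn N (Lam ls ν t)

/-- The optimistic leader. -/
def P (N : ℕ) (ls ph : ℕ → ℕ → ℕ) (ν : ℕ → ℕ) (t : ℕ) : ℕ :=
  amn N fun i => (∑ t' ∈ range t, ls t' i) + (ls t i + ph t i) + ν i

section
variable {N : ℕ} {ls ph : ℕ → ℕ → ℕ} {ν : ℕ → ℕ}

theorem Lam_succ (t i : ℕ) : Lam ls ν (t + 1) i = Lam ls ν t i + ls t i := by
  unfold Lam
  rw [sum_range_succ]
  ring

theorem step (hN : 0 < N) (t : ℕ) : Lam ls ν t (M N ls ν t) + ls t (M N ls ν (t + 1)) ≤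
    Lam ls ν (t + 1) (M N ls ν (t + 1)) := by
  rw [Lam_succ]
  exact Nat.add_le_add_right (amn_le _ (amn_lt hN _)) _

theorem det1 (hN : 0 < N) (n : ℕ) :
    ∑ t ∈ range n, ls t (M N ls ν (t + 1)) ≤ Lam ls ν n (M N ls ν n) := by
  induction n with
  | zero => simp
  | succ n ih =>
    rw [sum_range_succ]
    exact (Nat.add_le_add_right ih _).trans (step hN n)

theorem step2 (hN : 0 < N) (t : ℕ) : ph t (P N ls ph ν t) + ls t (M N ls ν (t + 1)) ≤
    ls t (M N ls ν t) + ph t (M N ls ν t) := by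
  have h1 := step (ls := ls) (ν := ν) hN t
  have h2 : Lam ls ν (t + 1) (M N ls ν (t + 1)) ≤ Lam ls ν (t + 1) (P N ls ph ν t) :=
    amn_le _ (amn_lt hN _)
  have h3 := amn_le (n := N) (fun i => (∑ t' ∈ range t, ls t' i) + (ls t i + ph t i) + ν i)
    (amn_lt hN (Lam ls ν t))
  rw [Lam_succ t (P N ls ph ν t)] at h2
  unfold Lam at h1 h2
  unfold P M Lam at *
  omega

theorem det2 {n σ a : ℕ} (ha : a < N)
    (hdec : ∀ t, t + 1 < n → ∀ i < N, ls (t + 1) i + ph (t + 1) i ≤ ls t i)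
    (hl : ∀ t < n, ∀ i < N, ∀ j < N, ls t i ≤ ls t j + σ)
    (hp : ∀ t < n, ∀ i < N, ∀ j < N, ph t i ≤ ph t j + σ) {k : ℕ} (hk : k < n) :
    ∑ t ∈ range (k + 1), ph t (P N ls ph ν t) + ls k (M N ls ν (k + 1)) ≤
      ls 0 a + ph 0 a + 2 * σ := by
  have hN : 0 < N := by omega
  induction k with
  | zero =>
    have h1 := step2 (ls := ls) (ph := ph) (ν := ν) hN 0
    have h2 := hl 0 hk (M N ls ν 0) (amn_lt hN _) a ha
    have h3 := hp 0 hk (M N ls ν 0) (amn_lt hN _) a ha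
    rw [zero_add, sum_range_one]
    rw [zero_add] at h1
    omega
  | succ k ih =>
    have h1 := step2 (ls := ls) (ph := ph) (ν := ν) hN (k + 1)
    have h2 := hdec k hk (M N ls ν (k + 1)) (amn_lt hN _)
    have h3 := ih (by omega)
    rw [sum_range_succ]
    omega

end

/-- The noise vector. -/
def nu (o cap Q u0 : ℕ) (z : ℕ → ℕ) (i : ℕ) : ℕ := u0 * (cap - geo o cap Q z i)

/-- Expert `c` would lead with noise level `j`. -/
def A (o cap Q N u0 : ℕ) (S : ℕ → ℕ) (c : ℕ) (z : ℕ → ℕ) (j : ℕ) : Prop :=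
  ∀ i < N, i ≠ c → (S c + u0 * (cap - j)) * N + c ≤ (S i + nu o cap Q u0 z i) * N + i

section
variable {Bk Dg : ℕ} [NeZero Dg] {o cap Q N u0 : ℕ} {ls ph : ℕ → ℕ → ℕ}

theorem A_mono {S : ℕ → ℕ} {c : ℕ} {z : ℕ → ℕ} {j j' : ℕ} (h : j ≤ j')
    (hA : A o cap Q N u0 S c z j) : A o cap Q N u0 S c z j' := by
  intro i hi hic
  refine le_trans ?_ (hA i hi hic)
  gcongr

theorem A_iff {c t : ℕ} (hc : c < N) (z : ℕ → ℕ) :
    M N ls (nu o cap Q u0 z) t = c ↔
      A o cap Q N u0 (fun i => ∑ t' ∈ range t, ls t' i) c z (geo o cap Q z c) := by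
  unfold M
  rw [amn_eq_iff hc]
  refine ⟨fun h i hi _ => h i hi, fun h i hi => ?_⟩
  by_cases hic : i = c
  · rw [hic]
  · exact h i hi hic

theorem A_shift {c t : ℕ} (hc : c < N) (hu : 0 < u0) (z : ℕ → ℕ)
    (h1 : ph t c / u0 + 1 ≤ geo o cap Q z c)
    (h2 : A o cap Q N u0 (fun i => ∑ t' ∈ range (t + 1), ls t' i) c z
      (geo o cap Q z c - (ph t c / u0 + 1))) : P N ls ph (nu o cap Q u0 z) t = c := by
  unfold P
  rw [amn_eq_iff hc]
  intro i hi
  by_cases hic : i = c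
  · rw [hic]
  have h3 := h2 i hi hic
  clear h2
  simp only [sum_range_succ] at h3
  have h4 := geo_le o cap Q z c
  have h5 : ph t c ≤ u0 * (ph t c / u0 + 1) := (Nat.lt_mul_div_succ _ hu).le
  generalize ph t c / u0 + 1 = κ at h1 h3 h5
  have h6 : cap - (geo o cap Q z c - κ) = cap - geo o cap Q z c + κ := by omega
  rw [h6, mul_add u0] at h3
  refine le_trans ?_ (h3.trans ?_)
  · refine Nat.add_le_add_right (Nat.mul_le_mul_right _ ?_) _
    unfold nu
    omega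
  · refine Nat.add_le_add_right (Nat.mul_le_mul_right _ ?_) _
    omega

omit [NeZero Dg] in
theorem A_update {S : ℕ → ℕ} {c j : ℕ} (β : Blk Bk Dg) (hj : j < cap)
    (hp : o + c * cap + j < Bk) (b : Fin Dg) (k : ℕ) :
    A o cap Q N u0 S c (bv (Function.update β ⟨_, hp⟩ b)) k ↔ A o cap Q N u0 S c (bv β) k := by
  refine forall_congr' fun i => forall_congr' fun _ => forall_congr' fun hic => ?_
  unfold nu
  rw [geo_congr (z' := bv β) fun j' hj' => bv_update _ _ _ (blk_ne hic hj hj')]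

theorem round (ho : o + N * cap ≤ Bk) (hQ : Q ∣ Dg) (hN : 0 < N) (hu : 0 < u0) (t : ℕ) :
    𝔼 β : Blk Bk Dg, ind (P N ls ph (nu o cap Q u0 (bv β)) t ≠
        M N ls (nu o cap Q u0 (bv β)) (t + 1)) ≤
      1 / (u0 * Q) * 𝔼 β : Blk Bk Dg, (ph t (M N ls (nu o cap Q u0 (bv β)) (t + 1)) : ℝ) +
        1 / Q + N * (1 - 1 / (Q : ℝ)) ^ cap := by
  set S : ℕ → ℕ := fun i => ∑ t' ∈ range (t + 1), ls t' i with hS
  have h1 : ∀ β : Blk Bk Dg, ind (P N ls ph (nu o cap Q u0 (bv β)) t ≠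
      M N ls (nu o cap Q u0 (bv β)) (t + 1)) ≤ ∑ c ∈ range N,
        ind (A o cap Q N u0 S c (bv β) (geo o cap Q (bv β) c) ∧
          ¬ (ph t c / u0 + 1 ≤ geo o cap Q (bv β) c ∧
            A o cap Q N u0 S c (bv β) (geo o cap Q (bv β) c - (ph t c / u0 + 1)))) := by
    intro β
    have hc : M N ls (nu o cap Q u0 (bv β)) (t + 1) < N := amn_lt hN _
    refine le_trans (ind_mono fun h => ?_)
      (single_le_sum (fun c _ => ind_nonneg _) (mem_range.2 hc))
    exact ⟨(A_iff hc _).1 rfl, fun h' => h (A_shift hc hu _ h'.1 h'.2)⟩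
  refine (ex_mono h1).trans ?_
  rw [ex_sum]
  have h2 := fun c (hc : c ∈ range N) => key ho hQ (mem_range.1 hc)
    (fun β : Blk Bk Dg => A o cap Q N u0 S c (bv β)) (fun β j j' h hA => A_mono h hA)
    (fun β j hj hp b k => A_update β hj hp b k) (ph t c / u0 + 1)
  refine (sum_le_sum h2).trans ?_
  rw [sum_add_distrib, sum_const, card_range, nsmul_eq_mul]
  refine add_le_add ?_ le_rfl
  simp only [← ex_mul]
  rw [← ex_sum, ← Fintype.expect_const (ι := Blk Bk Dg) (1 / (Q : ℝ)), ← ex_add]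
  refine ex_mono fun β => ?_
  have hc : M N ls (nu o cap Q u0 (bv β)) (t + 1) < N := amn_lt hN _
  rw [sum_eq_single_of_mem _ (mem_range.2 hc)]
  · rw [ind_pos ((A_iff hc _).1 rfl), mul_one]
    have h3 := Nat.cast_div_le (α := ℝ) (m := ph t (M N ls (nu o cap Q u0 (bv β)) (t + 1)))
      (n := u0)
    push_cast
    rw [add_div]
    refine add_le_add ?_ le_rfl
    rw [one_div_mul_eq_div, ← div_div]
    gcongr
  · intro c hc' hne
    rw [ind_neg fun h => hne ((A_iff (mem_range.1 hc') _).2 h).symm, mul_zero]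

end

end FtplAux

theorem ftpl {Bk Dg : ℕ} [NeZero Dg] {o cap Q N u0 n σ et : ℕ} (ls ph : ℕ → ℕ → ℕ)
    (ho : o + N * cap ≤ Bk) (hQ : Q ∣ Dg) (hQn : 4 * n ≤ Q) (het : 1 ≤ et)
    (hu : 2 * σ * et ≤ u0 * Q) (hcap : (n : ℝ) * N * (1 - 1 / Q) ^ cap ≤ 1)
    (hdec : ∀ t, t + 1 < n → ∀ i < N, ls (t + 1) i + ph (t + 1) i ≤ ls t i)
    (hl : ∀ t < n, ∀ i < N, ∀ j < N, ls t i ≤ ls t j + σ)
    (hp : ∀ t < n, ∀ i < N, ∀ j < N, ph t i ≤ ph t j + σ) {a : ℕ} (ha : a < N) :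
    ∃ Rg : Blk Bk Dg → ℝ,
      (∀ β, ∀ n' ≤ n, ∑ t ∈ range n', (ls t (pl o cap Q N u0 ls ph (bv β) t) : ℝ) ≤
        ∑ t ∈ range n', (ls t a : ℝ) + Rg β) ∧
      𝔼 β, Rg β ≤ u0 * cap + ((ls 0 a : ℝ) + ph 0 a) / et + 5 * σ := by
  have hN : 0 < N := by omega
  set I : ℕ → Blk Bk Dg → ℝ := fun t β =>
    ind (FtplAux.P N ls ph (FtplAux.nu o cap Q u0 (bv β)) t ≠
      FtplAux.M N ls (FtplAux.nu o cap Q u0 (bv β)) (t + 1)) with hI
  have hI0 : ∀ t β, 0 ≤ I t β := fun t β => ind_nonneg _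
  have hcmp : ∀ (f : ℕ → ℕ), (∀ i < N, ∀ j < N, f i ≤ f j + σ) → ∀ t β,
      (f (FtplAux.P N ls ph (FtplAux.nu o cap Q u0 (bv β)) t) : ℝ) ≤
        f (FtplAux.M N ls (FtplAux.nu o cap Q u0 (bv β)) (t + 1)) + σ * I t β ∧
      (f (FtplAux.M N ls (FtplAux.nu o cap Q u0 (bv β)) (t + 1)) : ℝ) ≤
        f (FtplAux.P N ls ph (FtplAux.nu o cap Q u0 (bv β)) t) + σ * I t β := by
    intro f hf t β
    by_cases h : FtplAux.P N ls ph (FtplAux.nu o cap Q u0 (bv β)) t =
        FtplAux.M N ls (FtplAux.nu o cap Q u0 (bv β)) (t + 1)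
    · rw [h]
      have := mul_nonneg (Nat.cast_nonneg (α := ℝ) σ) (hI0 t β)
      constructor <;> linarith
    · have h1 : I t β = 1 := ind_pos h
      rw [h1, mul_one]
      exact ⟨by exact_mod_cast hf _ (amn_lt hN _) _ (amn_lt hN _),
        by exact_mod_cast hf _ (amn_lt hN _) _ (amn_lt hN _)⟩
  refine ⟨fun β => u0 * cap + σ * ∑ t ∈ range n, I t β, fun β n' hn' => ?_, ?_⟩
  · have h1 := FtplAux.det1 (ls := ls) (ν := FtplAux.nu o cap Q u0 (bv β)) hN n'
    have h2 : FtplAux.Lam ls (FtplAux.nu o cap Q u0 (bv β)) n'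
        (FtplAux.M N ls (FtplAux.nu o cap Q u0 (bv β)) n') ≤
        ∑ t ∈ range n', ls t a + u0 * cap :=
      (amn_le _ ha).trans (Nat.add_le_add_left (Nat.mul_le_mul_left _ (Nat.sub_le _ _)) _)
    have h3 : ∑ t ∈ range n', (ls t (FtplAux.M N ls (FtplAux.nu o cap Q u0 (bv β)) (t + 1)) : ℝ)
        ≤ ∑ t ∈ range n', (ls t a : ℝ) + u0 * cap := by exact_mod_cast h1.trans h2
    have h4 := sum_le_sum fun t (ht : t ∈ range n') =>
      (hcmp (ls t) (hl t (lt_of_lt_of_le (mem_range.1 ht) hn')) t β).1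
    rw [sum_add_distrib, ← mul_sum] at h4
    have h5 : ∑ t ∈ range n', I t β ≤ ∑ t ∈ range n, I t β :=
      sum_le_sum_of_subset_of_nonneg (range_mono hn') fun t _ _ => hI0 t β
    have h6 := mul_le_mul_of_nonneg_left h5 (Nat.cast_nonneg (α := ℝ) σ)
    exact h4.trans (by linarith)
  rw [ex_add, Fintype.expect_const, ex_mul, add_assoc]
  refine add_le_add le_rfl ?_
  set p : ℝ := 𝔼 β, ∑ t ∈ range n, I t β with hpdef
  set m : ℝ := (ls 0 a : ℝ) + ph 0 a with hm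
  have hm0 : 0 ≤ m := by positivity
  have het' : (1 : ℝ) ≤ et := by exact_mod_cast het
  rcases Nat.eq_zero_or_pos σ with rfl | hσ
  · simp only [Nat.cast_zero, zero_mul, mul_zero, add_zero]
    positivity
  have huQ : 0 < u0 * Q := lt_of_lt_of_le (by positivity) hu
  have hu0 : 0 < u0 := Nat.pos_of_mul_pos_right huQ
  have hQ0 : (0 : ℝ) < Q := by exact_mod_cast Nat.pos_of_mul_pos_left huQ
  have hp0 : 0 ≤ p := ex_nonneg fun β => sum_nonneg fun t _ => hI0 t β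
  have h1 : ∀ β : Blk Bk Dg, ∑ t ∈ range n,
      (ph t (FtplAux.M N ls (FtplAux.nu o cap Q u0 (bv β)) (t + 1)) : ℝ) ≤
      (m + 2 * σ) + σ * ∑ t ∈ range n, I t β := by
    intro β
    have h4 := sum_le_sum fun t (ht : t ∈ range n) =>
      (hcmp (ph t) (hp t (mem_range.1 ht)) t β).2
    rw [sum_add_distrib, ← mul_sum] at h4
    refine h4.trans (add_le_add ?_ le_rfl)
    rcases n with _ | k
    · simp only [range_zero, sum_empty]
      positivity
    · have h5 := (Nat.le_add_right _ _).trans (FtplAux.det2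
        (ν := FtplAux.nu o cap Q u0 (bv β)) ha hdec hl hp (Nat.lt_succ_self k))
      rw [hm]
      exact_mod_cast h5
  have h2 := ex_mono h1
  rw [ex_add, Fintype.expect_const, ex_mul, ex_sum, ← hpdef] at h2
  have h3 := sum_le_sum fun t (_ : t ∈ range n) =>
    FtplAux.round (ls := ls) (ph := ph) ho hQ hN hu0 t
  rw [← ex_sum, sum_add_distrib, sum_add_distrib, ← mul_sum, sum_const, sum_const, card_range,
    nsmul_eq_mul, nsmul_eq_mul, ← mul_assoc] at h3
  have h4 : (n : ℝ) * (1 / Q) ≤ 1 / 4 := by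
    rw [mul_one_div, div_le_div_iff₀ hQ0 (by norm_num)]
    have : (4 * n : ℝ) ≤ Q := by exact_mod_cast hQn
    linarith
  have h5 : (σ : ℝ) * (1 / (u0 * Q)) ≤ 1 / (2 * et) := by
    rw [mul_one_div, div_le_div_iff₀ (by exact_mod_cast huQ) (by positivity)]
    have : (2 * σ * et : ℝ) ≤ u0 * Q := by exact_mod_cast hu
    linarith
  have h6 : p ≤ 1 / (u0 * Q) * (m + 2 * σ + σ * p) + 1 / 4 + 1 :=
    le_trans h3 (add_le_add (add_le_add (mul_le_mul_of_nonneg_left h2 (by positivity)) h4) hcap)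
  have hσ' : (0 : ℝ) < σ := by exact_mod_cast hσ
  have h7 := mul_le_mul_of_nonneg_left h6 hσ'.le
  have h8 := mul_le_mul_of_nonneg_right h5 (show 0 ≤ m + 2 * σ + σ * p by positivity)
  have h9 : 1 / (2 * (et : ℝ)) * (2 * σ + σ * p) ≤ 1 / 2 * (2 * σ + σ * p) := by
    gcongr
    linarith
  have h10 : 1 / (2 * (et : ℝ)) * m = 1 / 2 * (m / et) := by field_simp
  nlinarith

end Vale.Agent.P315
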