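import Vale.Agent.P315.AnD
import Vale.Agent.P315.DetA

/-! Rounding the comparator to a grid, and the greedy inequality. -/

open Finset

namespace Vale.Agent.P315

variable {p : Par} {E a c g sl k : ℕ} {Wc Wr : Ev} {xs fl cls dig y yr : ℕ → ℕ} {ct cp : ℕ → ℝ}

theorem exc_nonneg (W : ℕ) (c : ℝ) : 0 ≤ p.exc W c := le_max_left _ _

theorem le_exc (hp : p.Ok) (W : ℕ) (c : ℝ) : (W : ℝ) ≤ p.U * (c + p.exc W c) := by
  have hU : (0 : ℝ) < p.U := by exact_mod_cast hp.U_pos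
  have h1 : (W : ℝ) / p.U - c ≤ p.exc W c := le_max_right _ _
  rw [sub_le_iff_le_add, div_le_iff₀ hU] at h1
  linarith

theorem exc_le (hp : p.Ok) {W : ℕ} {c x : ℝ} (hx : 0 ≤ x) (h : (W : ℝ) ≤ p.U * (c + x)) :
    p.exc W c ≤ x := by
  have hU : (0 : ℝ) < p.U := by exact_mod_cast hp.U_pos
  refine max_le hx ?_
  rw [sub_le_iff_le_add, div_le_iff₀ hU]
  linarith

theorem wl_anti (hW : ∀ l, Reg p.U (Wc l)) (l : ℕ) : Antitone (p.wl Wc xs fl cp l) := by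
  intro t t' ht
  refine max_le_max le_rfl (sub_le_sub_right (div_le_div_of_nonneg_right ?_ (Nat.cast_nonneg _)) _)
  exact_mod_cast (hW l).anti _ _ le_rfl ht

/-- A rounding at the least scale `g` with `x ≤ g * P0`. -/
theorem exists_rnd (hp : p.Ok) (hc : p.NodeCtx E Wc a xs c fl cls ct cp) {x : ℝ} (h1 : (c : ℝ) ≤ x)
    (h2 : x ≤ p.P * p.P0) :
    ∃ g sl k dig, p.Rnd xs c g sl k dig ∧ x ≤ g * p.P0 ∧ (g : ℝ) - 1 ≤ 2 * x / p.P0 := by
  classical
  have hP : p.P = 2 ^ (p.wb * p.H) := by rw [hp.P_eq, hp.b_pow, ← pow_mul]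
  have hex : ∃ i : ℕ, x ≤ ((2 ^ i : ℕ) : ℝ) * p.P0 := ⟨p.wb * p.H, hP ▸ h2⟩
  have hgi : Nat.find hex ≤ p.wb * p.H := Nat.find_min' hex (hP ▸ h2)
  have hx := Nat.find_spec hex
  have hP0 : (0 : ℝ) < p.P0 := by exact_mod_cast hp.P0_pos
  have hx0 : 0 ≤ x := (Nat.cast_nonneg c).trans h1
  have hlast : (((2 ^ Nat.find hex : ℕ) : ℝ)) - 1 ≤ 2 * x / p.P0 := by
    rcases Nat.eq_zero_or_pos (Nat.find hex) with h0 | h0
    · rw [h0]
      have : 0 ≤ 2 * x / p.P0 := by positivity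
      simpa using this
    · obtain ⟨i, hi⟩ : ∃ i, Nat.find hex = i + 1 := ⟨Nat.find hex - 1, by omega⟩
      have h3 := not_le.1 (Nat.find_min hex (m := i) (by omega))
      rw [hi, le_div_iff₀ hP0, pow_succ]
      push_cast at h3 ⊢
      nlinarith
  set gi := Nat.find hex
  set g := 2 ^ gi with hg
  have hg0 : 0 < g := Nat.two_pow_pos _
  have hcg : c ≤ g * p.P0 := by exact_mod_cast h1.trans hx
  set k := (xs 0 - (p.O - p.Dh)) / g with hk
  set d := p.O - p.Dh + g * k with hd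
  have hO := hp.O_ge
  have h0 := hc.xs0
  have hk1 : g * k ≤ xs 0 - (p.O - p.Dh) := Nat.mul_div_le _ _
  have hk2 : xs 0 - (p.O - p.Dh) < g * k + g := Nat.lt_mul_div_succ _ hg0
  have hk3 : k ≤ xs 0 - (p.O - p.Dh) := Nat.div_le_self _ _
  have hd1 : d ≤ xs 0 := by unfold Nat.dist at h0; omega
  have hd2 : xs 0 < d + g := by unfold Nat.dist at h0; omega
  set dig : ℕ → ℕ := fun j => (xs j + g * p.P0 - d) / g with hdig
  have hl : ∀ j, g * dig j ≤ xs j + g * p.P0 - d := fun j => Nat.mul_div_le _ _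
  have hh : ∀ j, xs j + g * p.P0 - d < g * dig j + g := fun j => Nat.lt_mul_div_succ _ hg0
  have hle : ∀ j ≤ p.b, dig j ≤ 2 * p.P0 := by
    intro j hj
    have h3 := hc.xs_near j hj
    have h4 : xs j + g * p.P0 - d < (2 * p.P0 + 1) * g := by
      have : (2 * p.P0 + 1) * g = 2 * (g * p.P0) + g := by ring
      unfold Nat.dist at h3; omega
    have := (Nat.div_lt_iff_lt_mul hg0).2 h4
    simp only [hdig]
    omega
  obtain ⟨sl, hs1, hs2, hs3, hs4⟩ := hp.slot hgi (hle p.b le_rfl)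
  have hsd : p.sd sl k = d := by rw [Par.sd, hs3]
  refine ⟨g, sl, k, dig, ⟨hs1, hs2, ?_, hs3, hcg, hle, ?_, hs4, fun j hj => ?_, fun j hj => ?_⟩,
    hx, hlast⟩
  · unfold Nat.dist at h0; omega
  · simp only [hdig]
    rw [show xs 0 + g * p.P0 - d = (xs 0 - d) + g * p.P0 by omega, Nat.add_mul_div_left _ _ hg0,
      Nat.div_eq_of_lt (by omega), zero_add]
  · have h3 := hc.xs_near j hj
    have h4 := hl j
    rw [hsd, Par.gp]
    unfold Nat.dist at h3; omega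
  · have h3 := hc.xs_near j hj
    have h4 := hh j
    rw [hsd, Par.gp]
    unfold Nat.dist at h3; omega

theorem Par.Rnd.g_pos (hp : p.Ok) (hr : p.Rnd xs c g sl k dig) : 1 ≤ g := by
  exact hr.sg_eq ▸ (hp.sg_le hr.sl_lt).1

theorem Par.Rnd.d_ge (hp : p.Ok) (hr : p.Rnd xs c g sl k dig) : g * p.P0 ≤ p.sd sl k := by
  have h1 := Nat.mul_le_mul_right p.P0 (hr.sg_eq ▸ (hp.sg_le hr.sl_lt).2)
  have h2 := hp.O_ge
  unfold Par.sd
  omega

theorem Par.Rnd.rx_eq (hp : p.Ok) (hr : p.Rnd xs c g sl k dig) {j : ℕ} (hj : j ≤ p.b) :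
    p.rx g sl k dig j = p.gp (p.sd sl k) g (dig j) := by
  unfold Par.rx Par.pt
  split_ifs with h0 h1
  · rw [h0, hr.dig0, Par.gp, Nat.add_sub_cancel]
  · obtain rfl : j = p.b := by omega
    rw [Par.se, hr.sg_eq, hr.sm_eq]
  · rfl

theorem Par.Rnd.child_le (hp : p.Ok) (hr : p.Rnd xs c g sl k dig) (hW : ∀ l, Reg p.U (Wc l))
    {l : ℕ} (hl : l < p.b) (a t : ℕ) :
    Wc l a t (p.rx g sl k dig l) (p.rx g sl k dig (l + 1)) ≤
      Wc l a t (xs l) (xs (l + 1)) + 3 * p.U * (g - 1) := by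
  refine ((hW l).lip a t _ _ (xs l) (xs (l + 1))).trans (Nat.add_le_add_left ?_ _)
  rw [hr.rx_eq hp hl.le, hr.rx_eq hp (show l + 1 ≤ p.b from hl), mul_comm 3, mul_assoc]
  refine Nat.mul_le_mul_left _ ?_
  have h1 := hr.lo l hl.le
  have h2 := hr.hi l hl.le
  have h3 := hr.lo (l + 1) hl
  have h4 := hr.hi (l + 1) hl
  unfold Nat.dist
  omega

theorem Par.Rnd.node_le (hp : p.Ok) (hr : p.Rnd xs c g sl k dig) (h : ℕ) {t : ℕ} (ha : 1 ≤ a)
    (ht : 1 ≤ t) : p.node Wc Wr y yr h a t (xs 0) (xs p.b) ≤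
      p.cand Wc y a t (p.sd sl k) (p.se sl k) g + 3 * p.U * (g - 1) := by
  refine (node_le_newv h ha le_rfl le_rfl hr.sl_lt hr.k_le _ _).trans ?_
  have hs := hr.sl_pos
  rw [Par.newv, if_neg (by omega), if_neg (by omega), hr.sg_eq, hr.sm_eq, mul_comm 3, mul_assoc]
  refine Nat.add_le_add_left (Nat.mul_le_mul_left _ ?_) _
  have h1 := hr.lo 0 (Nat.zero_le _)
  have h2 := hr.hi 0 (Nat.zero_le _)
  have h3 := hr.lo p.b le_rfl
  have h4 := hr.hi p.b le_rfl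
  have h5 := hr.d_ge hp
  rw [hr.dig0] at h1 h2
  unfold Par.gp at h1 h2 h3 h4
  unfold Nat.dist
  omega

theorem Par.Rnd.mov_le (hp : p.Ok) (hc : p.NodeCtx E Wc a xs c fl cls ct cp)
    (hr : p.Rnd xs c g sl k dig) : Nat.dist (p.sd sl k) (p.se sl k) ≤ c + (g - 1) := by
  have h1 := hr.lo 0 (Nat.zero_le _)
  have h2 := hr.hi 0 (Nat.zero_le _)
  have h3 := hr.lo p.b le_rfl
  have h4 := hr.hi p.b le_rfl
  have h5 := hc.xs_near p.b le_rfl
  rw [hr.dig0, Par.gp, Nat.add_sub_cancel] at h1 h2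
  rw [Par.se, hr.sg_eq, hr.sm_eq]
  unfold Nat.dist at h5 ⊢
  omega

/-- The rounded partition costs at most the budgets, the excesses and the rounding. -/
theorem Par.Rnd.lsum_le (hp : p.Ok) (hc : p.NodeCtx E Wc a xs c fl cls ct cp)
    (hr : p.Rnd xs c g sl k dig) (t : ℕ) :
    (p.lsum Wc a t p.b (p.rx g sl k dig) : ℝ) ≤
      p.U * ((∑ l ∈ range p.b, cp l) + p.xl Wc xs fl cp t + 3 * p.b * (g - 1)) := by
  have hg := hr.g_pos hp
  have key : ∀ l ∈ range p.b, ((if l < p.b then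
      Wc l a t (p.rx g sl k dig l) (p.rx g sl k dig (l + 1)) else 0 : ℕ) : ℝ) ≤
      p.U * (cp l + p.wl Wc xs fl cp l t + 3 * (g - 1)) := by
    intro l hl
    have hl' := mem_range.1 hl
    rw [if_pos hl']
    have h1 := hr.child_le hp hc.reg hl' a t
    have h2 : Wc l a t (xs l) (xs (l + 1)) ≤ Wc l (fl l) t (xs l) (xs (l + 1)) :=
      (hc.reg l).anti _ _ (by rw [hc.fl_eq l hl']; omega) le_rfl
    have h3 := le_exc hp (Wc l (fl l) t (xs l) (xs (l + 1))) (cp l)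
    have h4 : ((Wc l a t (p.rx g sl k dig l) (p.rx g sl k dig (l + 1)) : ℕ) : ℝ) ≤
        (Wc l (fl l) t (xs l) (xs (l + 1)) + 3 * p.U * (g - 1) : ℕ) := by
      exact_mod_cast h1.trans (Nat.add_le_add_right h2 _)
    push_cast [Nat.cast_sub hg] at h4
    unfold Par.wl
    linarith
  rw [Par.lsum, Nat.cast_sum]
  refine (sum_le_sum key).trans (le_of_eq ?_)
  rw [← mul_sum, sum_add_distrib, sum_add_distrib, sum_const, card_range, nsmul_eq_mul, Par.xl]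
  ring

theorem Par.Rnd.ug_le (hp : p.Ok) (hr : p.Rnd xs c g sl k dig) (t : ℕ) :
    p.ug Wc a t (p.sd sl k) g p.b (p.se sl k) ≤ p.lsum Wc a t p.b (p.rx g sl k dig) := by
  obtain ⟨idx, h1, h2⟩ := hp.exists_idx dig fun j hj => hr.dig_le j hj.le
  refine (mn_le _ h1).trans (le_of_eq ?_)
  congr 1
  funext j
  unfold Par.rx Par.pt
  split_ifs with h0 h3
  · rfl
  · rfl
  · rw [h2 j (by omega)]

/-- The greedy inequality. -/
theorem f1_node (hp : p.Ok) (hc : p.NodeCtx E Wc a xs c fl cls ct cp) (h t : ℕ) :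
    p.exc (p.node Wc Wr y yr h a (t + 1) (xs 0) (xs p.b)) (∑ l ∈ range p.b, cp l) ≤
      p.xl Wc xs fl cp t + (6 * p.b + 6) * c / p.P0 := by
  have hP0 : (0 : ℝ) < p.P0 := by exact_mod_cast hp.P0_pos
  have hU : (0 : ℝ) < p.U := by exact_mod_cast hp.U_pos
  have hcP : c ≤ p.P * p.P0 :=
    (hc.c_le.trans hp.Dh_le).trans (Nat.le_mul_of_pos_right _ hp.P0_pos)
  obtain ⟨g, sl, k, dig, hr, -, hg⟩ := exists_rnd hp hc (x := c) le_rfl (by exact_mod_cast hcP)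
  have hxl : 0 ≤ p.xl Wc xs fl cp t := sum_nonneg fun l _ => exc_nonneg _ _
  refine exc_le hp (add_nonneg hxl (by positivity)) ?_
  have h1 := hr.node_le (Wc := Wc) (Wr := Wr) (y := y) (yr := yr) hp h hc.a_pos
    (show 1 ≤ t + 1 by omega)
  have h2 : p.cand Wc y a (t + 1) (p.sd sl k) (p.se sl k) g ≤
      p.ug Wc a t (p.sd sl k) g p.b (p.se sl k) := min_le_left _ _
  have h3 := hr.ug_le (Wc := Wc) (a := a) hp t
  have h4 := hr.lsum_le hp hc t
  have h5 : ((p.node Wc Wr y yr h a (t + 1) (xs 0) (xs p.b) : ℕ) : ℝ) ≤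
      (p.lsum Wc a t p.b (p.rx g sl k dig) + 3 * p.U * (g - 1) : ℕ) := by
    exact_mod_cast h1.trans (Nat.add_le_add_right (h2.trans h3) _)
  push_cast [Nat.cast_sub (hr.g_pos hp)] at h5
  have h6 : (3 * (p.b : ℝ) + 3) * ((g : ℝ) - 1) ≤ (6 * p.b + 6) * c / p.P0 := by
    refine (mul_le_mul_of_nonneg_left hg (by positivity)).trans (le_of_eq ?_)
    ring
  have h7 := mul_le_mul_of_nonneg_left h6 hU.le
  linarith

/-- The constant centre. -/
theorem radius_zero (hp : p.Ok) (hc : p.NodeCtx E Wc a xs c fl cls ct cp) (a0 : ℕ) {KR : ℝ}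
    (hK : 1 ≤ KR) : p.Radius Wc a xs c cp a0 c KR := by
  intro g sl k dig hr
  have hg := hr.g_pos hp
  refine Or.inr ⟨0, Nat.zero_le _, 0, min (2 * p.P0) ((c + (g - 1)) / g),
    ⟨Nat.zero_le _, min_le_left _ _, fun j hj _ => ?_⟩, ?_⟩
  · rw [Par.cz, if_pos rfl]
    have h0 := hr.dig_le j hj.le
    refine le_min (by unfold Nat.dist; omega) ?_
    rw [Nat.le_div_iff_mul_le hg, mul_comm, ← Nat.dist_mul_left]
    have h1 := hr.lo 0 (Nat.zero_le _)
    have h2 := hr.hi 0 (Nat.zero_le _)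
    have h3 := hr.lo j hj.le
    have h4 := hr.hi j hj.le
    have h5 := hc.xs_near j hj.le
    have h6 := hr.d_ge hp
    rw [hr.dig0] at h1 h2
    unfold Par.gp at h1 h2 h3 h4
    unfold Nat.dist at h5 ⊢
    omega
  · have h1 : g * min (2 * p.P0) ((c + (g - 1)) / g) ≤ c + (g - 1) :=
      (Nat.mul_le_mul_left _ (min_le_right _ _)).trans (Nat.mul_div_le _ _)
    have h2 : ((g * min (2 * p.P0) ((c + (g - 1)) / g) : ℕ) : ℝ) ≤ (c + (g - 1) : ℕ) := by
      exact_mod_cast h1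
    rw [Nat.cast_mul, Nat.cast_add, Nat.cast_sub hg, Nat.cast_one] at h2
    have h3 : (0 : ℝ) ≤ (g : ℝ) - 1 := by
      have : (1 : ℝ) ≤ g := by exact_mod_cast hg
      linarith
    nlinarith

end Vale.Agent.P315
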