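import Vale.Agent.P315.LcbGap
import Vale.Agent.P315.Round
import Vale.Agent.P315.Ftpl

/-! The regret of one learner. -/

open Finset
open scoped BigOperators

namespace Vale.Agent.P315

variable {p : Par} {E τ Tc Lg Dg κ a c g sl k : ℕ} [NeZero Dg] {Wc : Ev} {xs dig : ℕ → ℕ}

theorem cand_le (hp : p.Ok) (z : ℕ → ℕ) {t a0 t' μ A : ℕ} (d e : ℕ) (ha0 : a0 < p.T1)
    (ht' : t' < p.T1) (htt : t' ≤ t) (hμ : μ ≤ 2 * p.P0) (hA : A ≤ 2 * p.P0) :
    p.cand Wc z a t d e g ≤ max (p.U * Nat.dist d e)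
      (p.lsum Wc a (t - 1) p.b (p.px Wc z a t d e g a0 t' μ A) -
        p.lcb Wc z a t g (p.px Wc z a t d e g a0 t' μ A)) := by
  have h1 : μ < p.np1 := by rw [hp.np1_eq]; omega
  have h2 : A < p.np1 := by rw [hp.np1_eq]; omega
  refine (min_le_right _ _).trans ((mn_le _ ha0).trans ((mn_le _ ht').trans
    ((mn_le _ h1).trans ((mn_le _ h2).trans ?_))))
  rw [min_eq_left htt]
  exact le_rfl

theorem learn_lt (hp : p.Ok) (hW : ∀ l, Reg p.U (Wc l)) (t : ℕ) (x : ℕ → ℕ) :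
    p.lt Wc a (t + 1) g x + p.phi Wc a (t + 1) g x = p.lsum Wc a t p.b x := by
  have := phi_le (a := a) (g := g) hp hW (Nat.le_add_left 1 t) x
  unfold Par.lt
  rw [Nat.add_sub_cancel] at this ⊢
  omega

theorem learn_dec (hp : p.Ok) (hW : ∀ l, Reg p.U (Wc l)) (t : ℕ) (x : ℕ → ℕ) :
    p.lsum Wc a (t + 1) p.b x ≤ p.lt Wc a (t + 1) g x := by
  have := phi_le (a := a) (g := g) hp hW (Nat.le_add_left 1 t) x
  unfold Par.lt
  omega

theorem learn_anti (hW : ∀ l, Reg p.U (Wc l)) {t t' : ℕ} (h : t ≤ t') (x : ℕ → ℕ) :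
    p.lsum Wc a t' p.b x ≤ p.lsum Wc a t p.b x := by
  refine sum_le_sum fun l _ => ?_
  split_ifs
  · exact (hW l).anti _ _ le_rfl h
  · exact le_rfl

theorem learn_play (hp : p.Ok) (hW : ∀ l, Reg p.U (Wc l)) (z : ℕ → ℕ) (X : ℕ → ℕ → ℕ)
    {a0 s A : ℕ} (hs : a0 + s < p.T1) :
    p.play Wc z a (a0 + s + 1) g A (a0 + 1) X =
      pl (p.r * p.b) (p.cap1 - 1) p.Q p.N (p.u0 g A) (fun s i => p.lt Wc a (a0 + s + 1) g (X i))
        (fun s i => p.phi Wc a (a0 + s + 1) g (X i)) z s := by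
  unfold Par.play pl
  refine congrArg (amn p.N) (funext fun i => ?_)
  have e1 : p.nz z i = geo (p.r * p.b) (p.cap1 - 1) p.Q z i := by
    unfold Par.nz geo
    rw [Nat.sub_add_cancel hp.cap1_pos]
  have e2 : (range p.T1).filter (fun t' => a0 + 1 ≤ t' ∧ t' < a0 + s + 1) =
      Ico (a0 + 1) (a0 + s + 1) := by
    ext j
    rw [mem_filter, mem_range, mem_Ico]
    omega
  rw [e1, learn_lt hp hW, Nat.add_sub_cancel, ← sum_filter, e2, sum_Ico_eq_sum_range,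
    show a0 + s + 1 - (a0 + 1) = s by omega]
  refine congrArg (· + _) (congrArg (· + _) (sum_congr rfl fun j _ => ?_))
  rw [show a0 + 1 + j = a0 + j + 1 by omega]

theorem learn_idx (hp : p.Ok) (hr : p.Rnd xs c g sl k dig) {t' μ A : ℕ}
    (hb : p.InBox Wc a g sl k dig t' μ A) :
    ∃ i < p.N, p.xp Wc a (p.sd sl k) (p.se sl k) g t' μ A i = p.rx g sl k dig := by
  obtain ⟨i, hi, h⟩ := hp.exists_idx dig fun j hj => hr.dig_le j hj.le
  refine ⟨i, hi, funext fun j => ?_⟩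
  unfold Par.xp Par.rx Par.pt
  split_ifs with h1 h2
  · rfl
  · rfl
  · have h3 := hb.2.2 j (by omega) (by omega)
    unfold Par.xd
    rw [h j (by omega)]
    unfold Nat.dist at h3
    exact congrArg _ (by omega)

theorem learn (hp : p.Ok) (hn : p.Num E τ Tc Lg Dg κ) (hW : ∀ l, Reg p.U (Wc l))
    (hr : p.Rnd xs c g sl k dig) {a0 n t' μ A : ℕ} (hb : p.InBox Wc a g sl k dig t' μ A)
    (hnτ : n ≤ τ) (hT : a0 + n < p.T1) :
    ∃ Rg : Blk p.Bf Dg → ℝ, (∀ β, ∀ n' ≤ n, ∑ t ∈ range n',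
      ((p.lsum Wc a (a0 + t) p.b
          (p.px Wc (bv β) a (a0 + t + 1) (p.sd sl k) (p.se sl k) g (a0 + 1) t' μ A) -
        p.lcb Wc (bv β) a (a0 + t + 1) g
          (p.px Wc (bv β) a (a0 + t + 1) (p.sd sl k) (p.se sl k) g (a0 + 1) t' μ A) : ℕ) : ℝ) ≤
      ∑ t ∈ range n', (p.lt Wc a (a0 + t + 1) g (p.rx g sl k dig) : ℝ) + Rg β) ∧
      𝔼 β, Rg β ≤ p.Ks Lg * (g * A) * p.U + 2 / p.et * p.lsum Wc a a0 p.b (p.rx g sl k dig) := by
  obtain ⟨i₀, hi₀, hx⟩ := learn_idx hp hr hb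
  have hinv : ∀ t, Inv 0 (p.r * p.b) fun β : Blk p.Bf Dg =>
      p.px Wc (bv β) a t (p.sd sl k) (p.se sl k) g (a0 + 1) t' μ A := fun t =>
    px_inv _ _ _ _ _ _
  have hd := xp_dist (p := p) (Wc := Wc) (a := a) (g := g) (p.sd sl k) (p.se sl k) t' μ A
  unfold Par.px at hinv ⊢
  rw [← hx]
  generalize p.xp Wc a (p.sd sl k) (p.se sl k) g t' μ A = X at hinv hd ⊢
  obtain ⟨σ, hσ⟩ : ∃ σ, σ = 24 * p.r * p.b * g * A * p.U := ⟨_, rfl⟩
  have hu : p.u0 g A * p.Q = 2 * σ * p.et := by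
    unfold Par.u0
    rw [mul_assoc _ (p.U / p.Q), Nat.div_mul_cancel hp.Q_dvd, hσ]
    ring
  have hQ1 : (1 : ℝ) ≤ p.Q := Nat.one_le_cast.mpr hp.Q_pos
  have hnτ' : (n : ℝ) ≤ τ := Nat.cast_le.mpr hnτ
  have hcap : (n : ℝ) * p.N * (1 - 1 / p.Q) ^ (p.cap1 - 1) ≤ 1 := by
    refine le_trans ?_ hn.cap_big
    have : (0 : ℝ) ≤ 1 - 1 / p.Q := by
      rw [sub_nonneg, div_le_one (by linarith)]
      exact hQ1
    exact mul_le_mul_of_nonneg_right (mul_le_mul_of_nonneg_right hnτ' (Nat.cast_nonneg _))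
      (pow_nonneg this _)
  obtain ⟨R, hR, hE⟩ := ftpl (Bk := p.Bf) (Dg := Dg) (o := p.r * p.b) (cap := p.cap1 - 1)
    (Q := p.Q) (N := p.N) (u0 := p.u0 g A) (n := n) (σ := σ) (et := p.et)
    (fun s i => p.lt Wc a (a0 + s + 1) g (X i)) (fun s i => p.phi Wc a (a0 + s + 1) g (X i))
    le_rfl hn.Q_dvd (by have := hn.Q_ge; omega) hn.et_pos hu.ge hcap
    (fun s _ i _ => by
      rw [learn_lt hp hW]
      exact learn_dec hp hW _ _)
    (fun s _ i _ j _ => (lt_spread hp hW (hd i j)).trans (le_of_eq (by rw [hσ]; ring)))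
    (fun s _ i _ j _ => (phi_spread hW (hd i j)).trans (Nat.add_le_add_left (by
      rw [hσ]
      nlinarith [Nat.zero_le (p.r * p.b * g * A * p.U)]) _)) hi₀
  refine ⟨fun β => R β + ∑ s ∈ range n,
    ((p.phi Wc a (a0 + s + 1) g (X (p.play Wc (bv β) a (a0 + s + 1) g A (a0 + 1) X)) -
      p.lcb Wc (bv β) a (a0 + s + 1) g (X (p.play Wc (bv β) a (a0 + s + 1) g A (a0 + 1) X)) : ℕ) :
        ℝ), fun β n' hn' => ?_, ?_⟩
  · have h1 := hR β n' hn'
    have h2 := sum_le_sum_of_subset_of_nonneg (range_subset_range.mpr hn')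
      (f := fun s => ((p.phi Wc a (a0 + s + 1) g
        (X (p.play Wc (bv β) a (a0 + s + 1) g A (a0 + 1) X)) - p.lcb Wc (bv β) a (a0 + s + 1) g
          (X (p.play Wc (bv β) a (a0 + s + 1) g A (a0 + 1) X)) : ℕ) : ℝ))
      fun _ _ _ => Nat.cast_nonneg _
    refine le_trans ?_ ((add_le_add h1 h2).trans (add_assoc _ _ _).le)
    rw [← sum_add_distrib]
    refine sum_le_sum fun s hs => ?_
    rw [← learn_play hp hW (bv β) X (by have := mem_range.mp hs; omega), ← Nat.cast_add,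
      Nat.cast_le, ← learn_lt (g := g) hp hW]
    omega
  · have hD : p.b ∣ Dg := by
      refine Dvd.dvd.trans ?_ hn.b0_dvd
      rw [hp.b0_eq]
      exact dvd_pow_self _ (by have := hp.r0_pos; omega)
    have h1 : ∀ s ∈ range n, 𝔼 β : Blk p.Bf Dg, ((p.phi Wc a (a0 + s + 1) g
        (X (p.play Wc (bv β) a (a0 + s + 1) g A (a0 + 1) X)) - p.lcb Wc (bv β) a (a0 + s + 1) g
          (X (p.play Wc (bv β) a (a0 + s + 1) g A (a0 + 1) X)) : ℕ) : ℝ) ≤
        p.r * Real.exp (-(p.k0 / p.gb / 2 : ℝ)) * (p.lsum Wc a a0 p.b (X i₀) + σ) := by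
      intro s _
      refine lcb_gap hp hW (Nat.le_add_left _ _) (Nat.le_add_right _ _) hD (hinv _) fun β => ?_
      rw [← Nat.cast_add, Nat.cast_le]
      refine (learn_anti hW (by omega : a0 ≤ a0 + s + 1 - 1) _).trans
        ((lsum_spread hW (hd _ i₀)).trans (Nat.add_le_add_left ?_ _))
      have := hp.r_pos
      rw [hσ]
      nlinarith [Nat.zero_le (p.b * g * A * p.U)]
    have h2 := sum_le_card_nsmul _ _ _ h1
    rw [card_range, nsmul_eq_mul] at h2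
    rw [ex_add, ex_sum]
    have h3 : (p.lt Wc a (a0 + 0 + 1) g (X i₀) : ℝ) + p.phi Wc a (a0 + 0 + 1) g (X i₀) =
        p.lsum Wc a a0 p.b (X i₀) := by
      rw [← Nat.cast_add]
      exact congrArg _ (learn_lt hp hW (a0 + 0) _)
    have h4 : (p.u0 g A : ℝ) * (p.cap1 - 1 : ℕ) = 2 * σ * p.et * Lg := by
      rw [hn.cap_eq, ← Nat.cast_mul, ← mul_assoc, hu]
      push_cast
      ring
    have h5 : (p.Ks Lg : ℝ) * (g * A) * p.U = σ * (2 * p.et * Lg + 6) := by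
      rw [hσ]
      unfold Par.Ks
      push_cast
      ring
    beta_reduce at hE
    rw [h3, h4] at hE
    have het : (1 : ℝ) ≤ p.et := Nat.one_le_cast.mpr hn.et_pos
    have hσ0 : (0 : ℝ) ≤ σ := Nat.cast_nonneg _
    have hL0 : (0 : ℝ) ≤ p.lsum Wc a a0 p.b (X i₀) := Nat.cast_nonneg _
    have h6 : (n : ℝ) * (p.r * Real.exp (-(p.k0 / p.gb / 2 : ℝ))) ≤ 1 / p.et := by
      refine le_trans ?_ hn.fail_le
      rw [mul_assoc]
      exact mul_le_mul_of_nonneg_right hnτ' (by positivity)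
    have h7 := mul_le_mul_of_nonneg_right h6 (add_nonneg hL0 hσ0)
    have h8 : 1 / (p.et : ℝ) * σ ≤ σ :=
      mul_le_of_le_one_left hσ0 ((div_le_one (by linarith)).mpr het)
    have h9 : (p.lsum Wc a a0 p.b (X i₀) : ℝ) / p.et = 1 / p.et * p.lsum Wc a a0 p.b (X i₀) := by
      ring
    have h10 : 2 / (p.et : ℝ) = 2 * (1 / p.et) := by ring
    rw [h5, h10]
    linarith

end Vale.Agent.P315
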