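import Vale.Agent.P315.Defs

/-! A quantitative program logic for the machine. -/

namespace Vale.Agent.P315

/-- Registers and memory. -/
abbrev St : Type := (ℕ → ℕ) × Mem

variable {w : ℕ}

/-- `Ok w R t c x`: all runs from `c` halt within `t` steps, and one can attach to each final state
`s` a value `y` with `R s y` so that the expected value is at most `x`. -/
inductive Ok (w : ℕ) (R : St → ℝ → Prop) : ℕ → Config → ℝ → Prop
  | done {t : ℕ} {s : St} {x y : ℝ} : R s y → y ≤ x → Ok w R t ([], s) x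
  | next {t : ℕ} {p : Stmt} {k : List Stmt} {s : St} {x x0 x1 : ℝ} :
      Ok w R t (step w false (p :: k, s)) x0 →
      Ok w R t (step w true (p :: k, s)) x1 → (x0 + x1) / 2 ≤ x →
      Ok w R (t + 1) (p :: k, s) x

theorem Ok.up {R : St → ℝ → Prop} {t : ℕ} {c : Config} {x x' : ℝ}
    (h : Ok w R t c x) (hx : x ≤ x') : Ok w R t c x' := by
  cases h with
  | done h1 h2 => exact Ok.done h1 (h2.trans hx)
  | next h1 h2 h3 => exact Ok.next h1 h2 (h3.trans hx)

theorem Ok.time {R : St → ℝ → Prop} {t : ℕ} {c : Config} {x : ℝ}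
    (h : Ok w R t c x) : ∀ {t' : ℕ}, t ≤ t' → Ok w R t' c x := by
  induction h with
  | done h1 h2 => intro t' _; exact Ok.done h1 h2
  | next _ _ h3 ih1 ih2 =>
    intro t' ht
    obtain ⟨t'', rfl⟩ : ∃ t'', t' = t'' + 1 := ⟨t' - 1, by omega⟩
    exact Ok.next (ih1 (by omega)) (ih2 (by omega)) h3

theorem Ok.mono {R R' : St → ℝ → Prop} {t : ℕ} {c : Config} {x : ℝ}
    (h : Ok w R t c x) (hR : ∀ m y, R m y → ∃ y' ≤ y, R' m y') : Ok w R' t c x := by
  induction h with
  | done h1 h2 =>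
    obtain ⟨y', hy, h⟩ := hR _ _ h1
    exact Ok.done h (hy.trans h2)
  | next _ _ h3 ih1 ih2 => exact Ok.next ih1 ih2 h3

theorem step_append (coin : Bool) (p : Stmt) (k k' : List Stmt) (s : St) :
    step w coin (p :: (k ++ k'), s) =
      ((step w coin (p :: k, s)).1 ++ k', (step w coin (p :: k, s)).2) := by
  obtain ⟨g, m⟩ := s
  cases p <;> simp only [step] <;> try rfl
  all_goals (split_ifs <;> rfl)

theorem Ok.bind {R : St → ℝ → Prop} {t₁ t₂ : ℕ} {c : Config} {k' : List Stmt} {x : ℝ}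
    (h : Ok w (fun s y => Ok w R t₂ (k', s) y) t₁ c x) :
    Ok w R (t₁ + t₂) (c.1 ++ k', c.2) x := by
  induction h with
  | done h1 h2 => exact (h1.up h2).time (by omega)
  | @next t p k s x x0 x1 _ _ h3 ih1 ih2 =>
    have e : t + 1 + t₂ = (t + t₂) + 1 := by omega
    rw [e]
    refine Ok.next (x0 := x0) (x1 := x1) ?_ ?_ h3
    · exact (step_append false p k k' s) ▸ ih1
    · exact (step_append true p k k' s) ▸ ih2

/-- Weakest precondition form for a single statement. -/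
def W (w : ℕ) (p : Stmt) (t : ℕ) (R : St → ℝ → Prop) (s : St) (x : ℝ) : Prop :=
  Ok w R t ([p], s) x

theorem W.up {p : Stmt} {t : ℕ} {R : St → ℝ → Prop} {s : St} {x x' : ℝ}
    (h : W w p t R s x) (hx : x ≤ x') : W w p t R s x' := Ok.up h hx

theorem W.time {p : Stmt} {t t' : ℕ} {R : St → ℝ → Prop} {s : St} {x : ℝ}
    (h : W w p t R s x) (ht : t ≤ t') : W w p t' R s x := Ok.time h ht

theorem W.mono {p : Stmt} {t : ℕ} {R R' : St → ℝ → Prop} {s : St} {x : ℝ}
    (h : W w p t R s x) (hR : ∀ m y, R m y → R' m y) : W w p t R' s x :=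
  Ok.mono h fun m y h => ⟨y, le_rfl, hR m y h⟩

theorem W.mono' {p : Stmt} {t : ℕ} {R R' : St → ℝ → Prop} {s : St} {x : ℝ}
    (h : W w p t R s x) (hR : ∀ m y, R m y → ∃ y' ≤ y, R' m y') : W w p t R' s x :=
  Ok.mono h hR

theorem W.const {r c : ℕ} {R : St → ℝ → Prop} {g : ℕ → ℕ} {m : Mem} {x : ℝ}
    (h : R (Function.update g r (c % 2 ^ w), m) x) : W w (.const r c) 1 R (g, m) x :=
  Ok.next (x0 := x) (x1 := x) (Ok.done h le_rfl) (Ok.done h le_rfl) (by linarith)

theorem W.op {o : Op} {r a b : ℕ} {R : St → ℝ → Prop} {g : ℕ → ℕ} {m : Mem} {x : ℝ}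
    (h : R (Function.update g r (o.app (g a) (g b) % 2 ^ w), m) x) :
    W w (.op o r a b) 1 R (g, m) x :=
  Ok.next (x0 := x) (x1 := x) (Ok.done h le_rfl) (Ok.done h le_rfl) (by linarith)

theorem W.load {r a i : ℕ} {R : St → ℝ → Prop} {g : ℕ → ℕ} {m : Mem} {x : ℝ}
    (h : R (Function.update g r (m a (g i)), m) x) : W w (.load r a i) 1 R (g, m) x :=
  Ok.next (x0 := x) (x1 := x) (Ok.done h le_rfl) (Ok.done h le_rfl) (by linarith)

theorem W.store {a i v : ℕ} {R : St → ℝ → Prop} {g : ℕ → ℕ} {m : Mem} {x : ℝ}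
    (h : R (g, m.write a (g i) (g v)) x) : W w (.store a i v) 1 R (g, m) x :=
  Ok.next (x0 := x) (x1 := x) (Ok.done h le_rfl) (Ok.done h le_rfl) (by linarith)

theorem W.flip {r : ℕ} {R : St → ℝ → Prop} {g : ℕ → ℕ} {m : Mem} {x x0 x1 : ℝ}
    (h0 : R (Function.update g r 0, m) x0) (h1 : R (Function.update g r 1, m) x1)
    (hx : (x0 + x1) / 2 ≤ x) : W w (.flip r) 1 R (g, m) x :=
  Ok.next (x0 := x0) (x1 := x1) (Ok.done h0 le_rfl) (Ok.done h1 le_rfl) hx

theorem W.seq {p q : Stmt} {t₁ t₂ : ℕ} {R : St → ℝ → Prop} {s : St} {x : ℝ}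
    (h : W w p t₁ (W w q t₂ R) s x) : W w (.seq p q) (t₁ + t₂ + 1) R s x := by
  have := Ok.bind (k' := [q]) (R := R) (t₂ := t₂) h
  exact Ok.next (x0 := x) (x1 := x) this this (by linarith)

theorem W.ite_pos {r : ℕ} {p q : Stmt} {t : ℕ} {R : St → ℝ → Prop} {s : St} {x : ℝ}
    (hc : s.1 r ≠ 0) (h : W w p t R s x) : W w (.ite r p q) (t + 1) R s x := by
  obtain ⟨g, m⟩ := s
  refine Ok.next (x0 := x) (x1 := x) ?_ ?_ (by linarith) <;>
    simp only [step, show g r ≠ 0 from hc, if_false] <;> exact h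

theorem W.ite_neg {r : ℕ} {p q : Stmt} {t : ℕ} {R : St → ℝ → Prop} {s : St} {x : ℝ}
    (hc : s.1 r = 0) (h : W w q t R s x) : W w (.ite r p q) (t + 1) R s x := by
  obtain ⟨g, m⟩ := s
  refine Ok.next (x0 := x) (x1 := x) ?_ ?_ (by linarith) <;>
    simp only [step, show g r = 0 from hc, if_true] <;> exact h

/-- The loop rule with a potential: `I j` is the invariant when at most `j` more rounds are run,
and round number `j + 1` from the end takes at most `t j` steps. -/
theorem W.loop {r : ℕ} {p : Stmt} {R : St → ℝ → Prop} (t : ℕ → ℕ) (I : ℕ → St → ℝ → Prop)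
    (hstop : ∀ j s x, I j s x → s.1 r = 0 → R s x)
    (hzero : ∀ s x, I 0 s x → s.1 r = 0)
    (hstep : ∀ j s x, I (j + 1) s x → s.1 r ≠ 0 → W w p (t j) (I j) s x) :
    ∀ (N : ℕ) (s : St) (x : ℝ), I N s x →
      W w (.loop r p) (∑ j ∈ Finset.range N, (t j + 1) + 1) R s x := by
  have stop : ∀ j s x, I j s x → s.1 r = 0 → W w (.loop r p) 1 R s x := by
    rintro j ⟨g, m⟩ x h hc
    refine Ok.next (x0 := x) (x1 := x) ?_ ?_ (by linarith) <;>
      simp only [step, show g r = 0 from hc, if_true] <;>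
      exact Ok.done (hstop j _ x h hc) le_rfl
  intro N
  induction N with
  | zero => intro s x h; simpa using stop 0 s x h (hzero s x h)
  | succ N ih =>
    rintro ⟨g, m⟩ x h
    by_cases hc : g r = 0
    · exact (stop _ _ x h hc).time (by omega)
    · have h1 : W w p (t N) (W w (.loop r p) (∑ j ∈ Finset.range N, (t j + 1) + 1) R) (g, m) x :=
        (hstep N _ x h hc).mono fun m y hy => ih m y hy
      have h2 := Ok.bind (k' := [.loop r p]) (R := R) h1
      have e : ∑ j ∈ Finset.range (N + 1), (t j + 1) + 1 =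
          (t N + (∑ j ∈ Finset.range N, (t j + 1) + 1)) + 1 := by
        rw [Finset.sum_range_succ]; ring
      rw [e]
      refine Ok.next (x0 := x) (x1 := x) ?_ ?_ (by linarith) <;>
        simp only [step, hc, if_false] <;> exact h2

/-- Deterministic triples. -/
def D (w : ℕ) (p : Stmt) (t : ℕ) (s : St) (Q : St → Prop) : Prop :=
  ∀ x : ℝ, W w p t (fun s' y => Q s' ∧ y = x) s x

theorem D.toW {p : Stmt} {t : ℕ} {s : St} {Q : St → Prop} (h : D w p t s Q)
    {R : St → ℝ → Prop} {x : ℝ} (hR : ∀ s', Q s' → R s' x) : W w p t R s x :=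
  (h x).mono fun m' _ h' => h'.2 ▸ hR m' h'.1

theorem D.mono {p : Stmt} {t : ℕ} {s : St} {Q Q' : St → Prop} (h : D w p t s Q)
    (hQ : ∀ s', Q s' → Q' s') : D w p t s Q' :=
  fun x => (h x).mono fun m' _ h' => ⟨hQ m' h'.1, h'.2⟩

theorem D.time {p : Stmt} {t t' : ℕ} {s : St} {Q : St → Prop} (h : D w p t s Q)
    (ht : t ≤ t') : D w p t' s Q := fun x => (h x).time ht

theorem D.const {r c : ℕ} {g : ℕ → ℕ} {m : Mem} {Q : St → Prop}
    (h : Q (Function.update g r (c % 2 ^ w), m)) : D w (.const r c) 1 (g, m) Q :=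
  fun _ => W.const ⟨h, rfl⟩

theorem D.op {o : Op} {r a b : ℕ} {g : ℕ → ℕ} {m : Mem} {Q : St → Prop}
    (h : Q (Function.update g r (o.app (g a) (g b) % 2 ^ w), m)) : D w (.op o r a b) 1 (g, m) Q :=
  fun _ => W.op ⟨h, rfl⟩

theorem D.load {r a i : ℕ} {g : ℕ → ℕ} {m : Mem} {Q : St → Prop}
    (h : Q (Function.update g r (m a (g i)), m)) : D w (.load r a i) 1 (g, m) Q :=
  fun _ => W.load ⟨h, rfl⟩

theorem D.store {a i v : ℕ} {g : ℕ → ℕ} {m : Mem} {Q : St → Prop}
    (h : Q (g, m.write a (g i) (g v))) : D w (.store a i v) 1 (g, m) Q :=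
  fun _ => W.store ⟨h, rfl⟩

theorem D.seq {p q : Stmt} {t₁ t₂ : ℕ} {s : St} {Q : St → Prop}
    (h : D w p t₁ s fun s' => D w q t₂ s' Q) : D w (.seq p q) (t₁ + t₂ + 1) s Q :=
  fun x => W.seq (h.toW fun _ h' => h' x)

theorem D.ite_pos {r : ℕ} {p q : Stmt} {t : ℕ} {s : St} {Q : St → Prop}
    (hc : s.1 r ≠ 0) (h : D w p t s Q) : D w (.ite r p q) (t + 1) s Q :=
  fun x => W.ite_pos hc (h x)

theorem D.ite_neg {r : ℕ} {p q : Stmt} {t : ℕ} {s : St} {Q : St → Prop}
    (hc : s.1 r = 0) (h : D w q t s Q) : D w (.ite r p q) (t + 1) s Q :=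
  fun x => W.ite_neg hc (h x)

theorem D.loop {r : ℕ} {p : Stmt} {Q : St → Prop} (t : ℕ → ℕ) (I : ℕ → St → Prop)
    (hstop : ∀ j s, I j s → s.1 r = 0 → Q s) (hzero : ∀ s, I 0 s → s.1 r = 0)
    (hstep : ∀ j s, I (j + 1) s → s.1 r ≠ 0 → D w p (t j) s (I j)) (N : ℕ) (s : St)
    (h : I N s) : D w (.loop r p) (∑ j ∈ Finset.range N, (t j + 1) + 1) s Q :=
  fun x => W.loop t (fun j m y => I j m ∧ y = x) (fun j m _ h hc => ⟨hstop j m h.1 hc, h.2⟩)
    (fun m _ h => hzero m h.1) (fun j m _ h hc => h.2 ▸ hstep j m h.1 hc x) N s x ⟨h, rfl⟩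

open Classical in
/-- Adequacy of the logic. -/
theorem adequate {good : St → Prop} {T : ℕ} {c : Config} {x : ℝ}
    (h : Ok w (fun s y => (if good s then 0 else 1) ≤ y) T c x) :
    (∀ ω : Fin T → Bool, ((List.ofFn ω).foldl (fun c coin => step w coin c) c).1 = []) ∧
    (∑ ω : Fin T → Bool,
      (if good ((List.ofFn ω).foldl (fun c coin => step w coin c) c).2 then (0 : ℝ) else 1))
        ≤ x * 2 ^ T := by
  induction h with
  | @done t m x y h1 h2 =>
    have hfix : ∀ l : List Bool,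
        l.foldl (fun c coin => step w coin c) (([] : List Stmt), m) = ([], m) := by
      intro l
      induction l with
      | nil => rfl
      | cons b l ih => simpa [step] using ih
    refine ⟨fun ω => by rw [hfix], ?_⟩
    simp only [hfix, Finset.sum_const, Finset.card_univ, Fintype.card_pi, Fintype.card_bool,
      Finset.prod_const, Fintype.card_fin, nsmul_eq_mul]
    push_cast
    have : (0 : ℝ) < 2 ^ t := by positivity
    nlinarith
  | @next t s k m x x0 x1 _ _ h3 ih1 ih2 =>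
    constructor
    · intro ω
      rw [List.ofFn_succ, List.foldl_cons]
      cases hω : ω 0
      · exact ih1.1 _
      · exact ih2.1 _
    · rw [← (Fin.consEquiv (fun _ : Fin (t + 1) => Bool)).sum_comp, Fintype.sum_prod_type,
        Fintype.sum_bool]
      simp only [Fin.consEquiv_apply, List.ofFn_succ, List.foldl_cons, Fin.cons_zero, Fin.cons_succ]
      have h1 := ih1.2
      have h2 := ih2.2
      have : (0 : ℝ) < 2 ^ t := by positivity
      rw [pow_succ]
      nlinarith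

end Vale.Agent.P315
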