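import Vale.Agent.P315.MainA

/-! Assembly of the program. -/

open Finset
open scoped BigOperators

namespace Vale.Agent.P315

theorem kk_le_two {n0 n : ℕ} (h : n0 ≤ 2 * n) : kk n0 ≤ 2 * (Nat.log 2 (n + 2) + 1) := by
  have h1 : Nat.log 2 (n0 + 2) ≤ Nat.log 2 ((n + 2) * 2) := Nat.log_mono_right (by omega)
  rw [Nat.log_mul_base (by omega) (by omega)] at h1
  unfold kk
  omega

theorem time_aux {k m C0 dA c7 c8 dM n0 a7 a8 l S1 : ℕ} (hn : n0 + 2 ≤ 2 ^ k) (hS : S1 ≤ 2 ^ m)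
    (h7 : a7 ≤ 2 ^ (k + 3 * m)) (h8 : a8 ≤ 2 ^ (k + 3 * m)) (hl : l ≤ 2 ^ m) (hk : k + 1 ≤ 2 ^ m) :
    C0 * (n0 + 2) * dA * S1 ^ dA + (c7 * a7 * l + (c8 * a8 * l +
      ((2 + (k + 1) * (1 + 2 ^ (k + 200 * m))) * dM * S1 ^ dM + 5) + 1) + 1) + 1 ≤
      (C0 * dA + c7 + c8 + 4 * dM + 8) * 2 ^ (k + (201 + dA + dM) * m) := by
  set X := 2 ^ (k + (201 + dA + dM) * m) with hX
  have pw : ∀ j, j ≤ k + (201 + dA + dM) * m → 2 ^ j ≤ X := fun j hj =>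
    Nat.pow_le_pow_right (by omega) hj
  have hA : S1 ^ dA ≤ 2 ^ (dA * m) := by
    rw [mul_comm, pow_mul]; exact Nat.pow_le_pow_left hS _
  have hM : S1 ^ dM ≤ 2 ^ (dM * m) := by
    rw [mul_comm, pow_mul]; exact Nat.pow_le_pow_left hS _
  have e1 : (n0 + 2) * S1 ^ dA ≤ X := by
    refine (Nat.mul_le_mul hn hA).trans ?_
    rw [← pow_add]
    exact pw _ (by nlinarith)
  have e2 : a7 * l ≤ X := by
    refine (Nat.mul_le_mul h7 hl).trans ?_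
    rw [← pow_add]
    exact pw _ (by nlinarith)
  have e3 : a8 * l ≤ X := by
    refine (Nat.mul_le_mul h8 hl).trans ?_
    rw [← pow_add]
    exact pw _ (by nlinarith)
  have e4 : (2 + (k + 1) * (1 + 2 ^ (k + 200 * m))) * S1 ^ dM ≤ 4 * X := by
    have h1 : 1 ≤ 2 ^ (k + 200 * m) := Nat.one_le_two_pow
    have h2 : 2 + (k + 1) * (1 + 2 ^ (k + 200 * m)) ≤ 4 * (2 ^ m * 2 ^ (k + 200 * m)) := by
      nlinarith
    refine (Nat.mul_le_mul h2 hM).trans ?_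
    rw [mul_assoc, ← pow_add, ← pow_add]
    exact Nat.mul_le_mul_left 4 (pw _ (by nlinarith))
  have e5 : 1 ≤ X := Nat.one_le_two_pow
  have f1 := Nat.mul_le_mul_left (C0 * dA) e1
  have f2 := Nat.mul_le_mul_left c7 e2
  have f3 := Nat.mul_le_mul_left c8 e3
  have f4 := Nat.mul_le_mul_left dM e4
  nlinarith

theorem word_facts {σ d n w : ℕ} (hw : ((20 + σ) * (d + 1) + 5) * (Nat.log 2 (n + 2) + 1) ≤ w) :
    ∃ V, (∀ j, j ≤ 20 * (Nat.log 2 (n + 2) + 1) → 2 ^ j ≤ V) ∧ (∀ d' ≤ d + 1, V ^ d' < 2 ^ w) ∧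
      5 ≤ w ∧ (n + 2) ^ σ ≤ V := by
  have hnK : n + 2 < 2 ^ (Nat.log 2 (n + 2) + 1) := Nat.lt_pow_succ_log_self (by omega) _
  generalize Nat.log 2 (n + 2) = K at *
  refine ⟨2 ^ ((20 + σ) * (K + 1)), fun j hj => Nat.pow_le_pow_right (by omega) (by nlinarith),
    fun d' hd => ?_, le_trans (le_trans (by omega) (Nat.le_mul_of_pos_right _ (by omega))) hw,
    (Nat.pow_le_pow_left hnK.le σ).trans ?_⟩
  · rw [← pow_mul]
    refine Nat.pow_lt_pow_right (by omega) (lt_of_lt_of_le ?_ hw)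
    have := Nat.mul_le_mul_left ((20 + σ) * (K + 1)) hd
    nlinarith
  · rw [← pow_mul]
    exact Nat.pow_le_pow_right (by omega) (by nlinarith)

/-- The specification of a compiled command. -/
def CompSpec (c : Cmd) (P : Stmt) (deg : ℕ) : Prop :=
  ∀ (w V S : ℕ) (g : ℕ → ℕ) (m : Mem), 2 ≤ V → S ≤ V → V ^ deg < 2 ^ w → Bd V S m →
    c.safe V S (fun _ => 0) m → D w P (c.ticks (fun _ => 0) m * deg * (S + 1) ^ deg) (g, m)
      fun s => s.2 = c.exec (fun _ => 0) m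

theorem CompSpec.tri {c : Cmd} {P : Stmt} {deg w V S t : ℕ} {g : ℕ → ℕ} {m : Mem} {Q : Mem → Prop}
    (h : CompSpec c P deg) (h1 : 2 ≤ V) (h2 : S ≤ V) (h3 : V ^ deg < 2 ^ w) (hb : Bd V S m)
    (ht : Tri V S c (fun _ => 0) m t Q) {R : St → ℝ → Prop} {x : ℝ}
    (hR : ∀ g' m', Q m' → Bd V S m' → R (g', m') x) : W w P (t * deg * (S + 1) ^ deg) R (g, m) x :=
  ((h w V S g m h1 h2 h3 hb ht.1).time
    (Nat.mul_le_mul_right _ (Nat.mul_le_mul_right _ ht.2.1))).toW fun s hs =>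
    hR s.1 s.2 (hs ▸ ht.2.2) (hs ▸ hb.exec ht.1)

/-- The specification of the generator of digits. -/
def GenSpec (a kN : ℕ) (P : Stmt) (c : ℕ) : Prop :=
  ∀ (w Nn Bk L : ℕ) (g : ℕ → ℕ) (m : Mem) (R : St → ℝ → Prop) (val : (Fin Nn → Blk Bk (2 ^ L)) → ℝ),
    m 6 kN = Nn * Bk → m 6 20 = L → Nn * Bk < 2 ^ w → 2 ^ L < 2 ^ w → 2 ≤ w →
    kN < 2 ^ w → 20 < 2 ^ w → (∀ ω g', R (g', setDig m a ω) (val ω)) →
    W w P (c * (Nn * Bk + 1) * (L + 1)) R (g, m) (𝔼 ω, val ω)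

theorem run_big {E n w V dM c7 c8 : ℕ} {ε : ℝ} {cM : Cmd} {PB PD G7 G8 : Stmt} {x y : List ℕ}
    {m : Mem} (g : ℕ → ℕ) (hE : 16 ≤ E) (hε : (11 : ℝ) / E ≤ ε) (hn : n = x.length + y.length)
    (hM : ∀ (m : Mem) (mis : ℕ → ℕ → ℕ) (z zr : ℕ → ℕ → ℕ → ℕ), MemOk (par n 0) mis z zr m →
      (∀ q d, mis q d ≤ 1) → m 0 0 + m 0 1 ≤ n → m 6 21 = kk n → m 6 23 = lP n → m 6 24 = xs n →
      Tri V (SS n) cM (fun _ => 0) m (2 + (kk n + 1) * (1 + 2 ^ (kk n + 200 * (kk n / ww n))))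
        fun m' => m' 3 0 = outv E n mis z zr ((par n 0).O + m 0 1 - m 0 0))
    (hPM : CompSpec cM PB dM) (h7 : GenSpec 7 18 G7 c7) (h8 : GenSpec 8 19 G8 c8)
    (hbig : E + 200 ≤ ww n) (hV : 2 ^ (8 * kk n) ≤ V) (hV2 : 2 ≤ V) (hVw : V < 2 ^ w)
    (hVd : V ^ dM < 2 ^ w) (hw : 5 ≤ w) (hsame : Same [4, 5, 6] (input x y) m) (hpar : ParOk E n m)
    (hb : Bd V (SS n) m) :
    W w (.seq G7 (.seq G8 (branch PB PD))) (c7 * ((par n 0).Nn * (par n 0).Br + 1) * (ld n + 1) +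
      (c8 * ((par n 0).Nn * (par n 0).Bf + 1) * (ld n + 1) +
      ((2 + (kk n + 1) * (1 + 2 ^ (kk n + 200 * (kk n / ww n)))) * dM * (SS n + 1) ^ dM + 5)
        + 1) + 1) (fun s v => ind (¬(ED x y ≤ s.2 3 0 ∧ (s.2 3 0 : ℝ) ≤ (1 + ε) * ED x y)) ≤ v)
      (g, m) (1 / 3) := by
  have hw32 : 32 ≤ 2 ^ w := Nat.pow_le_pow_right (n := 2) (by omega) hw
  have hs : Sz n := sz_of (by omega)
  have h6 := par_six hs (ρ := 0) (Nat.zero_le _)
  have b1 : (par n 0).Nn * (par n 0).Br ≤ V := (h6 _ (by simp)).trans hV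
  have b2 : (par n 0).Nn * (par n 0).Bf ≤ V := (h6 _ (by simp)).trans hV
  have b3 : 2 ^ ld n ≤ V := (h6 _ (by simp)).trans hV
  have b4 : SS n ≤ V := (h6 _ (by simp)).trans hV
  obtain ⟨p1, p2, p3, p4, p5, p6, p7, p8⟩ := hpar.1 hbig
  refine W.seq ((h7 w _ _ (ld n) g m _ _ p2 p4 (b1.trans_lt hVw) (b3.trans_lt hVw) (by omega)
    (by omega) (by omega) fun ωr g2 => ?_).up (correct hE x y hn hbig))
  refine W.seq (h8 w _ _ (ld n) g2 _ _ _ (by rw [setDig_ne _ _ (by omega), p3])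
    (by rw [setDig_ne _ _ (by omega), p4]) (b2.trans_lt hVw) (b3.trans_lt hVw) (by omega)
    (by omega) (by omega) fun ω g3 => ?_)
  have e : ∀ a, a < 7 → setDig (setDig m 7 ωr) 8 ω a = m a := fun a ha => by
    rw [setDig_ne _ _ (by omega), setDig_ne _ _ (by omega)]
  have ex : setDig (setDig m 7 ωr) 8 ω 0 0 = x.length := by
    rw [e 0 (by omega), hsame 0 (by simp)]; rfl
  have ey : setDig (setDig m 7 ωr) 8 ω 0 1 = y.length := by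
    rw [e 0 (by omega), hsame 0 (by simp)]; rfl
  have hb3 : Bd V (SS n) (setDig (setDig m 7 ωr) 8 ω) :=
    (hb.setDig (by omega) (by positivity) b3 ωr).setDig (by omega) (by positivity) b3 ω
  have hT2 := hM _ _ _ _ (memOk_setDig p1 hsame ωr ω)
    (pathSys_str x y _).le_one (by rw [ex, ey, hn]) (by rw [e 6 (by omega), p5])
    (by rw [e 6 (by omega), p7]) (by rw [e 6 (by omega), p8])
  refine W.branch (by omega) (fun _ g4 => ?_) fun h0 => ?_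
  · refine hPM.tri hV2 b4 hVd hb3 hT2 fun g' m' hm' _ => ?_
    rw [ex, ey] at hm'
    show ind (¬(ED x y ≤ m' 3 0 ∧ (m' 3 0 : ℝ) ≤ (1 + ε) * ED x y)) ≤ _
    rw [hm']
    refine ind_mono fun h h' => h ⟨h'.1, h'.2.trans ?_⟩
    exact mul_le_mul_of_nonneg_right (by linarith) (Nat.cast_nonneg _)
  · rw [e 6 (by omega), p6] at h0
    omega

theorem run_small {E n w V dD c7 c8 : ℕ} {ε : ℝ} {cD : Cmd} {PB PD G7 G8 : Stmt} {x y : List ℕ}
    {m : Mem} (g : ℕ → ℕ) (hε : 0 < ε)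
    (hD : ∀ m : Mem, m 0 = input x y 0 → m 1 = input x y 1 → m 2 = input x y 2 →
      Tri V 0 cD (fun _ => 0) m (2 + 2 * ((x.length + 1) * (y.length + 1))) fun m' => m' 3 0 = ED x y)
    (hPD : CompSpec cD PD dD) (h7 : GenSpec 7 18 G7 c7) (h8 : GenSpec 8 19 G8 c8)
    (hsmall : ww n < E + 200) (hV2 : 2 ≤ V) (hVd : V ^ dD < 2 ^ w) (hw : 5 ≤ w)
    (hsame : Same [4, 5, 6] (input x y) m) (hpar : ParOk E n m) (hb : Bd V 0 m) :
    W w (.seq G7 (.seq G8 (branch PB PD))) (c7 * (0 * 0 + 1) * (0 + 1) +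
      (c8 * (0 * 0 + 1) * (0 + 1) +
      ((2 + 2 * ((x.length + 1) * (y.length + 1))) * dD * (0 + 1) ^ dD + 5) + 1) + 1)
      (fun s v => ind (¬(ED x y ≤ s.2 3 0 ∧ (s.2 3 0 : ℝ) ≤ (1 + ε) * ED x y)) ≤ v)
      (g, m) (1 / 3) := by
  have hw32 : 32 ≤ 2 ^ w := Nat.pow_le_pow_right (n := 2) (by omega) hw
  obtain ⟨p1, p2, p3, p4⟩ := hpar.2 hsmall
  refine W.seq ((h7 w 0 0 0 g m _ (fun _ => 1 / 3) p1 p3 (by omega) (by omega) (by omega)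
    (by omega) (by omega) fun ωr g2 => ?_).up (ex_le fun _ => le_rfl))
  refine W.seq ((h8 w 0 0 0 g2 _ _ (fun _ => 1 / 3) (by rw [setDig_ne _ _ (by omega), p2])
    (by rw [setDig_ne _ _ (by omega), p3]) (by omega) (by omega) (by omega)
    (by omega) (by omega) fun ω g3 => ?_).up (ex_le fun _ => le_rfl))
  have e : ∀ a, a < 7 → setDig (setDig m 7 ωr) 8 ω a = m a := fun a ha => by
    rw [setDig_ne _ _ (by omega), setDig_ne _ _ (by omega)]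
  have hb3 : Bd V 0 (setDig (setDig m 7 ωr) 8 ω) :=
    (hb.setDig (by omega) (by positivity) (by omega) ωr).setDig (by omega) (by positivity)
      (by omega) ω
  have hT2 := hD (setDig (setDig m 7 ωr) 8 ω)
    (by rw [e 0 (by omega), hsame 0 (by simp)]) (by rw [e 1 (by omega), hsame 1 (by simp)])
    (by rw [e 2 (by omega), hsame 2 (by simp)])
  refine W.branch (by omega) (fun h0 => ?_) fun _ g4 => ?_
  · rw [e 6 (by omega), p4] at h0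
    omega
  · refine hPD.tri hV2 (Nat.zero_le _) hVd hb3 hT2 fun g' m' hm' _ => ?_
    show ind (¬(ED x y ≤ m' 3 0 ∧ (m' 3 0 : ℝ) ≤ (1 + ε) * ED x y)) ≤ _
    rw [hm', ind_neg (not_not.2
      ⟨le_rfl, le_mul_of_one_le_left (Nat.cast_nonneg _) (by linarith)⟩)]
    norm_num

theorem time_fin {T A B j n n0 : ℕ} {C ξ : ℝ} (hξ : 0 < ξ) (hC : 0 ≤ C) (hn : n0 ≤ 2 * n)
    (h : T ≤ A * 2 ^ j ∧ (2 : ℝ) ^ j ≤ C * ((n0 : ℝ) + 2) ^ (1 + ξ) ∨ T ≤ B) :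
    (T : ℝ) ≤ (A * C * 2 ^ (1 + ξ) + B) * ((n : ℝ) + 2) ^ (1 + ξ) := by
  rw [add_mul]
  rcases h with ⟨h1, h2⟩ | h1
  · have h3 : ((n0 : ℝ) + 2) ^ (1 + ξ) ≤ 2 ^ (1 + ξ) * ((n : ℝ) + 2) ^ (1 + ξ) := by
      rw [← Real.mul_rpow (by norm_num) (by positivity)]
      refine Real.rpow_le_rpow (by positivity) ?_ (by linarith)
      have : (n0 : ℝ) ≤ 2 * n := by exact_mod_cast hn
      linarith
    refine le_trans (Nat.cast_le.2 h1) ?_
    rw [Nat.cast_mul, Nat.cast_pow, Nat.cast_ofNat]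
    refine le_trans ?_ (le_add_of_nonneg_right (by positivity))
    rw [mul_assoc, mul_assoc]
    exact mul_le_mul_of_nonneg_left (h2.trans (mul_le_mul_of_nonneg_left h3 hC))
      (Nat.cast_nonneg _)
  · refine le_trans (Nat.cast_le.2 h1) (le_trans ?_ (le_add_of_nonneg_left (by positivity)))
    exact le_mul_of_one_le_right (Nat.cast_nonneg _)
      (Real.one_le_rpow (by linarith [Nat.cast_nonneg (α := ℝ) n]) (by linarith))

theorem time_small {C0 dA c7 c8 dD a b N0 : ℕ} (h : a + b ≤ N0) :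
    C0 * (a + b + 2) * dA * (0 + 1) ^ dA + (c7 * (0 * 0 + 1) * (0 + 1) +
      (c8 * (0 * 0 + 1) * (0 + 1) + ((2 + 2 * ((a + 1) * (b + 1))) * dD * (0 + 1) ^ dD + 5) + 1) + 1)
      + 1 ≤ C0 * (N0 + 2) * dA + c7 + c8 + (2 + 2 * ((N0 + 1) * (N0 + 1))) * dD + 8 := by
  have h2 : (a + 1) * (b + 1) ≤ (N0 + 1) * (N0 + 1) := Nat.mul_le_mul (by omega) (by omega)
  have h3 := Nat.mul_le_mul_right dD (show 2 + 2 * ((a + 1) * (b + 1)) ≤
    2 + 2 * ((N0 + 1) * (N0 + 1)) by omega)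
  have h4 := Nat.mul_le_mul_right dA (Nat.mul_le_mul_left C0 (show a + b + 2 ≤ N0 + 2 by omega))
  simp only [zero_add, one_pow, mul_one, mul_zero]
  omega

theorem main : ∀ ε : ℝ, 0 < ε → ∃ P : Stmt, ∀ σ : ℕ, ∃ c : ℕ, ∀ ξ : ℝ, 0 < ξ → ∃ C : ℝ,
    ∀ (n w : ℕ) (x y : List ℕ), c * (Nat.log 2 (n + 2) + 1) ≤ w → x.length ≤ n → y.length ≤ n →
      (∀ a ∈ x, a < (n + 2) ^ σ) → (∀ a ∈ y, a < (n + 2) ^ σ) →
      ∃ T : ℕ, (T : ℝ) ≤ C * ((n : ℝ) + 2) ^ (1 + ξ) ∧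
        (∀ ω : Fin T → Bool, (run w P x y ω).1 = []) ∧
        (2 / 3 : ℝ) * 2 ^ T ≤ (Set.ncard {ω : Fin T → Bool | ED x y ≤ output (run w P x y ω) ∧
          (output (run w P x y ω) : ℝ) ≤ (1 + ε) * ED x y} : ℝ) := by
  intro ε hε
  obtain ⟨E, hE16, hEε⟩ : ∃ E : ℕ, 16 ≤ E ∧ (11 : ℝ) / E ≤ ε := by
    obtain ⟨E, hE⟩ := exists_nat_ge (11 / ε)
    refine ⟨E + 16, by omega, ?_⟩
    rw [div_le_iff₀ hε] at hE
    rw [div_le_iff₀ (by positivity)]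
    push_cast
    nlinarith
  obtain ⟨cA, C0, hA⟩ := ph_par E
  obtain ⟨cM, hM⟩ := ph_main E (by omega)
  obtain ⟨cD, hD⟩ := ph_dp
  obtain ⟨PA, dA, hPA : CompSpec cA PA dA⟩ := compile cA
  obtain ⟨PB, dM, hPM : CompSpec cM PB dM⟩ := compile cM
  obtain ⟨PD, dD, hPD : CompSpec cD PD dD⟩ := compile cD
  obtain ⟨G7, c7, h7 : GenSpec 7 18 G7 c7⟩ := gen_spec 7 18 20 (by omega)
  obtain ⟨G8, c8, h8 : GenSpec 8 19 G8 c8⟩ := gen_spec 8 19 20 (by omega)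
  obtain ⟨N0, hN0⟩ := small_bound (E + 200)
  refine ⟨.seq PA (.seq G7 (.seq G8 (branch PB PD))), fun σ =>
    ⟨(20 + σ) * (dA + dM + dD + 1) + 5, fun ξ hξ => ?_⟩⟩
  obtain ⟨C1, hC10, hC1⟩ := time_big (201 + dA + dM) hξ
  refine ⟨(C0 * dA + c7 + c8 + 4 * dM + 8 : ℕ) * C1 * 2 ^ (1 + ξ) +
    (C0 * (N0 + 2) * dA + c7 + c8 + (2 + 2 * ((N0 + 1) * (N0 + 1))) * dD + 8 : ℕ),
    fun n w x y hw hx hy hx' hy' => ?_⟩
  obtain ⟨V, pwV, hVd, hw5, hσ⟩ := word_facts hw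
  have hnK : n + 2 < 2 ^ (Nat.log 2 (n + 2) + 1) := Nat.lt_pow_succ_log_self (by omega) _
  have hn0 : x.length + y.length ≤ 2 * n := by omega
  have hk2 := kk_le_two hn0
  have hV2 : 2 ≤ V := pwV 1 (by omega)
  have hV10 : 2 ^ (10 * kk (x.length + y.length)) ≤ V := pwV _ (by omega)
  have hV8 : 2 ^ (8 * kk (x.length + y.length)) ≤ V := pwV _ (by omega)
  have hVw : V < 2 ^ w := by simpa using hVd 1 (by omega)
  have hnV : n ≤ V := le_trans (by omega) (pwV (Nat.log 2 (n + 2) + 1) (by omega))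
  by_cases hbig : E + 200 ≤ ww (x.length + y.length)
  · have hs : Sz (x.length + y.length) := sz_of (by omega)
    obtain ⟨-, t1, t2, t3, t4⟩ := par_time hs (ρ := 0) (Nat.zero_le _)
    have t5 := (par_five hs (ρ := 0)).2.2.2.2.2.2.2.2.2.2
    have b4 : SS (x.length + y.length) ≤ V :=
      (par_six hs (ρ := 0) (Nat.zero_le _) _ (by simp)).trans hV8
    exact ⟨_, time_fin hξ hC10 hn0 (Or.inl ⟨time_aux hs.n_lt.le t5 t1 t2 t3 t4, hC1 _ hs.w_ge⟩),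
      count_good (fun v => ED x y ≤ v ∧ (v : ℝ) ≤ (1 + ε) * ED x y)
        (W.seq (hPA.tri hV2 b4 (hVd _ (by omega)) (bd_input hx hy hx' hy' hnV hσ)
          (hA V _ _ x y rfl hV10 fun _ => le_rfl) fun g m hm hb => run_big g hE16 hEε rfl
            (fun m mis z zr h1 h2 h3 h4 h5 h6 => hM V _ _ _ m mis z zr hs h1 h2 h3 h4 h5 h6 hV10)
            hPM h7 h8 hbig hV8 hV2 hVw (hVd _ (by omega)) hw5 hm.1 hm.2 hb))⟩
  · have hxy : (x.length + 1) * (y.length + 1) ≤ V := by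
      refine le_trans ?_ (pwV ((Nat.log 2 (n + 2) + 1) + (Nat.log 2 (n + 2) + 1)) (by omega))
      rw [pow_add]
      exact Nat.mul_le_mul (by omega) (by omega)
    exact ⟨_, time_fin (j := 0) hξ hC10 hn0 (Or.inr (time_small (hN0 _ (by omega)))),
      count_good (fun v => ED x y ≤ v ∧ (v : ℝ) ≤ (1 + ε) * ED x y)
        (W.seq (hPA.tri hV2 (Nat.zero_le _) (hVd _ (by omega)) (bd_input hx hy hx' hy' hnV hσ)
          (hA V 0 _ x y rfl hV10 fun h => absurd h hbig) fun g m hm hb => run_small g hε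
            (fun m h0 h1 h2 => hD V 0 _ m x y h0 h1 h2 hxy) hPD h7 h8 (not_le.1 hbig) hV2
            (hVd _ (by omega)) hw5 hm.1 hm.2 hb))⟩

end Vale.Agent.P315
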