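import Vale.Agent.P315.TriR
import Vale.Agent.P315.StrC

/-! The exact dynamic program for short inputs. -/

open Finset

namespace Vale.Agent.P315

/-- One entry of the table from the earlier ones. -/
def phdpF (e : Env) (m : Mem) : ℕ :=
  if e 0 / (m 0 1 + 1) = 0 then e 0 % (m 0 1 + 1) else
    if e 0 % (m 0 1 + 1) = 0 then e 0 / (m 0 1 + 1) else
      min (m 13 (e 0 - (m 0 1 + 1) - 1) +
          if m 1 (e 0 / (m 0 1 + 1) - 1) = m 2 (e 0 % (m 0 1 + 1) - 1) then 0 else 1)
        (min (m 13 (e 0 - (m 0 1 + 1))) (m 13 (e 0 - 1)) + 1)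

theorem phdp_cx : Cx phdpF := by
  have hY : Cx fun _ m => m 0 1 + 1 := (Cx.cell 0 1).add (Cx.const 1)
  have hi := (Cx.var 0).div hY
  have hj := (Cx.var 0).mod hY
  exact Cx.ite (CxP.eq hi (Cx.const 0)) hj (Cx.ite (CxP.eq hj (Cx.const 0)) hi
    (((Cx.get 13 (((Cx.var 0).sub hY).sub (Cx.const 1))).add
      (Cx.ite (CxP.eq (Cx.get 1 (hi.sub (Cx.const 1))) (Cx.get 2 (hj.sub (Cx.const 1))))
        (Cx.const 0) (Cx.const 1))).min
      (((Cx.get 13 ((Cx.var 0).sub hY)).min (Cx.get 13 ((Cx.var 0).sub (Cx.const 1)))).add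
        (Cx.const 1))))

theorem phdp_div {Y j : ℕ} (i : ℕ) (hj : j < Y) : (j + Y * i) / Y = i := by
  rw [Nat.add_mul_div_left _ _ (by omega), Nat.div_eq_of_lt hj, zero_add]

theorem phdp_mod {Y j : ℕ} (i : ℕ) (hj : j < Y) : (j + Y * i) % Y = j := by
  rw [Nat.add_mul_mod_self_left, Nat.mod_eq_of_lt hj]

theorem phdp_step (x y : List ℕ) (e : Env) (m : Mem) (i j : ℕ) (hi : i ≤ x.length)
    (hj : j ≤ y.length) (h0 : m 0 1 = y.length) (h1 : ∀ k, m 1 k = x.getD k 0)
    (h2 : ∀ k, m 2 k = y.getD k 0)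
    (h : ∀ c < j + (y.length + 1) * i, m 13 c = dp x y (c / (y.length + 1)) (c % (y.length + 1))) :
    phdpF (cons (j + (y.length + 1) * i) e) m = dp x y i j := by
  have hj' : j < y.length + 1 := by omega
  simp only [phdpF, cons, h0, phdp_div i hj', phdp_mod i hj']
  rcases i with _ | i
  · rw [if_pos rfl, dp]
  rcases j with _ | j
  · rw [if_neg (by omega), if_pos rfl, dp]
  have e1 : j + 1 + (y.length + 1) * (i + 1) - (y.length + 1) - 1 = j + (y.length + 1) * i := by
    rw [mul_add]; omega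
  have e2 : j + 1 + (y.length + 1) * (i + 1) - (y.length + 1) = j + 1 + (y.length + 1) * i := by
    rw [mul_add]; omega
  have e3 : j + 1 + (y.length + 1) * (i + 1) - 1 = j + (y.length + 1) * (i + 1) := by omega
  have l1 : (y.length + 1) * (i + 1) = (y.length + 1) * i + (y.length + 1) := by ring
  rw [if_neg (by omega), if_neg (by omega), e1, e2, e3, h _ (by omega), h _ (by omega),
    h _ (by omega), phdp_div i (by omega), phdp_mod i (by omega), phdp_div i hj', phdp_mod i hj',
    phdp_div (i + 1) (by omega), phdp_mod (i + 1) (by omega), Nat.add_sub_cancel,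
    Nat.add_sub_cancel, h1, h2, dp]
  have e4 : mt x y i j ↔ x.getD i 0 = y.getD j 0 :=
    ⟨fun h => h.2.2, fun h => ⟨by omega, by omega, h⟩⟩
  simp only [e4]

theorem ph_dp : ∃ c : Cmd, ∀ (V S : ℕ) (e : Env) (m : Mem) (x y : List ℕ), m 0 = input x y 0 →
    m 1 = input x y 1 → m 2 = input x y 2 → (x.length + 1) * (y.length + 1) ≤ V →
    Tri V S c e m (2 + 2 * ((x.length + 1) * (y.length + 1))) fun m' => m' 3 0 = ED x y := by
  have hn : Cx fun _ m => (m 0 0 + 1) * (m 0 1 + 1) :=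
    ((Cx.cell 0 0).add (Cx.const 1)).mul ((Cx.cell 0 1).add (Cx.const 1))
  obtain ⟨c1, hc1⟩ := fill 13 (by norm_num) hn (Cx.const 0) phdp_cx
  obtain ⟨c2, hc2⟩ := put 3 (Cx.const 0) (Cx.get 13 (hn.sub (Cx.const 1)))
  refine ⟨.seq c1 c2, fun V S e m x y h0 h1 h2 hV => ?_⟩
  have a0 : m 0 0 = x.length := by rw [h0]; rfl
  have a1 : m 0 1 = y.length := by rw [h0]; rfl
  have hb : ∀ c < (x.length + 1) * (y.length + 1),
      c / (y.length + 1) ≤ x.length ∧ c % (y.length + 1) ≤ y.length := fun c hc =>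
    ⟨Nat.le_of_lt_succ ((Nat.div_lt_iff_lt_mul (Nat.succ_pos _)).2 hc),
      Nat.le_of_lt_succ (Nat.mod_lt _ (Nat.succ_pos _))⟩
  have hx : (x.length + 1) * (y.length + 1) = y.length + (y.length + 1) * x.length + 1 := by ring
  have hle : ∀ c < (x.length + 1) * (y.length + 1),
      dp x y (c / (y.length + 1)) (c % (y.length + 1)) ≤ V := fun c hc => by
    have h3 := hb c hc
    have h4 := dp_le x y (c / (y.length + 1)) (c % (y.length + 1))
    have h5 : x.length ≤ (y.length + 1) * x.length := Nat.le_mul_of_pos_left _ (Nat.succ_pos _)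
    omega
  have k1 := hc1 V S e m (fun c => dp x y (c / (y.length + 1)) (c % (y.length + 1)))
    (by rwa [a0, a1]) (by rwa [a0, a1]) (by
      rw [a0, a1]
      intro c hc m' hm
      refine ⟨rfl, ?_⟩
      have h3 := phdp_step x y e m' _ _ (hb c hc).1 (hb c hc).2
        (by rw [hm.1 0 (by simp), a1]) (fun k => by rw [hm.1 1 (by simp), h1]; rfl)
        (fun k => by rw [hm.1 2 (by simp), h2]; rfl)
      rw [Nat.mod_add_div] at h3
      exact h3 fun c' hc' => by simpa only [zero_add] using hm.2.1 c' hc')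
  rw [a0, a1] at k1
  refine (Tri.seq (n₂ := 1) (k1.mono le_rfl fun m' hm => ?_)).mono (by omega) fun _ h => h
  have h3 : m' 13 ((m' 0 0 + 1) * (m' 0 1 + 1) - 1) = ED x y := by
    have h4 := hm.2.1 (y.length + (y.length + 1) * x.length) (by omega)
    simp only [zero_add, phdp_div x.length (Nat.lt_add_one y.length),
      phdp_mod x.length (Nat.lt_add_one y.length)] at h4
    rw [hm.1 0 (by simp), a0, a1, hx, Nat.add_sub_cancel, h4, ED_eq_dp]
  refine (hc2 V S e m' ?_ (fun h => absurd h (by norm_num))).mono le_rfl fun m2 h => ?_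
  · have h4 := dp_le x y x.length y.length
    have h5 : x.length ≤ (y.length + 1) * x.length := Nat.le_mul_of_pos_left _ (Nat.succ_pos _)
    rw [h3, ED_eq_dp]
    omega
  · rw [h, write_same, h3]

end Vale.Agent.P315
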