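import Vale.Agent.P315.MemD
import Vale.Agent.P315.DetA

/-! Properties of the flags and of the closure tables. -/

open Finset

namespace Vale.Agent.P315

variable {p : Par} {z zr : ℕ → ℕ → ℕ → ℕ}

theorem need_ne {y yr : ℕ → ℕ} {f fr : ℕ → ℕ → ℕ} {c : Prop} [Decidable c] {i a t : ℕ} :
    p.nstep y yr f fr c i a t ≠ 0 ↔ f a (t + 1) ≠ 0 ∨ f (a + (p.r - 1)) (max t 1) ≠ 0 ∨
      (∃ j < p.r, j ≠ 0 ∧ p.sel y p.b j (i % p.b) ≠ 0 ∧ f (a + (j - 1)) (max t 1) ≠ 0) ∨
      (t = 0 ∧ c ∧ (fr (a + (p.r * p.r0 - 1)) 0 ≠ 0 ∨ ∃ j < p.rr1, j ≠ 0 ∧ j < p.r * p.r0 ∧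
        p.sel yr p.b0 j (i % p.b0) ≠ 0 ∧ fr (a + (j - 1)) 0 ≠ 0)) := by
  have e : ∀ x : ℕ, min 1 x ≠ 0 ↔ x ≠ 0 := fun x => by omega
  have e2 : ∀ x w : ℕ, x + w ≠ 0 ↔ x ≠ 0 ∨ w ≠ 0 := fun x w => by omega
  have e3 : ∀ (n : ℕ) (g : ℕ → ℕ), ∑ j ∈ range n, g j ≠ 0 ↔ ∃ j < n, g j ≠ 0 := fun n g => by
    simp [sum_eq_zero_iff]
  unfold Par.nstep
  simp only [e, e2, e3, ite_ne_left_iff, ite_ne_right_iff, or_assoc, and_assoc, not_or, not_le,
    ne_comm (a := 0), mul_ne_zero_iff, exists_prop]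

theorem need_succ (n i a t : ℕ) : nf p z zr (n + 1) i a t =
    p.nstep (z (p.H - n) (i / p.b)) (zr (p.H - (n - (p.r0 - 1))) (i / p.b0))
      (nf p z zr n (i / p.b)) (nf p z zr (n - (p.r0 - 1)) (i / p.b0)) (p.r0 ≤ n + 1) i a t := by
  rw [nf]

theorem need_zero (i a t : ℕ) :
    nf p z zr 0 i a t = if i = 0 ∧ a ≤ p.F ∧ t < p.T1 then 1 else 0 := by
  rw [nf]

theorem nf_le_one (n i a t : ℕ) : nf p z zr n i a t ≤ 1 := by
  cases n with
  | zero =>
    rw [need_zero]
    split_ifs <;> omega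
  | succ n =>
    rw [need_succ]
    exact min_le_left _ _

theorem nf_range (hp : p.Ok) {n i a t : ℕ} (h : nf p z zr n i a t ≠ 0) :
    i < p.b ^ n ∧ a ≤ p.F ∧ t < p.T1 := by
  have hb : 0 < p.b := by have := hp.two_le_b; omega
  induction n using Nat.strong_induction_on generalizing i a t with
  | _ n ih =>
    cases n with
    | zero =>
      rw [need_zero] at h
      have := (ite_ne_right_iff.1 h).1
      exact ⟨by rw [this.1]; exact Nat.one_pos, this.2⟩
    | succ n =>
      have k1 : ∀ a' t', nf p z zr n (i / p.b) a' t' ≠ 0 → a ≤ a' → t ≤ t' →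
          i < p.b ^ (n + 1) ∧ a ≤ p.F ∧ t < p.T1 := by
        intro a' t' h' ha ht
        obtain ⟨c1, c2, c3⟩ := ih n (Nat.lt_succ_self n) h'
        exact ⟨(Nat.div_lt_iff_lt_mul hb).1 c1, by omega, by omega⟩
      have k2 : ∀ a', nf p z zr (n - (p.r0 - 1)) (i / p.b0) a' 0 ≠ 0 → a ≤ a' → t = 0 →
          p.r0 ≤ n + 1 → i < p.b ^ (n + 1) ∧ a ≤ p.F ∧ t < p.T1 := by
        intro a' h' ha ht hr
        obtain ⟨c1, c2, c3⟩ := ih _ (by omega) h'
        have := hp.r0_pos
        rw [hp.b0_eq, Nat.div_lt_iff_lt_mul (by positivity), ← pow_add,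
          show n - (p.r0 - 1) + p.r0 = n + 1 by omega] at c1
        exact ⟨c1, by omega, by omega⟩
      rw [need_succ, need_ne] at h
      rcases h with h | h | ⟨j, -, -, -, h⟩ | ⟨ht, hr, h | ⟨j, -, -, -, -, h⟩⟩
      · exact k1 _ _ h le_rfl (by omega)
      · exact k1 _ _ h (by omega) (by omega)
      · exact k1 _ _ h (by omega) (by omega)
      · exact k2 _ h (by omega) ht hr
      · exact k2 _ h (by omega) ht hr

theorem nf_down {n i a t a' t' : ℕ} (h : nf p z zr n i a t ≠ 0) (ha : a' ≤ a) (ht : t' ≤ t) :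
    nf p z zr n i a' t' ≠ 0 := by
  induction n using Nat.strong_induction_on generalizing i a t a' t' with
  | _ n ih =>
    cases n with
    | zero =>
      rw [need_zero] at h ⊢
      have := (ite_ne_right_iff.1 h).1
      rw [if_pos ⟨this.1, by omega, by omega⟩]
      exact one_ne_zero
    | succ n =>
      rw [need_succ, need_ne] at h ⊢
      rcases h with h | h | ⟨j, h1, h2, h3, h⟩ | ⟨h1, hr, h | ⟨j, h2, h3, h4, h5, h⟩⟩
      · exact Or.inl (ih n (by omega) h ha (by omega))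
      · exact Or.inr (Or.inl (ih n (by omega) h (by omega) (by omega)))
      · exact Or.inr (Or.inr (Or.inl ⟨j, h1, h2, h3, ih n (by omega) h (by omega) (by omega)⟩))
      · exact Or.inr (Or.inr (Or.inr ⟨by omega, hr,
          Or.inl (ih _ (by omega) h (by omega) le_rfl)⟩))
      · exact Or.inr (Or.inr (Or.inr ⟨by omega, hr,
          Or.inr ⟨j, h2, h3, h4, h5, ih _ (by omega) h (by omega) le_rfl⟩⟩))

theorem need_s (hp : p.Ok) : 2 ≤ p.s :=
  le_trans (by norm_num) (Nat.pow_le_pow_right (by norm_num : 0 < 2) hp.ws_pos)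

theorem need_sel {y : ℕ → ℕ} {B j l l' : ℕ} (h1 : l' < B) (h2 : l' < p.sp j)
    (h3 : y (j * B + l') % B = l) : p.sel y B j l ≠ 0 := by
  intro h
  have := sum_eq_zero_iff.1 h l' (mem_range.2 h1)
  rw [if_pos ⟨h2, h3⟩] at this
  exact one_ne_zero this

theorem need_dm {B l : ℕ} (i : ℕ) (h : l < B) : (i * B + l) / B = i ∧ (i * B + l) % B = l := by
  constructor
  · rw [add_comm, Nat.add_mul_div_right _ _ (by omega), Nat.div_eq_of_lt h, zero_add]
  · rw [add_comm, Nat.add_mul_mod_self_right, Nat.mod_eq_of_lt h]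

theorem need_b0 (hp : p.Ok) : p.b0 = p.s ^ (p.r * p.r0) := by
  rw [hp.b0_eq, hp.b_eq, ← pow_mul]

theorem nf_coverF (hp : p.Ok) {n i a t l a' t' : ℕ} (h : nf p z zr n i a t ≠ 0) (ht : 1 ≤ t)
    (hu : p.UsedF (z (p.H - n) i) a t l a' t') (ha : 1 ≤ a') :
    nf p z zr (n + 1) (i * p.b + l) a' t' ≠ 0 := by
  obtain ⟨hl, hu⟩ := hu
  rw [need_succ, need_ne, (need_dm i hl).1, (need_dm i hl).2]
  rcases hu with ⟨h1, h2⟩ | ⟨h1, h2⟩ | ⟨j, h1, h2, l', h3, h4, h5, h6⟩
  · exact Or.inl (nf_down h h1 h2)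
  · exact Or.inr (Or.inl (nf_down h (by omega) (by omega)))
  · refine Or.inr (Or.inr (Or.inl ⟨j, h2, by omega, need_sel (h3.trans_le ?_) h3 h4,
      nf_down h (by omega) (by omega)⟩))
    rw [hp.sp_eq j (Or.inr (h2.le.trans (Nat.le_mul_of_pos_right _ hp.r0_pos))), hp.b_eq]
    exact Nat.pow_le_pow_right (by have := need_s hp; omega) h2.le

theorem nf_coverR (hp : p.Ok) {n i a t l a' : ℕ} (h : nf p z zr n i a t ≠ 0)
    (hn : p.r0 < p.H - n) (hu : p.UsedR (zr (p.H - n) i) (p.H - n) a l a') (ha : 1 ≤ a') :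
    nf p z zr (n + p.r0) (i * p.b0 + l) a' 0 ≠ 0 := by
  have h0 := hp.r0_pos
  unfold Par.UsedR at hu
  rw [min_eq_left hn.le, hp.len_eq _ (by omega), ← hp.b0_eq] at hu
  obtain ⟨hl, hu⟩ := hu
  rw [show n + p.r0 = n + p.r0 - 1 + 1 by omega, need_succ, need_ne, (need_dm i hl).1,
    (need_dm i hl).2, show n + p.r0 - 1 - (p.r0 - 1) = n by omega]
  refine Or.inr (Or.inr (Or.inr ⟨rfl, by omega, ?_⟩))
  rcases hu with h1 | ⟨j, h1, h2, l', h3, h4, h5⟩
  · exact Or.inl (nf_down h (by omega) (Nat.zero_le _))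
  · refine Or.inr ⟨j, by rw [hp.rr1_eq]; omega, by omega, h2, need_sel (h3.trans_le ?_) h3 h4,
      nf_down h (by omega) (Nat.zero_le _)⟩
    rw [hp.sp_eq j (Or.inr h2.le), need_b0 hp]
    exact Nat.pow_le_pow_right (by have := need_s hp; omega) h2.le

theorem need_split {B : ℕ} (hB : 0 < B) (P : ℕ) (G : ℕ → ℕ → ℕ) :
    ∑ i ∈ range P, G (i / B) (i % B) ≤ ∑ q ∈ range P, ∑ l ∈ range B, G q l := by
  rw [← sum_product' (range P) (range B) G,
    ← sum_image (s := range P) (g := fun i => (i / B, i % B)) (f := fun x => G x.1 x.2)]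
  · refine sum_le_sum_of_subset fun x hx => ?_
    obtain ⟨i, hi, rfl⟩ := mem_image.1 hx
    exact mem_product.2 ⟨mem_range.2 ((Nat.div_le_self _ _).trans_lt (mem_range.1 hi)),
      mem_range.2 (Nat.mod_lt _ hB)⟩
  · intro i _ j _ e
    have e1 : i / B = j / B := congrArg Prod.fst e
    have e2 : i % B = j % B := congrArg Prod.snd e
    rw [← Nat.div_add_mod i B, ← Nat.div_add_mod j B, e1, e2]

theorem need_selsum (y : ℕ → ℕ) (B j : ℕ) : ∑ l ∈ range B, p.sel y B j l ≤ p.sp j := by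
  unfold Par.sel
  rw [sum_comm]
  refine (sum_le_sum (g := fun l' => if l' < p.sp j then 1 else 0) fun l' _ => ?_).trans ?_
  · by_cases h : l' < p.sp j
    · simp only [h, true_and, if_true, sum_ite_eq]
      split_ifs <;> omega
    · simp [h]
  · rw [← card_filter]
    refine (card_le_card fun l hl => mem_range.2 (mem_filter.1 hl).2).trans (card_range _).le

theorem need_geo (w : ℕ → ℕ) (Y R : ℕ) (h : ∀ j, 1 ≤ j → j ≤ R → w j * 2 ^ (j - 1) ≤ Y) :
    (∑ j ∈ range (R + 1), if j = 0 then 0 else w j) * 2 ^ R + 2 * Y ≤ 2 * Y * 2 ^ R := by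
  induction R with
  | zero => simp
  | succ R ih =>
    have h1 := ih fun j a b => h j a (by omega)
    have h2 := h (R + 1) (by omega) le_rfl
    rw [Nat.add_sub_cancel] at h2
    rw [sum_range_succ, if_neg (Nat.succ_ne_zero R), pow_succ]
    nlinarith

theorem need_block (hp : p.Ok) {B R Y : ℕ} (hB : B = p.s ^ R) (hR : 1 ≤ R)
    (hR' : R ≤ p.r * p.r0) (g y : ℕ → ℕ → ℕ)
    (h : ∀ k, (∑ i ∈ range p.P, g i k) * (2 * p.s) ^ k ≤ Y) :
    ∑ i ∈ range p.P, (g (i / B) (R - 1) + ∑ j ∈ range R,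
      if j = 0 then 0 else p.sel (y (i / B)) B j (i % B) * g (i / B) (j - 1)) ≤ 2 * (p.s * Y) := by
  have hs := need_s hp
  have hB0 : 0 < B := by rw [hB]; positivity
  have h1 := need_geo (fun j => p.s ^ j * ∑ i ∈ range p.P, g i (j - 1)) (p.s * Y) R (by
    intro j h1 _
    obtain ⟨k, rfl⟩ := Nat.exists_eq_add_of_le' h1
    have := Nat.mul_le_mul_left p.s (h k)
    rw [Nat.add_sub_cancel]
    refine le_of_eq_of_le ?_ this
    rw [mul_pow, pow_succ]
    ring)
  refine le_trans ?_ (Nat.le_of_mul_le_mul_right ((Nat.le_add_right _ _).trans h1)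
    (by positivity))
  rw [sum_add_distrib, sum_range_succ, if_neg (by omega), add_comm, sum_comm]
  refine add_le_add (sum_le_sum fun j hj => ?_) ?_
  · split_ifs with h0
    · simp
    · refine (need_split hB0 _ fun q l => p.sel (y q) B j l * g q (j - 1)).trans ?_
      rw [mul_sum, ← hp.sp_eq j (Or.inr ((mem_range.1 hj).le.trans hR'))]
      refine sum_le_sum fun q _ => ?_
      rw [← sum_mul]
      exact Nat.mul_le_mul_right _ (need_selsum _ _ _)
  · refine (need_split hB0 _ fun q _ => g q (R - 1)).trans (le_of_eq ?_)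
    simp only [sum_const, card_range, smul_eq_mul, mul_sum, hB]

theorem nf_count (hp : p.Ok) (n a t : ℕ) :
    ∑ i ∈ range p.P, nf p z zr n i a t ≤
      (8 * p.s) ^ n * (2 * p.s) ^ (p.F - a) * p.b ^ (p.T1 - t) := by
  have hs := need_s hp
  have hb : 0 < p.b := by have := hp.two_le_b; omega
  induction n using Nat.strong_induction_on generalizing a t with
  | _ n ih =>
    cases n with
    | zero =>
      refine le_trans (sum_le_sum (g := fun i => if i = 0 then 1 else 0) fun i _ => ?_)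
        (le_trans ?_ (Nat.succ_le_of_lt (by positivity)))
      · rw [need_zero]
        split_ifs with h1 h2
        · exact le_rfl
        · exact absurd h1.1 h2
        · exact Nat.zero_le _
        · exact le_rfl
      · rw [sum_ite_eq']
        split_ifs <;> omega
    | succ n =>
      obtain ⟨X, hX⟩ : ∃ X, X = (8 * p.s) ^ n * (2 * p.s) ^ (p.F - a) * p.b ^ (p.T1 - t) :=
        ⟨_, rfl⟩
      have key : ∀ m ≤ n, ∀ k u, (∑ i ∈ range p.P, nf p z zr m i (a + k) (t + u)) *
          (2 * p.s) ^ k * p.b ^ u ≤ X := by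
        intro m hm k u
        by_cases h0 : ∑ i ∈ range p.P, nf p z zr m i (a + k) (t + u) = 0
        · rw [h0, zero_mul, zero_mul]
          exact Nat.zero_le _
        · obtain ⟨i, -, hi⟩ := exists_ne_zero_of_sum_ne_zero h0
          obtain ⟨-, c1, c2⟩ := nf_range hp hi
          refine (Nat.mul_le_mul_right _ (Nat.mul_le_mul_right _ (ih m (by omega) _ _))).trans ?_
          rw [hX, show p.F - a = p.F - (a + k) + k by omega,
            show p.T1 - t = p.T1 - (t + u) + u by omega, pow_add, pow_add]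
          refine le_of_eq_of_le (b := (8 * p.s) ^ m * ((2 * p.s) ^ (p.F - (a + k)) * (2 * p.s) ^ k) *
            (p.b ^ (p.T1 - (t + u)) * p.b ^ u)) (by ring) ?_
          exact Nat.mul_le_mul_right _ (Nat.mul_le_mul_right _
            (Nat.pow_le_pow_right (by omega) hm))
      have a1 : ∑ i ∈ range p.P, nf p z zr n (i / p.b) a (t + 1) ≤ X := by
        refine (need_split hb _ fun q _ => nf p z zr n q a (t + 1)).trans ?_
        have := key n le_rfl 0 1
        simp only [sum_const, card_range, smul_eq_mul, ← mul_sum]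
        simpa [mul_comm] using this
      have a2 := need_block hp hp.b_eq hp.r_pos (Nat.le_mul_of_pos_right _ hp.r0_pos)
        (fun q k => nf p z zr n q (a + k) (max t 1)) (z (p.H - n)) (Y := X) fun k => by
          have := key n le_rfl k (max t 1 - t)
          rw [show t + (max t 1 - t) = max t 1 by omega] at this
          exact (Nat.le_mul_of_pos_right _ (by positivity)).trans this
      have a3 : ∑ i ∈ range p.P, (if t = 0 ∧ p.r0 ≤ n + 1 then
          nf p z zr (n - (p.r0 - 1)) (i / p.b0) (a + (p.r * p.r0 - 1)) 0 + ∑ j ∈ range p.rr1,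
            if j = 0 ∨ p.r * p.r0 ≤ j then 0 else
              p.sel (zr (p.H - (n - (p.r0 - 1))) (i / p.b0)) p.b0 j (i % p.b0) *
                nf p z zr (n - (p.r0 - 1)) (i / p.b0) (a + (j - 1)) 0 else 0) ≤
          2 * (p.s * X) := by
        by_cases hc : t = 0 ∧ p.r0 ≤ n + 1
        · simp only [if_pos hc]
          refine le_of_eq_of_le (sum_congr rfl fun i _ => ?_) (need_block hp (need_b0 hp)
            (Nat.mul_pos hp.r_pos hp.r0_pos) le_rfl
            (fun q k => nf p z zr (n - (p.r0 - 1)) q (a + k) 0) (zr (p.H - (n - (p.r0 - 1))))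
            (Y := X) fun k => ?_)
          · rw [hp.rr1_eq, sum_range_succ, if_pos (Or.inr le_rfl), add_zero]
            refine congrArg _ (sum_congr rfl fun j hj => ?_)
            simp only [not_le.2 (mem_range.1 hj), or_false]
          · have := key (n - (p.r0 - 1)) (Nat.sub_le _ _) k 0
            rw [hc.1] at this
            simpa using this
        · simp only [if_neg hc, sum_const_zero]
          exact Nat.zero_le _
      have a4 := add_le_add (add_le_add a1 a2) a3
      rw [← sum_add_distrib, ← sum_add_distrib] at a4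
      refine le_trans (sum_le_sum fun i _ => ?_) (a4.trans ?_)
      · rw [need_succ, ← add_assoc]
        exact min_le_right _ _
      · rw [pow_succ]
        refine le_of_le_of_eq (b := 8 * (p.s * X)) ?_ (by rw [hX]; ring)
        have := Nat.le_mul_of_pos_left X (show 0 < p.s by omega)
        omega

theorem need_fwd_le (R : ℕ → ℕ) (c k e : ℕ) : fwd R c (k + e) ≤ R k + c * e := by
  induction e with
  | zero =>
    cases k with
    | zero => exact le_rfl
    | succ k => exact min_le_left _ _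
  | succ e ih =>
    refine (min_le_right _ _).trans ?_
    rw [mul_add, mul_one, ← add_assoc]
    exact Nat.add_le_add_right ih c

theorem need_fwd_eq (R : ℕ → ℕ) (c k : ℕ) : ∃ k' e, k = k' + e ∧ fwd R c k = R k' + c * e := by
  induction k with
  | zero => exact ⟨0, 0, rfl, rfl⟩
  | succ k ih =>
    obtain ⟨k', e, h1, h2⟩ := ih
    rcases le_total (R (k + 1)) (fwd R c k + c) with h | h
    · exact ⟨k + 1, 0, rfl, min_eq_left h⟩
    · exact ⟨k', e + 1, by omega, by rw [fwd, min_eq_right h, h2]; ring⟩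

theorem fwd_le (R : ℕ → ℕ) (c k : ℕ) : fwd R c k ≤ R k := need_fwd_le R c k 0

theorem need_sd (sl k e : ℕ) : p.sd sl (k + e) = p.sd sl k + p.sg sl * e := by
  unfold Par.sd
  ring

theorem col_eq (R : ℕ → ℕ) {sl : ℕ} (hg : 1 ≤ p.sg sl) (d : ℕ) :
    p.col R sl d = p.colT (fwd R (2 * p.U * p.sg sl))
      (fwd (fun j => R (2 * p.Dh - j)) (2 * p.U * p.sg sl)) sl d := by
  have h0 : p.kl0 sl d ≤ 2 * p.Dh := min_le_right _ _
  have hd := Nat.div_mul_le_self (d - (p.O - p.Dh)) (p.sg sl)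
  have hd' := Nat.lt_mul_div_succ (d - (p.O - p.Dh)) hg
  unfold Par.col Par.colT
  refine le_antisymm (le_min ?_ ?_) ?_
  · obtain ⟨k, e, h1, h2⟩ := need_fwd_eq R (2 * p.U * p.sg sl) (p.kl0 sl d)
    refine (mn_le _ (show k < 2 * p.Dh + 1 by omega)).trans ?_
    rw [h2, h1, need_sd, add_assoc, mul_assoc (2 * p.U), ← mul_add]
    refine Nat.add_le_add_left (Nat.mul_le_mul_left _ ?_) _
    unfold Nat.dist
    omega
  · obtain ⟨k, e, h1, h2⟩ := need_fwd_eq (fun j => R (2 * p.Dh - j)) (2 * p.U * p.sg sl)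
      (2 * p.Dh - min (p.kl0 sl d + 1) (2 * p.Dh))
    refine (mn_le _ (show 2 * p.Dh - k < 2 * p.Dh + 1 by omega)).trans ?_
    rw [h2, add_assoc, mul_assoc (2 * p.U), ← mul_add]
    refine Nat.add_le_add_left (Nat.mul_le_mul_left _ ?_) _
    rw [show 2 * p.Dh - k = min (p.kl0 sl d + 1) (2 * p.Dh) + e by omega, need_sd]
    unfold Nat.dist
    omega
  · obtain ⟨k, hk, e⟩ := exists_mn' (Nat.succ_pos (2 * p.Dh))
      fun k => R k + 2 * p.U * Nat.dist d (p.sd sl k)
    rw [e]
    rcases le_or_gt k (p.kl0 sl d) with h | h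
    · obtain ⟨w, hw⟩ := Nat.exists_eq_add_of_le h
      refine (min_le_left _ _).trans ?_
      rw [hw]
      refine (Nat.add_le_add_right (need_fwd_le _ _ _ _) _).trans ?_
      rw [add_assoc, mul_assoc (2 * p.U), ← mul_add]
      refine Nat.add_le_add_left (Nat.mul_le_mul_left _ ?_) _
      have a1 : (k + w) * p.sg sl ≤ (d - (p.O - p.Dh)) / p.sg sl * p.sg sl :=
        Nat.mul_le_mul_right _ (hw ▸ min_le_left _ _)
      rw [add_mul, mul_comm k, mul_comm w] at a1
      rw [need_sd]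
      unfold Nat.dist Par.sd
      omega
    · have h1 : min (p.kl0 sl d + 1) (2 * p.Dh) = p.kl0 sl d + 1 := by omega
      obtain ⟨w, hw⟩ := Nat.exists_eq_add_of_le (Nat.succ_le_of_lt h)
      refine (min_le_right _ _).trans ?_
      rw [h1, show 2 * p.Dh - (p.kl0 sl d + 1) = 2 * p.Dh - k + w by omega]
      refine (Nat.add_le_add_right (need_fwd_le _ _ _ _) _).trans ?_
      rw [show 2 * p.Dh - (2 * p.Dh - k) = k by omega, add_assoc, mul_assoc (2 * p.U), ← mul_add]
      refine Nat.add_le_add_left (Nat.mul_le_mul_left _ ?_) _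
      have a1 : p.kl0 sl d = (d - (p.O - p.Dh)) / p.sg sl := by
        unfold Par.kl0 at h ⊢
        omega
      rw [hw, Nat.succ_eq_add_one, need_sd sl _ w]
      rw [← a1] at hd'
      unfold Nat.dist Par.sd
      omega

end Vale.Agent.P315
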