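import Vale.Agent.P315.ParD
import Vale.Agent.P315.CxB
import Vale.Agent.P315.Need

/-! The phase that computes the flags. -/

open Finset

namespace Vale.Agent.P315

theorem phFlag_lt {x X y B : ℕ} (hx : x < X) (hy : y < B) : x * B + y < X * B := by
  have := Nat.mul_le_mul_right B (Nat.succ_le_of_lt hx)
  rw [Nat.succ_mul] at this
  omega

theorem phFlag_tx_lt (p : Par) {n N i a t : ℕ} (hn : n < N) (hi : i < p.P) (ha : a ≤ p.F)
    (ht : t < p.T1) : p.tx n i a t < N * p.P * (p.F + 1) * p.T1 :=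
  phFlag_lt (phFlag_lt (phFlag_lt hn hi) (Nat.lt_succ_of_le ha)) ht

theorem phFlag_dec (p : Par) (n : ℕ) {i a t : ℕ} (hi : i < p.P) (ha : a ≤ p.F) (ht : t < p.T1) :
    p.tx n i a t / p.T1 / (p.F + 1) / p.P = n ∧ p.tx n i a t / p.T1 / (p.F + 1) % p.P = i ∧
      p.tx n i a t / p.T1 % (p.F + 1) = a ∧ p.tx n i a t % p.T1 = t := by
  unfold Par.tx
  rw [(need_dm _ ht).1, (need_dm _ ht).2, (need_dm _ (Nat.lt_succ_of_le ha)).1,
    (need_dm _ (Nat.lt_succ_of_le ha)).2, (need_dm _ hi).1, (need_dm _ hi).2]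
  exact ⟨rfl, rfl, rfl, rfl⟩

/-- The table of flags. -/
def phFlag_tb (p : Par) (z zr : ℕ → ℕ → ℕ → ℕ) (c : ℕ) : ℕ :=
  nf p z zr (c / p.T1 / (p.F + 1) / p.P) (c / p.T1 / (p.F + 1) % p.P) (c / p.T1 % (p.F + 1))
    (c % p.T1)

theorem phFlag_read {p : Par} {z zr : ℕ → ℕ → ℕ → ℕ} (hp : p.Ok) {m m' : Mem} {j N : ℕ}
    (hm : PM m' = p) (h : Filled 9 0 j (phFlag_tb p z zr) m m')
    (hj : N * p.P * (p.F + 1) * p.T1 ≤ j) {n i : ℕ} (hn : n < N) (hi : i < p.P) :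
    fM m' n i = nf p z zr n i := by
  funext a t
  unfold fM
  rw [hm]
  split_ifs with h1
  · have h2 := h.2.1 _ ((phFlag_tx_lt p hn hi h1.1 h1.2).trans_le hj)
    obtain ⟨e1, e2, e3, e4⟩ := phFlag_dec p n hi h1.1 h1.2
    rw [zero_add, phFlag_tb, e1, e2, e3, e4] at h2
    exact h2
  · by_contra h2
    exact h1 (nf_range hp fun h3 => h2 h3.symm).2

theorem phFlag_step {p : Par} {mis : ℕ → ℕ → ℕ} {z zr : ℕ → ℕ → ℕ → ℕ} (hp : p.Ok) {m m' : Mem}
    {j d i a t : ℕ} (hm : MemOk p mis z zr m') (hf : Filled 9 0 j (phFlag_tb p z zr) m m')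
    (hj : d * p.P * (p.F + 1) * p.T1 ≤ j) (hi : i < p.P) (ha : a < p.F + 1) (ht : t < p.T1) :
    (if d = 0 then if i = 0 then 1 else 0 else
      p.nstep (zM m' (p.H - (d - 1)) (i / p.b)) (zrM m' (p.H - (d - 1 - (p.r0 - 1))) (i / p.b0))
        (fM m' (d - 1) (i / p.b)) (fM m' (d - 1 - (p.r0 - 1)) (i / p.b0)) (p.r0 ≤ d - 1 + 1)
        i a t) = nf p z zr d i a t := by
  cases d with
  | zero =>
    rw [if_pos rfl, need_zero]
    by_cases h : i = 0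
    · rw [if_pos h, if_pos ⟨h, by omega, ht⟩]
    · rw [if_neg h, if_neg fun h' => h h'.1]
  | succ d =>
    have i1 : i / p.b < p.P := (Nat.div_le_self _ _).trans_lt hi
    have i2 : i / p.b0 < p.P := (Nat.div_le_self _ _).trans_lt hi
    rw [if_neg (Nat.succ_ne_zero d), need_succ, ← hm.z _ (Nat.sub_le _ _) _ i1,
      ← hm.zr _ (Nat.sub_le _ _) _ i2, ← phFlag_read hp hm.pm hf hj (Nat.lt_succ_self d) i1,
      ← phFlag_read hp hm.pm hf hj (by omega : d - (p.r0 - 1) < d + 1) i2]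
    rfl

theorem ph_flag : ∃ c : Cmd, ∀ (V S : ℕ) (e : Env) (m : Mem) (p : Par) (mis : ℕ → ℕ → ℕ)
    (z zr : ℕ → ℕ → ℕ → ℕ), p.Ok → MemOk p mis z zr m → p.Nn * (p.F + 1) * p.T1 ≤ V →
    Tri V S c e m (1 + 2 * (p.Nn * (p.F + 1) * p.T1)) fun m' => Same [9] m m' ∧ FlagOk p z zr m' := by
  have hF : Cx fun _ m => (PM m).F + 1 := cxB_succ (Cx.cell 6 15)
  have hT : Cx fun _ m => (PM m).T1 := Cx.cell 5 7
  have hP : Cx fun _ m => (PM m).P := Cx.cell 6 17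
  have hn : Cx fun _ m => (PM m).Nn * ((PM m).F + 1) * (PM m).T1 :=
    (((cxB_succ (Cx.cell 6 16)).mul hP).mul hF).mul hT
  have h1 := (Cx.var 0).div hT
  have h2 := h1.div hF
  have hd := h2.div hP
  have hi := h2.mod hP
  obtain ⟨c, hc⟩ := fill 9 (by omega) hn (Cx.const 0) (Cx.ite (cxB_z hd)
    (Cx.ite (cxB_z hi) (Cx.const 1) (Cx.const 0))
    (cx_nstep (cxB_pred hd) hi (h1.mod hF) ((Cx.var 0).mod hT)))
  refine ⟨c, fun V S e m p mis z zr hp hm hV => ?_⟩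
  have hP0 : 0 < p.P := hp.Dh_pos.trans hp.Dh_le
  have key := hc V S e m (phFlag_tb p z zr) (by rw [hm.pm]; exact hV)
    (fun j hj => by
      rw [hm.pm] at hj
      exact (nf_le_one _ _ _ _).trans (by omega)) (by
      intro j hj m' hf
      rw [hm.pm] at hj
      have hm' := hm.same hf.1 (by simp)
      refine ⟨rfl, ?_⟩
      have hj' : j / p.T1 / (p.F + 1) / p.P * p.P * (p.F + 1) * p.T1 ≤ j :=
        (Nat.mul_le_mul_right _ ((Nat.mul_le_mul_right _ (Nat.div_mul_le_self _ _)).trans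
          (Nat.div_mul_le_self _ _))).trans (Nat.div_mul_le_self _ _)
      rw [hm'.pm]
      exact phFlag_step hp hm' hf hj' (Nat.mod_lt _ hP0) (Nat.mod_lt _ (Nat.succ_pos _))
        (Nat.mod_lt _ hp.T1_pos))
  rw [hm.pm] at key
  refine key.mono le_rfl fun m' hf => ⟨hf.1, fun n hn i hi a t => ?_⟩
  rw [phFlag_read hp (hm.same hf.1 (by simp)).pm hf le_rfl (Nat.lt_succ_of_le hn) hi]

end Vale.Agent.P315
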