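import Vale.Agent.P315.PhTab
import Vale.Agent.P315.PhFlag
import Vale.Agent.P315.NumB

/-! All runs and the output. -/

open Finset

namespace Vale.Agent.P315

theorem phm_ok {p p' : Par} {mis : ℕ → ℕ → ℕ} {z zr : ℕ → ℕ → ℕ → ℕ} {m m' : Mem}
    (h : MemOk p mis z zr m) (hs : Same [6] m m') (h13 : m' 6 13 = m 6 13) (hp : PM m' = p')
    (e1 : p'.H = p.H) (e2 : p'.P = p.P) (e3 : p'.Bf = p.Bf) (e4 : p'.Br = p.Br) :
    MemOk p' mis z zr m' := by
  refine ⟨hp, Eq.trans ?_ h.mis, fun a ha i hi => Eq.trans ?_ (h.z a (e1 ▸ ha) i (e2 ▸ hi)),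
    fun a ha i hi => Eq.trans ?_ (h.zr a (e1 ▸ ha) i (e2 ▸ hi))⟩
  · unfold misM
    rw [hs 0 (by simp), hs 1 (by simp), hs 2 (by simp), h13]
  · unfold zM
    rw [hp, h.pm, e2, e3, hs 8 (by simp)]
  · unfold zrM
    rw [hp, h.pm, e2, e4, hs 7 (by simp)]

theorem phm_set {n ρ ρ' : ℕ} {mis : ℕ → ℕ → ℕ} {z zr : ℕ → ℕ → ℕ → ℕ} {m : Mem}
    (h : MemOk (par n ρ') mis z zr m) :
    MemOk (par n ρ) mis z zr ((m.write 6 14 (2 ^ ρ)).write 6 15 (ff n ρ)) := by
  refine phm_ok h ((Same.write _ _ _ _).trans (Same.write _ _ _ _)) rfl ?_ rfl rfl rfl rfl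
  have e : m.write 6 14 (2 ^ ρ) 4 = m 4 := Same.write m 6 14 _ 4 (by simp)
  have e' := (Same.write (m.write 6 14 (2 ^ ρ)) 6 15 (ff n ρ) 4 (by simp)).trans e
  have : PM ((m.write 6 14 (2 ^ ρ)).write 6 15 (ff n ρ)) =
      { PM m with Dh := 2 ^ ρ, F := ff n ρ } := by
    unfold PM
    rw [e']
    rfl
  rw [this, h.pm]
  rfl

theorem phm_keep {p : Par} {mis : ℕ → ℕ → ℕ} {z zr : ℕ → ℕ → ℕ → ℕ} {m : Mem}
    (h : MemOk p mis z zr m) (v : ℕ) : MemOk p mis z zr (m.write 6 25 v) := by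
  refine phm_ok h (Same.write _ _ _ _) rfl (Eq.trans ?_ h.pm) rfl rfl rfl rfl
  unfold PM
  rw [Same.write m 6 25 v 4 (by simp)]
  rfl

theorem ph_main (E : ℕ) (hE : 1 ≤ E) : ∃ c : Cmd, ∀ (V S n : ℕ) (e : Env) (m : Mem)
    (mis : ℕ → ℕ → ℕ) (z zr : ℕ → ℕ → ℕ → ℕ), Sz n → MemOk (par n 0) mis z zr m →
    (∀ q d, mis q d ≤ 1) → m 0 0 + m 0 1 ≤ n → m 6 21 = kk n → m 6 23 = lP n → m 6 24 = xs n →
    2 ^ (10 * kk n) ≤ V →
    Tri V S c e m (2 + (kk n + 1) * (1 + 2 ^ (kk n + 200 * (kk n / ww n))))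
      fun m' => m' 3 0 = outv E n mis z zr ((par n 0).O + m 0 1 - m 0 0) := by
  obtain ⟨c1, h1⟩ := put 6 (Cx.const 14) (Cx.get 4 (Cx.var 0))
  obtain ⟨c2, h2⟩ := put 6 (Cx.const 15)
    (cxB_succ ((((Cx.cell 6 23).sub (Cx.var 0)).add (Cx.cell 6 24)).div (Cx.cell 6 2)))
  obtain ⟨c3, h3⟩ := ph_flag
  obtain ⟨c4, h4⟩ := ph_tab
  have hW := cx_WM (Cx.cell 6 16) (Cx.const 0) (Cx.cell 6 15) (cxB_pred (Cx.cell 5 7))
    (Cx.cell 6 13) (((Cx.cell 6 13).add (Cx.cell 0 1)).sub (Cx.cell 0 0))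
  obtain ⟨c5, h5⟩ := put 6 (Cx.const 25) (Cx.ite (cxB_z (Cx.var 0)) hW ((Cx.cell 6 25).min hW))
  obtain ⟨tn, htn⟩ := cxB_succ (Cx.cell 6 21)
  obtain ⟨c6, h6⟩ := put 3 (Cx.const 0)
    (((Cx.cell 6 25).mul (Cx.const (E + 2))).div ((Cx.cell 6 12).mul (Cx.const E)))
  refine ⟨.seq (.rep tn (.seq c1 (.seq c2 (.seq c3 (.seq c4 c5))))) c6,
    fun V S n e m mis z zr sz ok hm hn a21 a23 a24 hV => ?_⟩
  have k1 : 1 ≤ kk n := Nat.succ_pos _
  have v8 : 4 * 2 ^ (8 * kk n) ≤ V := by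
    refine le_trans ?_ hV
    rw [show 4 = 2 ^ 2 from rfl, ← pow_add]
    exact Nat.pow_le_pow_right (by norm_num) (by omega)
  have kV : kk n + 1 ≤ V := by
    have : 8 * kk n < 2 ^ (8 * kk n) := Nat.lt_two_pow_self
    omega
  obtain ⟨f, hf⟩ : ∃ f : ℕ → ℕ, ∀ ρ, f ρ = rootW (par n ρ) mis z zr
    ((par n 0).O + m 0 1 - m 0 0) := ⟨_, fun _ => rfl⟩
  have fb : ∀ ρ ≤ kk n, f ρ ≤ 2 ^ (8 * kk n) := fun ρ hρ => by
    have pk := par_ok sz hρ
    rw [hf]
    refine (Wv_le pk hm _ _ _ _ _ _).trans (le_trans (Nat.mul_le_mul_left _ ?_)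
      (par_six sz hρ ((par n ρ).U * ((par n ρ).P + (par n ρ).O + n + (par n ρ).P * (par n ρ).P0))
        (by simp only [List.mem_cons, true_or, or_true])))
    rw [pk.len_eq _ le_rfl, ← pk.P_eq, show (par n 0).O = (par n ρ).O from rfl, Nat.dist]
    omega
  have en : tn.eval m e = kk n + 1 := (htn e m).trans (congrArg (· + 1) a21)
  have key := Tri.rep (V := V) (S := S) (e := e) (m := m) (n := tn)
    (p := .seq c1 (.seq c2 (.seq c3 (.seq c4 c5))))
    (fun j m' => (∃ ρ', MemOk (par n ρ') mis z zr m') ∧ m' 0 = m 0 ∧ m' 6 23 = lP n ∧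
      m' 6 24 = xs n ∧ (1 ≤ j → m' 6 25 = mn j f))
    (fun _ => 2 ^ (kk n + 200 * (kk n / ww n))) (by rwa [en])
    ⟨⟨0, ok⟩, rfl, a23, a24, fun h => absurd h (by omega)⟩ (by
      rintro j hj m1 ⟨⟨ρ', o1⟩, b0, b23, b24, b25⟩
      have hρ : j ≤ kk n := by omega
      have pk := par_ok sz hρ
      have six := par_six sz hρ
      simp only [List.forall_mem_cons] at six
      obtain ⟨-, -, -, -, -, -, -, -, -, -, -, -, -, -, s1, s2, -, -, -, -, -, -, -, -, -, -, -, -,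
        s3, s4, s5, -⟩ := six
      have e1 : m1 4 j = 2 ^ j := (congrArg (fun p => p.pw j) o1.pm).trans (if_pos (by omega))
      have e2 : m1 6 2 = ww n ^ 3 := congrArg Par.ws o1.pm
      have s1' : 2 ^ j ≤ 2 ^ (8 * kk n) := s1
      have s2' : ff n j ≤ 2 ^ (8 * kk n) := s2
      refine Tri.mono (Tri.seq ((h1 V S _ m1 (show m1 4 j ≤ V by omega) (by omega)).mono le_rfl ?_)
        (n₂ := 1 + ((1 + 2 * ((par n j).Nn * ((par n j).F + 1) * (par n j).T1)) +
          ((1 + 2 * ((par n j).Nn * ((par n j).F + 1) * (par n j).T1) +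
          3 * (1 + 2 * ((par n j).NS1 * (par n j).K)) * (((par n j).H + 1) * ((par n j).F + 1) *
          (par n j).T1 * ((8 * (par n j).s) ^ (par n j).H * (2 * (par n j).s) ^ (par n j).F *
          (par n j).b ^ (par n j).T1))) + 1))))
        (le_trans ?_ (par_time sz hρ).1) fun _ h => h
      · rintro _ rfl
        have e3 : (m1.write 6 14 (m1 4 j) 6 23 - j + m1.write 6 14 (m1 4 j) 6 24) /
            m1.write 6 14 (m1 4 j) 6 2 + 1 = ff n j := by
          rw [write_ne _ _ (Or.inr (by omega)), write_ne _ _ (Or.inr (by omega)),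
            write_ne _ _ (Or.inr (by omega)), b23, b24, e2]
          rfl
        refine Tri.seq ((h2 V S (cons j e) _ (e3.le.trans (by omega)) (by omega)).mono le_rfl ?_)
        rintro m2 rfl
        have o2 := phm_set (ρ := j) o1
        rw [← e3, ← e1] at o2
        refine Tri.seq ((h3 V S _ _ _ mis z zr pk o2 (by omega)).mono le_rfl fun m3 a3 => ?_)
        have o3 := o2.same a3.1 (by simp)
        refine Tri.seq ((h4 V S _ _ _ mis z zr pk o3 a3.2 (by omega) (by omega)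
          (le_trans (Nat.mul_le_mul_left _ (by omega)) (s5.trans (by omega)))).mono le_rfl
          fun m4 a4 => ?_)
        have o4 := o3.same a4.1 (by simp)
        have g6 := (a4.1 6 (by simp)).trans (a3.1 6 (by simp))
        have g0 : m4 0 = m 0 := (a4.1 0 (by simp)).trans ((a3.1 0 (by simp)).trans
          ((Same.write _ _ _ _ 0 (by simp)).trans ((Same.write _ _ _ _ 0 (by simp)).trans b0)))
        have g1 : WM m4 (m4 6 16) 0 (m4 6 15) (m4 5 7 - 1) (m4 6 13)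
            (m4 6 13 + m4 0 1 - m4 0 0) = f j := by
          rw [show m4 6 16 = _ from congrArg Par.H o4.pm, show m4 6 15 = _ from congrArg Par.F o4.pm,
            show m4 5 7 = _ from congrArg Par.T1 o4.pm, show m4 6 13 = _ from congrArg Par.O o4.pm,
            a4.2, g0, hf]
          rfl
        have g2 : m4 6 25 = m1 6 25 := congrFun g6 25
        have g3 := fb j hρ
        have g4 : (if j = 0 then f j else min (m4 6 25) (f j)) = mn (j + 1) f := by
          split_ifs with h0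
          · rw [h0]
            exact (min_self _).symm
          · rw [g2, b25 (by omega)]
            rfl
        refine (h5 V S (cons j e) m4 ?_ (by omega)).mono le_rfl ?_
        · show (if j = 0 then _ else _) ≤ V
          rw [g1]
          split_ifs <;> omega
        · rintro _ rfl
          refine ⟨⟨j, phm_keep o4 _⟩, (Same.write _ _ _ _ 0 (by simp)).trans g0,
            (congrFun g6 23).trans b23, (congrFun g6 24).trans b24, fun _ => ?_⟩
          rw [write_same, ← g4, ← g1]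
          rfl
      · unfold Par.runT
        omega)
  rw [en] at key
  refine Tri.mono (Tri.seq (key.mono le_rfl ?_) (n₂ := 1)) (le_of_eq ?_) fun _ h => h
  · rintro m1 ⟨⟨ρ', o1⟩, -, -, -, b25⟩
    have b1 := b25 (by omega)
    have e1 : m1 6 12 = (par n 0).U := congrArg Par.U o1.pm
    have b2 := (mn_le_zero (kk n + 1) f).trans (fb 0 (Nat.zero_le _))
    refine (h6 V S e m1 ?_ (by omega)).mono le_rfl ?_
    · refine Nat.div_le_of_le_mul ?_
      have u1 := (par_ok sz (Nat.zero_le _)).U_pos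
      calc m1 6 25 * (E + 2) ≤ 2 ^ (8 * kk n) * (4 * E) := Nat.mul_le_mul (by omega) (by omega)
        _ = 1 * E * (4 * 2 ^ (8 * kk n)) := by ring
        _ ≤ m1 6 12 * E * V := by gcongr; omega
    · rintro _ rfl
      rw [write_same, b1, e1, outv, funext hf]
  · rw [sum_const, card_range, smul_eq_mul]
    omega

end Vale.Agent.P315
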