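import Vale.Agent.P315.NumA
import Vale.Agent.P315.NumB

/-! The phase that computes the parameters. -/

open Finset

namespace Vale.Agent.P315

/-- The loop that computes the number of bits. -/
theorem phPar_bits (c1 c2 : ℕ) (hne : c1 ≠ c2) {x : Env → Mem → ℕ} (hx : Cx x) :
    ∃ c : Cmd, ∀ (V S : ℕ) (e : Env) (m : Mem), 1 ≤ x e m → x e m ≤ V →
      Tri V S c e m (4 * x e m + 3) fun m' => Same [6] m m' ∧
        m' 6 c2 = Nat.log 2 (x e m) + 1 ∧ ∀ i, i ≠ c1 → i ≠ c2 → m' 6 i = m 6 i := by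
  obtain ⟨p1, h1⟩ := put 6 (Cx.const c1) hx
  obtain ⟨p2, h2⟩ := put 6 (Cx.const c2) (Cx.const 0)
  obtain ⟨p3, h3⟩ := put 6 (Cx.const c1) ((Cx.cell 6 c1).div (Cx.const 2))
  obtain ⟨p4, h4⟩ := put 6 (Cx.const c2) ((Cx.cell 6 c2).add (Cx.const 1))
  refine ⟨.seq p1 (.seq p2 (.rep (.get 6 (.const c1)) (.when (.get 6 (.const c1)) (.seq p3 p4)))),
    fun V S e m hx1 hxV => ?_⟩
  set X := x e m with hX
  have key : Tri V S (.rep (.get 6 (.const c1)) (.when (.get 6 (.const c1)) (.seq p3 p4))) e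
      ((m.write 6 c1 X).write 6 c2 0) (1 + 4 * X) fun m' => Same [6] m m' ∧
        m' 6 c2 = Nat.log 2 X + 1 ∧ ∀ i, i ≠ c1 → i ≠ c2 → m' 6 i = m 6 i := by
    have e0 : Term.eval ((m.write 6 c1 X).write 6 c2 0) (.get 6 (.const c1)) e = X := by
      show ((m.write 6 c1 X).write 6 c2 0) 6 c1 = X
      rw [write_ne _ _ (Or.inr hne), write_same]
    have := Tri.rep (V := V) (S := S) (e := e) (m := (m.write 6 c1 X).write 6 c2 0)
      (n := .get 6 (.const c1)) (p := .when (.get 6 (.const c1)) (.seq p3 p4))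
      (fun j m' => Same [6] m m' ∧ m' 6 c1 = X / 2 ^ j ∧ m' 6 c2 = min j (Nat.log 2 X + 1) ∧
        ∀ i, i ≠ c1 → i ≠ c2 → m' 6 i = m 6 i) (fun _ => 3) (by rw [e0]; exact hxV)
      ⟨(Same.write _ _ _ _).trans (Same.write _ _ _ _), by
        rw [write_ne _ _ (Or.inr hne), write_same]; simp, by rw [write_same]; simp,
        fun i h1 h2 => by rw [write_ne _ _ (Or.inr h2), write_ne _ _ (Or.inr h1)]⟩ (by
      intro j hj m' hm
      rw [e0] at hj
      obtain ⟨s1, s2, s3, s4⟩ := hm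
      have hp : 0 < 2 ^ j := by positivity
      by_cases hz : X / 2 ^ j = 0
      · have hlt : X < 2 ^ j := by
          rcases Nat.div_eq_zero_iff.1 hz with h | h
          · omega
          · exact h
        have hl : Nat.log 2 X < j := Nat.log_lt_of_lt_pow (by omega) hlt
        refine (Tri.when_neg (c := .get 6 (.const c1)) (show m' 6 c1 = 0 by rw [s2, hz]) ?_).mono
          (by omega) fun _ h => h
        refine ⟨s1, ?_, by rw [s3]; omega, s4⟩
        rw [s2, hz, pow_succ, ← Nat.div_div_eq_div_mul, hz]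
      · have hle : 2 ^ j ≤ X := by
          by_contra hc
          exact hz (Nat.div_eq_of_lt (by omega))
        have hl : j ≤ Nat.log 2 X := Nat.le_log_of_pow_le (by norm_num) hle
        have hd : X / 2 ^ j ≤ X := Nat.div_le_self _ _
        refine Tri.when_pos (n := 1 + 1) (show m' 6 c1 ≠ 0 by rw [s2]; exact hz) (Tri.seq ?_)
        refine (h3 V S _ m' (by show m' 6 c1 / 2 ≤ V; rw [s2]; omega) (by omega)).mono le_rfl ?_
        rintro _ rfl
        have e1 : (m'.write 6 c1 (m' 6 c1 / 2)) 6 c2 = j := by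
          rw [write_ne _ _ (Or.inr hne.symm), s3]; omega
        refine (h4 V S _ _ (by rw [e1]; omega) (by omega)).mono le_rfl ?_
        rintro _ rfl
        refine ⟨s1.trans ((Same.write _ _ _ _).trans (Same.write _ _ _ _)), ?_, ?_, fun i h1 h2 => ?_⟩
        · rw [write_ne _ _ (Or.inr hne), write_same, s2, pow_succ, Nat.div_div_eq_div_mul]
        · rw [write_same, e1]; omega
        · rw [write_ne _ _ (Or.inr h2), write_ne _ _ (Or.inr h1), s4 i h1 h2])
    rw [e0] at this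
    refine this.mono (le_of_eq (by simp [mul_comm])) fun m' h => ⟨h.1, ?_, h.2.2.2⟩
    have : Nat.log 2 X < X := Nat.log_lt_self 2 (by omega)
    rw [h.2.2.1]; omega
  refine (Tri.seq (n₁ := 1) (n₂ := 1 + (1 + 4 * X)) ?_).mono (by omega) fun _ h => h
  refine (h1 V S e m hxV (by omega)).mono le_rfl ?_
  rintro _ rfl
  refine Tri.seq ((h2 V S e _ (by omega) (by omega)).mono le_rfl ?_)
  rintro _ rfl
  exact key

/-- The loop that computes the slowly growing parameter. -/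
theorem phPar_w : ∃ c : Cmd, ∀ (V S : ℕ) (e : Env) (m : Mem), m 6 27 ≤ V → m 6 28 = 0 →
    Tri V S c e m (1 + 3 * m 6 27) fun m' => Same [6] m m' ∧
      m' 6 28 = Nat.findGreatest (fun j => 40 * j ^ 4 < m 6 27) (m 6 27) ∧
      ∀ i, i ≠ 28 → m' 6 i = m 6 i := by
  have hj : Cx fun e _ => e 0 + 1 := (Cx.var 0).add (Cx.const 1)
  obtain ⟨p1, h1⟩ := put 6 (Cx.const 28) hj
  obtain ⟨t, ht⟩ := CxP.lt ((Cx.const 40).mul (((hj.mul hj).mul hj).mul hj)) (Cx.cell 6 27)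
  refine ⟨.rep (.get 6 (.const 27)) (.when t p1), fun V S e m hV h0 => ?_⟩
  have := Tri.rep (V := V) (S := S) (e := e) (m := m) (n := .get 6 (.const 27)) (p := .when t p1)
    (fun j m' => Same [6] m m' ∧ m' 6 28 = Nat.findGreatest (fun j => 40 * j ^ 4 < m 6 27) j ∧
      ∀ i, i ≠ 28 → m' 6 i = m 6 i) (fun _ => 2) hV ⟨Same.refl _ _, h0, fun _ _ => rfl⟩ (by
    intro j hj m' hm
    change j < m 6 27 at hj
    obtain ⟨s1, s2, s3⟩ := hm
    have e1 : t.eval m' (cons j e) ≠ 0 ↔ 40 * (j + 1) ^ 4 < m 6 27 := by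
      rw [ht]
      show 40 * ((j + 1) * (j + 1) * (j + 1) * (j + 1)) < m' 6 27 ↔ _
      rw [show (j + 1) * (j + 1) * (j + 1) * (j + 1) = (j + 1) ^ 4 by ring, s3 27 (by omega)]
    by_cases hc : 40 * (j + 1) ^ 4 < m 6 27
    · refine Tri.when_pos (n := 1) (e1.2 hc) ?_
      refine (h1 V S _ m' (show j + 1 ≤ V by omega) (by omega)).mono le_rfl ?_
      rintro _ rfl
      refine ⟨s1.trans (Same.write _ _ _ _), ?_, fun i hi => ?_⟩
      · rw [write_same, Nat.findGreatest_succ, if_pos hc]; rfl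
      · rw [write_ne _ _ (Or.inr hi), s3 i hi]
    · refine (Tri.when_neg (by_contra fun h => hc (e1.1 h)) ?_).mono (by omega) fun _ h => h
      exact ⟨s1, by rw [s2, Nat.findGreatest_succ, if_neg hc], s3⟩)
  exact this.mono (le_of_eq (by simp [Term.eval, mul_comm])) fun _ h => h

/-- The basic parameters and the powers of two are in memory. -/
def PhParGd (n : ℕ) (m : Mem) : Prop :=
  Sz n ∧ m 6 21 = kk n ∧ m 6 27 = ll n ∧ m 6 28 = ww n ∧
    m 4 = fun e => if e ≤ 8 * kk n then 2 ^ e else 0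

/-- Functions of the length that are computed from the basic parameters. -/
def PhParCv (f : ℕ → ℕ) : Prop := ∃ g : Env → Mem → ℕ, Cx g ∧ ∀ n e m, PhParGd n m → g e m = f n

namespace PhParCv
variable {f g : ℕ → ℕ}

theorem const (c : ℕ) : PhParCv fun _ => c := ⟨_, Cx.const c, fun _ _ _ _ => rfl⟩

theorem k : PhParCv kk := ⟨_, Cx.cell 6 21, fun _ _ _ h => h.2.1⟩

theorem l : PhParCv ll := ⟨_, Cx.cell 6 27, fun _ _ _ h => h.2.2.1⟩

theorem w : PhParCv ww := ⟨_, Cx.cell 6 28, fun _ _ _ h => h.2.2.2.1⟩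

theorem add (hf : PhParCv f) (hg : PhParCv g) : PhParCv fun n => f n + g n :=
  let ⟨_, a, b⟩ := hf; let ⟨_, c, d⟩ := hg
  ⟨_, a.add c, fun n e m h => by rw [b n e m h, d n e m h]⟩

theorem sub (hf : PhParCv f) (hg : PhParCv g) : PhParCv fun n => f n - g n :=
  let ⟨_, a, b⟩ := hf; let ⟨_, c, d⟩ := hg
  ⟨_, a.sub c, fun n e m h => by rw [b n e m h, d n e m h]⟩

theorem mul (hf : PhParCv f) (hg : PhParCv g) : PhParCv fun n => f n * g n :=
  let ⟨_, a, b⟩ := hf; let ⟨_, c, d⟩ := hg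
  ⟨_, a.mul c, fun n e m h => by rw [b n e m h, d n e m h]⟩

theorem div (hf : PhParCv f) (hg : PhParCv g) : PhParCv fun n => f n / g n :=
  let ⟨_, a, b⟩ := hf; let ⟨_, c, d⟩ := hg
  ⟨_, a.div c, fun n e m h => by rw [b n e m h, d n e m h]⟩

theorem pow (hf : PhParCv f) : ∀ j : ℕ, PhParCv fun n => f n ^ j
  | 0 => const 1
  | j + 1 => (pow hf j).mul hf

theorem two (hf : PhParCv f) (h : ∀ n, Sz n → f n ≤ 8 * kk n) : PhParCv fun n => 2 ^ f n :=
  let ⟨_, a, b⟩ := hf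
  ⟨_, Cx.get 4 a, fun n e m hm => by rw [b n e m hm, hm.2.2.2.2]; exact if_pos (h n hm.1)⟩

theorem succ (hf : PhParCv f) : PhParCv fun n => f n + 1 := hf.add (const 1)

end PhParCv

/-- Consecutive cells hold the values of a list. -/
def PhParHold (m : Mem) (a n : ℕ) : ℕ → List (ℕ → ℕ) → Prop
  | _, [] => True
  | o, f :: L => m a o = f n ∧ PhParHold m a n (o + 1) L

theorem phPar_puts (a : ℕ) (L : List (ℕ → ℕ)) : ∀ o : ℕ, (∀ f ∈ L, PhParCv f) →
    (a = 5 ∨ a = 6 ∧ (o + L.length ≤ 21 ∨ 22 ≤ o ∧ o + L.length ≤ 27)) →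
    ∃ c : Cmd, ∀ (V S n : ℕ) (e : Env) (m : Mem), PhParGd n m →
      (∀ f ∈ L, f n ≤ V ∧ (a = 5 → f n ≤ S)) →
      Tri V S c e m (L.length + 1) fun m' => Same [a] m m' ∧ PhParGd n m' ∧
        (∀ i < o, m' a i = m a i) ∧ PhParHold m' a n o L := by
  induction L with
  | nil =>
    intro o _ _
    exact ⟨.when (.const 0) (.wr 0 (.const 0) (.const 0)), fun V S n e m hm _ =>
      Tri.when_neg rfl ⟨Same.refl _ _, hm, fun _ _ => rfl, trivial⟩⟩
  | cons f L ih =>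
    intro o hL ha
    simp only [List.length_cons] at ha
    obtain ⟨c, hc⟩ := ih (o + 1) (fun g hg => hL g (List.mem_cons_of_mem _ hg)) (by omega)
    obtain ⟨g, hg, hgf⟩ := hL f List.mem_cons_self
    obtain ⟨p, hp⟩ := put a (Cx.const o) hg
    refine ⟨.seq p c, fun V S n e m hm hb => ?_⟩
    have hf := hb f List.mem_cons_self
    refine (Tri.seq (n₁ := 1) (n₂ := L.length + 1) ?_).mono
      (by simp only [List.length_cons]; omega) fun _ h => h
    refine (hp V S e m (by rw [hgf n e m hm]; exact hf.1)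
      (by rw [hgf n e m hm]; exact hf.2)).mono le_rfl ?_
    rintro _ rfl
    rw [hgf n e m hm]
    have hm' : PhParGd n (m.write a o (f n)) := by
      refine ⟨hm.1, ?_, ?_, ?_, ?_⟩
      · rw [write_ne _ _ (by omega), hm.2.1]
      · rw [write_ne _ _ (by omega), hm.2.2.1]
      · rw [write_ne _ _ (by omega), hm.2.2.2.1]
      · rw [Same.write m a o (f n) 4 (by simp; omega), hm.2.2.2.2]
    refine (hc V S n e _ hm' fun g hg => hb g (List.mem_cons_of_mem _ hg)).mono le_rfl ?_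
    rintro m' ⟨s1, s2, s3, s4⟩
    refine ⟨(Same.write _ _ _ _).trans s1, s2, fun i hi => ?_, ?_, s4⟩
    · rw [s3 i (by omega), write_ne _ _ (Or.inr (by omega))]
    · rw [s3 o (by omega), write_same]

/-- The values of array `5`. -/
def phParL5 : List (ℕ → ℕ) := [fun n => (par n 0).b, fun n => (par n 0).b0, fun n => (par n 0).r,
  fun n => (par n 0).rr1, fun n => (par n 0).np1, fun n => (par n 0).N, fun n => (par n 0).cap1,
  fun n => (par n 0).T1, fun n => (par n 0).It1, fun n => (par n 0).NS1]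

/-- The first values of array `6`. -/
def phParL6 : List (ℕ → ℕ) := [fun n => (par n 0).P0, fun n => (par n 0).r0, fun n => (par n 0).ws,
  fun n => (par n 0).wb, fun n => (par n 0).wd, fun n => (par n 0).wy, fun n => (par n 0).Q,
  fun n => (par n 0).gb, fun n => (par n 0).k0, fun n => (par n 0).gb0, fun n => (par n 0).k1,
  fun n => (par n 0).et, fun n => (par n 0).U, fun n => (par n 0).O, fun n => (par n 0).Dh,
  fun n => (par n 0).F, fun n => (par n 0).H, fun n => (par n 0).P,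
  fun n => (par n 0).Nn * (par n 0).Br, fun n => (par n 0).Nn * (par n 0).Bf, ld]

/-- The last values of array `6`. -/
def phParL7 : List (ℕ → ℕ) := [fun _ => 1, lP, xs]

theorem phPar_cv : (∀ f ∈ phParL5, PhParCv f) ∧ (∀ f ∈ phParL6, PhParCv f) ∧
    ∀ f ∈ phParL7, PhParCv f := by
  have c := PhParCv.const
  have k := PhParCv.k
  have l := PhParCv.l
  have w := PhParCv.w
  have ex : ∀ n, Sz n → ww n ^ 4 ≤ 8 * kk n ∧ ww n ^ 5 ≤ 8 * kk n ∧ 2 * ll n ≤ 8 * kk n ∧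
      (2 * ll n + 2) * 2 ^ ww n ^ 4 ≤ 8 * kk n ∧ ll n + 2 ≤ 8 * kk n ∧ ll n ≤ 8 * kk n ∧
      2 * ww n ^ 4 ≤ 8 * kk n ∧ lU n ≤ 8 * kk n ∧ lP n + 2 * ll n + 1 ≤ 8 * kk n ∧
      lP n ≤ 8 * kk n ∧ kk n ≤ 8 * kk n := fun n h => by
    have := par_exps h
    simp only [List.forall_mem_cons] at this
    obtain ⟨h1, h2, h3, h4, h5, h6, h7, h8, h9, h10, h11, -⟩ := this
    exact ⟨h1, h2, h3, h4, h5, h6, h7, h8, h9, h10, h11⟩
  have H : PhParCv hh := (k.div (w.pow 4)).succ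
  have lp : PhParCv lP := (w.pow 4).mul H
  have ta : PhParCv tau := (H.div (w.pow 6)).succ
  have tcc : PhParCv tc := ((c 2).mul ta).mul (w.pow 5)
  have x : PhParCv xs := ((((c 4).mul l).mul (H.div w).succ).add ((c 2).mul l)).add
    (((c 3).mul (w.pow 3)).mul H)
  have F : PhParCv fun n => ff n 0 := (((lp.sub (c 0)).add x).div (w.pow 3)).succ
  have lu : PhParCv lU := ((w.pow 3).mul F).add ((c 4).mul l)
  have b : PhParCv fun n => 2 ^ ww n ^ 4 := (w.pow 4).two fun n h => (ex n h).1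
  have b0 : PhParCv fun n => 2 ^ ww n ^ 5 := (w.pow 5).two fun n h => (ex n h).2.1
  have wd : PhParCv fun n => 2 * ll n + 2 := ((c 2).mul l).add (c 2)
  have lgg : PhParCv lg := (wd.mul b).add l
  have P0 : PhParCv fun n => 2 ^ (2 * ll n) := ((c 2).mul l).two fun n h => (ex n h).2.2.1
  have np : PhParCv fun n => 2 * 2 ^ (2 * ll n) + 1 := ((c 2).mul P0).succ
  have N : PhParCv fun n => 2 ^ ((2 * ll n + 2) * 2 ^ ww n ^ 4) :=
    (wd.mul b).two fun n h => (ex n h).2.2.2.1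
  have Q : PhParCv fun n => 2 ^ (ll n + 2) := (l.add (c 2)).two fun n h => (ex n h).2.2.2.2.1
  have cap : PhParCv fun n => 2 ^ (ll n + 2) * lg n + 1 := (Q.mul lgg).succ
  have rr : PhParCv fun n => ww n * ww n + 1 := (w.mul w).succ
  have P : PhParCv fun n => 2 ^ lP n := lp.two fun n h => (ex n h).2.2.2.2.2.2.2.2.2.1
  have Nn : PhParCv fun n => (par n 0).Nn := H.succ.mul P
  have Br : PhParCv fun n => (par n 0).Br := rr.mul b0
  have Bf : PhParCv fun n => (par n 0).Bf := (w.mul b).add (N.mul (cap.sub (c 1)))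
  simp only [phParL5, phParL6, phParL7, List.forall_mem_cons]
  refine ⟨⟨b, b0, w, rr, np, N, cap, (((c 2).mul tcc).add ta).succ, (lu.add lp).add (c 2),
    (lp.succ.mul np).succ, by simp⟩, ⟨P0, w, w.pow 3, w.pow 4, wd, (c 4).mul l, Q,
    (c 4).mul (w.pow 3), ((c 200).mul (w.pow 3)).mul l,
    (c 8).mul (l.two fun n h => (ex n h).2.2.2.2.2.1), (c 128).mul P0,
    ((c 2).mul (w.pow 4)).two fun n h => (ex n h).2.2.2.2.2.2.1,
    lu.two fun n h => (ex n h).2.2.2.2.2.2.2.1,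
    (lp.add ((c 2).mul l)).succ.two fun n h => (ex n h).2.2.2.2.2.2.2.2.1, c 1, F, H, P,
    Nn.mul Br, Nn.mul Bf, ((w.pow 5).add l).add (c 2), by simp⟩, c 1, lp, x, by simp⟩

theorem phPar_bd {V S n : ℕ} (h : Sz n) (hV : 2 ^ (10 * kk n) ≤ V) (hS : SS n ≤ S) :
    (∀ f ∈ phParL5, f n ≤ V ∧ (5 = 5 → f n ≤ S)) ∧ (∀ f ∈ phParL6, f n ≤ V ∧ (6 = 5 → f n ≤ S)) ∧
    ∀ f ∈ phParL7, f n ≤ V ∧ (6 = 5 → f n ≤ S) := by
  have h8 : 2 ^ (8 * kk n) ≤ V := (Nat.pow_le_pow_right (by norm_num) (by omega)).trans hV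
  have h6 := par_six h (Nat.zero_le (kk n))
  simp only [List.forall_mem_cons] at h6
  obtain ⟨a0, a1, a2, a3, a4, a5, a6, a7, a8, a9, a10, a11, a12, a13, a14, a15, a16, a17, a18, a19,
    a20, a21, a22, -, -, -, -, a27, -⟩ := h6
  obtain ⟨b0, b1, b2, b3, b4, b5, b6, b7, b8, b9, -⟩ := par_five (ρ := 0) h
  have h1 : 1 ≤ 2 ^ (8 * kk n) := Nat.one_le_two_pow
  have f5 : ∀ {v : ℕ}, v ≤ SS n → v ≤ V ∧ (5 = 5 → v ≤ S) := fun hv =>
    ⟨hv.trans (a27.trans h8), fun _ => hv.trans hS⟩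
  have f6 : ∀ {v : ℕ}, v ≤ 2 ^ (8 * kk n) → v ≤ V ∧ (6 = 5 → v ≤ S) := fun hv =>
    ⟨hv.trans h8, fun h => absurd h (by norm_num)⟩
  unfold phParL5 phParL6 phParL7
  refine ⟨?_, ?_, ?_⟩ <;> intro f hf <;> simp only [List.mem_cons, List.not_mem_nil, or_false] at hf
  · rcases hf with rfl | rfl | rfl | rfl | rfl | rfl | rfl | rfl | rfl | rfl
    exacts [f5 b0, f5 b1, f5 b2, f5 b3, f5 b4, f5 b5, f5 b6, f5 b7, f5 b8, f5 b9]
  · rcases hf with rfl | rfl | rfl | rfl | rfl | rfl | rfl | rfl | rfl | rfl | rfl | rfl | rfl |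
      rfl | rfl | rfl | rfl | rfl | rfl | rfl | rfl
    exacts [f6 a0, f6 a1, f6 a2, f6 a3, f6 a4, f6 a5, f6 a6, f6 a7, f6 a8, f6 a9, f6 a10, f6 a11,
      f6 a12, f6 a13, f6 a14, f6 a15, f6 a16, f6 a17, f6 a18, f6 a19, f6 a20]
  · rcases hf with rfl | rfl | rfl
    exacts [f6 h1, f6 a21, f6 a22]

/-- The main part: powers of two and all derived parameters. -/
theorem phPar_main : ∃ c : Cmd, ∀ (V S n : ℕ) (e : Env) (m : Mem), Sz n → 2 ^ (10 * kk n) ≤ V →
    SS n ≤ S → m 6 21 = kk n → m 6 27 = ll n → m 6 28 = ww n → (∀ i, m 4 i = 0) →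
    Tri V S c e m (16 * kk n + 40) fun m' => Same [4, 5, 6] m m' ∧ PM m' = par n 0 ∧
      m' 6 18 = (par n 0).Nn * (par n 0).Br ∧ m' 6 19 = (par n 0).Nn * (par n 0).Bf ∧
      m' 6 20 = ld n ∧ m' 6 21 = kk n ∧ m' 6 22 = 1 ∧ m' 6 23 = lP n ∧ m' 6 24 = xs n := by
  obtain ⟨c4, h4⟩ := fill 4 (by norm_num) (((Cx.const 8).mul (Cx.cell 6 21)).add (Cx.const 1))
    (Cx.const 0) (Cx.ite (CxP.eq (Cx.var 0) (Cx.const 0)) (Cx.const 1)
      ((Cx.const 2).mul (Cx.get 4 ((Cx.var 0).sub (Cx.const 1)))))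
  obtain ⟨v5, v6, v7⟩ := phPar_cv
  obtain ⟨c5, h5⟩ := phPar_puts 5 phParL5 0 v5 (Or.inl rfl)
  obtain ⟨c6, h6⟩ := phPar_puts 6 phParL6 0 v6 (Or.inr ⟨rfl, Or.inl (by simp [phParL6])⟩)
  obtain ⟨c7, h7⟩ := phPar_puts 6 phParL7 22 v7 (Or.inr ⟨rfl, Or.inr (by simp [phParL7])⟩)
  refine ⟨.seq c4 (.seq c5 (.seq c6 c7)), fun V S n e m hz hV hS e1 e2 e3 e4 => ?_⟩
  obtain ⟨d5, d6, d7⟩ := phPar_bd hz hV hS
  have k1 : 1 ≤ kk n := by unfold kk; omega
  refine (Tri.seq (n₁ := 1 + 2 * (8 * m 6 21 + 1)) (n₂ := (phParL5.length + 1) +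
    ((phParL6.length + 1) + (phParL7.length + 1))) ?_).mono
    (by rw [e1]; simp only [phParL5, phParL6, phParL7, List.length_cons, List.length_nil]; omega)
    fun _ h => h
  refine (h4 V S e m (fun j => 2 ^ j) ?_ ?_ ?_).mono le_rfl ?_
  · have : 10 * kk n < 2 ^ (10 * kk n) := Nat.lt_two_pow_self
    rw [e1]; omega
  · intro j hj
    rw [e1] at hj
    exact (Nat.pow_le_pow_right (by norm_num) (by omega)).trans hV
  · intro j _ m' hm
    refine ⟨rfl, ?_⟩
    show (if j = 0 then 1 else 2 * m' 4 (j - 1)) = 2 ^ j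
    split_ifs with h0
    · rw [h0, pow_zero]
    · have := hm.2.1 (j - 1) (by omega)
      rw [zero_add] at this
      rw [this, ← pow_succ']
      congr 1
      omega
  rintro m4 ⟨s1, s2, s3⟩
  rw [e1] at s2 s3
  have g4 : PhParGd n m4 := by
    refine ⟨hz, ?_, ?_, ?_, ?_⟩
    · rw [s1 6 (by simp), e1]
    · rw [s1 6 (by simp), e2]
    · rw [s1 6 (by simp), e3]
    · funext i
      split_ifs with hi
      · have := s2 i (by omega)
        rwa [zero_add] at this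
      · rw [s3 i (Or.inr (by omega)), e4]
  refine Tri.seq ((h5 V S n e m4 g4 d5).mono le_rfl ?_)
  rintro m5 ⟨t1, g5, -, t4⟩
  refine Tri.seq ((h6 V S n e m5 g5 d6).mono le_rfl ?_)
  rintro m6 ⟨u1, g6, -, u4⟩
  refine (h7 V S n e m6 g6 d7).mono le_rfl ?_
  rintro m7 ⟨w1, g7, w3, w4⟩
  have q5 : m7 5 = m5 5 := (w1 5 (by simp)).trans (u1 5 (by simp))
  obtain ⟨b0, b1, b2, b3, b4, b5, b6, b7, b8, b9, -⟩ := t4
  obtain ⟨a0, a1, a2, a3, a4, a5, a6, a7, a8, a9, a10, a11, a12, a13, a14, a15, a16, a17, a18, a19,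
    a20, -⟩ := u4
  obtain ⟨a22, a23, a24, -⟩ := w4
  refine ⟨(((s1.mono (by simp)).trans (t1.mono (by simp))).trans (u1.mono (by simp))).trans
    (w1.mono (by simp)), ?_, (w3 18 (by norm_num)).trans a18, (w3 19 (by norm_num)).trans a19,
    (w3 20 (by norm_num)).trans a20, g7.2.1, a22, a23, a24⟩
  unfold PM
  rw [q5, w3 0 (by norm_num), w3 1 (by norm_num), w3 2 (by norm_num), w3 3 (by norm_num),
    w3 4 (by norm_num), w3 5 (by norm_num), w3 6 (by norm_num), w3 7 (by norm_num),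
    w3 8 (by norm_num), w3 9 (by norm_num), w3 10 (by norm_num), w3 11 (by norm_num),
    w3 12 (by norm_num), w3 13 (by norm_num), w3 14 (by norm_num), w3 15 (by norm_num),
    w3 16 (by norm_num), w3 17 (by norm_num), g7.2.2.2.2]
  simp only [Nat.reduceAdd] at *
  rw [b0, b1, b2, b3, b4, b5, b6, b7, b8, b9, a0, a1, a2, a3, a4, a5, a6, a7, a8, a9, a10, a11,
    a12, a13, a14, a15, a16, a17]
  rfl

theorem ph_par (E : ℕ) : ∃ (c : Cmd) (C : ℕ), ∀ (V S n : ℕ) (x y : List ℕ),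
    n = x.length + y.length → 2 ^ (10 * kk n) ≤ V → (E + 200 ≤ ww n → SS n ≤ S) →
    Tri V S c (fun _ => 0) (input x y) (C * (n + 2))
      fun m => Same [4, 5, 6] (input x y) m ∧ ParOk E n m := by
  obtain ⟨c1, h1⟩ := phPar_bits 25 21 (by norm_num)
    (((Cx.cell 0 0).add (Cx.cell 0 1)).add (Cx.const 2))
  obtain ⟨c2, h2⟩ := phPar_bits 26 27 (by norm_num) (Cx.cell 6 21)
  obtain ⟨c3, h3⟩ := phPar_w
  obtain ⟨c4, h4⟩ := phPar_main
  obtain ⟨t, ht⟩ := CxP.le (Cx.const (E + 200)) (Cx.cell 6 28)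
  refine ⟨.seq c1 (.seq c2 (.seq c3 (.when t c4))), 100, fun V S n x y hn hV hS => ?_⟩
  have e0 : input x y 0 0 + input x y 0 1 + 2 = n + 2 := by rw [hn]; rfl
  have z : ∀ a, 3 ≤ a → ∀ i, input x y a i = 0 := fun a ha i => by
    unfold input
    rw [if_neg (by omega), if_neg (by omega), if_neg (by omega)]
  have k1 : 1 ≤ kk n := by unfold kk; omega
  have k2 := kk_le n
  have k3 := lt_pow_kk n
  have k4 : 2 ^ kk n ≤ V := (Nat.pow_le_pow_right (by norm_num) (by omega)).trans hV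
  have l1 : ll n ≤ kk n := Nat.log_lt_self 2 (by omega)
  refine (Tri.seq (n₁ := 4 * (n + 2) + 3) (n₂ := (4 * kk n + 3) + ((1 + 3 * ll n) +
    (1 + (16 * kk n + 40)))) ?_).mono (by omega) fun _ h => h
  have a1 := h1 V S (fun _ => 0) (input x y) (by omega) (by omega)
  simp only [e0] at a1
  refine a1.mono le_rfl ?_
  rintro m1 ⟨s1, s2, s3⟩
  change m1 6 21 = kk n at s2
  have a2 := h2 V S (fun _ => 0) m1 (by omega) (by omega)
  simp only [s2] at a2
  refine Tri.seq (a2.mono le_rfl ?_)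
  rintro m2 ⟨t1, t2, t3⟩
  change m2 6 27 = ll n at t2
  have a3 := h3 V S (fun _ => 0) m2 (by omega) (by
    rw [t3 28 (by norm_num) (by norm_num), s3 28 (by norm_num) (by norm_num), z 6 (by norm_num)])
  simp only [t2] at a3
  refine Tri.seq (a3.mono le_rfl ?_)
  rintro m3 ⟨u1, u2, u3⟩
  change m3 6 28 = ww n at u2
  have sm : Same [6] (input x y) m3 := (s1.trans t1).trans u1
  have e1 : t.eval m3 (fun _ => 0) ≠ 0 ↔ E + 200 ≤ ww n := by
    rw [ht]
    show E + 200 ≤ m3 6 28 ↔ _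
    rw [u2]
  by_cases hc : E + 200 ≤ ww n
  · refine Tri.when_pos (e1.2 hc) ((h4 V S n _ m3 (sz_of (by omega)) hV (hS hc) ?_ ?_ u2 ?_).mono
      le_rfl ?_)
    · rw [u3 21 (by norm_num), t3 21 (by norm_num) (by norm_num), s2]
    · rw [u3 27 (by norm_num), t2]
    · intro i
      rw [sm 4 (by simp), z 4 (by norm_num)]
    · rintro m4 ⟨w1, w2⟩
      exact ⟨(sm.mono (by simp)).trans w1, fun _ => w2, fun h => absurd hc (by omega)⟩
  · refine (Tri.when_neg (by_contra fun h => hc (e1.1 h)) ?_).mono (by omega) fun _ h => h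
    have z6 : ∀ i, i ≠ 21 → i < 25 → m3 6 i = 0 := fun i h1 h2 => by
      rw [u3 i (by omega), t3 i (by omega) (by omega), s3 i (by omega) h1, z 6 (by norm_num)]
    exact ⟨sm.mono (by simp), fun h => absurd h hc, fun _ => ⟨z6 18 (by norm_num) (by norm_num),
      z6 19 (by norm_num) (by norm_num), z6 20 (by norm_num) (by norm_num),
      z6 22 (by norm_num) (by norm_num)⟩⟩

end Vale.Agent.P315
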