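import Vale.Agent.P315.Correct
import Vale.Agent.P315.PhMain
import Vale.Agent.P315.PhPar
import Vale.Agent.P315.PhDp
import Vale.Agent.P315.Gen
import Vale.Agent.P315.Comp

/-! Auxiliary facts for the assembly of the program. -/

open Finset
open scoped BigOperators

namespace Vale.Agent.P315

theorem setDig_ne {Nn Bk Dg : ℕ} (m : Mem) {a a' : ℕ} (ω : Fin Nn → Blk Bk Dg) (h : a' ≠ a) :
    setDig m a ω a' = m a' := by
  funext i
  simp [setDig, h]

theorem vw_lt {Nn Bk Dg : ℕ} (hD : 0 < Dg) (ω : Fin Nn → Blk Bk Dg) (v j : ℕ) : vw ω v j < Dg := by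
  unfold vw bv
  split_ifs with h
  · dsimp only
    split_ifs with h'
    · exact (ω _ _).2
    · exact hD
  · exact hD

theorem vw_ge {Nn Bk Dg : ℕ} (ω : Fin Nn → Blk Bk Dg) (v : ℕ) {j : ℕ} (hj : ¬j < Bk) :
    vw ω v j = 0 := by
  unfold vw bv
  split_ifs with h
  · simp only [dif_neg hj]
  · rfl

theorem Bd.setDig {V S Nn Bk Dg a : ℕ} {m : Mem} (h : Bd V S m) (ha : a ≠ 5) (hD : 0 < Dg)
    (hV : Dg ≤ V) (ω : Fin Nn → Blk Bk Dg) : Bd V S (setDig m a ω) := by
  refine ⟨fun a' i => ?_, fun k => by rw [setDig_ne m ω ha.symm]; exact h.2 k⟩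
  unfold P315.setDig
  split_ifs
  exacts [(vw_lt hD ω _ _).le.trans hV, h.1 _ _]

theorem setDig_read {p : Par} {Bk Dg : ℕ} (m : Mem) (a : ℕ) (ω : Fin p.Nn → Blk Bk Dg) {h i : ℕ}
    (hh : h ≤ p.H) (hi : i < p.P) (j : ℕ) :
    (if j < Bk then setDig m a ω a ((h * p.P + i) * Bk + j) else 0) = zv p ω h i j := by
  have hv : h * p.P + i + 1 ≤ p.Nn := by
    have := Nat.mul_le_mul_right p.P hh
    rw [Par.Nn, add_mul, one_mul]
    omega
  rw [zv, if_pos hi]
  split_ifs with hj
  · have h1 : (h * p.P + i) * Bk + j < p.Nn * Bk := by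
      have := Nat.mul_le_mul_right Bk hv
      rw [add_mul, one_mul] at this
      omega
    have hB : 0 < Bk := by omega
    simp only [setDig, h1, and_self, if_true]
    rw [Nat.mul_comm _ Bk, Nat.mul_add_div hB, Nat.div_eq_of_lt hj, Nat.mul_add_mod,
      Nat.mod_eq_of_lt hj, add_zero]
  · exact (vw_ge ω _ hj).symm

theorem memOk_setDig {p : Par} {Dg : ℕ} {m : Mem} {x y : List ℕ} (hp : PM m = p)
    (hs : Same [4, 5, 6] (input x y) m) (ωr : Fin p.Nn → Blk p.Br Dg) (ω : Fin p.Nn → Blk p.Bf Dg) :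
    MemOk p (misS x y p.O) (zv p ω) (zv p ωr) (setDig (setDig m 7 ωr) 8 ω) := by
  have e : ∀ a, a < 7 → setDig (setDig m 7 ωr) 8 ω a = m a := fun a ha => by
    rw [setDig_ne _ _ (by omega), setDig_ne _ _ (by omega)]
  have e1 : PM (setDig (setDig m 7 ωr) 8 ω) = p := by
    refine Eq.trans ?_ hp
    unfold PM
    rw [e 4 (by omega), e 5 (by omega), e 6 (by omega)]
  have hO : m 6 13 = p.O := by rw [← hp]; rfl
  refine ⟨e1, ?_, fun h hh i hi => ?_, fun h hh i hi => ?_⟩
  · funext q d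
    unfold misM misS mt
    rw [e 0 (by omega), e 1 (by omega), e 2 (by omega), e 6 (by omega), hs 0 (by simp),
      hs 1 (by simp), hs 2 (by simp), hO]
    simp [input]
  · funext j
    unfold zM
    rw [e1]
    exact setDig_read _ 8 ω hh hi j
  · funext j
    unfold zrM
    rw [e1, setDig_ne _ _ (by omega)]
    exact setDig_read _ 7 ωr hh hi j

theorem bd_input {V S n σ : ℕ} {x y : List ℕ} (hx : x.length ≤ n) (hy : y.length ≤ n)
    (hx' : ∀ a ∈ x, a < (n + 2) ^ σ) (hy' : ∀ a ∈ y, a < (n + 2) ^ σ) (h1 : n ≤ V)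
    (h2 : (n + 2) ^ σ ≤ V) : Bd V S (input x y) := by
  have key : ∀ (l : List ℕ), (∀ a ∈ l, a ≤ V) → ∀ i, l.getD i 0 ≤ V := fun l hl i => by
    rw [List.getD_eq_getElem?_getD]
    cases h : l[i]? with
    | none => exact Nat.zero_le _
    | some a => exact hl a (List.mem_of_getElem? h)
  refine ⟨fun a i => ?_, fun k => by simp [input]⟩
  unfold input
  split_ifs
  · refine key _ (fun a ha => ?_) i
    simp only [List.mem_cons, List.not_mem_nil, or_false] at ha
    omega
  · exact key _ (fun a ha => (hx' a ha).le.trans h2) i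
  · exact key _ (fun a ha => (hy' a ha).le.trans h2) i
  · exact Nat.zero_le _

/-- The branch on cell `22` of array `6`. -/
def branch (p q : Stmt) : Stmt := .seq (.const 0 22) (.seq (.load 0 6 0) (.ite 0 p q))

theorem W.branch {w t : ℕ} {p q : Stmt} {R : St → ℝ → Prop} {g : ℕ → ℕ} {m : Mem} {x : ℝ}
    (hw : 22 < 2 ^ w) (h1 : m 6 22 ≠ 0 → ∀ g', W w p t R (g', m) x)
    (h0 : m 6 22 = 0 → ∀ g', W w q t R (g', m) x) : W w (branch p q) (t + 5) R (g, m) x := by
  refine (W.seq (t₁ := 1) (t₂ := 1 + (t + 1) + 1) (W.const (W.seq (W.load ?_)))).time (by omega)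
  rw [Function.update_self, Nat.mod_eq_of_lt hw]
  by_cases h : m 6 22 = 0
  · exact W.ite_neg (by simpa using h) (h0 h _)
  · exact W.ite_pos (by simpa using h) (h1 h _)

open Classical in
theorem count_good {w T : ℕ} {P : Stmt} {x y : List ℕ} (good : ℕ → Prop)
    (h : W w P T (fun s v => ind (¬good (s.2 3 0)) ≤ v) (fun _ => 0, input x y) (1 / 3)) :
    (∀ ω : Fin T → Bool, (run w P x y ω).1 = []) ∧
      (2 / 3 : ℝ) * 2 ^ T ≤ (Set.ncard {ω : Fin T → Bool | good (output (run w P x y ω))} : ℝ) := by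
  have h' : Ok w (fun s v => (if good (s.2 3 0) then (0 : ℝ) else 1) ≤ v) T
      ([P], fun _ => 0, input x y) (1 / 3) := by
    refine Ok.mono h fun s v hv => ⟨v, le_rfl, le_trans (le_of_eq ?_) hv⟩
    by_cases hg : good (s.2 3 0)
    · rw [if_pos hg, ind_neg (not_not.2 hg)]
    · rw [if_neg hg, ind_pos hg]
  obtain ⟨h1, h2⟩ := adequate (good := fun s => good (s.2 3 0)) h'
  refine ⟨h1, ?_⟩
  have e : ((univ.filter fun ω : Fin T → Bool => good (output (run w P x y ω))).card : ℝ) +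
      ∑ ω : Fin T → Bool, (if good (output (run w P x y ω)) then (0 : ℝ) else 1) = 2 ^ T := by
    rw [← sum_boole, ← sum_add_distrib]
    rw [sum_congr rfl (g := fun _ => (1 : ℝ)) fun ω _ => by split_ifs <;> norm_num]
    simp
  have e2 : {ω : Fin T → Bool | good (output (run w P x y ω))} =
      ↑(univ.filter fun ω : Fin T → Bool => good (output (run w P x y ω))) := by
    ext ω
    simp
  rw [e2, Set.ncard_coe_finset]
  have h3 : ∑ ω : Fin T → Bool, (if good (output (run w P x y ω)) then (0 : ℝ) else 1) ≤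
      1 / 3 * 2 ^ T := h2
  linarith

end Vale.Agent.P315
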