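import Vale.Agent.P315.Term

/-! Rules for triples of commands. -/

open Finset

namespace Vale.Agent.P315

variable {V S : ℕ} {e : Env} {m : Mem}

theorem Same.refl (l : List ℕ) (m : Mem) : Same l m m := fun _ _ => rfl

theorem Same.trans {l : List ℕ} {m m' m'' : Mem} (h : Same l m m') (h' : Same l m' m'') :
    Same l m m'' := fun a ha => (h' a ha).trans (h a ha)

theorem Same.mono {l l' : List ℕ} {m m' : Mem} (h : Same l m m') (hl : ∀ a ∈ l, a ∈ l') :
    Same l' m m' := fun a ha => h a fun h' => ha (hl a h')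

theorem Same.write (m : Mem) (a i v : ℕ) : Same [a] m (m.write a i v) := fun a' ha => by
  funext j
  simp only [List.mem_singleton] at ha
  simp [Mem.write, ha]

theorem write_same (m : Mem) (a i v : ℕ) : m.write a i v a i = v := by simp [Mem.write]

theorem write_ne (m : Mem) {a i a' i' : ℕ} (v : ℕ) (h : a' ≠ a ∨ i' ≠ i) :
    m.write a i v a' i' = m a' i' := by
  unfold Mem.write
  rw [if_neg (by tauto)]

theorem Tri.mono {c : Cmd} {n n' : ℕ} {Q Q' : Mem → Prop} (h : Tri V S c e m n Q) (hn : n ≤ n')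
    (hQ : ∀ m', Q m' → Q' m') : Tri V S c e m n' Q' :=
  ⟨h.1, h.2.1.trans hn, hQ _ h.2.2⟩

theorem Tri.wr {a : ℕ} {i v : Term} {Q : Mem → Prop} (hv : v.eval m e ≤ V)
    (hs : a = 5 → v.eval m e ≤ S) (hQ : Q (m.write a (i.eval m e) (v.eval m e))) :
    Tri V S (.wr a i v) e m 1 Q := ⟨⟨hv, hs⟩, le_rfl, hQ⟩

theorem Tri.seq {p q : Cmd} {n₁ n₂ : ℕ} {Q : Mem → Prop}
    (h : Tri V S p e m n₁ fun m' => Tri V S q e m' n₂ Q) : Tri V S (.seq p q) e m (n₁ + n₂) Q :=
  ⟨⟨h.1, h.2.2.1⟩, Nat.add_le_add h.2.1 h.2.2.2.1, h.2.2.2.2⟩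

theorem Tri.when_pos {c : Term} {p : Cmd} {n : ℕ} {Q : Mem → Prop} (hc : c.eval m e ≠ 0)
    (h : Tri V S p e m n Q) : Tri V S (.when c p) e m (1 + n) Q := by
  refine ⟨fun _ => h.1, ?_, ?_⟩
  · simp only [Cmd.ticks, if_neg hc]
    exact Nat.add_le_add_left h.2.1 1
  · simp only [Cmd.exec, if_neg hc]
    exact h.2.2

theorem Tri.when_neg {c : Term} {p : Cmd} {Q : Mem → Prop} (hc : c.eval m e = 0) (h : Q m) :
    Tri V S (.when c p) e m 1 Q := by
  refine ⟨fun h' => absurd hc h', ?_, ?_⟩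
  · simp only [Cmd.ticks, if_pos hc, le_refl]
  · simp only [Cmd.exec, if_pos hc]
    exact h

/-- The loop rule: `I j` holds before round `j`, which takes at most `t j` ticks. -/
theorem Tri.rep {n : Term} {p : Cmd} (I : ℕ → Mem → Prop) (t : ℕ → ℕ) (hn : n.eval m e ≤ V)
    (h0 : I 0 m) (hstep : ∀ j < n.eval m e, ∀ m', I j m' → Tri V S p (cons j e) m' (t j) (I (j + 1))) :
    Tri V S (.rep n p) e m (1 + ∑ j ∈ range (n.eval m e), (1 + t j)) (I (n.eval m e)) := by
  have key : ∀ j ≤ n.eval m e, I j (iter (fun j => p.exec (cons j e)) m j) := by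
    intro j
    induction j with
    | zero => exact fun _ => h0
    | succ j ih => exact fun hj => (hstep j hj _ (ih (by omega))).2.2
  refine ⟨⟨hn, fun j hj => (hstep j hj _ (key j hj.le)).1⟩, ?_, key _ le_rfl⟩
  refine Nat.add_le_add_left (sum_le_sum fun j hj => Nat.add_le_add_left ?_ 1) 1
  exact (hstep j (mem_range.1 hj) _ (key j (mem_range.1 hj).le)).2.1

theorem Bd.exec {c : Cmd} (hb : Bd V S m) (hc : c.safe V S e m) : Bd V S (c.exec e m) := by
  induction c generalizing e m with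
  | wr a i v =>
    refine ⟨fun a' i' => ?_, fun k => ?_⟩
    · simp only [Cmd.exec, Mem.write]
      split_ifs
      exacts [hc.1, hb.1 _ _]
    · simp only [Cmd.exec, Mem.write]
      split_ifs with h
      exacts [hc.2 h.1.symm, hb.2 _]
  | seq p q ihp ihq => exact ihq (ihp hb hc.1) hc.2
  | when c p ih =>
    simp only [Cmd.exec]
    split_ifs with h
    exacts [hb, ih hb (hc h)]
  | rep n p ih =>
    have key : ∀ j ≤ n.eval m e, Bd V S (iter (fun j => p.exec (cons j e)) m j) := by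
      intro j
      induction j with
      | zero => exact fun _ => hb
      | succ j ih' => exact fun hj => ih (ih' (by omega)) (hc.2 j hj)
    exact key _ le_rfl

theorem Tri.bd {c : Cmd} {n : ℕ} {Q : Mem → Prop} (h : Tri V S c e m n Q) (hb : Bd V S m) :
    Tri V S c e m n fun m' => Q m' ∧ Bd V S m' := ⟨h.1, h.2.1, h.2.2, hb.exec h.1⟩

/-- `m'` is `m` with the cells `o, …, o + n - 1` of array `a` replaced by `tb 0, …, tb (n - 1)`. -/
def Filled (a o n : ℕ) (tb : ℕ → ℕ) (m m' : Mem) : Prop :=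
  Same [a] m m' ∧ (∀ j < n, m' a (o + j) = tb j) ∧ ∀ i, i < o ∨ o + n ≤ i → m' a i = m a i

/-- Filling a table. The value number `j` may read the earlier entries. -/
theorem fill (a : ℕ) (ha : a ≠ 5) {n o f : Env → Mem → ℕ} (hn : Cx n) (ho : Cx o) (hf : Cx f) :
    ∃ c : Cmd, ∀ (V S : ℕ) (e : Env) (m : Mem) (tb : ℕ → ℕ), n e m ≤ V → (∀ j < n e m, tb j ≤ V) →
      (∀ j < n e m, ∀ m', Filled a (o e m) j tb m m' → o e m' = o e m ∧ f (cons j e) m' = tb j) →
      Tri V S c e m (1 + 2 * n e m) (Filled a (o e m) (n e m) tb m) := by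
  obtain ⟨tn, htn⟩ := hn
  obtain ⟨ta, hta⟩ := ho.tail.add (Cx.var 0)
  obtain ⟨tf, htf⟩ := hf
  refine ⟨.rep tn (.wr a ta tf), fun V S e m tb h1 h2 h3 => ?_⟩
  have := Tri.rep (V := V) (S := S) (e := e) (m := m) (n := tn) (p := .wr a ta tf)
    (fun j => Filled a (o e m) j tb m) (fun _ => 1) (by rwa [htn])
    ⟨Same.refl _ _, fun j hj => absurd hj (by omega), fun _ _ => rfl⟩ (by
      intro j hj m' hm
      rw [htn] at hj
      obtain ⟨e1, e2⟩ := h3 j hj m' hm
      have e3 : ta.eval m' (cons j e) = o e m + j := by rw [hta]; exact congrArg (· + j) e1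
      refine Tri.wr (by rw [htf, e2]; exact h2 j hj) (fun h => absurd h ha) ?_
      rw [e3, htf, e2]
      refine ⟨hm.1.trans (Same.write _ _ _ _), fun i hi => ?_, fun i hi => ?_⟩
      · rcases Nat.lt_succ_iff_lt_or_eq.1 hi with h | rfl
        · rw [write_ne _ _ (Or.inr (by omega)), hm.2.1 i h]
        · exact write_same _ _ _ _
      · rw [write_ne _ _ (Or.inr (by omega)), hm.2.2 i (by omega)])
  rw [htn] at this
  refine this.mono (le_of_eq ?_) fun _ h => h
  simp [mul_comm]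

/-- Writing one cell. -/
theorem put (a : ℕ) {i v : Env → Mem → ℕ} (hi : Cx i) (hv : Cx v) :
    ∃ c : Cmd, ∀ (V S : ℕ) (e : Env) (m : Mem), v e m ≤ V → (a = 5 → v e m ≤ S) →
      Tri V S c e m 1 fun m' => m' = m.write a (i e m) (v e m) := by
  obtain ⟨ti, hti⟩ := hi
  obtain ⟨tv, htv⟩ := hv
  exact ⟨.wr a ti tv, fun V S e m h1 h2 =>
    Tri.wr (by rwa [htv]) (by rwa [htv]) (by rw [hti, htv])⟩

end Vale.Agent.P315
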