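import Vale.Agent.P315.Ok
import Vale.Agent.P315.TriR

/-!
The memory layout. Arrays: `0` lengths, `1`, `2` strings, `3` output, `4` powers of two,
`5`, `6` parameters, `7`, `8` random digits, `9` flags, `10`, `11`, `12` tables, `13` exact table.
-/

open Finset

namespace Vale.Agent.P315

/-- The parameters stored in memory. -/
def PM (m : Mem) : Par := ⟨m 5 0, m 5 1, m 5 2, m 5 3, m 5 4, m 5 5, m 5 6, m 5 7, m 5 8, m 5 9,
  m 6 0, m 6 1, m 6 2, m 6 3, m 6 4, m 6 5, m 6 6, m 6 7, m 6 8, m 6 9, m 6 10, m 6 11, m 6 12,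
  m 6 13, m 6 14, m 6 15, m 6 16, m 6 17, m 4⟩

/-- Mismatch costs read from memory. -/
def misM (m : Mem) (q d : ℕ) : ℕ :=
  if q = 0 ∨ m 0 0 < q then 0 else if m 6 13 ≤ q - 1 + d ∧ q - 1 < m 0 0 ∧
    q - 1 + d - m 6 13 < m 0 1 ∧ m 1 (q - 1) = m 2 (q - 1 + d - m 6 13) then 0 else 1

/-- Digits for the rounds `t ≥ 1` read from memory. -/
def zM (m : Mem) (h i j : ℕ) : ℕ :=
  if j < (PM m).Bf then m 8 ((h * (PM m).P + i) * (PM m).Bf + j) else 0

/-- Digits for round `0` read from memory. -/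
def zrM (m : Mem) (h i j : ℕ) : ℕ :=
  if j < (PM m).Br then m 7 ((h * (PM m).P + i) * (PM m).Br + j) else 0

namespace Par
variable (p : Par)

/-- The number of a quadruple. -/
def tx (h i a t : ℕ) : ℕ := ((h * p.P + i) * (p.F + 1) + a) * p.T1 + t

/-- The number of grid states of a slot. -/
def K : ℕ := 2 * p.Dh + 1

/-- The address of a table entry. -/
def ad (h i a t sl k : ℕ) : ℕ := p.tx h i a t * (p.NS1 * p.K) + (sl * p.K + k)

/-- The grid state to the left of `d`. -/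
def kl0 (sl d : ℕ) : ℕ := min ((d - (p.O - p.Dh)) / p.sg sl) (2 * p.Dh)

/-- The closure of a slot from the forward table `A` and the reversed backward table `B`. -/
def colT (A B : ℕ → ℕ) (sl d : ℕ) : ℕ :=
  min (A (p.kl0 sl d) + 2 * p.U * Nat.dist d (p.sd sl (p.kl0 sl d)))
    (B (2 * p.Dh - min (p.kl0 sl d + 1) (2 * p.Dh)) +
      2 * p.U * Nat.dist d (p.sd sl (min (p.kl0 sl d + 1) (2 * p.Dh))))

/-- How often the child `l` is sampled in layer `j`, for `B` children and stride `B0`. -/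
def sel (z : ℕ → ℕ) (B0 j l : ℕ) : ℕ :=
  ∑ l' ∈ range B0, if l' < p.sp j ∧ z (j * B0 + l') % B0 = l then 1 else 0

/-- One step of the recursion for the flags: `f` are the flags of the parent, `fr` those of the
ancestor `r0` levels up, `c` says that this ancestor exists. -/
def nstep (z zr : ℕ → ℕ) (f fr : ℕ → ℕ → ℕ) (c : Prop) [Decidable c] (i a t : ℕ) : ℕ :=
  min 1 (f a (t + 1) + f (a + (p.r - 1)) (max t 1) +
    (∑ j ∈ range p.r, if j = 0 then 0 else p.sel z p.b j (i % p.b) * f (a + (j - 1)) (max t 1)) +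
    if t = 0 ∧ c then fr (a + (p.r * p.r0 - 1)) 0 + ∑ j ∈ range p.rr1,
      if j = 0 ∨ p.r * p.r0 ≤ j then 0 else p.sel zr p.b0 j (i % p.b0) * fr (a + (j - 1)) 0 else 0)

end Par

/-- Running minimum with slope `c`. -/
def fwd (R : ℕ → ℕ) (c : ℕ) : ℕ → ℕ
  | 0 => R 0
  | k + 1 => min (R (k + 1)) (fwd R c k + c)

/-- The flag of the quadruple (depth, index, floor, round). -/
def nf (p : Par) (z zr : ℕ → ℕ → ℕ → ℕ) : ℕ → ℕ → ℕ → ℕ → ℕ
  | 0 => fun i a t => if i = 0 ∧ a ≤ p.F ∧ t < p.T1 then 1 else 0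
  | n + 1 => fun i a t => p.nstep (z (p.H - n) (i / p.b)) (zr (p.H - (n - (p.r0 - 1))) (i / p.b0))
      (nf p z zr n (i / p.b)) (nf p z zr (n - (p.r0 - 1)) (i / p.b0)) (p.r0 ≤ n + 1) i a t
  termination_by n => n
  decreasing_by all_goals omega

/-- Flags read from memory. -/
def fM (m : Mem) (n i a t : ℕ) : ℕ :=
  if a ≤ (PM m).F ∧ t < (PM m).T1 then m 9 ((PM m).tx n i a t) else 0

/-- Values read from memory. -/
def WM (m : Mem) (h i a t d e : ℕ) : ℕ :=
  if h = 0 then (PM m).U * leaf (misM m) i d e else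
    (PM m).evc (fun sl => (PM m).colT (fun k => m 11 ((PM m).ad h i a t sl k))
      (fun k => m 12 ((PM m).ad h i a t sl k)) sl d) h a d e

/-- The new estimate of the node `(h + 1, i)` computed from memory. -/
def nvM (m : Mem) (h i a t sl k : ℕ) : ℕ :=
  (PM m).newv (fun l => WM m h (i * (PM m).b + l))
    (fun l => WM m (h - (min (PM m).r0 (h + 1) - 1)) (i * (PM m).len (min (PM m).r0 (h + 1)) + l))
    (zM m (h + 1) i) (zrM m (h + 1) i) (h + 1) a t sl k

/-- The true table of the node `(h + 1, i)`. -/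
def tabT (p : Par) (mis : ℕ → ℕ → ℕ) (z zr : ℕ → ℕ → ℕ → ℕ) (h i a t sl k : ℕ) : ℕ :=
  p.tab (Wch p mis z zr h i) (Wpc p mis z zr h i) (z (h + 1) i) (zr (h + 1) i) (h + 1) a t sl k

/-- The tables of the quadruple `(h + 1, i, a, t)` are correct. -/
def TabOk (p : Par) (mis : ℕ → ℕ → ℕ) (z zr : ℕ → ℕ → ℕ → ℕ) (m : Mem) (h i a t : ℕ) : Prop :=
  ∀ sl < p.NS1, ∀ k < p.K, m 10 (p.ad (h + 1) i a t sl k) = tabT p mis z zr h i a t sl k ∧
    m 11 (p.ad (h + 1) i a t sl k) = fwd (tabT p mis z zr h i a t sl) (2 * p.U * p.sg sl) k ∧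
    m 12 (p.ad (h + 1) i a t sl k) =
      fwd (fun j => tabT p mis z zr h i a t sl (2 * p.Dh - j)) (2 * p.U * p.sg sl) k

end Vale.Agent.P315
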