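import Vale.Agent.P315.PipeD

open Finset

namespace Vale.Agent.P315

theorem kl_nonneg {x y : ℝ} (hx : 0 ≤ x) (hy : 0 < y) : 0 ≤ kl x y := by
  unfold kl
  rcases hx.eq_or_lt with rfl | hx
  · simpa using hy.le
  · have h1 := mul_le_mul_of_nonneg_left (Real.one_sub_inv_le_log_of_pos (div_pos hx hy)) hx.le
    have h2 : x * (1 - (x / y)⁻¹) = x - y := by field_simp
    linarith

theorem merge_kl_scale {x y c : ℝ} (hx : 0 ≤ x) (hy : 0 < y) (hc : 0 < c) :
    kl x y = kl x (c * y) + x * Real.log c - c * y + y := by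
  unfold kl
  rcases hx.eq_or_lt with rfl | hx
  · simp
  · rw [Real.log_div hx.ne' hy.ne', Real.log_div hx.ne' (mul_pos hc hy).ne',
      Real.log_mul hc.ne' hy.ne']
    ring

theorem kl_fenchel {x y : ℝ} (hx : 0 ≤ x) (hy : 0 < y) (a : ℝ) :
    a * x - y * (Real.exp a - 1) ≤ kl x y := by
  have h1 := merge_kl_scale hx hy (Real.exp_pos a)
  have h2 := kl_nonneg hx (mul_pos (Real.exp_pos a) hy)
  rw [Real.log_exp] at h1
  linarith

theorem merge_sq_le_kl {s r : ℝ} (hs : 0 ≤ s) (hr : 0 < r) : (s - r) ^ 2 ≤ kl (s ^ 2) (r ^ 2) := by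
  have h1 := mul_le_mul_of_nonneg_left (kl_nonneg hs hr) hs
  unfold kl at h1 ⊢
  rw [← div_pow, Real.log_pow]
  push_cast
  nlinarith

theorem abs_le_kl {x q δ : ℝ} (hx : 0 ≤ x) (hq : 0 < q) (hδ : 0 < δ) :
    |x - q| ≤ kl x q / δ + δ * (x + q) / 2 := by
  obtain ⟨s, hs, rfl⟩ : ∃ s, 0 ≤ s ∧ x = s ^ 2 := ⟨√x, Real.sqrt_nonneg _, (Real.sq_sqrt hx).symm⟩
  obtain ⟨r, hr, rfl⟩ : ∃ r, 0 < r ∧ q = r ^ 2 :=
    ⟨√q, Real.sqrt_pos.2 hq, (Real.sq_sqrt hq.le).symm⟩
  have h1 := div_le_div_of_nonneg_right (merge_sq_le_kl hs hr) hδ.le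
  have h2 : |s ^ 2 - r ^ 2| = |s - r| * (s + r) := by
    rw [show s ^ 2 - r ^ 2 = (s - r) * (s + r) by ring, abs_mul, abs_of_pos (by linarith : 0 < s + r)]
  have h3 : |s - r| * (s + r) ≤ (s - r) ^ 2 / δ + δ * (s + r) ^ 2 / 4 := by
    have e : (s - r) ^ 2 / δ + δ * (s + r) ^ 2 / 4 - |s - r| * (s + r) =
        (|s - r| - δ * (s + r) / 2) ^ 2 / δ := by
      rw [← sq_abs (s - r)]
      field_simp
      ring
    have : 0 ≤ (|s - r| - δ * (s + r) / 2) ^ 2 / δ := by positivity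
    linarith
  have h4 : δ * (s + r) ^ 2 / 4 ≤ δ * (s ^ 2 + r ^ 2) / 2 := by
    have := mul_nonneg hδ.le (sq_nonneg (s - r))
    nlinarith
  linarith

theorem merge {b : ℕ} (hb : 1 ≤ b) {Λ : ℝ} (hΛ : 1 ≤ Λ) {D y : ℕ → ℝ} (hD : ∀ l < b, 0 ≤ D l)
    (hy : ∀ l < b, 0 < y l) :
    kl (∑ l ∈ range b, D l) (∑ l ∈ range b, y l) + (Real.log Λ - 1) * spk b Λ D y ≤
      ∑ l ∈ range b, kl (D l) (y l) := by
  have hY : 0 < ∑ l ∈ range b, y l :=
    sum_pos (fun l hl => hy l (mem_range.1 hl)) ⟨0, mem_range.2 hb⟩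
  have hDb : 0 ≤ ∑ l ∈ range b, D l := sum_nonneg fun l hl => hD l (mem_range.1 hl)
  rcases hDb.eq_or_lt with h0 | h0
  · have hz := (sum_eq_zero_iff_of_nonneg fun l hl => hD l (mem_range.1 hl)).1 h0.symm
    have e1 : spk b Λ D y = 0 := sum_eq_zero fun l hl => by simp [hz l hl]
    have e2 : ∑ l ∈ range b, kl (D l) (y l) = ∑ l ∈ range b, y l :=
      sum_congr rfl fun l hl => by simp [hz l hl, kl]
    rw [e1, e2, ← h0]
    simp [kl]
  · unfold spk
    set Db := ∑ l ∈ range b, D l with hDb'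
    set Y := ∑ l ∈ range b, y l with hY'
    have hc : 0 < Db / Y := div_pos h0 hY
    have e1 : ∑ l ∈ range b, kl (D l) (y l) =
        ∑ l ∈ range b, kl (D l) (Db / Y * y l) + kl Db Y := by
      rw [sum_congr rfl fun l hl => merge_kl_scale (hD l (mem_range.1 hl)) (hy l (mem_range.1 hl)) hc,
        sum_add_distrib, sum_sub_distrib, sum_add_distrib, ← sum_mul, ← mul_sum, ← hDb', ← hY',
        div_mul_cancel₀ _ hY.ne']
      unfold kl
      ring
    have e2 : (Real.log Λ - 1) * ∑ l ∈ range b, (if Λ * Db * y l < D l * Y then D l else 0) ≤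
        ∑ l ∈ range b, kl (D l) (Db / Y * y l) := by
      rw [mul_sum]
      refine sum_le_sum fun l hl => ?_
      have a := hD l (mem_range.1 hl)
      have q := mul_pos hc (hy l (mem_range.1 hl))
      split_ifs with h
      · have h1 := kl_fenchel a q (Real.log Λ)
        rw [Real.exp_log (by linarith)] at h1
        have h2 : Db / Y * y l * Λ ≤ D l := by
          rw [div_mul_eq_mul_div, div_mul_eq_mul_div, div_le_iff₀ hY]
          linarith
        linarith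
      · rw [mul_zero]
        exact kl_nonneg a q
    linarith

end Vale.Agent.P315
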