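import Vale.Agent.P315.ParD

/-! Numerical conditions, simple part. -/

namespace Vale.Agent.P315

variable {n ρ E : ℕ}

theorem numc_pow {w j m : ℕ} (h : j * w ≤ m) : w ^ j ≤ 2 ^ m :=
  (Nat.pow_le_pow_left Nat.lt_two_pow_self.le j).trans (by
    rw [← pow_mul]
    exact Nat.pow_le_pow_right two_pos (by rwa [mul_comm]))

theorem numc_exp (m : ℕ) : (2 : ℝ) ^ m ≤ Real.exp m := by
  rw [← Real.exp_one_pow]
  exact pow_le_pow_left₀ two_pos.le (by linarith [Real.add_one_le_exp 1]) m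

theorem numc_w (h : Sz n) : 200 * ww n ≤ ww n ^ 2 ∧ 200 * ww n ^ 2 ≤ ww n ^ 3 ∧
    200 * ww n ^ 3 ≤ ww n ^ 4 ∧ 200 * ww n ^ 4 ≤ ww n ^ 5 ∧ 200 * ww n ^ 5 ≤ ww n ^ 8 ∧
    ww n ^ 8 ≤ 2 ^ ww n ^ 4 ∧ tau n < 2 ^ ll n ∧ ll n < 2 ^ ll n := by
  have h0 := h.w_ge
  have h1 : ∀ j, 200 * ww n ^ j ≤ ww n ^ (j + 1) := fun j => by
    rw [pow_succ, mul_comm]
    exact Nat.mul_le_mul_left _ h0
  have h2 := h1 1
  have h3 := h1 2
  have h4 := h1 3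
  have h5 := h1 5
  have h6 := h1 6
  have h7 := h1 7
  have h8 := h.T_le
  have h9 := h.k_lt
  simp only [pow_one, Nat.reduceAdd] at h2 h3 h4 h5 h6 h7
  exact ⟨h2, h3, h4, h1 4, by omega, numc_pow (by omega), by omega, Nat.lt_two_pow_self⟩

theorem num_cap (h : Sz n) :
    (tau n : ℝ) * (par n ρ).N * (1 - 1 / (par n ρ).Q) ^ ((par n ρ).cap1 - 1) ≤ 1 := by
  have h1 : (1 : ℝ) ≤ (par n ρ).Q := by exact_mod_cast Nat.one_le_two_pow
  have h2 : (1 - 1 / ((par n ρ).Q : ℝ)) ^ (par n ρ).Q ≤ 1 / 2 := by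
    refine (Real.one_sub_div_pow_le_exp_neg h1).trans ?_
    rw [Real.exp_neg, one_div]
    exact inv_anti₀ two_pos (by linarith [Real.add_one_le_exp 1])
  have h3 : (par n ρ).cap1 - 1 = (par n ρ).Q * lg n := Nat.add_sub_cancel _ _
  have h4 : (tau n : ℝ) ≤ 2 ^ ll n := by exact_mod_cast (numc_w h).2.2.2.2.2.2.1.le
  have h5 : ((par n ρ).N : ℝ) = 2 ^ ((2 * ll n + 2) * 2 ^ ww n ^ 4) := by simp [par]
  rw [h3, pow_mul, h5]
  have h6 : 0 ≤ 1 - 1 / ((par n ρ).Q : ℝ) := sub_nonneg.2 ((div_le_one (by linarith)).2 h1)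
  refine (mul_le_mul (mul_le_mul_of_nonneg_right h4 (by positivity))
    (pow_le_pow_left₀ (pow_nonneg h6 _) h2 _) (pow_nonneg (pow_nonneg h6 _) _)
    (by positivity)).trans (le_of_eq ?_)
  rw [← pow_add, add_comm, lg, ← mul_pow]
  norm_num

theorem num_fail (h : Sz n) : (tau n : ℝ) * (par n ρ).r *
    Real.exp (-((par n ρ).k0 / (par n ρ).gb / 2 : ℝ)) ≤ 1 / (par n ρ).et := by
  obtain ⟨a1, a2, a3, a4, a5, a6, a7, a8⟩ := numc_w h
  have h0 := h.w_ge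
  have h1 := h.l_gt
  have hw : (0 : ℝ) < ww n := by exact_mod_cast (by omega : 0 < ww n)
  have h2 : ((par n ρ).k0 / (par n ρ).gb / 2 : ℝ) = (25 * ll n : ℕ) := by
    simp only [par]
    push_cast
    field_simp
    ring
  have h3 : tau n * ww n * 2 ^ (2 * ww n ^ 4) ≤ 2 ^ (25 * ll n) :=
    calc _ ≤ 2 ^ ll n * 2 ^ ll n * 2 ^ ll n := Nat.mul_le_mul (Nat.mul_le_mul a7.le (by omega))
          (Nat.pow_le_pow_right two_pos (by omega))
      _ ≤ _ := by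
        rw [← pow_add, ← pow_add]
        exact Nat.pow_le_pow_right two_pos (by omega)
  have h4 : (tau n : ℝ) * (par n ρ).r * (par n ρ).et ≤ 2 ^ (25 * ll n) := by exact_mod_cast h3
  have h5 : (0 : ℝ) < (par n ρ).et := by exact_mod_cast Nat.two_pow_pos _
  rw [h2, Real.exp_neg, ← div_eq_mul_inv, div_le_div_iff₀ (Real.exp_pos _) h5, one_mul]
  exact h4.trans (numc_exp _)

theorem num_Ks (h : Sz n) : (par n ρ).Ks (lg n) ≤ (par n ρ).b ^ 6 := by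
  obtain ⟨a1, a2, a3, a4, a5, a6, a7, a8⟩ := numc_w h
  have h0 := h.w_ge
  have h1 := h.l_le
  have e : (par n ρ).et = (2 ^ ww n ^ 4) ^ 2 := by rw [← pow_mul, mul_comm]; rfl
  simp only [Par.Ks, e]
  simp only [par, lg]
  generalize 2 ^ ww n ^ 4 = b at *
  have h2 : (2 * ll n + 2) * b + ll n ≤ b ^ 2 := by nlinarith
  have h3 : 6 ≤ b ^ 4 := le_trans (by omega) (Nat.le_self_pow (by norm_num) b)
  calc _ ≤ 24 * ww n * b * (2 * b ^ 2 * b ^ 2 + b ^ 4) := by gcongr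
    _ = 72 * ww n * b ^ 5 := by ring
    _ ≤ b * b ^ 5 := Nat.mul_le_mul_right _ (by omega)
    _ = _ := by ring

theorem num_P0 (h : Sz n) (hE : E ≤ ww n) : 2 * (tau n * (3 * (par n ρ).b + 4) + 6 * (par n ρ).b +
    (par n ρ).Ks (lg n) * (par n ρ).KR E) * (par n ρ).et ≤ (par n ρ).P0 := by
  obtain ⟨a1, a2, a3, a4, a5, a6, a7, a8⟩ := numc_w h
  have h0 := h.w_ge
  have h1 := num_Ks (ρ := ρ) h
  have h2 := h.tau_ge
  rw [mul_comm, pow_mul] at h2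
  have e : (par n ρ).et = (2 ^ ww n ^ 4) ^ 2 := by rw [← pow_mul, mul_comm]; rfl
  have e' : (par n ρ).P0 = 2 ^ ll n * 2 ^ ll n := by rw [← pow_add, ← two_mul]; rfl
  have e'' : (par n ρ).b = 2 ^ ww n ^ 4 := rfl
  simp only [Par.KR, e, e', e''] at h1 ⊢
  generalize 2 ^ ww n ^ 4 = b at *
  have h3 : 2 * E * (3 * b + 4) ≤ b ^ 2 := by nlinarith
  have h4 : b ^ 8 ≤ tau n := (Nat.pow_le_pow_right (by omega) (by norm_num)).trans h2
  have h5 : b ^ 4 ≤ tau n := (Nat.pow_le_pow_right (by omega) (by norm_num)).trans h2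
  have h6 : (par n ρ).Ks (lg n) * (2 * E * (3 * b + 4)) ≤ tau n :=
    (Nat.mul_le_mul h1 h3).trans (by rwa [← pow_add])
  have h7 : 1 ≤ tau n := (Nat.one_le_pow _ _ (by omega)).trans h5
  calc _ ≤ 2 * (11 * b * tau n) * b ^ 2 := by
        gcongr
        nlinarith
    _ = 22 * b ^ 3 * tau n := by ring
    _ ≤ b * b ^ 3 * tau n := by gcongr; omega
    _ ≤ _ := Nat.mul_le_mul (by rw [← pow_succ']; exact h5.trans a7.le) a7.le

theorem num_L (h : Sz n) : 3 / 5 * (ww n : ℝ) ^ 3 ≤ (par n ρ).L ∧ (par n ρ).L ≤ (ww n : ℝ) ^ 3 := by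
  obtain ⟨a1, a2, -⟩ := numc_w h
  have h0 := h.w_ge
  have h1 : (200 : ℝ) ≤ (ww n : ℝ) ^ 3 := by exact_mod_cast (by omega : 200 ≤ ww n ^ 3)
  have e : (par n ρ).L = (ww n : ℝ) ^ 3 * Real.log 2 - 1 := by simp [Par.L, Par.s, par]
  have h2 := Real.log_two_gt_d9
  have h3 := Real.log_two_lt_d9
  rw [e]
  constructor <;> nlinarith

theorem num_et (h : Sz n) : 9 ≤ (par n ρ).L ∧ 3 * (par n ρ).L ≤ (par n ρ).et := by
  obtain ⟨a1, a2, a3, a4, a5, a6, a7, a8⟩ := numc_w h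
  obtain ⟨h1, h2⟩ := num_L (ρ := ρ) h
  have h0 := h.w_ge
  have h3 : (200 : ℝ) ≤ (ww n : ℝ) ^ 3 := by exact_mod_cast (by omega : 200 ≤ ww n ^ 3)
  have h4 : 2 ^ ww n ^ 4 ≤ (par n ρ).et := Nat.pow_le_pow_right two_pos (by omega)
  have h5 : 3 * (ww n : ℝ) ^ 3 ≤ (par n ρ).et := by
    exact_mod_cast (by omega : 3 * ww n ^ 3 ≤ (par n ρ).et)
  constructor <;> linarith

theorem num_eta2 (h : Sz n) : 2 / ((par n ρ).gb : ℝ) +
    4 * (par n ρ).r * (par n ρ).k0 / (par n ρ).s ≤ 1 / (par n ρ).L := by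
  obtain ⟨a1, a2, -⟩ := numc_w h
  have h0 := h.w_ge
  have h1 := h.l_le
  have hw : (0 : ℝ) < ww n := by exact_mod_cast (by omega : 0 < ww n)
  have h2 : 4 * ww n * (200 * ww n ^ 3 * ll n) * (2 * ww n ^ 3) ≤ 2 ^ ww n ^ 3 :=
    calc _ ≤ 4 * ww n * (200 * ww n ^ 3 * (41 * ww n ^ 4)) * (2 * ww n ^ 3) := by gcongr
      _ = 65600 * ww n ^ 11 := by ring
      _ ≤ ww n ^ 3 * ww n ^ 11 := Nat.mul_le_mul_right _ (by omega)
      _ = ww n ^ 14 := by ring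
      _ ≤ _ := numc_pow (by omega)
  have h3 : 4 * ((par n ρ).r : ℝ) * (par n ρ).k0 / (par n ρ).s ≤ 1 / (2 * (ww n : ℝ) ^ 3) := by
    rw [div_le_div_iff₀ (by exact_mod_cast Nat.two_pow_pos _) (by positivity), one_mul]
    exact_mod_cast h2
  have h4 : 2 / ((par n ρ).gb : ℝ) = 1 / (2 * (ww n : ℝ) ^ 3) := by
    simp only [par]
    push_cast
    field_simp
    ring
  have h5 := one_div_le_one_div_of_le (by linarith [(num_et (ρ := ρ) h).1]) (num_L (ρ := ρ) h).2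
  have h6 : 1 / (ww n : ℝ) ^ 3 = 1 / (2 * (ww n : ℝ) ^ 3) + 1 / (2 * (ww n : ℝ) ^ 3) := by ring
  linarith

theorem num_wy (h : Sz n) : 8 * (par n ρ).H ≤ (par n ρ).gb0 ∧
    4 + 3 * (par n ρ).r * (par n ρ).r0 * (par n ρ).k1 * (par n ρ).gb0 ≤ 2 ^ (par n ρ).wy := by
  obtain ⟨a1, a2, a3, a4, a5, a6, a7, a8⟩ := numc_w h
  have h0 := h.w_ge
  have h1 := h.l_gt
  have h2 := h.H_lt
  have h3 := h.k_lt
  simp only [par]
  refine ⟨by omega, ?_⟩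
  rw [mul_comm 2 (ll n), mul_comm 4 (ll n), pow_mul, pow_mul]
  generalize 2 ^ ll n = K at *
  have h4 : 1 ≤ K ^ 3 := Nat.one_le_pow _ _ (by omega)
  calc _ = 4 * 1 + 3072 * ww n ^ 2 * K ^ 3 := by ring
    _ ≤ 4 * K ^ 3 + 3072 * ww n ^ 2 * K ^ 3 := by gcongr
    _ = (4 + 3072 * ww n ^ 2) * K ^ 3 := by ring
    _ ≤ K * K ^ 3 := Nat.mul_le_mul_right _ (by omega)
    _ = _ := by ring

theorem num_F (h : Sz n) (hE : E ≤ ww n) (hρ : ρ ≤ kk n) : (par n ρ).Yb * ((par n ρ).H + 1) *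
    (par n ρ).P * (1 + (par n ρ).s ^ 2) ^ (par n ρ).H * E ≤ (par n ρ).Dh * (par n ρ).s ^ (par n ρ).F := by
  obtain ⟨a1, a2, a3, a4, a5, a6, a7, a8⟩ := numc_w h
  have h0 := h.w_ge
  have h1 := h.l_gt
  have h2 := h.H_lt
  have h3 := h.k_lt
  have h4 : 1 + (2 ^ ww n ^ 3) ^ 2 ≤ 2 ^ (3 * ww n ^ 3) := by
    have h5 : 2 ^ 1 ≤ 2 ^ ww n ^ 3 := Nat.pow_le_pow_right two_pos (by omega)
    rw [mul_comm, pow_mul]
    generalize 2 ^ ww n ^ 3 = s at *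
    nlinarith [Nat.mul_le_mul_right (s ^ 2) h5]
  have h5 : (hh n + ww n - 1) / ww n ≤ hh n / ww n + 1 := by
    rw [← Nat.add_div_right _ (by omega)]
    exact Nat.div_le_div_right (Nat.sub_le _ _)
  have h6 := Nat.lt_mul_div_succ (lP n - ρ + xs n) (show 0 < ww n ^ 3 by omega)
  have h7 := Nat.mul_le_mul_left (4 * ll n) h5
  simp only [Par.Yb, Par.s, par]
  calc _ ≤ 2 ^ (4 * ll n * ((hh n + ww n - 1) / ww n)) * 2 ^ ll n * 2 ^ lP n *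
        (2 ^ (3 * ww n ^ 3)) ^ hh n * 2 ^ ll n := by gcongr <;> omega
    _ ≤ _ := by
      simp only [← pow_mul, ← pow_add]
      refine Nat.pow_le_pow_right two_pos ?_
      rw [ff]
      rw [xs] at h6 ⊢
      omega

theorem num_Mb (h : Sz n) (hE : E ≤ ww n) : (par n ρ).Mb ≤ 2 ^ (ww n ^ 5 + ll n + 4) ∧
    ((par n ρ).Mb : ℝ) * (par n ρ).P0 ≤ Real.exp (tau n) ∧
    1 + ((par n ρ).Mb : ℝ) * E ≤ Real.exp (par n ρ).b := by
  obtain ⟨a1, a2, a3, a4, a5, a6, a7, a8⟩ := numc_w h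
  have h0 := h.w_ge
  have h1 := h.l_gt
  have h1' := h.l_le
  have h2 := h.H_lt
  have h3 := h.k_lt
  have h4 : (par n ρ).Mb ≤ 2 ^ (ww n ^ 5 + ll n + 4) := by
    simp only [Par.Mb, par, pow_add]
    have h5 := Nat.mul_le_mul_left (2 ^ ww n ^ 5) (show hh n ≤ 2 ^ ll n by omega)
    have h6 := Nat.mul_pos (Nat.two_pow_pos (ww n ^ 5)) (Nat.two_pow_pos (ll n))
    omega
  have h5 : 2 ^ ww n ^ 4 ≤ tau n := (Nat.pow_le_pow_right two_pos (by omega)).trans h.tau_ge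
  have h6 : (par n ρ).Mb * (par n ρ).P0 ≤ 2 ^ tau n :=
    (Nat.mul_le_mul_right _ h4).trans (by
      simp only [par, ← pow_add]
      exact Nat.pow_le_pow_right two_pos (by omega))
  have h7 : 1 + (par n ρ).Mb * E ≤ 2 ^ (par n ρ).b := by
    have h8 := Nat.mul_le_mul h4 (show E ≤ 2 ^ ll n by omega)
    rw [← pow_add] at h8
    have h9 := Nat.pow_lt_pow_right one_lt_two
      (show ww n ^ 5 + ll n + 4 + ll n < (par n ρ).b by simp only [par]; omega)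
    omega
  exact ⟨h4, le_trans (by exact_mod_cast h6) (numc_exp _),
    le_trans (by exact_mod_cast h7) (numc_exp _)⟩

theorem num_misc (h : Sz n) : 3 ≤ (par n ρ).P0 ∧ 4 ≤ tau n ∧ (par n ρ).b0 ∣ 2 ^ ld n ∧
    (par n ρ).Q ∣ 2 ^ ld n ∧ 4 * tau n ≤ (par n ρ).Q := by
  obtain ⟨a1, a2, a3, a4, a5, a6, a7, a8⟩ := numc_w h
  have h0 := h.w_ge
  have h1 := h.l_gt
  have h2 : 2 ^ 2 ≤ 2 ^ (2 * ll n) := Nat.pow_le_pow_right two_pos (by omega)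
  have h3 : 2 ^ 2 ≤ tau n := (Nat.pow_le_pow_right two_pos (by omega)).trans h.tau_ge
  simp only [par, ld]
  exact ⟨by omega, h3, pow_dvd_pow _ (by omega), pow_dvd_pow _ (by omega),
    by rw [pow_add]; omega⟩

end Vale.Agent.P315
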