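import Vale.Agent.P315.NumC

/-! Numerical conditions for the two stages. -/

namespace Vale.Agent.P315

variable {n ρ E : ℕ}

theorem numD_pw {b : ℝ} (hb : 1 ≤ b) {j m k : ℕ} (h : j + k ≤ m) : b ^ j / b ^ m ≤ 1 / b ^ k := by
  rw [div_le_div_iff₀ (by positivity) (by positivity), one_mul, ← pow_add]
  exact pow_le_pow_right₀ hb h

theorem numD_abs {b H τ P K e u E V S : ℝ} (hb : 2 ≤ b) (hτ : b ^ 39 ≤ τ) (hH : 0 ≤ H)
    (hV : H / τ + 1 ≤ V) (hP : b ^ 80 ≤ P) (hK : K ≤ b ^ 6) (he0 : 0 ≤ e) (he : e ≤ 1)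
    (hu : u / τ ≤ 1 / b ^ 3) (hE : 1 ≤ E) (hS0 : 0 ≤ S) (hS : S ≤ b ^ 9) :
    (9 * H / b ^ 2 + u + K * (H / τ + 2 * E * (1 / (1 / b ^ 20) + 3 * (1 / b ^ 20) * H +
      (((H / τ + 1) * b * S + (1 + b) * e) / (1 / b ^ 20) + 1 / b ^ 20 * H * S +
        (H / τ + 1) * S + e) + H * S / P))) / τ ≤ 31 * (E * V) / b ^ 2 := by
  have b1 : 1 ≤ b := by linarith
  have b0 : 0 < b := by linarith
  have τ0 : 0 < τ := lt_of_lt_of_le (by positivity) hτ
  have P0 : 0 < P := lt_of_lt_of_le (by positivity) hP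
  have e1 : (9 * H / b ^ 2 + u + K * (H / τ + 2 * E * (1 / (1 / b ^ 20) + 3 * (1 / b ^ 20) * H +
      (((H / τ + 1) * b * S + (1 + b) * e) / (1 / b ^ 20) + 1 / b ^ 20 * H * S +
        (H / τ + 1) * S + e) + H * S / P))) / τ = 9 * (H / τ) / b ^ 2 + u / τ +
      K * (H / τ * (b ^ 0 / τ) + 2 * E * (b ^ 20 / τ + 3 * (H / τ * (b ^ 0 / b ^ 20)) +
        ((H / τ + 1) * b * S + (1 + b) * e) * (b ^ 20 / τ) + H / τ * (S / b ^ 20) +
        (H / τ + 1) * (S / τ) + e * (b ^ 0 / τ) + H / τ * (S / P))) := by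
    field_simp
    ring
  rw [e1]
  have x0 : 0 ≤ H / τ := by positivity
  generalize H / τ = x at *
  have V1 : 1 ≤ V := by linarith
  have xV : x ≤ V := by linarith
  have ht : ∀ j, j + 9 ≤ 39 → b ^ j / τ ≤ 1 / b ^ 9 := fun j hj =>
    (div_le_div_of_nonneg_left (by positivity) (by positivity) hτ).trans (numD_pw b1 hj)
  have z0 : 0 < 1 / b ^ 9 := by positivity
  have t0 : x * (b ^ 0 / τ) ≤ V * (1 / b ^ 9) :=
    mul_le_mul xV (ht 0 (by norm_num)) (by positivity) (by positivity)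
  have t1 : b ^ 20 / τ ≤ V * (1 / b ^ 9) :=
    (ht 20 (by norm_num)).trans (le_mul_of_one_le_left z0.le V1)
  have t2 : x * (b ^ 0 / b ^ 20) ≤ V * (1 / b ^ 9) :=
    mul_le_mul xV (numD_pw b1 (by norm_num)) (by positivity) (by positivity)
  have t3 : ((x + 1) * b * S + (1 + b) * e) * (b ^ 20 / τ) ≤ 2 * (V * (1 / b ^ 9)) := by
    have h1 : (x + 1) * b * S ≤ V * b * b ^ 9 := by gcongr
    have h2 : (1 + b) * e ≤ V * b * b ^ 9 := by
      have h3 : b ^ 1 ≤ b ^ 9 := pow_le_pow_right₀ b1 (by norm_num)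
      have h4 : b * 2 ≤ b * b ^ 9 := mul_le_mul_of_nonneg_left (by linarith) b0.le
      have h5 : b * b ^ 9 ≤ V * (b * b ^ 9) := le_mul_of_one_le_left (by positivity) V1
      nlinarith
    calc _ ≤ (V * b * b ^ 9 + V * b * b ^ 9) * (b ^ 20 / τ) := by gcongr
      _ = 2 * (V * (b ^ 30 / τ)) := by ring
      _ ≤ _ := by have := ht 30 (by norm_num); gcongr 2 * (V * ?_)
  have t4 : x * (S / b ^ 20) ≤ V * (1 / b ^ 9) :=
    mul_le_mul xV ((div_le_div_of_nonneg_right hS (by positivity)).trans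
      (numD_pw b1 (by norm_num))) (by positivity) (by positivity)
  have t5 : (x + 1) * (S / τ) ≤ V * (1 / b ^ 9) :=
    mul_le_mul hV ((div_le_div_of_nonneg_right hS τ0.le).trans (ht 9 (by norm_num)))
      (by positivity) (by positivity)
  have t6 : e * (b ^ 0 / τ) ≤ V * (1 / b ^ 9) :=
    mul_le_mul (he.trans V1) (ht 0 (by norm_num)) (by positivity) (by positivity)
  have t7 : x * (S / P) ≤ V * (1 / b ^ 9) :=
    mul_le_mul xV ((div_le_div₀ (by positivity) hS (by positivity) hP).trans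
      (numD_pw b1 (by norm_num))) (by positivity) (by positivity)
  have EV : V ≤ E * V := le_mul_of_one_le_left (by linarith) hE
  have t8 : V * (1 / b ^ 9) ≤ E * (V * (1 / b ^ 9)) := le_mul_of_one_le_left (by positivity) hE
  have h3 : 1 / b ^ 3 ≤ 1 / b ^ 2 := by simpa using numD_pw b1 (j := 0) (m := 3) (k := 2) (by norm_num)
  calc _ ≤ 9 * (E * V) / b ^ 2 + E * V * (1 / b ^ 2) + b ^ 6 * (E * (V * (1 / b ^ 9)) +
        2 * E * (10 * (V * (1 / b ^ 9)))) := by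
        gcongr 9 * ?_ / b ^ 2 + ?_ + ?_ * (?_ + 2 * E * ?_)
        · linarith
        · exact (hu.trans h3).trans (le_mul_of_one_le_left (by positivity) (by linarith))
        · linarith
        · linarith
    _ = 10 * (E * V) / b ^ 2 + 21 * (E * V) * (1 / b ^ 3) := by field_simp; ring
    _ ≤ 10 * (E * V) / b ^ 2 + 21 * (E * V) * (1 / b ^ 2) := by gcongr
    _ = _ := by ring

theorem numD_w (h : Sz n) : (ww n : ℝ) ^ 16 ≤ (par n ρ).b := by
  have h1 := h.w_ge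
  have h2 : ww n ^ 16 ≤ 2 ^ ww n ^ 4 := by
    refine (Nat.pow_le_pow_left (Nat.lt_two_pow_self (n := ww n)).le 16).trans ?_
    rw [← pow_mul]
    refine Nat.pow_le_pow_right two_pos ?_
    have := Nat.pow_le_pow_left h1 3
    nlinarith
  exact_mod_cast h2

theorem numD_facts (h : Sz n) : ((par n ρ).b : ℝ) ^ 40 ≤ 2 ^ ll n ∧
    ((par n ρ).P0 : ℝ) = 2 ^ ll n * 2 ^ ll n ∧ ((par n ρ).H : ℝ) + 1 ≤ 2 ^ ll n ∧
    ((par n ρ).b : ℝ) ^ 39 ≤ tau n ∧ ((par n ρ).H : ℝ) / tau n ≤ ww n ^ 6 ∧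
    ((par n ρ).et : ℝ) = (par n ρ).b ^ 2 := by
  have h1 : (2 ^ ww n ^ 4) ^ 39 ≤ tau n := by rw [← pow_mul, mul_comm]; exact h.tau_ge
  have h2 : (2 ^ ww n ^ 4) ^ 40 ≤ 2 ^ ll n := by
    rw [← pow_mul, mul_comm]; exact Nat.pow_le_pow_right two_pos h.l_gt.le
  have h3 : 0 < tau n := Nat.succ_pos _
  simp only [par]
  refine ⟨by exact_mod_cast h2, by push_cast; ring, by exact_mod_cast h.H_lt.trans h.k_lt.le,
    by exact_mod_cast h1, ?_, by push_cast; ring⟩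
  rw [div_le_iff₀ (by exact_mod_cast h3)]
  exact_mod_cast h.H_le

theorem num_exp (h : Sz n) :
    Real.exp (57 * (par n ρ).H / (tau n * (par n ρ).L)) ≤ (par n ρ).b := by
  have hw : (200 : ℝ) ≤ ww n := by exact_mod_cast h.w_ge
  have h1 := (num_L (ρ := ρ) h).1
  have h2 := (numD_facts (ρ := ρ) h).2.2.2.2.1
  have h3 : ((par n ρ).b : ℝ) = Real.exp (ww n ^ 4 * Real.log 2) := by
    rw [← Nat.cast_pow, Real.exp_nat_mul, Real.exp_log two_pos]
    simp [par]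
  rw [h3, Real.exp_le_exp, ← div_div, mul_div_assoc]
  have h4 := Real.log_two_gt_d9
  calc _ ≤ 57 * (ww n : ℝ) ^ 6 / (3 / 5 * ww n ^ 3) := by gcongr
    _ = ww n ^ 3 * 95 := by field_simp; ring
    _ ≤ ww n ^ 3 * (ww n * Real.log 2) := by gcongr; nlinarith
    _ = _ := by ring

theorem num_base (h : Sz n) (hE : E ≤ ww n) :
    20 * (par n ρ).H * (par n ρ).Mb / lam (tau n) (tc n) + 22 * ((par n ρ).H + 1) / (par n ρ).P0 +
      4 * (par n ρ).e0 ≤ 1 / ((par n ρ).b : ℝ) ^ 3 ∧ (par n ρ).e0 ≤ 1 ∧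
    (par n ρ).H * (par n ρ).P * (par n ρ).un (tau n) / tau n ≤ 1 / ((par n ρ).b : ℝ) ^ 3 := by
  have hw : (200 : ℝ) ≤ ww n := by exact_mod_cast h.w_ge
  have w1 : (1 : ℝ) ≤ ww n := by linarith
  obtain ⟨f1, f2, f3, f4, -, -⟩ := numD_facts (ρ := ρ) h
  have hb := numD_w (ρ := ρ) h
  have b2 : (200 : ℝ) ≤ (par n ρ).b := hw.trans ((le_self_pow₀ w1 (by norm_num)).trans hb)
  have τ0 : (0 : ℝ) < tau n := by exact_mod_cast Nat.succ_pos _
  have hM : ((par n ρ).Mb : ℝ) ≤ 2 ^ (ww n ^ 5 + ll n + 4) := by exact_mod_cast (num_Mb h hE).1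
  have hl : (2 : ℝ) ^ (2 * ww n ^ 5) ≤ lam (tau n) (tc n) := by
    have := one_add_mul_le_pow (show (-2 : ℝ) ≤ 1 / tau n from le_trans (by norm_num)
      (one_div_pos.2 τ0).le) (tau n)
    rw [mul_one_div_cancel τ0.ne', one_add_one_eq_two] at this
    rw [lam, tc, show 2 * tau n * ww n ^ 5 = tau n * (2 * ww n ^ 5) by ring, pow_mul _ (tau n)]
    gcongr
  have hb3 : ((par n ρ).b : ℝ) ^ 3 = 2 ^ (3 * ww n ^ 4) := by
    simp only [par]; push_cast; ring
  have a1 : 20 * (par n ρ).H * (par n ρ).Mb / lam (tau n) (tc n) ≤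
      1 / 3 * (1 / ((par n ρ).b : ℝ) ^ 3) := by
    have h1 := h.l_le
    have h2 : 200 * ww n ^ 4 ≤ ww n ^ 5 := by
      rw [pow_succ' _ 4]; exact Nat.mul_le_mul_right _ h.w_ge
    have h3 : 1 ≤ ww n ^ 4 := Nat.one_le_pow _ _ (by have := h.w_ge; omega)
    rw [hb3]
    clear hb hb3 b2 f1 f2 f4 τ0 hw w1 hE
    generalize par n ρ = p, lam (tau n) (tc n) = y, ww n ^ 4 = u, ww n ^ 5 = v, ll n = l at *
    calc _ ≤ 20 * 2 ^ l * 2 ^ (v + l + 4) / (2 : ℝ) ^ (2 * v) := by gcongr; linarith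
      _ ≤ _ := by
          rw [div_mul_div_comm, div_le_div_iff₀ (by positivity) (by positivity)]
          calc _ ≤ (2 : ℝ) ^ 6 * 2 ^ l * 2 ^ (v + l + 4) * 2 ^ (3 * u) := by
                have : (0 : ℝ) ≤ 2 ^ l * 2 ^ (v + l + 4) * 2 ^ (3 * u) := by positivity
                linarith
            _ ≤ _ := by
                rw [← pow_add, ← pow_add, ← pow_add, one_mul, one_mul]
                exact pow_le_pow_right₀ one_le_two (by omega)
  have hU : ((par n ρ).P : ℝ) * (2 ^ ll n) ^ 4 ≤ (par n ρ).U := by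
    simp only [par]
    push_cast
    rw [← pow_mul, ← pow_add]
    exact pow_le_pow_right₀ one_le_two (by have := h.lU_ge; omega)
  have hk : ((par n ρ).r : ℝ) * (1 + 2 * (par n ρ).k0 * (par n ρ).b) ≤ (par n ρ).b ^ 2 := by
    have h1 : (ll n : ℝ) ≤ 41 * ww n ^ 4 := by exact_mod_cast h.l_le
    have e1 : ((par n ρ).r : ℝ) = ww n := rfl
    have e2 : ((par n ρ).k0 : ℝ) = 200 * ww n ^ 3 * ll n := by simp only [par]; push_cast; ring
    rw [e1, e2]
    clear a1 hU hM hl hb3 f1 f2 f3 f4 τ0 e1 e2 hE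
    generalize ((par n ρ).b : ℝ) = b, (ww n : ℝ) = w, (ll n : ℝ) = l at *
    have h2 : (200 : ℝ) ^ 8 ≤ w ^ 8 := by gcongr
    have h3 : w ≤ w ^ 8 := le_self_pow₀ w1 (by norm_num)
    calc _ ≤ w * (b + 2 * (200 * w ^ 3 * (41 * w ^ 4)) * b) := by gcongr; linarith
      _ = (w + 16400 * w ^ 8) * b := by ring
      _ ≤ (w ^ 8 * w ^ 8) * b := by gcongr; nlinarith
      _ ≤ b * b := by rw [← pow_add]; gcongr
      _ = _ := (sq _).symm
  have P0 : (0 : ℝ) < (par n ρ).P := by simp [par]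
  unfold Par.e0 Par.un
  rw [f2]
  clear hM hl hb3 hb hw w1 hE f2
  generalize par n ρ = p, lam (tau n) (tc n) = y at *
  generalize tau n = τ at *
  have H0 : (0 : ℝ) ≤ p.H := Nat.cast_nonneg _
  have r0 : (0 : ℝ) ≤ p.r * (1 + 2 * p.k0 * p.b) := by positivity
  generalize (p.b : ℝ) = b, (p.H : ℝ) = H, (2 : ℝ) ^ ll n = K at *
  have b1 : 1 ≤ b := by linarith
  have K1 : 1 ≤ K := by linarith
  have b4 : b ^ 5 ≤ K := (pow_le_pow_right₀ b1 (by norm_num)).trans f1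
  have b3 : 0 < b ^ 3 := by positivity
  have a2 : 22 * (H + 1) / (K * K) ≤ 1 / 3 * (1 / b ^ 3) := by
    calc _ ≤ 22 * K / (K * b ^ 5) := by gcongr
      _ = 22 / b ^ 2 * (1 / b ^ 3) := by field_simp
      _ ≤ _ := by gcongr ?_ * _; rw [div_le_iff₀ (by positivity)]; nlinarith
  have a3 : (6 * b + 6) * H / (K * K) ≤ 1 / 12 * (1 / b ^ 3) := by
    calc _ ≤ (6 * b + 6 * b) * K / (K * b ^ 5) := by gcongr <;> linarith
      _ = 12 / b * (1 / b ^ 3) := by field_simp; ring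
      _ ≤ _ := by gcongr ?_ * _; rw [div_le_iff₀ (by positivity)]; linarith
  have a4 : 1 / b ^ 3 ≤ 1 := div_le_one_of_le₀ (one_le_pow₀ b1) b3.le
  refine ⟨by linarith, by linarith, ?_⟩
  calc _ = H * p.P * (p.r * (1 + 2 * p.k0 * b)) / p.U := by field_simp
    _ ≤ K * p.P * b ^ 2 / (p.P * K ^ 4) := by gcongr; linarith
    _ = b ^ 2 / K ^ 3 := by field_simp
    _ ≤ b ^ 2 / b ^ 5 := by gcongr; exact b4.trans (le_self_pow₀ K1 (by norm_num))
    _ ≤ _ := numD_pw b1 le_rfl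

theorem numD_pipe (h : Sz n) (hE : E ≤ ww n) {R X : ℝ} (hX : 0 ≤ X) (hR : R / tau n ≤ X) :
    (par n ρ).pipeB (tau n) (tc n) R ≤ (par n ρ).b * (1 / ((par n ρ).b : ℝ) ^ 3 + 6 * X) := by
  have h1 := (num_base (ρ := ρ) h hE).1
  unfold Par.pipeB
  rw [mul_div_assoc 6]
  exact (mul_le_mul_of_nonneg_left (by linarith) (Real.exp_pos _).le).trans
    (mul_le_mul_of_nonneg_right (num_exp h) (by positivity))

theorem num_stageC (h : Sz n) (hE : E ≤ ww n) :
    (par n ρ).pipeB (tau n) (tc n) ((par n ρ).regC (tau n) (lg n)) ≤ ((par n ρ).b : ℝ) ^ 8 := by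
  have hw : (200 : ℝ) ≤ ww n := by exact_mod_cast h.w_ge
  have w1 : (1 : ℝ) ≤ ww n := by linarith
  obtain ⟨-, -, -, -, f5, f6⟩ := numD_facts (ρ := ρ) h
  have hb := numD_w (ρ := ρ) h
  have h1 := (num_base (ρ := ρ) h hE).2.2
  have hK : ((par n ρ).Ks (lg n) : ℝ) ≤ (par n ρ).b ^ 6 := by exact_mod_cast num_Ks h
  have key := fun R X => numD_pipe (ρ := ρ) (R := R) (X := X) h hE
  clear hE
  generalize par n ρ = p, (ww n : ℝ) = w, tc n = T, lg n = L at *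
  generalize tau n = τ at *
  have hW : 200 * w ^ 6 ≤ p.b := by
    refine le_trans ?_ ((pow_le_pow_right₀ w1 (show 7 ≤ 16 by norm_num)).trans hb)
    rw [pow_succ' _ 6]; gcongr
  have W1 : 1 ≤ w ^ 6 := one_le_pow₀ w1
  refine (key _ (11 * (p.b ^ 6 * w ^ 6)) (by positivity) ?_).trans ?_
  · unfold Par.regC
    rw [add_div, add_div, f6, div_right_comm, mul_div_assoc 9, mul_div_assoc _ (p.H : ℝ)]
    have H0 : (0 : ℝ) ≤ p.H / τ := by positivity
    generalize (p.b : ℝ) = b at *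
    have b1 : 1 ≤ b := by linarith
    have h2 : w ^ 6 ≤ b ^ 6 * w ^ 6 := le_mul_of_one_le_left (by positivity) (one_le_pow₀ b1)
    have h3 := div_le_self (show 0 ≤ 9 * ((p.H : ℝ) / τ) by positivity) (one_le_pow₀ b1 (n := 2))
    have h4 := div_le_self zero_le_one (one_le_pow₀ b1 (n := 3))
    have h5 := mul_le_mul hK f5 H0 (by positivity)
    linarith
  · generalize (p.b : ℝ) = b at *
    have b1 : 1 ≤ b := by linarith
    have h4 := div_le_self zero_le_one (one_le_pow₀ b1 (n := 3))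
    have h2 : (1 : ℝ) ≤ b ^ 6 * w ^ 6 := one_le_mul_of_one_le_of_one_le (one_le_pow₀ b1) W1
    calc _ ≤ b * (b ^ 6 * (200 * w ^ 6)) := by gcongr b * ?_; linarith
      _ ≤ b * (b ^ 6 * b) := by gcongr
      _ = _ := by ring

theorem num_stageD (h : Sz n) (hE1 : 1 ≤ E) (hE : E ≤ ww n) :
    (par n ρ).pipeB (tau n) (tc n) ((par n ρ).regD E (tau n) (lg n) (1 / ((par n ρ).b : ℝ) ^ 20)
      (3 + ((par n ρ).b : ℝ) ^ 8)) ≤ 1 / (12 * E) := by
  have hw : (200 : ℝ) ≤ ww n := by exact_mod_cast h.w_ge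
  have w1 : (1 : ℝ) ≤ ww n := by linarith
  obtain ⟨f1, f2, -, f4, f5, f6⟩ := numD_facts (ρ := ρ) h
  have hb := numD_w (ρ := ρ) h
  obtain ⟨-, h1, h2⟩ := num_base (ρ := ρ) h hE
  have hK : ((par n ρ).Ks (lg n) : ℝ) ≤ (par n ρ).b ^ 6 := by exact_mod_cast num_Ks h
  have E1 : (1 : ℝ) ≤ E := by exact_mod_cast hE1
  have E2 : (E : ℝ) ≤ ww n := by exact_mod_cast hE
  have key := fun R X => numD_pipe (ρ := ρ) (R := R) (X := X) h hE
  clear hE
  generalize par n ρ = p, (ww n : ℝ) = w, tc n = T, lg n = L, (2 : ℝ) ^ ll n = K at *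
  generalize tau n = τ at *
  have W1 : 1 ≤ w ^ 6 := one_le_pow₀ w1
  have b2 : (200 : ℝ) ≤ p.b := hw.trans ((le_self_pow₀ w1 (by norm_num)).trans hb)
  have b1 : (1 : ℝ) ≤ p.b := by linarith
  refine (key _ (31 * (E * (2 * w ^ 6)) / p.b ^ 2) (by positivity) ?_).trans ?_
  · unfold Par.regD
    rw [f6]
    refine numD_abs (by linarith) f4 (Nat.cast_nonneg _) (by linarith) ?_ hK
      (by unfold Par.e0; positivity) h1 h2 E1 (by positivity) ?_
    · rw [f2, show 80 = 40 + 40 from rfl, pow_add]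
      exact mul_self_le_mul_self (by positivity) f1
    · have := one_le_pow₀ b1 (n := 8)
      rw [pow_succ _ 8]
      nlinarith
  · generalize (p.b : ℝ) = b at *
    have h3 : 1 / b ^ 3 ≤ E * (2 * w ^ 6) / b ^ 2 :=
      div_le_div₀ (by positivity) (by nlinarith) (by positivity)
        (pow_le_pow_right₀ b1 (by norm_num))
    have h4 : (200 : ℝ) ^ 8 ≤ w ^ 8 := by gcongr
    calc _ ≤ b * (187 * (E * (2 * w ^ 6) / b ^ 2)) := by
          rw [mul_div_assoc 31]; gcongr b * ?_; linarith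
      _ = 374 * (E * w ^ 6) / b := by field_simp; ring
      _ ≤ _ := by
          rw [div_le_div_iff₀ (by positivity) (by positivity), one_mul]
          calc _ ≤ 374 * (w * w ^ 6) * (12 * w) := by gcongr
            _ = 4488 * w ^ 8 := by ring
            _ ≤ w ^ 8 * w ^ 8 := by gcongr; linarith
            _ ≤ b := by rwa [← pow_add]

end Vale.Agent.P315
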