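import Vale.Agent.P315.Alg

/-! Structural facts about the parameters. -/

open Finset

namespace Vale.Agent.P315

namespace Par
variable (p : Par)

/-- The sampling base. -/
def s : ℕ := 2 ^ p.ws

/-- Size of a block of digits for rounds `t ≥ 1`. -/
def Bf : ℕ := p.r * p.b + p.N * (p.cap1 - 1)

/-- Size of a block of digits for round `0`. -/
def Br : ℕ := p.rr1 * p.b0

/-- Number of blocks. -/
def Nn : ℕ := (p.H + 1) * p.P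

/-- Structural facts about the parameters. -/
structure Ok : Prop where
  ws_pos : 1 ≤ p.ws
  r_pos : 1 ≤ p.r
  r0_pos : 1 ≤ p.r0
  H_pos : 1 ≤ p.H
  P0_pos : 1 ≤ p.P0
  Dh_pos : 1 ≤ p.Dh
  Q_pos : 1 ≤ p.Q
  U_pos : 1 ≤ p.U
  cap1_pos : 1 ≤ p.cap1
  T1_pos : 1 ≤ p.T1
  It1_pos : 1 ≤ p.It1
  gb_ge : 2 ≤ p.gb
  gb0_ge : 5 ≤ p.gb0
  wb_eq : p.wb = p.ws * p.r
  b_eq : p.b = p.s ^ p.r
  b0_eq : p.b0 = p.b ^ p.r0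
  rr1_eq : p.rr1 = p.r * p.r0 + 1
  P_eq : p.P = p.b ^ p.H
  np1_eq : p.np1 = 2 * p.P0 + 1
  N_eq : p.N = 2 ^ (p.wd * p.b)
  wd_gt : 2 * p.P0 < 2 ^ p.wd
  NS1_eq : p.NS1 = (p.wb * p.H + 1) * p.np1 + 1
  O_ge : p.Dh + p.P * p.P0 ≤ p.O
  Dh_le : p.Dh ≤ p.P
  len_eq : ∀ h ≤ p.H, p.len h = p.b ^ h
  sp_eq : ∀ j, j ≤ p.F ∨ j ≤ p.r * p.r0 → p.sp j = p.s ^ j
  pw_wd : ∀ j ≤ p.b, p.pw (p.wd * j) = 2 ^ (p.wd * j)
  pw_sc : ∀ i ≤ p.wb * p.H, p.pw i = 2 ^ i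
  pw_it : ∀ i < p.It1, p.pw i = 2 ^ i
  pw_wy : ∀ n ≤ (p.H + p.r0 - 1) / p.r0, p.pw (p.wy * n) = 2 ^ (p.wy * n)
  sF_dvd : p.s ^ p.F ∣ p.U
  Q_dvd : p.Q ∣ p.U
  It_ge : 2 * p.U * p.P ≤ 2 ^ (p.It1 - 1)

/-- The triples (child, floor, round) read by the new estimate in round `t ≥ 1`. -/
def UsedF (z : ℕ → ℕ) (a t l a' t' : ℕ) : Prop :=
  l < p.b ∧ ((a' ≤ a ∧ t' < t) ∨ (a' ≤ a - (p.r - 1) ∧ t' ≤ t) ∨
    ∃ j, 1 ≤ j ∧ j < p.r ∧ ∃ l' < p.sp j, z (j * p.b + l') % p.b = l ∧ a' ≤ a - (j - 1) ∧ t' ≤ t)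

/-- The pairs (piece, floor) read by the rough estimate of a node of height `h`. -/
def UsedR (z : ℕ → ℕ) (h a l a' : ℕ) : Prop :=
  l < p.len (min p.r0 h) ∧ (a' ≤ a - (p.r * min p.r0 h - 1) ∨
    ∃ j, 1 ≤ j ∧ j < p.r * min p.r0 h ∧ ∃ l' < p.sp j,
      z (j * p.b0 + l') % p.len (min p.r0 h) = l ∧ a' ≤ a - (j - 1))

end Par

/-- Regular families of value functions: monotone, Lipschitz, at least the movement. -/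
structure Reg (U : ℕ) (W : ℕ → ℕ → ℕ → ℕ → ℕ) : Prop where
  anti : ∀ {a a' t t' : ℕ} (d e : ℕ), a ≤ a' → t ≤ t' → W a' t' d e ≤ W a t d e
  lip : ∀ a t d e d' e', W a t d e ≤
    W a t d' e' + U * (2 * Nat.dist d d' + Nat.dist (e + d') (e' + d))
  low : ∀ a t d e, U * Nat.dist d e ≤ W a t d e

end Vale.Agent.P315
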