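import Vale.Agent.P315.AnD
import Vale.Agent.P315.MemD

/-! The concrete parameters for total input length `n` and run number `ρ`. -/

open Finset

namespace Vale.Agent.P315

/-- Number of bits of `n + 2`. -/
def kk (n : ℕ) : ℕ := Nat.log 2 (n + 2) + 1

/-- Number of bits of `kk n`. -/
def ll (n : ℕ) : ℕ := Nat.log 2 (kk n) + 1

/-- The slowly growing parameter. -/
def ww (n : ℕ) : ℕ := Nat.findGreatest (fun j => 40 * j ^ 4 < ll n) (ll n)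

/-- Height of the tree. -/
def hh (n : ℕ) : ℕ := kk n / ww n ^ 4 + 1

/-- Logarithm of the padded length. -/
def lP (n : ℕ) : ℕ := ww n ^ 4 * hh n

/-- Window length. -/
def tau (n : ℕ) : ℕ := hh n / ww n ^ 6 + 1

/-- Length of a stage. -/
def tc (n : ℕ) : ℕ := 2 * tau n * ww n ^ 5

/-- Extra precision. -/
def xs (n : ℕ) : ℕ := 4 * ll n * (hh n / ww n + 1) + 2 * ll n + 3 * ww n ^ 3 * hh n

/-- The top floor. -/
def ff (n ρ : ℕ) : ℕ := (lP n - ρ + xs n) / ww n ^ 3 + 1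

/-- Logarithm of the unit. -/
def lU (n : ℕ) : ℕ := ww n ^ 3 * ff n 0 + 4 * ll n

/-- Logarithm of the number of experts, and more. -/
def lg (n : ℕ) : ℕ := (2 * ll n + 2) * 2 ^ ww n ^ 4 + ll n

/-- Number of bits of a random digit. -/
def ld (n : ℕ) : ℕ := ww n ^ 5 + ll n + 2

/-- Bound for the loop bounds of terms. -/
def SS (n : ℕ) : ℕ := 2 ^ (2 * (2 * ll n + 2) * 2 ^ ww n ^ 4)

/-- The parameters. -/
def par (n ρ : ℕ) : Par where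
  b := 2 ^ ww n ^ 4
  b0 := 2 ^ ww n ^ 5
  r := ww n
  rr1 := ww n * ww n + 1
  np1 := 2 * 2 ^ (2 * ll n) + 1
  N := 2 ^ ((2 * ll n + 2) * 2 ^ ww n ^ 4)
  cap1 := 2 ^ (ll n + 2) * lg n + 1
  T1 := 2 * tc n + tau n + 1
  It1 := lU n + lP n + 2
  NS1 := (lP n + 1) * (2 * 2 ^ (2 * ll n) + 1) + 1
  P0 := 2 ^ (2 * ll n)
  r0 := ww n
  ws := ww n ^ 3
  wb := ww n ^ 4
  wd := 2 * ll n + 2
  wy := 4 * ll n
  Q := 2 ^ (ll n + 2)
  gb := 4 * ww n ^ 3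
  k0 := 200 * ww n ^ 3 * ll n
  gb0 := 8 * 2 ^ ll n
  k1 := 128 * 2 ^ (2 * ll n)
  et := 2 ^ (2 * ww n ^ 4)
  U := 2 ^ lU n
  O := 2 ^ (lP n + 2 * ll n + 1)
  Dh := 2 ^ ρ
  F := ff n ρ
  H := hh n
  P := 2 ^ lP n
  pw := fun e => if e ≤ 8 * kk n then 2 ^ e else 0

/-- Ticks of one run. -/
def Par.runT (p : Par) : ℕ :=
  6 + 4 * (p.Nn * (p.F + 1) * p.T1) + 3 * (1 + 2 * (p.NS1 * p.K)) *
    ((p.H + 1) * (p.F + 1) * p.T1 * ((8 * p.s) ^ p.H * (2 * p.s) ^ p.F * p.b ^ p.T1))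

/-- The value at the root. -/
def rootW (p : Par) (mis : ℕ → ℕ → ℕ) (z zr : ℕ → ℕ → ℕ → ℕ) (e : ℕ) : ℕ :=
  Wv p mis z zr p.H 0 p.F (p.T1 - 1) p.O e

/-- The output of the main algorithm. -/
def outv (E n : ℕ) (mis : ℕ → ℕ → ℕ) (z zr : ℕ → ℕ → ℕ → ℕ) (e : ℕ) : ℕ :=
  mn (kk n + 1) (fun ρ => rootW (par n ρ) mis z zr e) * (E + 2) / ((par n 0).U * E)

/-- The memory holds the parameters, the strings and the digits. -/
structure MemOk (p : Par) (mis : ℕ → ℕ → ℕ) (z zr : ℕ → ℕ → ℕ → ℕ) (m : Mem) : Prop where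
  pm : PM m = p
  mis : misM m = mis
  z : ∀ h ≤ p.H, ∀ i < p.P, zM m h i = z h i
  zr : ∀ h ≤ p.H, ∀ i < p.P, zrM m h i = zr h i

theorem MemOk.same {p : Par} {mis : ℕ → ℕ → ℕ} {z zr : ℕ → ℕ → ℕ → ℕ} {m m' : Mem} {l : List ℕ}
    (h : MemOk p mis z zr m) (hs : Same l m m') (hl : ∀ a ∈ l, 9 ≤ a ∨ a = 3) :
    MemOk p mis z zr m' := by
  have e : ∀ a, a < 9 → a ≠ 3 → m' a = m a := fun a h1 h2 => hs a fun h' => by
    have := hl a h'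
    omega
  have e1 : PM m' = PM m := by
    unfold PM
    rw [e 4 (by omega) (by omega), e 5 (by omega) (by omega), e 6 (by omega) (by omega)]
  refine ⟨e1.trans h.pm, Eq.trans ?_ h.mis, fun a ha i hi => Eq.trans ?_ (h.z a ha i hi),
    fun a ha i hi => Eq.trans ?_ (h.zr a ha i hi)⟩
  · unfold misM
    rw [e 0 (by omega) (by omega), e 1 (by omega) (by omega), e 2 (by omega) (by omega),
      e 6 (by omega) (by omega)]
  · unfold zM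
    rw [e1, e 8 (by omega) (by omega)]
  · unfold zrM
    rw [e1, e 7 (by omega) (by omega)]

/-- The flags are in memory. -/
def FlagOk (p : Par) (z zr : ℕ → ℕ → ℕ → ℕ) (m : Mem) : Prop :=
  ∀ n ≤ p.H, ∀ i < p.P, ∀ a t, fM m n i a t = nf p z zr n i a t

/-- The result of the first phase. -/
def ParOk (E n : ℕ) (m : Mem) : Prop :=
  (E + 200 ≤ ww n → PM m = par n 0 ∧ m 6 18 = (par n 0).Nn * (par n 0).Br ∧
    m 6 19 = (par n 0).Nn * (par n 0).Bf ∧ m 6 20 = ld n ∧ m 6 21 = kk n ∧ m 6 22 = 1 ∧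
    m 6 23 = lP n ∧ m 6 24 = xs n) ∧
  (ww n < E + 200 → m 6 18 = 0 ∧ m 6 19 = 0 ∧ m 6 20 = 0 ∧ m 6 22 = 0)

/-- Basic size relations. -/
structure Sz (n : ℕ) : Prop where
  w_ge : 200 ≤ ww n
  k_ge : 2 ^ (40 * ww n ^ 4) ≤ kk n
  k_lt : kk n < 2 ^ ll n
  k_ge' : 2 ^ ll n ≤ 2 * kk n
  l_gt : 40 * ww n ^ 4 < ll n
  l_le : ll n ≤ 41 * ww n ^ 4
  n_lt : n + 2 < 2 ^ kk n
  k_le : kk n ≤ lP n
  lP_le : lP n ≤ kk n + ww n ^ 4
  xs_le : xs n ≤ 170 * (kk n / ww n)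
  xs_le' : xs n ≤ kk n
  lU_le : lU n ≤ 3 * kk n
  lU_ge : lP n + 4 * ll n ≤ lU n
  ff_le : ∀ ρ, ff n ρ ≤ ff n 0
  H_lt : hh n + 1 ≤ kk n
  H_le : hh n ≤ ww n ^ 6 * tau n
  tau_ge : 2 ^ (39 * ww n ^ 4) ≤ tau n
  T_le : 2 * tc n + tau n + 1 ≤ kk n
  small : 2 * (2 * ll n + 2) * 2 ^ ww n ^ 4 * 2 ^ ww n ^ 4 ≤ kk n / ww n

end Vale.Agent.P315
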