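import Vale.Agent.P315.ParD
import Vale.Agent.P315.CxB
import Vale.Agent.P315.Need

/-! The phase that fills the tables of one quadruple. The variable `0` holds its number. -/

open Finset

namespace Vale.Agent.P315

theorem phOne_pm {l : List ℕ} {m m' : Mem} (hs : Same l m m') (hl : ∀ a ∈ l, 9 ≤ a) :
    PM m' = PM m := by
  have e : ∀ a, a < 9 → m' a = m a := fun a h1 => hs a fun h' => by
    have := hl a h'
    omega
  unfold PM
  rw [e 4 (by omega), e 5 (by omega), e 6 (by omega)]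

theorem phOne_nv {m m' : Mem} (hs : Same [10] m m') : nvM m' = nvM m := by
  have e : ∀ a, a ≠ 10 → m' a = m a := fun a h1 => hs a fun h' => h1 (List.mem_singleton.1 h')
  have e1 : PM m' = PM m := phOne_pm hs fun a h => by rw [List.mem_singleton.1 h]; omega
  have e2 : misM m' = misM m := by
    unfold misM
    rw [e 0 (by omega), e 1 (by omega), e 2 (by omega), e 6 (by omega)]
  have e3 : zM m' = zM m := by
    unfold zM
    rw [e1, e 8 (by omega)]
  have e4 : zrM m' = zrM m := by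
    unfold zrM
    rw [e1, e 7 (by omega)]
  have e5 : WM m' = WM m := by
    unfold WM
    rw [e1, e2, e 11 (by omega), e 12 (by omega)]
  unfold nvM
  rw [e1, e3, e4, e5]

theorem phOne_lt {q q' n j : ℕ} (hq : q' < q) (hj : j < n) : q' * n + j < q * n := by
  have := Nat.mul_le_mul_right n (Nat.succ_le_of_lt hq)
  rw [Nat.succ_mul] at this
  omega

theorem phOne_div {q n j : ℕ} (hj : j < n) : (q * n + j) / n = q := by
  rw [mul_comm, Nat.mul_add_div (by omega), Nat.div_eq_of_lt hj, add_zero]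

theorem phOne_mod {q n j : ℕ} (hj : j < n) : (q * n + j) % n = j := by
  rw [mul_comm, Nat.mul_add_mod, Nat.mod_eq_of_lt hj]

theorem phOne_K (p : Par) : 0 < p.K := Nat.succ_pos _

theorem phOne_cK : Cx fun _ m => (PM m).K := cxB_succ cxB_D

theorem phOne_cn : Cx fun _ m => (PM m).NS1 * (PM m).K := (Cx.cell 5 9).mul phOne_cK

/-- The table entry computed from memory. -/
def phOneRaw (m : Mem) (h i a t sl k : ℕ) : ℕ :=
  min (if a = 1 then (PM m).big (h + 1) sl else m 10 ((PM m).ad (h + 1) i (a - 1) t sl k))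
    (if t = 0 then nvM m h i a t sl k else
      min (m 10 ((PM m).ad (h + 1) i a (t - 1) sl k)) (nvM m h i a t sl k))

theorem phOne_cx {h i a t sl k : Env → Mem → ℕ} (hh : Cx h) (hi : Cx i) (ha : Cx a) (ht : Cx t)
    (hsl : Cx sl) (hk : Cx k) :
    Cx fun v m => phOneRaw m (h v m) (i v m) (a v m) (t v m) (sl v m) (k v m) := by
  have h1 := cxB_succ hh
  have h2 := cx_nvM hh hi ha ht hsl hk
  exact (Cx.ite (CxP.eq ha (Cx.const 1)) (cxB_big h1 hsl)
    (Cx.get 10 (cxB_ad h1 hi (cxB_pred ha) ht hsl hk))).min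
    (Cx.ite (cxB_z ht) h2 ((Cx.get 10 (cxB_ad h1 hi ha (cxB_pred ht) hsl hk)).min h2))

theorem phOne_raw (B : ℕ) (nv : ℕ → ℕ → ℕ) (a t : ℕ) (ha : 1 ≤ a) : Par.raw B nv a t =
    min (if a = 1 then B else Par.raw B nv (a - 1) t)
      (if t = 0 then nv a t else min (Par.raw B nv a (t - 1)) (nv a t)) := by
  obtain ⟨a, rfl⟩ : ∃ a', a = a' + 1 := ⟨a - 1, by omega⟩
  have e : (if a + 1 = 1 then B else Par.raw B nv (a + 1 - 1) t) = Par.raw B nv a t := by
    split_ifs with h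
    · obtain rfl : a = 0 := by omega
      rw [Par.raw]
    · rfl
  rw [e]
  cases t with
  | zero => rw [Par.raw, if_pos rfl]
  | succ t => rw [Par.raw, if_neg (Nat.succ_ne_zero t), Nat.add_sub_cancel]

/-- The first table. -/
theorem phOne_a : ∃ c : Cmd, ∀ (V S : ℕ) (e : Env) (m : Mem) (p : Par) (mis : ℕ → ℕ → ℕ)
    (z zr : ℕ → ℕ → ℕ → ℕ) (h i a t : ℕ), PM m = p → i < p.P → 1 ≤ a →
    a ≤ p.F → t < p.T1 → e 0 = p.tx (h + 1) i a t → p.NS1 * p.K ≤ V →
    (∀ sl < p.NS1, ∀ k, tabT p mis z zr h i a t sl k ≤ V) →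
    (∀ sl < p.NS1, ∀ k < p.K, nvM m h i a t sl k = p.newv (Wch p mis z zr h i) (Wpc p mis z zr h i)
      (z (h + 1) i) (zr (h + 1) i) (h + 1) a t sl k) →
    (2 ≤ a → TabOk p mis z zr m h i (a - 1) t) → (1 ≤ t → TabOk p mis z zr m h i a (t - 1)) →
    Tri V S c e m (1 + 2 * (p.NS1 * p.K)) (Filled 10 (e 0 * (p.NS1 * p.K)) (p.NS1 * p.K)
      (fun j => tabT p mis z zr h i a t (j / p.K) (j % p.K)) m) := by
  have c1 : Cx fun v m => v 1 / (PM m).T1 := (Cx.var 1).div (Cx.cell 5 7)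
  have c2 : Cx fun _ m => (PM m).F + 1 := cxB_succ (Cx.cell 6 15)
  have c3 : Cx fun _ m => (PM m).P := Cx.cell 6 17
  obtain ⟨c, hc⟩ := fill 10 (by omega) phOne_cn ((Cx.var 0).mul phOne_cn)
    (phOne_cx (cxB_pred ((c1.div c2).div c3)) ((c1.div c2).mod c3) (c1.mod c2)
      ((Cx.var 1).mod (Cx.cell 5 7)) ((Cx.var 0).div phOne_cK) ((Cx.var 0).mod phOne_cK))
  refine ⟨c, fun V S e m p mis z zr h i a t hm hi ha1 ha ht he hV hB hnv hA hT => ?_⟩
  subst hm
  have hK := phOne_K (PM m)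
  refine hc V S e m _ hV (fun j hj => hB _ ((Nat.div_lt_iff_lt_mul hK).2 hj) _) fun j hj m' hf => ?_
  have e1 : PM m' = PM m := phOne_pm hf.1 fun a h => by rw [List.mem_singleton.1 h]; omega
  have e2 : m' 5 7 = (PM m).T1 := congrArg Par.T1 e1
  have hsl := (Nat.div_lt_iff_lt_mul hK).2 hj
  have hk := Nat.mod_lt j hK
  have hjj : j / (PM m).K * (PM m).K + j % (PM m).K < (PM m).NS1 * (PM m).K := by
    rwa [Nat.div_add_mod']
  refine ⟨by rw [e1], ?_⟩
  show phOneRaw m' (e 0 / (PM m').T1 / ((PM m').F + 1) / (PM m').P - 1)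
    (e 0 / (PM m').T1 / ((PM m').F + 1) % (PM m').P) (e 0 / (PM m').T1 % ((PM m').F + 1))
    (e 0 % m' 5 7) (j / (PM m').K) (j % (PM m').K) = _
  rw [e1, e2, he, Par.tx, phOne_div ht, phOne_mod ht, phOne_div (Nat.lt_succ_of_le ha),
    phOne_mod (Nat.lt_succ_of_le ha), phOne_div hi, phOne_mod hi, Nat.add_sub_cancel, phOneRaw, e1,
    phOne_nv hf.1, hnv _ hsl _ hk, tabT, Par.tab, phOne_raw _ _ _ _ ha1]
  have hT1 : 0 < (PM m).T1 := by omega
  congr 1
  · split_ifs with h1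
    · rfl
    · rw [hf.2.2 _ (Or.inl ?_), (hA (by omega) _ hsl _ hk).1]
      · rfl
      · rw [he]
        refine phOne_lt ?_ hjj
        exact Nat.add_lt_add_right (Nat.mul_lt_mul_of_pos_right (by omega) hT1) _
  · split_ifs with h1
    · rfl
    · rw [hf.2.2 _ (Or.inl ?_), (hT (by omega) _ hsl _ hk).1]
      · rfl
      · rw [he]
        refine phOne_lt ?_ hjj
        exact Nat.add_lt_add_left (by omega) _

/-- The closure tables. -/
theorem phOne_b (b : ℕ) (hb : 11 ≤ b) (π : ℕ → ℕ → ℕ)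
    (hπ : Cx fun v m => π (PM m).Dh (v 0 % (PM m).K)) (hlt : ∀ D k, k < 2 * D + 1 → π D k < 2 * D + 1) :
    ∃ c : Cmd, ∀ (V S : ℕ) (e : Env) (m : Mem) (p : Par) (R : ℕ → ℕ → ℕ), PM m = p →
      p.NS1 * p.K ≤ V → (∀ sl < p.NS1, ∀ k, R sl k ≤ V) →
      (∀ sl < p.NS1, ∀ k < p.K, m 10 (e 0 * (p.NS1 * p.K) + (sl * p.K + k)) = R sl k) →
      Tri V S c e m (1 + 2 * (p.NS1 * p.K)) (Filled b (e 0 * (p.NS1 * p.K)) (p.NS1 * p.K)
        (fun j => fwd (fun k => R (j / p.K) (π p.Dh k)) (2 * p.U * p.sg (j / p.K)) (j % p.K)) m) := by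
  have c1 : Cx fun v m => v 1 * ((PM m).NS1 * (PM m).K) := (Cx.var 1).mul phOne_cn
  have c2 : Cx fun v m => v 0 / (PM m).K := (Cx.var 0).div phOne_cK
  have c3 := Cx.get 10 (c1.add ((c2.mul phOne_cK).add hπ))
  have c4 : Cx fun _ m => 2 * (PM m).U := (Cx.const 2).mul (Cx.cell 6 12)
  obtain ⟨c, hc⟩ := fill b (by omega) phOne_cn ((Cx.var 0).mul phOne_cn)
    (Cx.ite (cxB_z ((Cx.var 0).mod phOne_cK)) c3
      (c3.min ((Cx.get b (c1.add (cxB_pred (Cx.var 0)))).add (c4.mul (cxB_sg c2)))))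
  refine ⟨c, fun V S e m p R hm hV hB hR => ?_⟩
  subst hm
  have hK := phOne_K (PM m)
  refine hc V S e m _ hV
    (fun j hj => (fwd_le _ _ _).trans (hB _ ((Nat.div_lt_iff_lt_mul hK).2 hj) _))
    fun j hj m' hf => ?_
  have e1 : PM m' = PM m := phOne_pm hf.1 fun a h => by rw [List.mem_singleton.1 h]; omega
  have e2 : m' 10 = m 10 := hf.1 10 fun h => by have := List.mem_singleton.1 h; omega
  have hsl := (Nat.div_lt_iff_lt_mul hK).2 hj
  have hk := Nat.mod_lt j hK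
  refine ⟨by rw [e1], ?_⟩
  show (if j % (PM m').K = 0 then m' 10 (e 0 * ((PM m').NS1 * (PM m').K) +
      (j / (PM m').K * (PM m').K + π (PM m').Dh (j % (PM m').K))) else
    min (m' 10 (e 0 * ((PM m').NS1 * (PM m').K) +
      (j / (PM m').K * (PM m').K + π (PM m').Dh (j % (PM m').K))))
      (m' b (e 0 * ((PM m').NS1 * (PM m').K) + (j - 1)) +
        2 * (PM m').U * (PM m').sg (j / (PM m').K))) = _
  rw [e1, e2, hR _ hsl _ (hlt _ _ hk)]
  split_ifs with h0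
  · rw [h0, fwd]
  · obtain ⟨k, hk'⟩ : ∃ k, j % (PM m).K = k + 1 := ⟨j % (PM m).K - 1, by omega⟩
    have e3 : j - 1 = j / (PM m).K * (PM m).K + k := by
      have := Nat.div_add_mod' j (PM m).K
      omega
    have h1 : j - 1 < j := by
      have := Nat.mod_le j (PM m).K
      omega
    have h2 : k < (PM m).K := by omega
    rw [hf.2.1 _ h1, hk', fwd, e3]
    simp only [phOne_div h2, phOne_mod h2]

theorem ph_one : ∃ c : Cmd, ∀ (V S : ℕ) (e : Env) (m : Mem) (p : Par) (mis : ℕ → ℕ → ℕ)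
    (z zr : ℕ → ℕ → ℕ → ℕ) (h i a t : ℕ), p.Ok → MemOk p mis z zr m → h < p.H → i < p.P → 1 ≤ a →
    a ≤ p.F → t < p.T1 → e 0 = p.tx (h + 1) i a t → p.NS1 * p.K ≤ V →
    p.U * (p.P + p.P * p.P0) ≤ V →
    (∀ sl < p.NS1, ∀ k < p.K, nvM m h i a t sl k = p.newv (Wch p mis z zr h i) (Wpc p mis z zr h i)
      (z (h + 1) i) (zr (h + 1) i) (h + 1) a t sl k) →
    (2 ≤ a → TabOk p mis z zr m h i (a - 1) t) → (1 ≤ t → TabOk p mis z zr m h i a (t - 1)) →
    Tri V S c e m (3 * (1 + 2 * (p.NS1 * p.K))) fun m' => Same [10, 11, 12] m m' ∧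
      TabOk p mis z zr m' h i a t ∧ ∀ b j, j < e 0 * (p.NS1 * p.K) → m' b j = m b j := by
  obtain ⟨c1, h1⟩ := phOne_a
  obtain ⟨c2, h2⟩ := phOne_b 11 le_rfl (fun _ k => k) ((Cx.var 0).mod phOne_cK) fun _ _ h => h
  obtain ⟨c3, h3⟩ := phOne_b 12 (by omega) (fun D k => 2 * D - k)
    (cxB_D.sub ((Cx.var 0).mod phOne_cK)) fun _ _ _ => by omega
  refine ⟨.seq c1 (.seq c2 c3), fun V S e m p mis z zr h i a t hp hm hh hi ha1 ha ht he hV hU hnv
    hA hT => ?_⟩
  have hB : ∀ sl < p.NS1, ∀ k, tabT p mis z zr h i a t sl k ≤ V := by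
    intro sl hsl k
    refine (raw_le_big _ _ _ _).trans (le_trans (Nat.mul_le_mul_left _ (Nat.add_le_add ?_
      (Nat.mul_le_mul_right _ (hp.sg_le hsl).2))) hU)
    rw [hp.len_eq _ hh, hp.P_eq]
    exact Nat.pow_le_pow_right (by have := hp.two_le_b; omega) hh
  have hj : ∀ sl < p.NS1, ∀ k < p.K, sl * p.K + k < p.NS1 * p.K := fun _ h _ h' => phOne_lt h h'
  have hne : ∀ {x y : ℕ}, x ≠ y → x ∉ [y] := fun h h' => h (List.mem_singleton.1 h')
  refine Tri.mono (n := 1 + 2 * (p.NS1 * p.K) + (1 + 2 * (p.NS1 * p.K) + (1 + 2 * (p.NS1 * p.K))))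
    (Tri.seq ((h1 V S e m p mis z zr h i a t hm.pm hi ha1 ha ht he hV hB hnv hA hT).mono le_rfl
      fun m1 f1 => ?_)) (by omega) fun _ h => h
  have p1 : PM m1 = p :=
    (phOne_pm f1.1 fun a h => by rw [List.mem_singleton.1 h]; omega).trans hm.pm
  have r1 : ∀ sl < p.NS1, ∀ k < p.K,
      m1 10 (e 0 * (p.NS1 * p.K) + (sl * p.K + k)) = tabT p mis z zr h i a t sl k := by
    intro sl hsl k hk
    rw [f1.2.1 _ (hj sl hsl k hk)]
    simp only [phOne_div hk, phOne_mod hk]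
  refine Tri.seq ((h2 V S e m1 p _ p1 hV hB r1).mono le_rfl fun m2 f2 => ?_)
  have p2 : PM m2 = p :=
    (phOne_pm f2.1 fun a h => by rw [List.mem_singleton.1 h]; omega).trans p1
  have e2 : m2 10 = m1 10 := f2.1 10 (hne (by omega))
  refine (h3 V S e m2 p _ p2 hV hB (by rw [e2]; exact r1)).mono le_rfl fun m3 f3 => ⟨?_, ?_, ?_⟩
  · exact ((f1.1.mono (by simp)).trans (f2.1.mono (by simp))).trans (f3.1.mono (by simp))
  · intro sl hsl k hk
    rw [Par.ad, ← he, f3.1 10 (hne (by omega)), f3.1 11 (hne (by omega)), e2, r1 sl hsl k hk,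
      f2.2.1 _ (hj sl hsl k hk), f3.2.1 _ (hj sl hsl k hk)]
    simp only [phOne_div hk, phOne_mod hk, and_self]
  · have key : ∀ {c : ℕ} {tb : ℕ → ℕ} {x y : Mem},
        Filled c (e 0 * (p.NS1 * p.K)) (p.NS1 * p.K) tb x y →
        ∀ b j, j < e 0 * (p.NS1 * p.K) → y b j = x b j := by
      intro c tb x y f b j hj
      by_cases hb : b = c
      · rw [hb]
        exact f.2.2 j (Or.inl hj)
      · rw [f.1 b (hne hb)]
    intro b j hj
    rw [key f3 b j hj, key f2 b j hj, key f1 b j hj]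

end Vale.Agent.P315
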