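import Vale.Agent.P315.ParD
import Vale.Agent.P315.DetB
import Vale.Agent.P315.Need

/-! Values read from correct tables are correct. -/

open Finset

namespace Vale.Agent.P315

variable {p : Par} {mis : ℕ → ℕ → ℕ} {z zr : ℕ → ℕ → ℕ → ℕ} {m : Mem}

theorem WM_leaf (hm : MemOk p mis z zr m) (i a t : ℕ) : WM m 0 i a t = Wv p mis z zr 0 i a t := by
  funext d e
  rw [WM, if_pos rfl, hm.pm, hm.mis, Wv_zero]

theorem WM_floor0 (hm : MemOk p mis z zr m) (h i t : ℕ) : WM m h i 0 t = Wv p mis z zr h i 0 t := by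
  cases h with
  | zero => exact WM_leaf hm i 0 t
  | succ h =>
    funext d e
    rw [Wv_succ, WM, if_neg (Nat.succ_ne_zero h), hm.pm, Par.node, Par.evc, Par.evc, if_pos rfl,
      if_pos rfl]

theorem tabl_evc {C C' : ℕ → ℕ} (hC : ∀ sl, sl < p.NS1 ∨ sl = 0 → C sl = C' sl) (h a d e : ℕ) :
    p.evc C h a d e = p.evc C' h a d e := by
  unfold Par.evc
  rw [mn_congr fun sl hsl => by rw [hC sl hsl]]

theorem WM_tab (hp : p.Ok) (hm : MemOk p mis z zr m) {h i a t : ℕ}
    (ht : TabOk p mis z zr m h i a t) : WM m (h + 1) i a t = Wv p mis z zr (h + 1) i a t := by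
  funext d e
  rw [Wv_succ, WM, if_neg (Nat.succ_ne_zero h), hm.pm, Par.node]
  refine tabl_evc (fun sl hsl => ?_) _ _ _ _
  have hs : sl < p.NS1 := by
    have := hp.NS1_eq
    omega
  have h0 : p.kl0 sl d ≤ 2 * p.Dh := min_le_right _ _
  rw [col_eq _ (hp.sg_le hs).1]
  unfold Par.colT
  beta_reduce
  rw [(ht sl hs (p.kl0 sl d) (by unfold Par.K; omega)).2.1,
    (ht sl hs (2 * p.Dh - min (p.kl0 sl d + 1) (2 * p.Dh)) (by unfold Par.K; omega)).2.2]
  rfl

/-- If the tables of all flagged quadruples of smaller height are correct, then the new estimate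
of a flagged quadruple is computed correctly. -/
theorem nvM_eq (hp : p.Ok) (hm : MemOk p mis z zr m) {h i a t : ℕ} (hh : h < p.H)
    (hf : nf p z zr (p.H - (h + 1)) i a t ≠ 0)
    (hlow : ∀ h' < h, ∀ i' a' t', 1 ≤ a' → nf p z zr (p.H - (h' + 1)) i' a' t' ≠ 0 →
      TabOk p mis z zr m h' i' a' t') (sl k : ℕ) :
    nvM m h i a t sl k = p.newv (Wch p mis z zr h i) (Wpc p mis z zr h i)
      (z (h + 1) i) (zr (h + 1) i) (h + 1) a t sl k := by
  have hi : i < p.P := hp.idx_lt (nf_range hp hf).1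
  have low : ∀ h' ≤ h, ∀ i' a' t', (1 ≤ h' → 1 ≤ a' → nf p z zr (p.H - h') i' a' t' ≠ 0) →
      WM m h' i' a' t' = Wv p mis z zr h' i' a' t' := by
    intro h' hh' i' a' t' hn
    rcases h' with _ | h'
    · exact WM_leaf hm _ _ _
    rcases a' with _ | a'
    · exact WM_floor0 hm _ _ _
    exact WM_tab hp hm (hlow h' (by omega) _ _ _ (by omega) (hn (by omega) (by omega)))
  have e : p.H - (p.H - (h + 1)) = h + 1 := by omega
  rw [nvM, hm.pm, hm.z (h + 1) hh i hi, hm.zr (h + 1) hh i hi]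
  unfold Par.newv
  split_ifs with h1 h2 h3
  · refine est_congr hp (by omega) hh (fun l a' hu => ?_) _
    refine low _ (Nat.sub_le _ _) _ _ _ fun c1 c2 => ?_
    have hr := hp.r0_pos
    have hlt : p.r0 < h + 1 := by omega
    have := nf_coverR hp hf (by omega) (l := l) (a' := a') (by rw [e]; exact hu) c2
    rw [min_eq_left hlt.le, hp.len_eq _ (by omega), ← hp.b0_eq,
      show p.H - (h - (p.r0 - 1)) = p.H - (h + 1) + p.r0 by omega]
    exact this
  · rfl
  · rfl
  · refine cand_congr hp (by omega) (fun l a' t' hu => ?_) _ _ _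
    refine low _ le_rfl _ _ _ fun _ c2 => ?_
    have := nf_coverF hp hf (by omega) (l := l) (a' := a') (t' := t') (by rw [e]; exact hu) c2
    rw [show p.H - h = p.H - (h + 1) + 1 by omega]
    exact this

theorem tabl_sum (A B : ℕ) (G : ℕ → ℕ → ℕ) :
    ∑ c ∈ range (A * B), G (c / B) (c % B) = ∑ q ∈ range A, ∑ l ∈ range B, G q l := by
  induction A with
  | zero => simp
  | succ A ih =>
    rw [add_mul, one_mul, sum_range_add, ih, sum_range_succ]
    refine congrArg _ (sum_congr rfl fun l hl => ?_)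
    rw [(need_dm A (mem_range.1 hl)).1, (need_dm A (mem_range.1 hl)).2]

theorem flags_le (hp : p.Ok) : ∑ c ∈ range (p.Nn * (p.F + 1) * p.T1),
    nf p z zr (p.H - c / p.T1 / (p.F + 1) / p.P) (c / p.T1 / (p.F + 1) % p.P) (c / p.T1 % (p.F + 1))
      (c % p.T1) ≤
    (p.H + 1) * (p.F + 1) * p.T1 * ((8 * p.s) ^ p.H * (2 * p.s) ^ p.F * p.b ^ p.T1) := by
  have hs := need_s hp
  have hb := hp.two_le_b
  rw [tabl_sum _ _ fun q t => nf p z zr (p.H - q / (p.F + 1) / p.P) (q / (p.F + 1) % p.P)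
      (q % (p.F + 1)) t,
    tabl_sum _ _ fun q a => ∑ t ∈ range p.T1, nf p z zr (p.H - q / p.P) (q % p.P) a t,
    Par.Nn,
    tabl_sum _ _ fun h i => ∑ a ∈ range (p.F + 1), ∑ t ∈ range p.T1, nf p z zr (p.H - h) i a t]
  refine (sum_le_sum (g := fun _ => ∑ _a ∈ range (p.F + 1), ∑ _t ∈ range p.T1,
    (8 * p.s) ^ p.H * (2 * p.s) ^ p.F * p.b ^ p.T1) fun h _ => ?_).trans (le_of_eq ?_)
  · rw [sum_comm]
    refine sum_le_sum fun a _ => ?_
    rw [sum_comm]
    refine sum_le_sum fun t _ => (nf_count hp _ _ _).trans ?_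
    exact Nat.mul_le_mul (Nat.mul_le_mul (Nat.pow_le_pow_right (by omega) (Nat.sub_le _ _))
      (Nat.pow_le_pow_right (by omega) (Nat.sub_le _ _)))
      (Nat.pow_le_pow_right (by omega) (Nat.sub_le _ _))
  · simp only [sum_const, card_range, smul_eq_mul, mul_assoc]

end Vale.Agent.P315
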