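import Vale.Agent.P315.PhOne
import Vale.Agent.P315.TabL

/-! The phase that fills all flagged tables. -/

open Finset

namespace Vale.Agent.P315

theorem PhTab_lt {x y B C : ℕ} (hy : y < B) (hx : x < C) : x * B + y < C * B :=
  (Nat.add_lt_add_left hy _).trans_le (by rw [← Nat.succ_mul]; exact Nat.mul_le_mul_right _ hx)

theorem PhTab_txlt {p : Par} {h i a t H : ℕ} (hi : i < p.P) (ha : a ≤ p.F) (ht : t < p.T1)
    (hh : h < H) : p.tx h i a t < H * p.P * (p.F + 1) * p.T1 :=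
  PhTab_lt ht (PhTab_lt (Nat.lt_succ_of_le ha) (PhTab_lt hi hh))

theorem PhTab_txge (p : Par) (h i a t : ℕ) : h * p.P * (p.F + 1) * p.T1 ≤ p.tx h i a t :=
  (Nat.mul_le_mul_right _ ((Nat.mul_le_mul_right _ (Nat.le_add_right _ _)).trans
    (Nat.le_add_right _ _))).trans (Nat.le_add_right _ _)

theorem PhTab_enc (p : Par) (c : ℕ) : p.tx (c / p.T1 / (p.F + 1) / p.P)
    (c / p.T1 / (p.F + 1) % p.P) (c / p.T1 % (p.F + 1)) (c % p.T1) = c := by
  simp only [Par.tx, Nat.div_add_mod']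

theorem PhTab_dec {p : Par} {h i a t c : ℕ} (hi : i < p.P) (ha : a ≤ p.F) (ht : t < p.T1)
    (e : p.tx h i a t = c) : c / p.T1 / (p.F + 1) / p.P = h ∧ c / p.T1 / (p.F + 1) % p.P = i ∧
      c / p.T1 % (p.F + 1) = a ∧ c % p.T1 = t := by
  subst e
  have ha' := Nat.lt_succ_of_le ha
  simp only [Par.tx, need_dm _ ht, need_dm _ ha', need_dm _ hi, and_self]

theorem PhTab_rng {p : Par} {z zr : ℕ → ℕ → ℕ → ℕ} (hp : p.Ok) {k i a t : ℕ}
    (h : nf p z zr (p.H - k) i a t ≠ 0) : i < p.P ∧ a ≤ p.F ∧ t < p.T1 := by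
  obtain ⟨h1, h2⟩ := nf_range hp h
  have hb : 0 < p.b := by
    rw [hp.b_eq]
    exact pow_pos (lt_of_lt_of_le two_pos (need_s hp)) _
  exact ⟨h1.trans_le (hp.P_eq ▸ Nat.pow_le_pow_right hb (Nat.sub_le _ _)), h2⟩

theorem PhTab_cond : CxP fun e m => 1 ≤ e 0 / (PM m).T1 / ((PM m).F + 1) / (PM m).P ∧
    1 ≤ e 0 / (PM m).T1 % ((PM m).F + 1) ∧
    fM m ((PM m).H - e 0 / (PM m).T1 / ((PM m).F + 1) / (PM m).P)
      (e 0 / (PM m).T1 / ((PM m).F + 1) % (PM m).P) (e 0 / (PM m).T1 % ((PM m).F + 1))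
      (e 0 % (PM m).T1) ≠ 0 := by
  have hT : Cx fun _ m => (PM m).T1 := Cx.cell 5 7
  have hF : Cx fun _ m => (PM m).F + 1 := (Cx.cell 6 15).add (Cx.const 1)
  have hH : Cx fun _ m => (PM m).H := Cx.cell 6 16
  have hP : Cx fun _ m => (PM m).P := Cx.cell 6 17
  have h1 := (Cx.var 0).div hT
  have h2 := h1.div hF
  exact (CxP.le (Cx.const 1) (h2.div hP)).and ((CxP.le (Cx.const 1) (h1.mod hF)).and
    (CxP.ne (cxB_fM (hH.sub (h2.div hP)) (h2.mod hP) (h1.mod hF) ((Cx.var 0).mod hT))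
      (Cx.const 0)))

theorem PhTab_keep {p : Par} {mis : ℕ → ℕ → ℕ} {z zr : ℕ → ℕ → ℕ → ℕ} {m m' : Mem}
    {h i a t c : ℕ} (hk : ∀ b j, j < c * (p.NS1 * p.K) → m' b j = m b j)
    (hc : p.tx (h + 1) i a t < c) (ht : TabOk p mis z zr m h i a t) :
    TabOk p mis z zr m' h i a t := fun sl hsl k hk' => by
  have : p.ad (h + 1) i a t sl k < c * (p.NS1 * p.K) := PhTab_lt (PhTab_lt hk' hsl) hc
  rw [hk _ _ this, hk _ _ this, hk _ _ this]
  exact ht sl hsl k hk'

theorem ph_tab : ∃ c : Cmd, ∀ (V S : ℕ) (e : Env) (m : Mem) (p : Par) (mis : ℕ → ℕ → ℕ)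
    (z zr : ℕ → ℕ → ℕ → ℕ), p.Ok → MemOk p mis z zr m → FlagOk p z zr m →
    p.Nn * (p.F + 1) * p.T1 ≤ V → p.NS1 * p.K ≤ V → p.U * (p.P + p.P * p.P0) ≤ V →
    Tri V S c e m (1 + 2 * (p.Nn * (p.F + 1) * p.T1) + 3 * (1 + 2 * (p.NS1 * p.K)) *
      ((p.H + 1) * (p.F + 1) * p.T1 * ((8 * p.s) ^ p.H * (2 * p.s) ^ p.F * p.b ^ p.T1)))
      fun m' => Same [10, 11, 12] m m' ∧
        WM m' p.H 0 p.F (p.T1 - 1) = Wv p mis z zr p.H 0 p.F (p.T1 - 1) := by
  obtain ⟨c1, hc1⟩ := ph_one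
  obtain ⟨tc, htc⟩ := PhTab_cond
  obtain ⟨tn, htn⟩ : Cx fun _ m => (PM m).Nn * ((PM m).F + 1) * (PM m).T1 :=
    ((((Cx.cell 6 16).add (Cx.const 1)).mul (Cx.cell 6 17)).mul
      ((Cx.cell 6 15).add (Cx.const 1))).mul (Cx.cell 5 7)
  beta_reduce at htc htn
  refine ⟨.rep tn (.when tc c1), fun V S e m p mis z zr hp hm hf v1 v2 v3 => ?_⟩
  have en : tn.eval m e = p.Nn * (p.F + 1) * p.T1 := by rw [htn, hm.pm]
  have hl : ∀ a ∈ [10, 11, 12], 9 ≤ a ∨ a = 3 := by decide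
  have hP : 0 < p.P := (PhTab_rng (z := z) (zr := zr) hp (k := p.H) (i := 0) (a := 0) (t := 0) (by
    have := hp.T1_pos
    rw [Nat.sub_self, need_zero, if_pos ⟨rfl, Nat.zero_le _, this⟩]
    exact one_ne_zero)).1
  have key := Tri.rep (V := V) (S := S) (e := e) (m := m) (n := tn) (p := .when tc c1)
    (fun c m' => Same [10, 11, 12] m m' ∧ ∀ h' < p.H, ∀ i' a' t', 1 ≤ a' →
      nf p z zr (p.H - (h' + 1)) i' a' t' ≠ 0 → p.tx (h' + 1) i' a' t' < c →
      TabOk p mis z zr m' h' i' a' t')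
    (fun c => 1 + nf p z zr (p.H - c / p.T1 / (p.F + 1) / p.P) (c / p.T1 / (p.F + 1) % p.P)
      (c / p.T1 % (p.F + 1)) (c % p.T1) * (3 * (1 + 2 * (p.NS1 * p.K)))) (en ▸ v1)
    ⟨Same.refl _ _, fun _ _ _ _ _ _ _ h => absurd h (Nat.not_lt_zero _)⟩ (by
      rintro c hc m' ⟨hs, hI⟩
      rw [en] at hc
      have hm' := hm.same hs hl
      have hcond := htc (cons c e) m'
      have e9 : ∀ n i a t, fM m' n i a t = fM m n i a t := fun n i a t => by
        rw [fM, fM, hm'.pm, hm.pm, hs 9 (by decide)]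
      have e0 : cons c e 0 = c := rfl
      rw [hm'.pm, e0, e9, hf _ (Nat.sub_le _ _) _ (Nat.mod_lt _ hP)] at hcond
      have henc := PhTab_enc p c
      have hdec := fun h i a t hi ha ht => PhTab_dec (p := p) (h := h) (i := i) (a := a) (t := t)
        (c := c) hi ha ht
      generalize c / p.T1 / (p.F + 1) / p.P = h at *
      generalize c / p.T1 / (p.F + 1) % p.P = i at *
      generalize c / p.T1 % (p.F + 1) = a at *
      generalize c % p.T1 = t at *
      by_cases hz : tc.eval m' (cons c e) = 0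
      · refine (Tri.when_neg hz ⟨hs, fun h' hh i' a' t' ha hn hlt => ?_⟩).mono
          (Nat.le_add_right _ _) fun _ h => h
        rcases Nat.lt_succ_iff_lt_or_eq.1 hlt with h1 | h1
        · exact hI h' hh i' a' t' ha hn h1
        · obtain ⟨r1, r2, r3⟩ := PhTab_rng hp hn
          obtain ⟨rfl, rfl, rfl, rfl⟩ := hdec _ _ _ _ r1 r2 r3 h1
          exact absurd hz (hcond.2 ⟨Nat.le_add_left _ _, ha, hn⟩)
      · obtain ⟨q1, q2, q3⟩ := hcond.1 hz
        obtain ⟨h, rfl⟩ : ∃ h0, h = h0 + 1 := ⟨h - 1, by omega⟩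
        obtain ⟨r1, r2, r3⟩ := PhTab_rng hp q3
        have hh : h < p.H := by
          by_contra hh
          have h1 := PhTab_txge p (h + 1) i a t
          have h2 : p.Nn * (p.F + 1) * p.T1 ≤ (h + 1) * p.P * (p.F + 1) * p.T1 :=
            Nat.mul_le_mul_right _ (Nat.mul_le_mul_right _ (Nat.mul_le_mul_right _ (by omega)))
          omega
        have h1 := hc1 V S (cons c e) m' p mis z zr h i a t hp hm' hh r1 q2 r2 r3 henc.symm v2 v3
          (fun sl _ k _ => nvM_eq hp hm' hh q3 (fun h' hh' i' a' t' ha hn => by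
            obtain ⟨s1, s2, s3⟩ := PhTab_rng hp hn
            exact hI h' (by omega) i' a' t' ha hn (henc ▸ (PhTab_txlt s1 s2 s3
              (Nat.succ_lt_succ hh')).trans_le (PhTab_txge p _ i a t))) sl k)
          (fun ha => hI h hh i _ t (by omega) (nf_down q3 (Nat.sub_le _ _) le_rfl) (by
            rw [← henc]
            exact Nat.add_lt_add_right (Nat.mul_lt_mul_of_pos_right (by omega) hp.T1_pos) _))
          (fun ht => hI h hh i a _ q2 (nf_down q3 le_rfl (Nat.sub_le _ _)) (by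
            rw [← henc]
            exact Nat.add_lt_add_left (by omega) _))
        refine (Tri.when_pos hz h1).mono (Nat.add_le_add_left
          (Nat.le_mul_of_pos_left _ (Nat.pos_of_ne_zero q3)) 1) ?_
        rintro m'' ⟨u1, u2, u3⟩
        refine ⟨hs.trans u1, fun h' hh' i' a' t' ha hn hlt => ?_⟩
        rcases Nat.lt_succ_iff_lt_or_eq.1 hlt with h2 | h2
        · exact PhTab_keep u3 h2 (hI h' hh' i' a' t' ha hn h2)
        · obtain ⟨s1, s2, s3⟩ := PhTab_rng hp hn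
          obtain ⟨w1, rfl, rfl, rfl⟩ := hdec _ _ _ _ s1 s2 s3 h2
          obtain rfl : h = h' := by omega
          exact u2)
  rw [en] at key
  refine key.mono ?_ ?_
  · have := Nat.mul_le_mul_right (3 * (1 + 2 * (p.NS1 * p.K))) (flags_le (z := z) (zr := zr) hp)
    simp only [sum_add_distrib, sum_const, card_range, smul_eq_mul, mul_one, ← sum_mul]
    rw [mul_comm (3 * _)]
    omega
  · rintro m' ⟨hs, hI⟩
    refine ⟨hs, ?_⟩
    have hm' := hm.same hs hl
    rcases Nat.eq_zero_or_pos p.F with h0 | h0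
    · rw [h0]
      exact WM_floor0 hm' _ _ _
    · have e1 : p.H - 1 + 1 = p.H := Nat.sub_add_cancel hp.H_pos
      have e2 : p.T1 - 1 < p.T1 := Nat.sub_lt hp.T1_pos one_pos
      have := WM_tab hp hm' (hI (p.H - 1) (by omega) 0 p.F (p.T1 - 1) h0 (by
        rw [e1, Nat.sub_self, need_zero, if_pos ⟨rfl, le_rfl, e2⟩]
        exact one_ne_zero) (PhTab_txlt hP le_rfl e2 (by omega)))
      rwa [e1] at this

end Vale.Agent.P315
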