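import Vale.Agent.P315.PipeD

open Finset
open scoped BigOperators

namespace Vale.Agent.P315

theorem window_abel {E : ℝ} (hE : 0 ≤ E) (n : ℕ) : ∀ (μ f : ℕ → ℝ) (M : ℝ), Monotone μ →
    0 ≤ μ 0 → μ n ≤ M → (∀ k m, k + m = n → ∑ t ∈ range m, f (k + t) ≤ E) →
    ∑ t ∈ range n, μ t * f t ≤ M * E := by
  induction n with
  | zero =>
    intro μ f M _ h0 hM _
    simpa using mul_nonneg (h0.trans hM) hE
  | succ n ih =>
    intro μ f M hμ h0 hM hf
    have h1 := ih (fun t => μ (t + 1) - μ 0) (fun t => f (t + 1)) (M - μ 0)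
      (fun a b hab => sub_le_sub_right (hμ (Nat.succ_le_succ hab)) _)
      (sub_nonneg.2 (hμ (Nat.zero_le _))) (sub_le_sub_right hM _) (fun k m hk => by
        have := hf (k + 1) m (by omega)
        simpa only [add_right_comm k 1] using this)
    have h2 := hf 0 (n + 1) (by omega)
    simp only [zero_add] at h2
    have h3 := mul_le_mul_of_nonneg_left h2 h0
    rw [sum_range_succ'] at h3 ⊢
    simp only [sub_mul, sum_sub_distrib, ← mul_sum] at h1
    nlinarith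

theorem window_base {τ : ℕ} : (1 : ℝ) ≤ 1 + 1 / (τ : ℝ) := by
  have : (0 : ℝ) ≤ 1 / (τ : ℝ) := by positivity
  linarith

theorem window_pos (τ t : ℕ) : 0 < lam τ t := pow_pos (one_pos.trans_le window_base) _

theorem window_mono (τ : ℕ) : Monotone (lam τ) := fun _ _ h => pow_le_pow_right₀ window_base h

theorem window_add (τ a n : ℕ) : lam τ (a + n) = lam τ a * lam τ n := pow_add _ _ _

theorem window_two {τ : ℕ} (hτ : 1 ≤ τ) : 2 ≤ lam τ τ := by
  have h : (0 : ℝ) < τ := by exact_mod_cast hτ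
  have := one_add_mul_le_pow (a := 1 / (τ : ℝ)) (by
    have : (0 : ℝ) ≤ 1 / (τ : ℝ) := by positivity
    linarith) τ
  rw [mul_one_div_cancel h.ne'] at this
  unfold lam
  linarith

theorem window_three {τ : ℕ} (hτ : 1 ≤ τ) : lam τ τ ≤ 3 := by
  have h : (0 : ℝ) < τ := by exact_mod_cast hτ
  have h1 : 1 + 1 / (τ : ℝ) ≤ Real.exp (1 / (τ : ℝ)) := by
    linarith [Real.add_one_le_exp (1 / (τ : ℝ))]
  have h2 := pow_le_pow_left₀ (zero_le_one.trans window_base) h1 τ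
  rw [← Real.exp_nat_mul, mul_one_div_cancel h.ne'] at h2
  unfold lam
  linarith [Real.exp_one_lt_d9]

theorem window_cmp {τ : ℕ} (hτ : 1 ≤ τ) {c s : ℕ} (h : c ≤ s + τ) : lam τ c ≤ 3 * lam τ s := by
  refine (window_mono τ h).trans ?_
  rw [window_add, mul_comm]
  exact mul_le_mul_of_nonneg_right (window_three hτ) (window_pos τ s).le

theorem window_sum {τ : ℕ} (hτ : 1 ≤ τ) {S : ℕ → ℝ} (hS : ∀ t, 0 ≤ S t) (a : ℕ) {n : ℕ}
    (hn : n ≤ τ) : lam τ (a + n) * ∑ t ∈ range n, S (a + t) ≤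
      3 * ∑ t ∈ range n, lam τ (a + t + 1) * S (a + t) := by
  rw [mul_sum, mul_sum]
  refine sum_le_sum fun t _ => ?_
  rw [← mul_assoc]
  exact mul_le_mul_of_nonneg_right (window_cmp hτ (by omega)) (hS _)

theorem window_tel (X : ℕ → ℝ) (a n : ℕ) :
    ∑ t ∈ range n, (X (a + t) - X (a + t + 1)) = X a - X (a + n) :=
  sum_range_sub' (fun t => X (a + t)) n

theorem window_lin1 (τ T : ℕ) (w : ℕ → ℝ) : Lin τ T w =
    ∑ t ∈ range T, lam τ (t + 1) * (w t - w (t + 1)) + lam τ (T + 1) * w T := by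
  unfold Lin
  rw [sum_range_succ]
  congr 1
  · exact sum_congr rfl fun t ht => by rw [drp, if_pos (mem_range.1 ht)]
  · rw [drp, if_neg (lt_irrefl T)]

theorem window_lin2 (τ T : ℕ) (w : ℕ → ℝ) : Lin τ T w =
    lam τ 1 * w 0 + 1 / τ * ∑ t ∈ range T, lam τ (t + 1) * w (t + 1) := by
  rw [window_lin1]
  induction T with
  | zero => simp
  | succ T ih =>
    have : lam τ (T + 1 + 1) = lam τ (T + 1) * (1 + 1 / (τ : ℝ)) := pow_succ _ _
    rw [sum_range_succ, sum_range_succ, this]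
    linarith

section
variable {τ T : ℕ} (hτ : 1 ≤ τ) {g X S : ℕ → ℝ} {η ρ : ℝ} (hX : Antitone X) (hX0 : ∀ t, 0 ≤ X t)
  (hS : ∀ t, 0 ≤ S t) (hη : 0 ≤ η) (hρ : 0 ≤ ρ)
  (hF : ∀ a n, n ≤ τ → a + n ≤ T → ∑ t ∈ range n, g (a + t) ≤
    η * X a + η * (X a - X (a + n)) + ∑ t ∈ range n, S (a + t) + ρ)
include hX hX0 hS hη hρ hF

theorem window_step (a n : ℕ) (hn : n ≤ τ) (hT : a + n ≤ T) :
    ∑ t ∈ range n, lam τ (a + t + 1) * g (a + t) ≤ lam τ (a + n) *
      (η * X a + η * (X a - X (a + n)) + ∑ t ∈ range n, S (a + t) + ρ) := by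
  have hE : 0 ≤ η * X a + η * (X a - X (a + n)) + ∑ t ∈ range n, S (a + t) + ρ := by
    have := mul_nonneg hη (hX0 a)
    have := mul_nonneg hη (sub_nonneg.2 (hX (Nat.le_add_right a n)))
    have := sum_nonneg fun t (_ : t ∈ range n) => hS (a + t)
    linarith
  have key := window_abel hE n (fun t => lam τ (min (a + t + 1) (a + n))) (fun t => g (a + t))
    (lam τ (a + n)) (fun s t h => window_mono τ (by omega)) (window_pos _ _).le
    (window_mono τ (min_le_right _ _)) (fun k m hk => by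
      subst hk
      have h1 := hF (a + k) m (by omega) (by omega)
      have h2 := mul_le_mul_of_nonneg_left (hX (Nat.le_add_right a k)) hη
      have h3 := sum_nonneg fun t (_ : t ∈ range k) => hS (a + t)
      rw [sum_range_add]
      simp only [add_assoc] at h1 ⊢
      linarith)
  refine le_of_eq_of_le (sum_congr rfl fun t ht => ?_) key
  rw [min_eq_left (by have := mem_range.1 ht; omega)]

include hτ in
theorem window_det (c : ℕ) : c ≤ T → ∑ t ∈ range c, lam τ (t + 1) * g t ≤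
    η * (9 * ∑ t ∈ range c, lam τ (t + 1) * (X t - X (t + 1)) + 2 * (lam τ c * X c)) +
      3 * ∑ t ∈ range c, lam τ (t + 1) * S t + 2 * (lam τ c * ρ) := by
  have hD : ∀ t, 0 ≤ X t - X (t + 1) := fun t => sub_nonneg.2 (hX (Nat.le_succ t))
  induction c using Nat.strong_induction_on with
  | _ c ih =>
    intro hc
    rcases le_or_gt c τ with h | h
    · have h1 := window_step hX hX0 hS hη hρ hF 0 c h (by omega)
      have h2 := window_sum hτ hS 0 h
      have h3 := window_sum hτ hD 0 h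
      rw [window_tel] at h3
      simp only [zero_add] at h1 h2 h3
      have h4 := mul_le_mul_of_nonneg_left h3 hη
      have h5 := mul_nonneg (window_pos τ c).le hρ
      have h6 := mul_nonneg hη (mul_nonneg (window_pos τ c).le (hX0 c))
      have h7 := mul_nonneg hη (sum_nonneg fun t (_ : t ∈ range c) =>
        mul_nonneg (window_pos τ (t + 1)).le (hD t))
      linarith
    · obtain ⟨a, rfl⟩ : ∃ a, c = a + τ := ⟨c - τ, by omega⟩
      have h0 := ih a (by omega) (by omega)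
      have h1 := window_step hX hX0 hS hη hρ hF a τ le_rfl hc
      have h2 := window_sum hτ hS a le_rfl
      have h3 := window_sum hτ hD a le_rfl
      rw [window_tel] at h3
      have h4 := mul_le_mul_of_nonneg_left h3 hη
      have h5 : 2 * lam τ a ≤ lam τ (a + τ) := by
        rw [window_add, mul_comm]
        exact mul_le_mul_of_nonneg_left (window_two hτ) (window_pos τ a).le
      have h6 := mul_le_mul_of_nonneg_right h5 hρ
      have h7 := mul_le_mul_of_nonneg_right h5 (mul_nonneg hη (hX0 a))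
      rw [sum_range_add, sum_range_add, sum_range_add]
      linarith

end

theorem window_ex_sub {Ω : Type} [Fintype Ω] (f g : Ω → ℝ) :
    𝔼 ω, (f ω - g ω) = 𝔼 ω, f ω - 𝔼 ω, g ω := expect_sub_distrib _ _ _

theorem window_ex_lin {Ω : Type} [Fintype Ω] (τ T : ℕ) (w : Ω → ℕ → ℝ) :
    𝔼 ω, Lin τ T (w ω) = Lin τ T (fun t => 𝔼 ω, w ω t) := by
  simp only [window_lin2, ex_add, ex_mul, ex_sum]

theorem window {Ω : Type} [Fintype Ω] [Nonempty Ω] {τ T : ℕ} (hτ : 1 ≤ τ) {w x sp : Ω → ℕ → ℝ}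
    {η ρ Mc : ℝ} (hw0 : ∀ ω t, 0 ≤ w ω t) (hx : ∀ ω, Antitone (x ω)) (hx0 : ∀ ω t, 0 ≤ x ω t)
    (hsp : ∀ ω t, 0 ≤ sp ω t) (hη : 0 ≤ η) (hρ : 0 ≤ ρ) (hM : ∀ ω, w ω 0 ≤ Mc)
    (hF : ∀ a n, n ≤ τ → a + n ≤ T → 𝔼 ω, ∑ t ∈ range n, w ω (a + t + 1) ≤
      (𝔼 ω, (η * x ω a + ∑ t ∈ range n, (x ω (a + t + 1) +
        η * (x ω (a + t) - x ω (a + t + 1)) + sp ω (a + t)))) + ρ) :
    𝔼 ω, Lin τ T (w ω) ≤ 2 * Mc + (𝔼 ω, ((1 + 9 * η / τ) * Lin τ T (x ω) +
      3 / τ * ∑ t ∈ range T, lam τ (t + 1) * sp ω t)) + 3 * lam τ (T + 1) * ρ / τ := by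
  simp only [ex_add, ex_mul, ex_sum, window_ex_sub, window_ex_lin] at hF ⊢
  have hW0 : 0 ≤ 𝔼 ω, w ω 0 := ex_nonneg fun ω => hw0 ω 0
  have hWM : 𝔼 ω, w ω 0 ≤ Mc := ex_le hM
  have hX : Antitone fun t => 𝔼 ω, x ω t := fun s t h => ex_mono fun ω => hx ω h
  have hX0 : ∀ t, 0 ≤ 𝔼 ω, x ω t := fun t => ex_nonneg fun ω => hx0 ω t
  have hS : ∀ t, 0 ≤ 𝔼 ω, sp ω t := fun t => ex_nonneg fun ω => hsp ω t
  generalize hWd : (fun t => 𝔼 ω, w ω t) = W
  generalize hXd : (fun t => 𝔼 ω, x ω t) = X at hX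
  have eW : ∀ t, 𝔼 ω, w ω t = W t := fun t => congrFun hWd t
  have eX : ∀ t, 𝔼 ω, x ω t = X t := fun t => congrFun hXd t
  obtain ⟨S, eS⟩ : ∃ S : ℕ → ℝ, ∀ t, 𝔼 ω, sp ω t = S t := ⟨_, fun _ => rfl⟩
  simp only [eW, eX, eS] at hF hW0 hWM hX0 hS ⊢
  have key := window_det (T := T) hτ (g := fun t => W (t + 1) - X (t + 1)) hX hX0 hS hη hρ
    (fun a n hn hT => by
      have := hF a n hn hT
      rw [sum_add_distrib, sum_add_distrib, ← mul_sum, window_tel] at this
      rw [sum_sub_distrib]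
      linarith) T le_rfl
  have ht : (0 : ℝ) < τ := by exact_mod_cast hτ
  have ht1 : (1 : ℝ) ≤ τ := by exact_mod_cast hτ
  have hl : lam τ 1 ≤ 2 := by
    have : 1 / (τ : ℝ) ≤ 1 := (div_le_one ht).2 ht1
    rw [lam, pow_one]
    linarith
  have a1 := mul_le_mul_of_nonneg_right hl hW0
  have a2 := mul_nonneg (window_pos τ 1).le (hX0 0)
  have a3 := mul_le_mul_of_nonneg_right (window_mono τ (Nat.le_succ T)) hρ
  have a4 := mul_nonneg (window_pos τ T).le hρ
  have a5 := mul_le_mul_of_nonneg_left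
    (mul_le_mul_of_nonneg_right (window_mono τ (Nat.le_succ T)) (hX0 T)) hη
  have a6 := mul_nonneg hη (mul_nonneg (window_pos τ T).le (hX0 T))
  have k2 : ∑ t ∈ range T, lam τ (t + 1) * (W (t + 1) - X (t + 1)) ≤
      9 * η * Lin τ T X + 3 * ∑ t ∈ range T, lam τ (t + 1) * S t + 3 * lam τ (T + 1) * ρ := by
    rw [window_lin1]
    simp only [Nat.succ_eq_add_one] at a3 a5
    linarith
  have k3 := mul_le_mul_of_nonneg_left k2 (one_div_pos.2 ht).le
  simp only [mul_sub, sum_sub_distrib] at k3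
  have k4 := window_lin2 τ T X
  rw [window_lin2 τ T W]
  have e : (1 + 9 * η / τ) * Lin τ T X + 3 / τ * ∑ t ∈ range T, lam τ (t + 1) * S t +
      3 * lam τ (T + 1) * ρ / τ = Lin τ T X + 1 / τ * (9 * η * Lin τ T X +
        3 * ∑ t ∈ range T, lam τ (t + 1) * S t + 3 * lam τ (T + 1) * ρ) := by ring
  linarith

end Vale.Agent.P315
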