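import Vale.Agent.P315.Transfer
import Vale.Agent.P315.Merge
import Vale.Agent.P315.Window

open Finset
open scoped BigOperators

namespace Vale.Agent.P315

/-- The sum of the excesses of the children of the node `(h + 1, i)`. -/
def xb (b : ℕ) (w : ℕ → ℕ → ℕ → ℝ) (h i t : ℕ) : ℝ := ∑ l ∈ range b, w h (i * b + l) t

/-- The spikes among the children of the node `(h + 1, i)` between the rounds `t` and `t + 1`. -/
noncomputable def spc (b : ℕ) (Λ : ℝ) (w : ℕ → ℕ → ℕ → ℝ) (ct : ℕ → ℕ → ℝ) (h i t : ℕ) : ℝ :=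
  spk b Λ (fun l => w h (i * b + l) t - w h (i * b + l) (t + 1)) fun l => ct h (i * b + l)

theorem pipe_lam_pos (τ t : ℕ) : 0 < lam τ t := by
  unfold lam
  positivity

theorem pipe_lam_succ {τ : ℕ} (hτ : 1 ≤ τ) (t : ℕ) : τ * lam τ (t + 1) = (τ + 1) * lam τ t := by
  have : (0 : ℝ) < τ := by exact_mod_cast hτ
  unfold lam
  rw [pow_succ]
  field_simp

theorem pipe_lam_mono (τ t : ℕ) : lam τ t ≤ lam τ (t + 1) := by
  unfold lam
  exact pow_le_pow_right₀ (le_add_of_nonneg_right (by positivity)) (Nat.le_succ t)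

theorem pipe_lam_sum {τ : ℕ} (hτ : 1 ≤ τ) (n : ℕ) :
    ∑ t ∈ range n, lam τ (t + 1) ≤ (τ + 1) * lam τ n := by
  induction n with
  | zero =>
    have := pipe_lam_pos τ 0
    rw [sum_range_zero]
    positivity
  | succ n ih =>
    rw [sum_range_succ]
    have := pipe_lam_succ hτ n
    linarith

theorem pipe_drp_nonneg {w : ℕ → ℝ} (hw : Antitone w) (hw0 : ∀ t, 0 ≤ w t) (T t : ℕ) :
    0 ≤ drp w T t := by
  unfold drp
  split_ifs
  · exact sub_nonneg.2 (hw (Nat.le_succ t))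
  · exact hw0 T

theorem pipe_lin_ge {w : ℕ → ℝ} (hw : Antitone w) (hw0 : ∀ t, 0 ≤ w t) (τ T : ℕ) :
    lam τ (T + 1) * w T ≤ Lin τ T w := by
  unfold Lin
  rw [sum_range_succ]
  have e : drp w T T = w T := if_neg (lt_irrefl T)
  rw [e]
  exact le_add_of_nonneg_left (sum_nonneg fun t _ =>
    mul_nonneg (pipe_lam_pos τ _).le (pipe_drp_nonneg hw hw0 T t))

theorem pipe_lin_nonneg {w : ℕ → ℝ} (hw : Antitone w) (hw0 : ∀ t, 0 ≤ w t) (τ T : ℕ) :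
    0 ≤ Lin τ T w :=
  (mul_nonneg (pipe_lam_pos τ _).le (hw0 T)).trans (pipe_lin_ge hw hw0 τ T)

theorem pipe_ent_nonneg {w : ℕ → ℝ} (hw : Antitone w) (hw0 : ∀ t, 0 ≤ w t) (τ T : ℕ) {y : ℝ}
    (hy : 0 < y) : 0 ≤ Ent τ T w y :=
  sum_nonneg fun t _ =>
    mul_nonneg (pipe_lam_pos τ _).le (kl_nonneg (pipe_drp_nonneg hw hw0 T t) hy)

theorem pipe_drp_xb (b : ℕ) (w : ℕ → ℕ → ℕ → ℝ) (h i T t : ℕ) :
    drp (xb b w h i) T t = ∑ l ∈ range b, drp (w h (i * b + l)) T t := by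
  unfold drp xb
  split_ifs
  · rw [sum_sub_distrib]
  · rfl

theorem pipe_lin_xb (τ T b : ℕ) (w : ℕ → ℕ → ℕ → ℝ) (h i : ℕ) :
    Lin τ T (xb b w h i) = ∑ l ∈ range b, Lin τ T (w h (i * b + l)) := by
  unfold Lin
  rw [sum_comm]
  exact sum_congr rfl fun t _ => by rw [pipe_drp_xb, mul_sum]

theorem pipe_spk_smul (b : ℕ) (Λ : ℝ) (D y : ℕ → ℝ) {ϑ : ℝ} (hϑ : 0 < ϑ) :
    spk b Λ D (fun l => ϑ * y l) = spk b Λ D y := by
  unfold spk
  refine sum_congr rfl fun l _ => if_congr ?_ rfl rfl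
  rw [← mul_sum, mul_left_comm _ ϑ, mul_left_comm _ ϑ, mul_lt_mul_iff_right₀ hϑ]

theorem pipe_spk_nonneg (b : ℕ) (Λ : ℝ) {D : ℕ → ℝ} (y : ℕ → ℝ) (hD : ∀ l, 0 ≤ D l) :
    0 ≤ spk b Λ D y := by
  unfold spk
  refine sum_nonneg fun l _ => ?_
  split_ifs
  · exact hD l
  · exact le_rfl

theorem pipe_ent_merge {b : ℕ} (hb : 1 ≤ b) (τ T : ℕ) {Λ L ϑ : ℝ} (hΛ : 1 ≤ Λ)
    (hL : L = Real.log Λ - 1) (hL0 : 0 ≤ L) (hϑ : 0 < ϑ) {w : ℕ → ℕ → ℕ → ℝ} {ct : ℕ → ℕ → ℝ}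
    (hct : ∀ h i, 0 < ct h i) (hw0 : ∀ h i t, 0 ≤ w h i t) (hw : ∀ h i, Antitone (w h i))
    (h i : ℕ) :
    Ent τ T (xb b w h i) (ϑ * ∑ l ∈ range b, ct h (i * b + l)) +
      L * ∑ t ∈ range T, lam τ (t + 1) * spc b Λ w ct h i t ≤
      ∑ l ∈ range b, Ent τ T (w h (i * b + l)) (ϑ * ct h (i * b + l)) := by
  have key : ∀ t, kl (drp (xb b w h i) T t) (ϑ * ∑ l ∈ range b, ct h (i * b + l)) +
      L * spk b Λ (fun l => drp (w h (i * b + l)) T t) (fun l => ct h (i * b + l)) ≤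
      ∑ l ∈ range b, kl (drp (w h (i * b + l)) T t) (ϑ * ct h (i * b + l)) := by
    intro t
    have := merge hb hΛ (D := fun l => drp (w h (i * b + l)) T t)
      (y := fun l => ϑ * ct h (i * b + l)) (fun l _ => pipe_drp_nonneg (hw _ _) (hw0 _ _) T t)
      fun l _ => mul_pos hϑ (hct _ _)
    rwa [pipe_spk_smul _ _ _ _ hϑ, ← hL, ← mul_sum, ← pipe_drp_xb] at this
  have h1 : ∑ t ∈ range T, lam τ (t + 1) * spc b Λ w ct h i t ≤ ∑ t ∈ range (T + 1),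
      lam τ (t + 1) * spk b Λ (fun l => drp (w h (i * b + l)) T t) (fun l => ct h (i * b + l)) := by
    rw [sum_range_succ]
    refine le_add_of_le_of_nonneg (le_of_eq (sum_congr rfl fun t ht => ?_))
      (mul_nonneg (pipe_lam_pos τ _).le (pipe_spk_nonneg _ _ _ fun l =>
        pipe_drp_nonneg (hw _ _) (hw0 _ _) T T))
    simp only [spc, drp, if_pos (mem_range.1 ht)]
  refine (add_le_add le_rfl (mul_le_mul_of_nonneg_left h1 hL0)).trans ?_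
  unfold Ent
  rw [sum_comm, mul_sum (range (T + 1)), ← sum_add_distrib]
  refine sum_le_sum fun t _ => ?_
  rw [← mul_sum (range b) _ (lam τ (t + 1)), mul_left_comm, ← mul_add]
  exact mul_le_mul_of_nonneg_left (key t) (pipe_lam_pos τ _).le

theorem pipe_num {σ τ L a e c d s q Mc Y E R : ℝ} (hσ : 0 ≤ σ) (hτ : 4 ≤ τ) (hL : 9 ≤ L)
    (h : τ * L * σ = 1) (ha : 0 ≤ a) (he : 0 ≤ e) (hc : 0 ≤ c) (hs : 0 ≤ s) (hq : 0 ≤ q)
    (hM : 0 ≤ Mc) (hY : 0 ≤ Y) (hE : 0 ≤ E) (hR : 0 ≤ R)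
    (h1 : a ≤ 2 * Mc + ((1 + 9 * σ) * c + 3 * L * σ * s) + R)
    (h2 : e + 3 * τ * a ≤ d + (3 * τ + 4) * c + 6 * a + 14 * τ * Y + 8 * τ * Mc + 4 * τ * E)
    (h3 : d + L * s ≤ q) :
    a + 3 * σ * e ≤ Real.exp (57 * σ) * (c + 3 * σ * q) + (10 * Mc + 10 * Y + 4 * E + 2 * R) := by
  have hu0 : 0 ≤ τ * σ := by positivity
  have hu : 0 ≤ 1 - 9 * (τ * σ) := by
    have := mul_le_mul_of_nonneg_left hL hu0
    linarith
  have hσ1 : 0 ≤ 1 - 36 * σ := by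
    have := mul_le_mul_of_nonneg_right hτ hσ
    linarith
  have k1 := mul_le_mul_of_nonneg_left h1 hu
  have k2 := mul_le_mul_of_nonneg_left h2 hσ
  have k3 := mul_le_mul_of_nonneg_left h3 hσ
  have p1 : 0 ≤ τ * σ * σ * c := by positivity
  have p2 : 0 ≤ τ * σ * L * σ * s := by positivity
  have p3 := mul_nonneg hu hM
  have p4 := mul_nonneg hu hY
  have p5 := mul_nonneg hu hE
  have p6 := mul_nonneg hu0 hR
  have p7 : 0 ≤ σ * σ * e := by positivity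
  have p8 : 0 ≤ σ * σ * q := by positivity
  have k4 : (1 - 18 * σ) * (a + 3 * σ * e) ≤ (1 + 21 * σ) * (c + 3 * σ * q) +
      (5 * Mc + 5 * Y + 2 * E + R) := by linarith
  have hP : 0 ≤ a + 3 * σ * e := by positivity
  have hQ : 0 ≤ c + 3 * σ * q := by positivity
  have hZ : 0 ≤ 5 * Mc + 5 * Y + 2 * E + R := by positivity
  have k5 := mul_le_mul_of_nonneg_left k4 (show 0 ≤ 1 + 36 * σ by positivity)
  have k6 : (1 + 36 * σ) * (1 + 21 * σ) ≤ Real.exp (57 * σ) := by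
    rw [show 57 * σ = 36 * σ + 21 * σ by ring, Real.exp_add]
    exact mul_le_mul (by linarith [Real.add_one_le_exp (36 * σ)])
      (by linarith [Real.add_one_le_exp (21 * σ)]) (by positivity) (Real.exp_pos _).le
  have k7 := mul_le_mul_of_nonneg_right k6 hQ
  have p9 := mul_nonneg (mul_nonneg hσ hσ1) hP
  have p10 := mul_nonneg hσ1 hZ
  linarith

theorem pipe_node {Ω : Type} [Fintype Ω] [Nonempty Ω] {τ T : ℕ} (hτ : 4 ≤ τ)
    {W x sp : Ω → ℕ → ℝ} {Q : Ω → ℝ} {L y e ρ Mc : ℝ} (hL : 9 ≤ L) (hW : ∀ ω, Antitone (W ω))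
    (hW0 : ∀ ω t, 0 ≤ W ω t) (hx : ∀ ω, Antitone (x ω)) (hx0 : ∀ ω t, 0 ≤ x ω t)
    (hsp : ∀ ω t, 0 ≤ sp ω t) (hy : 0 < y) (he : 0 ≤ e) (hρ : 0 ≤ ρ) (hM0 : 0 ≤ Mc)
    (hM : ∀ ω, W ω 0 ≤ Mc) (hMy : Mc ≤ y * Real.exp τ) (hQ0 : ∀ ω, 0 ≤ Q ω)
    (hQ : ∀ ω, Ent τ T (x ω) y + L * ∑ t ∈ range T, lam τ (t + 1) * sp ω t ≤ Q ω)
    (hF1 : ∀ ω, ∀ t < T, W ω (t + 1) ≤ x ω t + e)
    (hF2 : ∀ a n, n ≤ τ → a + n ≤ T → 𝔼 ω, ∑ t ∈ range n, W ω (a + t + 1) ≤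
      (𝔼 ω, (1 / L * x ω a + ∑ t ∈ range n, (x ω (a + t + 1) +
        1 / L * (x ω (a + t) - x ω (a + t + 1)) + sp ω (a + t)))) + ρ) :
    𝔼 ω, (Lin τ T (W ω) + 3 * (1 / (τ * L)) * Ent τ T (W ω) y) ≤
      Real.exp (57 * (1 / (τ * L))) * (𝔼 ω, (Lin τ T (x ω) + 3 * (1 / (τ * L)) * Q ω)) +
        (10 * Mc + 10 * (lam τ (T + 1) * y) + 4 * (lam τ (T + 1) * e) +
          2 * (3 * lam τ (T + 1) * ρ / τ)) := by
  have hτ' : (4 : ℝ) ≤ τ := by exact_mod_cast hτ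
  have hl := pipe_lam_pos τ (T + 1)
  have h1 := window (by omega : 1 ≤ τ) hW0 hx hx0 hsp (by positivity : 0 ≤ 1 / L) hρ hM hF2
  have h2 := ex_mono fun ω => transfer (T := T) (by omega : 1 ≤ τ) (hW ω) (hW0 ω) (hx ω) (hx0 ω)
    hy he (hM ω) hMy (hF1 ω)
  have h3 := ex_mono hQ
  simp only [ex_add, ex_mul, Fintype.expect_const] at h1 h2 h3 ⊢
  refine pipe_num (L := L) (τ := τ) (d := 𝔼 ω, Ent τ T (x ω) y)
    (s := 𝔼 ω, ∑ t ∈ range T, lam τ (t + 1) * sp ω t) (by positivity) hτ' hL (by field_simp)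
    (ex_nonneg fun ω => pipe_lin_nonneg (hW ω) (hW0 ω) τ T)
    (ex_nonneg fun ω => pipe_ent_nonneg (hW ω) (hW0 ω) τ T hy)
    (ex_nonneg fun ω => pipe_lin_nonneg (hx ω) (hx0 ω) τ T)
    (ex_nonneg fun ω => sum_nonneg fun t _ => mul_nonneg (pipe_lam_pos τ _).le (hsp ω t))
    (ex_nonneg hQ0) hM0 (by positivity) (by positivity) (by positivity) ?_ (by linarith) h3
  have e1 : 9 * (1 / (τ * L)) = 9 * (1 / L) / τ := by field_simp
  have e2 : 3 * L * (1 / (τ * L)) = 3 / τ := by field_simp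
  rw [e1, e2]
  exact h1

theorem pipe_level (b n : ℕ) (f : ℕ → ℝ) :
    ∑ i ∈ range n, ∑ l ∈ range b, f (i * b + l) = ∑ j ∈ range (n * b), f j := by
  induction n with
  | zero => simp
  | succ n ih => rw [sum_range_succ, ih, Nat.succ_mul, sum_range_add]

theorem pipe_level' {b H h : ℕ} (hh : h < H) (f : ℕ → ℝ) :
    ∑ i ∈ range (b ^ (H - (h + 1))), ∑ l ∈ range b, f (i * b + l) =
      ∑ j ∈ range (b ^ (H - h)), f j := by
  rw [pipe_level, ← pow_succ, show H - (h + 1) + 1 = H - h by omega]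

theorem pipe_ct {b H : ℕ} {ct : ℕ → ℕ → ℝ} (hadd : Addv b H ct) {h : ℕ} (hh : h ≤ H) :
    ∑ i ∈ range (b ^ (H - h)), ct h i = ct H 0 := by
  induction hh using Nat.decreasingInduction with
  | self => simp
  | of_succ k hk ih =>
    rw [← ih, ← pipe_level' hk]
    exact sum_congr rfl fun i hi => (hadd k hk i (mem_range.1 hi)).symm

theorem pipe_leaf {τ T : ℕ} (hτ : 4 ≤ τ) {w : ℕ → ℝ} {L y : ℝ} (hL : 9 ≤ L) (hy : 0 < y)
    (hw : ∀ t, w t = 0) :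
    Lin τ T w + 3 * (1 / (τ * L)) * Ent τ T w y ≤ lam τ (T + 1) * y := by
  have hτ' : (4 : ℝ) ≤ τ := by exact_mod_cast hτ
  have hd : ∀ t, drp w T t = 0 := fun t => by simp [drp, hw]
  have hk : kl 0 y = y := by simp [kl]
  simp only [Lin, Ent, hd, hk, mul_zero, sum_const_zero, zero_add, ← sum_mul]
  have h1 := pipe_lam_sum (by omega : 1 ≤ τ) (T + 1)
  have h2 : 3 * (1 / (τ * L)) * (τ + 1) ≤ 1 := by
    rw [mul_one_div, div_mul_eq_mul_div, div_le_one (by positivity)]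
    have := mul_le_mul_of_nonneg_left hL (show (0 : ℝ) ≤ τ by positivity)
    linarith
  have hl := pipe_lam_pos τ (T + 1)
  calc _ ≤ 3 * (1 / (τ * L)) * ((τ + 1) * lam τ (T + 1) * y) := by gcongr
    _ = 3 * (1 / (τ * L)) * (τ + 1) * (lam τ (T + 1) * y) := by ring
    _ ≤ 1 * (lam τ (T + 1) * y) := by gcongr
    _ = _ := one_mul _

theorem pipe {Ω : Type} [Fintype Ω] [Nonempty Ω] {b H τ T : ℕ} {w : Ω → ℕ → ℕ → ℕ → ℝ}
    {ct e ρ : ℕ → ℕ → ℝ} {M ϑ Λ L : ℝ} (hb : 1 ≤ b) (hτ : 4 ≤ τ) (hΛ : 1 ≤ Λ)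
    (hL : L = Real.log Λ - 1) (hL9 : 9 ≤ L) (hϑ : 0 < ϑ) (hM0 : 0 ≤ M) (hM : M ≤ ϑ * Real.exp τ)
    (hct : ∀ h i, 0 < ct h i) (hadd : Addv b H ct) (he : ∀ h i, 0 ≤ e h i) (hρ : ∀ h i, 0 ≤ ρ h i)
    (hw0 : ∀ ω h i t, 0 ≤ w ω h i t) (hw : ∀ ω h i, Antitone (w ω h i))
    (hleaf : ∀ ω, ∀ i < b ^ H, ∀ t, w ω 0 i t = 0)
    (hcap : ∀ ω, ∀ h ≤ H, ∀ i < b ^ (H - h), w ω h i 0 ≤ M * ct h i)
    (hF1 : ∀ ω, ∀ h < H, ∀ i < b ^ (H - (h + 1)), ∀ t < T,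
      w ω (h + 1) i (t + 1) ≤ xb b (w ω) h i t + e h i)
    (hF2 : ∀ h < H, ∀ i < b ^ (H - (h + 1)), ∀ a n, n ≤ τ → a + n ≤ T →
      𝔼 ω, ∑ t ∈ range n, w ω (h + 1) i (a + t + 1) ≤
        (𝔼 ω, (1 / L * xb b (w ω) h i a + ∑ t ∈ range n, (xb b (w ω) h i (a + t + 1) +
          1 / L * (xb b (w ω) h i (a + t) - xb b (w ω) h i (a + t + 1)) +
          spc b Λ (w ω) ct h i (a + t)))) + ρ h i) {h : ℕ} (hh : h ≤ H) :
    𝔼 ω, ∑ i ∈ range (b ^ (H - h)), w ω h i T ≤ Real.exp (57 * H / (τ * L)) *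
      (10 * H * M * ct H 0 / lam τ T + 11 * (H + 1) * ϑ * ct H 0 + 4 * tot b H e +
        6 * tot b H ρ / τ) := by
  have hτ' : (4 : ℝ) ≤ τ := by exact_mod_cast hτ
  have hl := pipe_lam_pos τ (T + 1)
  have hC := hct H 0
  set E := Real.exp (57 * (1 / (τ * L))) with hE
  have hE1 : 1 ≤ E := Real.one_le_exp (by positivity)
  have key : ∀ k ≤ H, 𝔼 ω, ∑ i ∈ range (b ^ (H - k)),
      (Lin τ T (w ω k i) + 3 * (1 / (τ * L)) * Ent τ T (w ω k i) (ϑ * ct k i)) ≤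
      E ^ k * (lam τ (T + 1) * ϑ * ct H 0 + k * ((10 * M + 10 * lam τ (T + 1) * ϑ) * ct H 0) +
        4 * lam τ (T + 1) * ∑ j ∈ range k, ∑ i ∈ range (b ^ (H - (j + 1))), e j i +
        6 * lam τ (T + 1) / τ * ∑ j ∈ range k, ∑ i ∈ range (b ^ (H - (j + 1))), ρ j i) := by
    intro k
    induction k with
    | zero =>
      intro hk
      refine ex_le fun ω => (sum_le_sum fun i hi => pipe_leaf hτ hL9 (mul_pos hϑ (hct 0 i))
        (hleaf ω i (mem_range.1 hi))).trans (le_of_eq ?_)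
      have h0 : ∑ i ∈ range (b ^ H), ct 0 i = ct H 0 := pipe_ct hadd hk
      rw [← mul_sum, ← mul_sum, h0]
      simp [mul_assoc]
    | succ k ih =>
      intro hk
      have hk' : k < H := hk
      have h1 := ih hk'.le
      have h2 : ∀ i ∈ range (b ^ (H - (k + 1))),
          𝔼 ω, (Lin τ T (w ω (k + 1) i) +
            3 * (1 / (τ * L)) * Ent τ T (w ω (k + 1) i) (ϑ * ct (k + 1) i)) ≤
          E * (𝔼 ω, ∑ l ∈ range b, (Lin τ T (w ω k (i * b + l)) +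
            3 * (1 / (τ * L)) * Ent τ T (w ω k (i * b + l)) (ϑ * ct k (i * b + l)))) +
          ((10 * M + 10 * lam τ (T + 1) * ϑ) * ct (k + 1) i + 4 * lam τ (T + 1) * e k i +
            6 * lam τ (T + 1) / τ * ρ k i) := by
        intro i hi
        have hi' := mem_range.1 hi
        have hc := hct (k + 1) i
        have h3 := pipe_node (T := T) hτ (W := fun ω => w ω (k + 1) i)
          (x := fun ω => xb b (w ω) k i) (sp := fun ω => spc b Λ (w ω) ct k i)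
          (Q := fun ω => ∑ l ∈ range b, Ent τ T (w ω k (i * b + l)) (ϑ * ct k (i * b + l)))
          (y := ϑ * ct (k + 1) i) (Mc := M * ct (k + 1) i) hL9 (fun ω => hw ω _ _)
          (fun ω => hw0 ω _ _) (fun ω s t hst => sum_le_sum fun l _ => hw ω _ _ hst)
          (fun ω t => sum_nonneg fun l _ => hw0 ω _ _ _)
          (fun ω t => pipe_spk_nonneg _ _ _ fun l => sub_nonneg.2 (hw ω _ _ (Nat.le_succ t)))
          (mul_pos hϑ hc) (he k i) (hρ k i) (by positivity) (fun ω => hcap ω _ hk i hi')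
          (by linarith [mul_le_mul_of_nonneg_right hM hc.le])
          (fun ω => sum_nonneg fun l _ =>
            pipe_ent_nonneg (hw ω _ _) (hw0 ω _ _) τ T (mul_pos hϑ (hct _ _)))
          (fun ω => by
            rw [hadd k hk' i hi']
            exact pipe_ent_merge hb τ T hΛ hL (by linarith) hϑ hct (hw0 ω) (hw ω) k i)
          (fun ω => hF1 ω k hk' i hi') (hF2 k hk' i hi')
        simp only [pipe_lin_xb, mul_sum, ← sum_add_distrib] at h3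
        refine h3.trans (le_of_eq ?_)
        ring
      rw [ex_sum]
      refine (sum_le_sum h2).trans ?_
      rw [sum_add_distrib, ← mul_sum, ← ex_sum]
      have h3 := fun ω => pipe_level' (b := b) hk' fun j => Lin τ T (w ω k j) +
        3 * (1 / (τ * L)) * Ent τ T (w ω k j) (ϑ * ct k j)
      simp only [h3]
      rw [sum_add_distrib, sum_add_distrib, ← mul_sum, ← mul_sum, ← mul_sum, pipe_ct hadd hk,
        sum_range_succ, sum_range_succ, pow_succ']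
      have h4 : 0 ≤ ∑ i ∈ range (b ^ (H - (k + 1))), e k i := sum_nonneg fun i _ => he k i
      have h5 : 0 ≤ ∑ i ∈ range (b ^ (H - (k + 1))), ρ k i := sum_nonneg fun i _ => hρ k i
      have h6 := mul_le_mul_of_nonneg_left h1 (zero_le_one.trans hE1)
      have h7 : 1 ≤ E * E ^ k := one_le_mul_of_one_le_of_one_le hE1 (one_le_pow₀ hE1)
      have h8 := mul_le_mul_of_nonneg_right h7
        (show 0 ≤ (10 * M + 10 * lam τ (T + 1) * ϑ) * ct H 0 +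
          4 * lam τ (T + 1) * ∑ i ∈ range (b ^ (H - (k + 1))), e k i +
          6 * lam τ (T + 1) / τ * ∑ i ∈ range (b ^ (H - (k + 1))), ρ k i by positivity)
      push_cast
      linarith
  have h1 := key h hh
  have h2 : lam τ (T + 1) * 𝔼 ω, ∑ i ∈ range (b ^ (H - h)), w ω h i T ≤
      𝔼 ω, ∑ i ∈ range (b ^ (H - h)),
        (Lin τ T (w ω h i) + 3 * (1 / (τ * L)) * Ent τ T (w ω h i) (ϑ * ct h i)) := by
    rw [← ex_mul]
    refine ex_mono fun ω => ?_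
    rw [mul_sum]
    exact sum_le_sum fun i _ => le_add_of_le_of_nonneg (pipe_lin_ge (hw ω h i) (hw0 ω h i) τ T)
      (mul_nonneg (by positivity)
        (pipe_ent_nonneg (hw ω h i) (hw0 ω h i) τ T (mul_pos hϑ (hct h i))))
  have h3 : E ^ h ≤ Real.exp (57 * H / (τ * L)) := by
    refine (pow_le_pow_right₀ hE1 hh).trans (le_of_eq ?_)
    rw [hE, ← Real.exp_nat_mul]
    congr 1
    ring
  have h4 : ∀ f : ℕ → ℕ → ℝ, (∀ j i, 0 ≤ f j i) →
      0 ≤ ∑ j ∈ range h, ∑ i ∈ range (b ^ (H - (j + 1))), f j i ∧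
      ∑ j ∈ range h, ∑ i ∈ range (b ^ (H - (j + 1))), f j i ≤ tot b H f := fun f hf =>
    ⟨sum_nonneg fun j _ => sum_nonneg fun i _ => hf j i,
      sum_le_sum_of_subset_of_nonneg (range_subset_range.2 hh)
        fun j _ _ => sum_nonneg fun i _ => hf j i⟩
  obtain ⟨e0, e1⟩ := h4 e he
  obtain ⟨r0, r1⟩ := h4 ρ hρ
  have hhH : (h : ℝ) ≤ H := by exact_mod_cast hh
  have hl0 := pipe_lam_pos τ T
  have h5 : 10 * H * M * ct H 0 ≤ lam τ (T + 1) * (10 * H * M * ct H 0 / lam τ T) := by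
    rw [← mul_div_assoc, le_div_iff₀ hl0, mul_comm]
    exact mul_le_mul_of_nonneg_right (pipe_lam_mono τ T) (by positivity)
  refine le_of_mul_le_mul_left (h2.trans (h1.trans ?_)) hl
  rw [mul_left_comm (lam τ (T + 1)) (Real.exp _)]
  refine mul_le_mul h3 ?_ (by positivity) (Real.exp_pos _).le
  have h6 := mul_le_mul_of_nonneg_right hhH
    (show 0 ≤ (10 * M + 10 * lam τ (T + 1) * ϑ) * ct H 0 by positivity)
  have h7 := mul_le_mul_of_nonneg_left e1 hl.le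
  have h8 := mul_le_mul_of_nonneg_left r1 (show 0 ≤ 6 * lam τ (T + 1) / τ by positivity)
  have h9 : 0 ≤ lam τ (T + 1) * ϑ * ct H 0 := by positivity
  have h10 : 0 ≤ H * (lam τ (T + 1) * ϑ * ct H 0) := by positivity
  have h11 : 6 * lam τ (T + 1) / τ * tot b H ρ = lam τ (T + 1) * (6 * tot b H ρ / τ) := by ring
  linarith

end Vale.Agent.P315
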