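import Vale.Agent.P315.AnD
import Vale.Agent.P315.DetA
import Vale.Agent.P315.Cher

/-! The rough estimate of one node. -/

open Finset
open scoped BigOperators

namespace Vale.Agent.P315

variable {p : Par} {Wr : Ev} {z : ℕ → ℕ} {h a d : ℕ}

namespace RoughAux

theorem two_le_s (hp : p.Ok) : 2 ≤ p.s :=
  calc 2 = 2 ^ 1 := rfl
    _ ≤ _ := Nat.pow_le_pow_right (by norm_num) hp.ws_pos

theorem B_eq (hp : p.Ok) (m : ℕ) : p.b ^ m = p.s ^ (p.r * m) := by rw [hp.b_eq, ← pow_mul]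

theorem J_le (p : Par) (h : ℕ) : p.r * min p.r0 h ≤ p.r * p.r0 :=
  Nat.mul_le_mul_left _ (min_le_left _ _)

theorem sj_le (hp : p.Ok) {j : ℕ} (hj : j ≤ p.r * p.r0) : p.s ^ j ≤ p.b0 := by
  rw [hp.b0_eq, B_eq hp]
  exact Nat.pow_le_pow_right (by linarith [two_le_s hp]) hj

theorem exists_n (hp : p.Ok) (h1 : 1 ≤ h) : ∃ n, p.r * min p.r0 h = n + 1 := by
  have := Nat.mul_le_mul hp.r_pos (le_min hp.r0_pos h1)
  exact ⟨p.r * min p.r0 h - 1, by omega⟩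

/-- The sampled layer. -/
def smp (p : Par) (Wr : Ev) (z : ℕ → ℕ) (h a d j : ℕ) : ℕ :=
  ∑ l ∈ range (p.s ^ j), p.lay Wr h a d j (z (j * p.b0 + l) % p.b ^ min p.r0 h)

/-- The upper confidence bound of one layer. -/
def ucb (p : Par) (Wr : Ev) (z : ℕ → ℕ) (h a d j : ℕ) : ℕ :=
  (p.gb0 + 1) * (p.s ^ (p.r * min p.r0 h - j) * smp p Wr z h a d j) / p.gb0 +
    p.k1 * p.s ^ (p.r * min p.r0 h - j) * p.tt (h - min p.r0 h) a j

theorem est_eq (hp : p.Ok) (hh : h ≤ p.H) {n : ℕ} (hn : p.r * min p.r0 h = n + 1) :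
    p.est Wr z h a d = ∑ i ∈ range n, ucb p Wr z h a d (i + 1) +
      ∑ l ∈ range (p.b ^ min p.r0 h), (Wr l (a - n) 0 d d - p.tt (h - min p.r0 h) a n) := by
  have hJ := J_le p h
  have hlen : p.len (min p.r0 h) = p.b ^ min p.r0 h :=
    hp.len_eq _ ((min_le_right _ _).trans hh)
  have hs : 0 < p.s := by linarith [two_le_s hp]
  unfold Par.est
  rw [← sum_subset (range_mono (show n + 2 ≤ p.rr1 by rw [hp.rr1_eq]; omega))
    fun j _ hj => if_pos (Or.inr (by rw [mem_range] at hj; omega)), sum_range_succ,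
    sum_range_succ', if_pos (Or.inl rfl), add_zero, if_neg (by omega), if_pos hn.symm, hlen,
    sum_guard (by rw [B_eq hp]; exact sj_le hp hJ), Nat.add_sub_cancel]
  congr 1
  refine sum_congr rfl fun i hi => ?_
  have hi := mem_range.1 hi
  rw [if_neg (by omega), if_neg (by omega), hp.sp_eq _ (Or.inr (by omega)),
    sum_guard (sj_le hp (by omega))]
  have h2 : p.b ^ min p.r0 h / p.s ^ (i + 1) = p.s ^ (p.r * min p.r0 h - (i + 1)) := by
    rw [B_eq hp, Nat.pow_div (by omega) hs]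
  rw [h2]
  rfl

theorem tt_double (hp : p.Ok) (hl a : ℕ) {j : ℕ} (hj : j + 1 ≤ p.r * p.r0) :
    2 * p.tt hl a j ≤ p.tt hl a (j + 1) := by
  unfold Par.tt
  rw [if_neg (Nat.succ_ne_zero j)]
  split_ifs with h0
  · exact Nat.zero_le _
  · rw [hp.sp_eq j (Or.inr (by omega)), hp.sp_eq (j + 1) (Or.inr hj), pow_succ]
    have := two_le_s hp
    generalize p.gb0 * p.pw (p.wy * ((hl + p.r0 - 1) / p.r0)) = c
    generalize p.U / p.sp a = u
    calc _ = c * (p.s ^ j * 2) * p.len hl * u := by ring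
      _ ≤ _ := by gcongr

theorem tele {τ : ℕ → ℕ} (h0 : τ 0 = 0) (v n : ℕ) (hm : ∀ j < n, τ j ≤ τ (j + 1)) :
    ∑ i ∈ range n, (min v (τ (i + 1)) - τ i) + (v - τ n) = v := by
  induction n with
  | zero => simp [h0]
  | succ n ih =>
    have h1 := ih fun j hj => hm j (by omega)
    have h2 := hm n (by omega)
    rw [sum_range_succ]
    omega

theorem good (hp : p.Ok) (hg : p.GoodN Wr z h a d) {j : ℕ} (h1 : 1 ≤ j)
    (h2 : j < p.r * min p.r0 h) :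
    ((p.s ^ (p.r * min p.r0 h - j) * smp p Wr z h a d j : ℕ) : ℝ) ≤
      (1 + 1 / (p.gb0 : ℝ)) * (∑ l ∈ range (p.b ^ min p.r0 h), p.lay Wr h a d j l : ℕ) +
      (p.k1 * p.s ^ (p.r * min p.r0 h - j) * p.tt (h - min p.r0 h) a j : ℕ) ∧
    ((∑ l ∈ range (p.b ^ min p.r0 h), p.lay Wr h a d j l : ℕ) : ℝ) ≤
      (1 + 1 / (p.gb0 : ℝ)) * (p.s ^ (p.r * min p.r0 h - j) * smp p Wr z h a d j : ℕ) +
      (p.k1 * p.s ^ (p.r * min p.r0 h - j) * p.tt (h - min p.r0 h) a j : ℕ) := by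
  obtain ⟨g1, g2⟩ := hg j h1 h2
  have hs : (0 : ℝ) < p.s := by exact_mod_cast (by linarith [two_le_s hp] : 0 < p.s)
  have e : ((p.b ^ min p.r0 h : ℕ) : ℝ) =
      (p.s : ℝ) ^ (p.r * min p.r0 h - j) * (p.s ^ j : ℕ) := by
    rw [B_eq hp]
    push_cast
    rw [← pow_add, Nat.sub_add_cancel h2.le]
  rw [e] at g1 g2
  have hq : 0 < (p.s : ℝ) ^ (p.r * min p.r0 h - j) := by positivity
  have e2 : ∀ S : ℝ, (p.s : ℝ) ^ (p.r * min p.r0 h - j) * (((p.s ^ j : ℕ) : ℝ) /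
      ((p.s : ℝ) ^ (p.r * min p.r0 h - j) * (p.s ^ j : ℕ)) * S) = S := fun S => by
    push_cast
    field_simp
  have g3 := mul_le_mul_of_nonneg_left g1 hq.le
  have g4 := mul_le_mul_of_nonneg_left g2 hq.le
  rw [mul_add, mul_left_comm, e2] at g3
  rw [e2] at g4
  unfold smp
  push_cast
  constructor <;> linarith

theorem ucb_low (hp : p.Ok) (hg : p.GoodN Wr z h a d) {j : ℕ} (h1 : 1 ≤ j)
    (h2 : j < p.r * min p.r0 h) :
    ∑ l ∈ range (p.b ^ min p.r0 h), p.lay Wr h a d j l ≤ ucb p Wr z h a d j := by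
  have h3 := (good hp hg h1 h2).2
  unfold ucb
  generalize ∑ l ∈ range (p.b ^ min p.r0 h), p.lay Wr h a d j l = S at h3 ⊢
  generalize p.s ^ (p.r * min p.r0 h - j) * smp p Wr z h a d j = T at h3 ⊢
  generalize p.k1 * p.s ^ (p.r * min p.r0 h - j) * p.tt (h - min p.r0 h) a j = K at h3 ⊢
  have hg0 : 0 < p.gb0 := by linarith [hp.gb0_ge]
  have hg1 : (0 : ℝ) < p.gb0 := by exact_mod_cast hg0
  have h4 : (S : ℝ) * p.gb0 ≤ (p.gb0 + 1) * T + K * p.gb0 := by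
    have := mul_le_mul_of_nonneg_right h3 hg1.le
    refine this.trans (le_of_eq ?_)
    field_simp
  have h5 : S * p.gb0 ≤ (p.gb0 + 1) * T + K * p.gb0 := by exact_mod_cast h4
  rw [← Nat.add_mul_div_right _ _ hg0, Nat.le_div_iff_mul_le hg0]
  exact h5

theorem ucb_up (hp : p.Ok) (hg : p.GoodN Wr z h a d) {j : ℕ} (h1 : 1 ≤ j)
    (h2 : j < p.r * min p.r0 h) : (ucb p Wr z h a d j : ℝ) ≤
      (1 + 1 / (p.gb0 : ℝ)) ^ 2 * (∑ l ∈ range (p.b ^ min p.r0 h), p.lay Wr h a d j l : ℕ) +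
      3 * (p.k1 * p.s ^ (p.r * min p.r0 h - j) * p.tt (h - min p.r0 h) a j : ℕ) := by
  have h3 := (good hp hg h1 h2).1
  unfold ucb
  generalize ∑ l ∈ range (p.b ^ min p.r0 h), p.lay Wr h a d j l = S at h3 ⊢
  generalize p.s ^ (p.r * min p.r0 h - j) * smp p Wr z h a d j = T at h3 ⊢
  generalize p.k1 * p.s ^ (p.r * min p.r0 h - j) * p.tt (h - min p.r0 h) a j = K at h3 ⊢
  have hg1 : (5 : ℝ) ≤ p.gb0 := by exact_mod_cast hp.gb0_ge
  have h4 := Nat.cast_div_le (α := ℝ) (m := (p.gb0 + 1) * T) (n := p.gb0)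
  have h5 : (((p.gb0 + 1) * T : ℕ) : ℝ) / p.gb0 = (1 + 1 / (p.gb0 : ℝ)) * T := by
    push_cast
    field_simp
  have h6 : 1 / (p.gb0 : ℝ) ≤ 1 := by rw [div_le_one (by linarith)]; linarith
  have h7 := mul_le_mul_of_nonneg_left h3 (show 0 ≤ 1 + 1 / (p.gb0 : ℝ) by positivity)
  have h8 := mul_le_mul_of_nonneg_right h6 (Nat.cast_nonneg (α := ℝ) K)
  rw [Nat.cast_add]
  nlinarith

theorem geom {t : ℕ → ℝ} {K : ℝ} (hK : 0 ≤ K) (h0 : t 0 = 0) (n : ℕ)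
    (hd : ∀ j < n, 2 * t j ≤ t (j + 1)) :
    ∑ j ∈ range (n + 1), (if t j < K then t j else 0) ≤ 2 * min K (t n) := by
  induction n with
  | zero => simp [h0, hK]
  | succ n ih =>
    have h1 := ih fun j hj => hd j (by omega)
    have h2 := hd n (by omega)
    rw [sum_range_succ]
    split_ifs with h
    · rw [min_eq_right h.le]
      linarith [min_le_right K (t n)]
    · rw [min_eq_left (not_lt.1 h)]
      linarith [min_le_left K (t n)]

theorem cast_tsub (x y : ℕ) : ((x - y : ℕ) : ℝ) = max 0 ((x : ℝ) - y) := by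
  rcases le_total x y with h | h
  · rw [Nat.sub_eq_zero_of_le h, max_eq_left (sub_nonpos.2 (Nat.cast_le.2 h)), Nat.cast_zero]
  · rw [Nat.cast_sub h, max_eq_right (sub_nonneg.2 (Nat.cast_le.2 h))]

theorem layer {τ Z : ℕ → ℕ} {α β g : ℝ} (hα : 0 ≤ α) (hβ : 0 ≤ β) (hg : 0 ≤ g) (hg2 : g ≤ 1 / 2)
    (h0 : τ 0 = 0) (n : ℕ) (hd : ∀ j < n, 2 * τ j ≤ τ (j + 1))
    (hZ : ∀ i ≤ n, (Z i : ℝ) ≤ α + (g * τ i + if i = 0 then β else 0)) :
    ((∑ i ∈ range n, (min (Z i) (τ (i + 1)) - τ i) + (Z n - τ n) : ℕ) : ℝ) ≤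
      (1 + 4 * g) * α + β := by
  set δ : ℕ → ℝ := fun i => g * (if (τ i : ℝ) < 2 * α then (τ i : ℝ) else 0) +
    if i = 0 then β else 0 with hδ
  have hδ0 : ∀ i, 0 ≤ δ i := fun i => by
    simp only [hδ]
    split_ifs <;> positivity
  have hc : ∀ i ≤ n, (Z i : ℝ) ≤ α + δ i ∨ (Z i : ℝ) ≤ τ i := by
    intro i hi
    have h1 := hZ i hi
    simp only [hδ]
    by_cases h2 : (τ i : ℝ) < 2 * α
    · rw [if_pos h2]
      exact Or.inl h1
    · by_cases h3 : i = 0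
      · left
        rw [h3, h0] at h1 ⊢
        simpa using h1
      · right
        rw [if_neg h3] at h1
        nlinarith [not_lt.1 h2]
  have h1 : ∀ i ∈ range n, ((min (Z i) (τ (i + 1)) - τ i : ℕ) : ℝ) ≤
      (min α (τ (i + 1)) - min α (τ i)) + δ i := by
    intro i hi
    have hi := mem_range.1 hi
    have h2 : (τ i : ℝ) ≤ τ (i + 1) := by
      have := hd i hi
      exact_mod_cast (by omega : τ i ≤ τ (i + 1))
    have h3 : min α (τ i) ≤ min α (τ (i + 1)) := min_le_min le_rfl h2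
    have h4 := hδ0 i
    rw [cast_tsub, Nat.cast_min]
    refine max_le (by linarith) ?_
    have h5 := min_le_left (Z i : ℝ) (τ (i + 1))
    have h6 := min_le_right (Z i : ℝ) (τ (i + 1))
    have h7 := min_le_right α (τ i)
    rcases hc i hi.le with h | h
    · rcases le_total α (τ (i + 1)) with h8 | h8
      · rw [min_eq_left h8]; linarith
      · rw [min_eq_right h8]; linarith
    · linarith
  have h2 : ((Z n - τ n : ℕ) : ℝ) ≤ α - min α (τ n) + δ n := by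
    have h4 := hδ0 n
    have h5 := min_le_left α (τ n)
    have h7 := min_le_right α (τ n)
    rw [cast_tsub]
    refine max_le (by linarith) ?_
    rcases hc n le_rfl with h | h <;> linarith
  have h3 := sum_le_sum h1
  rw [sum_add_distrib, sum_range_sub fun i => min α (τ i : ℝ), h0, Nat.cast_zero,
    min_eq_right hα] at h3
  have h4 : ∑ i ∈ range (n + 1), δ i ≤ g * (2 * (2 * α)) + β := by
    simp only [hδ]
    rw [sum_add_distrib, ← mul_sum, sum_ite_eq', if_pos (mem_range.2 (Nat.succ_pos n))]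
    refine add_le_add (mul_le_mul_of_nonneg_left ?_ hg) le_rfl
    refine (geom (t := fun i => (τ i : ℝ)) (by linarith) (by simp [h0]) n
      fun j hj => by exact_mod_cast hd j hj).trans ?_
    linarith [min_le_left (2 * α) (τ n : ℝ)]
  rw [sum_range_succ] at h4
  rw [Nat.cast_add, Nat.cast_sum]
  linarith

theorem tt_cast (hp : p.Ok) {hl : ℕ} (hh : hl ≤ p.H) (ha : a ≤ p.F) {j : ℕ} (h1 : j ≠ 0)
    (hj : j ≤ p.r * p.r0) : (p.tt hl a j : ℝ) = p.gb0 * (p.s : ℝ) ^ j *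
      (p.U * 2 ^ (p.wy * ((hl + p.r0 - 1) / p.r0)) * (p.b : ℝ) ^ hl / (p.s : ℝ) ^ a) := by
  have hs : 0 < p.s := by linarith [two_le_s hp]
  rw [Par.tt, if_neg h1, hp.sp_eq j (Or.inr hj), hp.sp_eq a (Or.inl ha), hp.len_eq _ hh,
    hp.pw_wy _ (Nat.div_le_div_right (by omega))]
  have := Nat.cast_div (K := ℝ) ((pow_dvd_pow _ ha).trans hp.sF_dvd) (by positivity)
  rw [Nat.cast_mul, this]
  push_cast
  ring

theorem div_succ {r0 h : ℕ} (hr : 1 ≤ r0) (h1 : 1 ≤ h) :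
    (h + r0 - 1) / r0 = (h - min r0 h + r0 - 1) / r0 + 1 := by
  rw [← Nat.add_div_right _ hr]
  rcases le_total r0 h with h2 | h2
  · rw [min_eq_left h2]
    congr 1
    omega
  · rw [min_eq_right h2, Nat.div_eq_of_lt_le (k := 1) (by omega) (by omega),
      Nat.div_eq_of_lt_le (k := 1) (by omega) (by omega)]

end RoughAux

open RoughAux

theorem est_low (hp : p.Ok) (h1 : 1 ≤ h) (hh : h ≤ p.H) (hg : p.GoodN Wr z h a d) (V : ℕ → ℕ)
    (hV : ∀ l < p.b ^ min p.r0 h, ∀ a' ≤ a, V l ≤ Wr l a' 0 d d) :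
    ∑ l ∈ range (p.b ^ min p.r0 h), V l ≤ p.est Wr z h a d := by
  obtain ⟨n, hn⟩ := exists_n hp h1
  have hJ := J_le p h
  rw [est_eq hp hh hn]
  refine le_trans ?_ (Nat.add_le_add_right (sum_le_sum fun i hi =>
    ucb_low hp hg (j := i + 1) (by omega) (by have := mem_range.1 hi; omega)) _)
  rw [sum_comm, ← sum_add_distrib]
  refine sum_le_sum fun l hl => ?_
  have hl := mem_range.1 hl
  refine (tele (τ := p.tt (h - min p.r0 h) a) (if_pos rfl) (V l) n fun j hj => ?_).ge.trans ?_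
  · have := tt_double hp (h - min p.r0 h) a (j := j) (by omega)
    omega
  · refine add_le_add (sum_le_sum fun i _ => ?_)
      (Nat.sub_le_sub_right (hV l hl _ (Nat.sub_le _ _)) _)
    exact Nat.sub_le_sub_right (min_le_min (hV l hl _ (Nat.sub_le _ _)) le_rfl) _

theorem est_up (hp : p.Ok) (h1 : 1 ≤ h) (hh : h ≤ p.H) (ha : a ≤ p.F) (hg : p.GoodN Wr z h a d)
    (hy : 4 + 3 * p.r * p.r0 * p.k1 * p.gb0 ≤ 2 ^ p.wy) (α : ℕ → ℝ) (hα : ∀ l, 0 ≤ α l)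
    (hW : ∀ l < p.b ^ min p.r0 h, ∀ a' ≤ a, (Wr l a' 0 d d : ℝ) ≤ α l +
      p.U * 2 ^ (p.wy * ((h - min p.r0 h + p.r0 - 1) / p.r0)) * (p.b : ℝ) ^ (h - min p.r0 h) /
        (p.s : ℝ) ^ a') :
    (p.est Wr z h a d : ℝ) ≤ (1 + 8 / (p.gb0 : ℝ)) * (∑ l ∈ range (p.b ^ min p.r0 h), α l) +
      p.U * 2 ^ (p.wy * ((h + p.r0 - 1) / p.r0)) * (p.b : ℝ) ^ h / (p.s : ℝ) ^ a := by
  obtain ⟨n, hn⟩ := exists_n hp h1
  have hJ := J_le p h
  have hs : (0 : ℝ) < p.s := by exact_mod_cast (by linarith [two_le_s hp] : 0 < p.s)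
  have hs1 : (1 : ℝ) ≤ p.s := by exact_mod_cast (by linarith [two_le_s hp] : 1 ≤ p.s)
  have hg5 : (5 : ℝ) ≤ p.gb0 := by exact_mod_cast hp.gb0_ge
  have hhl : h - min p.r0 h ≤ p.H := (Nat.sub_le _ _).trans hh
  set c : ℝ := p.U * 2 ^ (p.wy * ((h - min p.r0 h + p.r0 - 1) / p.r0)) *
    (p.b : ℝ) ^ (h - min p.r0 h) with hc
  have hc0 : 0 ≤ c := by positivity
  set β : ℝ := c / (p.s : ℝ) ^ a with hβ
  have hβ0 : 0 ≤ β := by positivity
  set g : ℝ := 1 / (p.gb0 : ℝ) with hgd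
  have hg0 : 0 ≤ g := by positivity
  have hg1 : g ≤ 1 / 5 := one_div_le_one_div_of_le (by norm_num) hg5
  have hB : (p.s : ℝ) ^ (p.r * min p.r0 h) = (p.b : ℝ) ^ min p.r0 h := by
    exact_mod_cast (B_eq hp _).symm
  have h2 : ∀ i ∈ range n, (ucb p Wr z h a d (i + 1) : ℝ) ≤
      (1 + g) ^ 2 * (∑ l ∈ range (p.b ^ min p.r0 h), p.lay Wr h a d (i + 1) l : ℕ) +
      3 * p.k1 * p.gb0 * ((p.b : ℝ) ^ min p.r0 h * β) := by
    intro i hi
    have hi := mem_range.1 hi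
    refine (ucb_up hp hg (j := i + 1) (by omega) (by omega)).trans (add_le_add le_rfl (le_of_eq ?_))
    rw [Nat.cast_mul, tt_cast hp hhl ha (show i + 1 ≠ 0 by omega) (by omega), ← hc, ← hβ, ← hB,
      ← Nat.sub_add_cancel (show i + 1 ≤ p.r * min p.r0 h by omega), Nat.add_sub_cancel, pow_add]
    push_cast
    ring
  have h3 : ∀ l ∈ range (p.b ^ min p.r0 h),
      ((∑ i ∈ range n, p.lay Wr h a d (i + 1) l +
        (Wr l (a - n) 0 d d - p.tt (h - min p.r0 h) a n) : ℕ) : ℝ) ≤ (1 + 4 * g) * α l + β := by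
    intro l hl
    refine layer (τ := p.tt (h - min p.r0 h) a) (Z := fun i => Wr l (a - i) 0 d d) (hα l) hβ0 hg0
      (by linarith) (if_pos rfl) n (fun j hj => tt_double hp _ a (by omega)) fun i hi => ?_
    refine (hW l (mem_range.1 hl) _ (Nat.sub_le _ _)).trans (add_le_add le_rfl ?_)
    split_ifs with h0
    · rw [h0, Nat.sub_zero]
      exact le_add_of_nonneg_left (by positivity)
    · rw [add_zero, tt_cast hp hhl ha h0 (by omega), ← hc, div_le_iff₀ (by positivity)]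
      have h4 : (p.s : ℝ) ^ a ≤ (p.s : ℝ) ^ i * (p.s : ℝ) ^ (a - i) := by
        rw [← pow_add]
        exact pow_le_pow_right₀ hs1 (by omega)
      calc c = c / (p.s : ℝ) ^ a * (p.s : ℝ) ^ a := by field_simp
        _ ≤ c / (p.s : ℝ) ^ a * ((p.s : ℝ) ^ i * (p.s : ℝ) ^ (a - i)) := by gcongr
        _ = _ := by
          rw [hgd]
          field_simp
  have h4 := sum_le_sum h3
  rw [← Nat.cast_sum, sum_add_distrib, sum_comm, Nat.cast_add, Nat.cast_sum, sum_add_distrib,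
    ← mul_sum, sum_const, card_range, nsmul_eq_mul, Nat.cast_pow] at h4
  have h5 := sum_le_sum h2
  rw [sum_add_distrib, ← mul_sum, sum_const, card_range, nsmul_eq_mul] at h5
  rw [est_eq hp hh hn, Nat.cast_add, Nat.cast_sum]
  have h6 : p.U * 2 ^ (p.wy * ((h + p.r0 - 1) / p.r0)) * (p.b : ℝ) ^ h / (p.s : ℝ) ^ a =
      2 ^ p.wy * ((p.b : ℝ) ^ min p.r0 h * β) := by
    rw [div_succ hp.r0_pos h1, hβ, hc, mul_add, mul_one, pow_add]
    have : (p.b : ℝ) ^ h = (p.b : ℝ) ^ min p.r0 h * (p.b : ℝ) ^ (h - min p.r0 h) := by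
      rw [← pow_add, Nat.add_sub_cancel' (min_le_right _ _)]
    rw [this]
    ring
  rw [h6, div_eq_mul_one_div 8, ← hgd]
  have h7 : 0 ≤ ∑ l ∈ range (p.b ^ min p.r0 h), α l := sum_nonneg fun l _ => hα l
  have h8 : 0 ≤ (p.b : ℝ) ^ min p.r0 h * β := by positivity
  have h9 : (4 + n * (3 * p.k1 * p.gb0) : ℝ) ≤ 2 ^ p.wy := by
    have : 4 + n * (3 * p.k1 * p.gb0) ≤ 2 ^ p.wy := by
      refine le_trans ?_ hy
      calc _ ≤ 4 + p.r * p.r0 * (3 * p.k1 * p.gb0) := by gcongr; omega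
        _ = _ := by ring
    exact_mod_cast this
  generalize ∑ l ∈ range (p.b ^ min p.r0 h), α l = A at h4 h7 ⊢
  generalize (p.b : ℝ) ^ min p.r0 h * β = D at h4 h5 h8 ⊢
  have h10 := Nat.cast_nonneg (α := ℝ)
    (∑ l ∈ range (p.b ^ min p.r0 h), (Wr l (a - n) 0 d d - p.tt (h - min p.r0 h) a n))
  have h11 := mul_le_mul_of_nonneg_left h4 (sq_nonneg (1 + g))
  have h12 := mul_le_mul_of_nonneg_right (show 1 ≤ (1 + g) ^ 2 by nlinarith) h10
  have h13 := mul_le_mul_of_nonneg_right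
    (show (1 + g) ^ 2 * (1 + 4 * g) ≤ 1 + 8 * g by nlinarith [mul_nonneg hg0 hg0]) h7
  have h14 := mul_le_mul_of_nonneg_right (show (1 + g) ^ 2 ≤ 4 by nlinarith) h8
  have h15 := mul_le_mul_of_nonneg_right h9 h8
  linarith

theorem pr_goodN (hp : p.Ok) {Dg : ℕ} [NeZero Dg] (hD : p.b0 ∣ Dg) (hh : h ≤ p.H) :
    pr (fun β : Blk p.Br Dg => ¬p.GoodN Wr (bv β) h a d) ≤
      2 * p.r * p.r0 * Real.exp (-(p.k1 / p.gb0 / 2 : ℝ)) := by
  have _ := hh
  have hJ := J_le p h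
  have hg5 : (5 : ℝ) ≤ p.gb0 := by exact_mod_cast hp.gb0_ge
  have hB : p.b ^ min p.r0 h ∣ Dg :=
    (pow_dvd_pow _ (min_le_left _ _)).trans (hp.b0_eq ▸ hD)
  have hγ : 0 < 1 / (p.gb0 : ℝ) := by positivity
  have hγ1 : 1 / (p.gb0 : ℝ) ≤ 1 := by rw [div_le_one (by linarith)]; linarith
  refine le_trans (pr_mono (E' := fun β : Blk p.Br Dg => ∃ j < p.r * min p.r0 h,
    ((1 + 1 / (p.gb0 : ℝ)) * ((p.s ^ j : ℕ) / (p.b ^ min p.r0 h : ℕ) *
        ∑ l ∈ range (p.b ^ min p.r0 h), (p.lay Wr h a d j l : ℝ)) +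
      p.k1 * (p.tt (h - min p.r0 h) a j : ℝ) < ∑ l ∈ range (p.s ^ j),
        (p.lay Wr h a d j (bv β (j * p.b0 + l) % p.b ^ min p.r0 h) : ℝ)) ∨
    ((1 + 1 / (p.gb0 : ℝ)) * ∑ l ∈ range (p.s ^ j),
        (p.lay Wr h a d j (bv β (j * p.b0 + l) % p.b ^ min p.r0 h) : ℝ) +
      p.k1 * (p.tt (h - min p.r0 h) a j : ℝ) < (p.s ^ j : ℕ) / (p.b ^ min p.r0 h : ℕ) *
        ∑ l ∈ range (p.b ^ min p.r0 h), (p.lay Wr h a d j l : ℝ))) fun β hβ => ?_) ?_
  · by_contra hc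
    refine hβ fun j _ hj => ?_
    exact ⟨not_lt.1 fun h' => hc ⟨j, hj, Or.inl h'⟩, not_lt.1 fun h' => hc ⟨j, hj, Or.inr h'⟩⟩
  refine (pr_exists_lt _ _ (c := 2 * Real.exp (-(p.k1 / p.gb0 / 2 : ℝ))) fun j hj => ?_).trans ?_
  · have ho : j * p.b0 + p.s ^ j ≤ p.Br := by
      have h1 := sj_le hp (j := j) (by omega)
      have h2 := Nat.mul_le_mul_right p.b0 (show j + 1 ≤ p.rr1 by rw [hp.rr1_eq]; omega)
      rw [add_mul, one_mul] at h2
      unfold Par.Br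
      omega
    have h1 : ∀ (_ : Blk p.Br Dg) l, (p.lay Wr h a d j l : ℝ) ≤ p.tt (h - min p.r0 h) a j :=
      fun _ l => Nat.cast_le.2 ((Nat.sub_le _ _).trans (min_le_right _ _))
    have h2 := chernoff_upper (k := p.k1) (X := fun _ l => (p.lay Wr h a d j l : ℝ)) ho hB
      (fun _ _ _ => rfl) (fun _ _ _ => rfl) (fun _ _ => Nat.cast_nonneg _) h1 hγ hγ1
    have h3 := chernoff_lower (k := p.k1) (X := fun _ l => (p.lay Wr h a d j l : ℝ)) ho hB
      (fun _ _ _ => rfl) (fun _ _ _ => rfl) (fun _ _ => Nat.cast_nonneg _) h1 hγ hγ1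
      (Nat.cast_nonneg _)
    rw [one_div_mul_eq_div] at h2 h3
    have h4 : Real.exp (-(p.k1 / p.gb0 : ℝ)) ≤ Real.exp (-(p.k1 / p.gb0 / 2 : ℝ)) := by
      refine Real.exp_le_exp.2 ?_
      have : 0 ≤ (p.k1 / p.gb0 : ℝ) := by positivity
      linarith
    exact (pr_or _ _).trans (by linarith)
  · have h1 : ((p.r * min p.r0 h : ℕ) : ℝ) ≤ p.r * p.r0 := by exact_mod_cast hJ
    have h2 := mul_le_mul_of_nonneg_right h1 (Real.exp_pos (-(p.k1 / p.gb0 / 2 : ℝ))).le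
    linarith

end Vale.Agent.P315
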