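import Vale.Agent.P315.RoughN
import Vale.Agent.P315.DetB
import Vale.Agent.P315.Cmp
import Vale.Agent.P315.Chain

/-! Round `0` on the whole tree. -/

open Finset
open scoped BigOperators

namespace Vale.Agent.P315

variable {p : Par} {hp' mis : ℕ → ℕ → ℕ} {z zr : ℕ → ℕ → ℕ → ℕ} {ds : ℕ → ℕ}

theorem dl_le_len (hs : PathSys hp' mis) (q n d e : ℕ) :
    dl hp' q d (q + n) e ≤ n + Nat.dist d e := by
  have h1 : hp' (q + n) e ≤ hp' q e + n := by
    induction n with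
    | zero => exact le_rfl
    | succ n ih =>
      have := hs.diag (q + n) e
      have := hs.le_one (q + n) e
      rw [← add_assoc]
      omega
  have h2 := hs.lip q e d
  unfold dl Nat.dist at *
  omega

theorem dl_le_leaf (hs : PathSys hp' mis) (i d e : ℕ) : dl hp' i d (i + 1) e ≤ leaf mis i d e := by
  have h1 := hs.lip (i + 1) e d
  have h2 := hs.diag i d
  have h3 := hs.del i e
  have h4 := hs.lip i (e + 1) d
  unfold dl leaf Nat.dist at *
  omega

theorem dl_same (hs : PathSys hp' mis) (q d e : ℕ) : dl hp' q d q e = Nat.dist d e := by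
  have h2 := hs.lip q e d
  unfold dl Nat.dist at *
  omega

theorem dl_tri (q d q' d' q'' d'' : ℕ) :
    dl hp' q d q'' d'' ≤ dl hp' q d q' d' + dl hp' q' d' q'' d'' := by
  exact ChainAux.dl_tri _ _ _ _ _ _ _

namespace RoughT

theorem se_zero (k : ℕ) : p.se 0 k = p.sd 0 k := by
  rw [Par.se, Par.gp, Par.sm, if_pos rfl, Nat.add_sub_cancel]

theorem est_eq (hp : p.Ok) {h : ℕ} (hh : h < p.H) (i a d : ℕ) (y : ℕ → ℕ) :
    p.est (Wpc p mis z zr h i) y (h + 1) a d =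
      p.est (Wpc p mis (fun _ _ _ => 0) zr h i) y (h + 1) a d :=
  est_congr hp (by omega) hh (fun _ _ _ => Wv_round0 hp (by omega) _ _) d

theorem idx {b H h m i l : ℕ} (hh : h < H) (hm : m ≤ h + 1) (hi : i < b ^ (H - (h + 1)))
    (hl : l < b ^ m) : i * b ^ m + l < b ^ (H - (h + 1 - m)) := by
  rw [show H - (h + 1 - m) = H - (h + 1) + m by omega, pow_add]
  have := Nat.mul_le_mul_right (b ^ m) (Nat.succ_le_of_lt hi)
  rw [Nat.succ_mul] at this
  omega

theorem pc_eq (hp : p.Ok) {h : ℕ} (hh : h < p.H) (i l : ℕ) : Wpc p mis z zr h i l =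
    Wv p mis z zr (h + 1 - min p.r0 (h + 1)) (i * p.b ^ min p.r0 (h + 1) + l) := by
  have := hp.r0_pos
  rw [Wpc, DetB.len_min hp hh, show h - (min p.r0 (h + 1) - 1) = h + 1 - min p.r0 (h + 1) by omega]

theorem est_of (hp : p.Ok) (hg : p.GoodR mis zr) {h : ℕ} (hh : h < p.H)
    {i : ℕ} (hi : i < p.b ^ (p.H - (h + 1))) {a : ℕ} (ha : a ≤ p.F) {k : ℕ} (hk : k ≤ 2 * p.Dh)
    (hv : ∀ h' ≤ h, ∀ i < p.b ^ (p.H - h'), ∀ a ≤ p.F, ∀ d e,
      p.U * dl hp' (i * p.b ^ h') d ((i + 1) * p.b ^ h') e ≤ Wv p mis z zr h' i a 0 d e) :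
    p.U * dl hp' (i * p.b ^ (h + 1)) (p.sd 0 k) ((i + 1) * p.b ^ (h + 1)) (p.sd 0 k) ≤
      p.est (Wpc p mis z zr h i) (zr (h + 1) i) (h + 1) a (p.sd 0 k) := by
  have hr := hp.r0_pos
  rw [est_eq hp hh]
  refine le_trans ?_ (est_low hp (by omega) hh (hg h hh i hi a ha k hk)
    (fun l => p.U * dl hp' ((i * p.b ^ min p.r0 (h + 1) + l) * p.b ^ (h + 1 - min p.r0 (h + 1)))
      (p.sd 0 k) ((i * p.b ^ min p.r0 (h + 1) + l + 1) * p.b ^ (h + 1 - min p.r0 (h + 1)))
      (p.sd 0 k)) fun l hl a' ha' => ?_)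
  · rw [← mul_sum]
    refine Nat.mul_le_mul_left _ ?_
    have hm : min p.r0 (h + 1) ≤ h + 1 := min_le_right _ _
    generalize min p.r0 (h + 1) = m at hm
    have e : p.b ^ (h + 1) = p.b ^ m * p.b ^ (h + 1 - m) := by
      rw [← pow_add, Nat.add_sub_cancel' hm]
    have key : ∀ n, dl hp' (i * p.b ^ m * p.b ^ (h + 1 - m)) (p.sd 0 k)
        ((i * p.b ^ m + n) * p.b ^ (h + 1 - m)) (p.sd 0 k) ≤ ∑ l ∈ range n,
        dl hp' ((i * p.b ^ m + l) * p.b ^ (h + 1 - m)) (p.sd 0 k)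
          ((i * p.b ^ m + l + 1) * p.b ^ (h + 1 - m)) (p.sd 0 k) := by
      intro n
      induction n with
      | zero => simp [dl]
      | succ n ih =>
        rw [sum_range_succ]
        exact (dl_tri _ _ _ _ _ _).trans (Nat.add_le_add_right ih _)
    have := key (p.b ^ m)
    rwa [← add_one_mul, mul_assoc, mul_assoc, ← e] at this
  · rw [pc_eq hp hh, Wv_round0 (z' := z) hp (by omega)]
    exact hv _ (by omega) _ (idx hh (min_le_right _ _) hi hl) a' (ha'.trans ha) _ _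

/-- The multiplicative constant after `n` levels. -/
noncomputable def A (p : Par) (n : ℕ) : ℝ := (1 + 8 / (p.gb0 : ℝ)) ^ n * (2 + 2 * p.b0 * n)

theorem A_nonneg (n : ℕ) : 0 ≤ A p n := by unfold A; positivity

theorem A_succ (n : ℕ) : (1 + 8 / (p.gb0 : ℝ)) * (A p n + 2 * p.b0) ≤ A p (n + 1) := by
  have h1 : (1 : ℝ) ≤ (1 + 8 / (p.gb0 : ℝ)) ^ n :=
    one_le_pow₀ (le_add_of_nonneg_right (by positivity))
  unfold A
  rw [pow_succ', mul_assoc (1 + 8 / (p.gb0 : ℝ))]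
  refine mul_le_mul_of_nonneg_left ?_ (by positivity)
  push_cast
  have : (0 : ℝ) ≤ p.b0 := by positivity
  nlinarith

theorem diag (hp : p.Ok) (hm : ∀ q d, mis q d ≤ 1) (hg : p.GoodR mis zr) (h0 : ds 0 = p.O)
    (hc : p.cw mis ds p.H 0 ≤ p.Dh)
    (hy : 4 + 3 * p.r * p.r0 * p.k1 * p.gb0 ≤ 2 ^ p.wy) {h : ℕ} (hh : h ≤ p.H)
    {i : ℕ} (hi : i < p.b ^ (p.H - h)) {a : ℕ} (ha : a ≤ p.F) :
    (Wv p mis z zr h i a 0 (ds (i * p.b ^ h)) (ds (i * p.b ^ h)) : ℝ) ≤
      p.U * (A p ((h + p.r0 - 1) / p.r0) * p.cw mis ds h i +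
        2 ^ (p.wy * ((h + p.r0 - 1) / p.r0)) * (p.b : ℝ) ^ h / (p.s : ℝ) ^ a) := by
  have hr := hp.r0_pos
  induction h using Nat.strong_induction_on generalizing i a z with
  | _ h ih =>
    rcases h with _ | h
    · rw [Wv_zero, cw_zero, Nat.div_eq_of_lt (by omega), pow_zero, mul_one]
      have h1 : leaf mis i (ds i) (ds i) ≤ 2 * leaf mis i (ds i) (ds (i + 1)) := by
        have := hm i (ds i)
        unfold leaf Nat.dist
        omega
      have h2 : (leaf mis i (ds i) (ds i) : ℝ) ≤ 2 * leaf mis i (ds i) (ds (i + 1)) := by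
        exact_mod_cast h1
      push_cast
      gcongr
      refine le_add_of_le_of_nonneg ?_ (by positivity)
      simpa [A] using h2
    rcases Nat.eq_zero_or_pos a with rfl | ha0
    · have h1 := Wv_le (z := z) (zr := zr) hp hm (h + 1) i 0 0 (ds (i * p.b ^ (h + 1)))
        (ds (i * p.b ^ (h + 1)))
      rw [Nat.dist_self, add_zero, hp.len_eq _ hh] at h1
      have h2 : (Wv p mis z zr (h + 1) i 0 0 (ds (i * p.b ^ (h + 1)))
        (ds (i * p.b ^ (h + 1))) : ℝ) ≤ p.U * (p.b : ℝ) ^ (h + 1) := by exact_mod_cast h1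
      refine h2.trans ?_
      gcongr
      rw [pow_zero, div_one]
      exact le_add_of_nonneg_of_le (mul_nonneg (A_nonneg _) (by positivity))
        (le_mul_of_one_le_left (by positivity) (one_le_pow₀ (by norm_num)))
    have hq : i * p.b ^ (h + 1) ≤ p.b ^ p.H := by
      have := Nat.mul_le_mul_right (p.b ^ (h + 1)) hi.le
      rwa [← pow_add, Nat.sub_add_cancel hh] at this
    have h1 := (ds_near (p := p) (mis := mis) (ds := ds) p.H 0 hq).trans hc
    rw [zero_mul, zero_add, h0] at h1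
    have hO := hp.O_ge
    set d := ds (i * p.b ^ (h + 1)) with hd
    have hk : d - (p.O - p.Dh) ≤ 2 * p.Dh := by unfold Nat.dist at h1; omega
    have hsd : p.sd 0 (d - (p.O - p.Dh)) = d := by
      rw [Par.sd, Par.sg, if_pos rfl]
      unfold Nat.dist at h1
      omega
    have h2 := node_le_newv (Wc := Wch p mis z zr h i) (Wr := Wpc p mis z zr h i)
      (y := z (h + 1) i) (yr := zr (h + 1) i) (h + 1) ha0 le_rfl (le_refl 0)
      (show 0 < p.NS1 by rw [hp.NS1_eq]; omega) hk d d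
    rw [Par.newv, if_pos rfl, if_pos rfl, hsd, Par.sm, if_pos rfl, Nat.dist_self, Nat.dist_self,
      mul_zero, add_zero, mul_zero, add_zero, ← Wv_succ, est_eq hp hh] at h2
    have hG := hg h hh i hi a ha _ hk
    rw [hsd] at hG
    have hm1 : 1 ≤ min p.r0 (h + 1) := by omega
    have hm2 : min p.r0 (h + 1) ≤ h + 1 := min_le_right _ _
    have hm3 : p.b ^ min p.r0 (h + 1) ≤ p.b0 := by
      rw [hp.b0_eq]
      exact Nat.pow_le_pow_right (by have := hp.two_le_b; omega) (min_le_left _ _)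
    have hn : (h + 1 + p.r0 - 1) / p.r0 = (h + 1 - min p.r0 (h + 1) + p.r0 - 1) / p.r0 + 1 := by
      rcases le_total p.r0 (h + 1) with c | c
      · rw [min_eq_left c, show h + 1 - p.r0 + p.r0 - 1 = h by omega,
          show h + 1 + p.r0 - 1 = h + p.r0 by omega, Nat.add_div_right _ hr]
      · rw [min_eq_right c, show h + 1 + p.r0 - 1 = h + p.r0 by omega, Nat.add_div_right _ hr,
          Nat.div_eq_of_lt (by omega), Nat.div_eq_of_lt (by omega)]
    have h3 := est_up hp (by omega) hh ha hG hy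
      (fun l => p.U * (A p ((h + 1 - min p.r0 (h + 1) + p.r0 - 1) / p.r0) *
        p.cw mis ds (h + 1 - min p.r0 (h + 1)) (i * p.b ^ min p.r0 (h + 1) + l) +
        2 * p.cw mis ds (h + 1) i))
      (fun l => by have := A_nonneg (p := p) ((h + 1 - min p.r0 (h + 1) + p.r0 - 1) / p.r0); positivity)
      (fun l hl a' ha' => by
        rw [pc_eq hp hh]
        have i1 := ih (h + 1 - min p.r0 (h + 1)) (by omega) (z := fun _ _ _ => 0) (by omega)
          (idx hh hm2 hi hl) (ha'.trans ha)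
        generalize min p.r0 (h + 1) = m at *
        have e : p.b ^ (h + 1) = p.b ^ m * p.b ^ (h + 1 - m) := by
          rw [← pow_add, Nat.add_sub_cancel' hm2]
        have i2 := ds_near (p := p) (mis := mis) (ds := ds) (h + 1) i
          (q := l * p.b ^ (h + 1 - m)) (by rw [e]; exact Nat.mul_le_mul_right _ hl.le)
        rw [← hd, e, ← mul_assoc, ← add_mul] at i2
        set d' := ds ((i * p.b ^ m + l) * p.b ^ (h + 1 - m))
        have i3 := (Wv_reg (z := fun _ _ _ => 0) (zr := zr) hp hm (h + 1 - m)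
          (i * p.b ^ m + l)).lip a' 0 d d d' d'
        have i4 : 2 * Nat.dist d d' + Nat.dist (d + d') (d' + d) ≤ 2 * p.cw mis ds (h + 1) i := by
          unfold Nat.dist at *
          omega
        have i5 := i3.trans (Nat.add_le_add_left (Nat.mul_le_mul_left _ i4) _)
        have i6 : (Wv p mis (fun _ _ _ => 0) zr (h + 1 - m) (i * p.b ^ m + l) a' 0 d d : ℝ) ≤
            Wv p mis (fun _ _ _ => 0) zr (h + 1 - m) (i * p.b ^ m + l) a' 0 d' d' +
              p.U * (2 * p.cw mis ds (h + 1) i) := by exact_mod_cast i5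
        refine i6.trans ((add_le_add_left i1 _).trans (le_of_eq ?_))
        ring)
    refine (Nat.cast_le.2 h2).trans (h3.trans ?_)
    have h4 := cw_add (p := p) (mis := mis) (ds := ds) (h + 1 - min p.r0 (h + 1))
      (min p.r0 (h + 1)) i
    rw [Nat.sub_add_cancel hm2] at h4
    rw [← mul_sum, sum_add_distrib, ← mul_sum, ← Nat.cast_sum, ← h4, sum_const, card_range,
      nsmul_eq_mul, mul_add (p.U : ℝ) (A _ _ * _) (_ / _)]
    refine add_le_add ?_ (le_of_eq (by ring))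
    rw [hn]
    generalize (h + 1 - min p.r0 (h + 1) + p.r0 - 1) / p.r0 = n
    have h5 : ((p.b ^ min p.r0 (h + 1) : ℕ) : ℝ) ≤ p.b0 := by exact_mod_cast hm3
    calc _ ≤ (1 + 8 / (p.gb0 : ℝ)) * (p.U * (A p n * p.cw mis ds (h + 1) i +
          p.b0 * (2 * p.cw mis ds (h + 1) i))) := by gcongr
      _ = p.U * ((1 + 8 / (p.gb0 : ℝ)) * (A p n + 2 * p.b0) * p.cw mis ds (h + 1) i) := by ring
      _ ≤ _ := mul_le_mul_of_nonneg_left
          (mul_le_mul_of_nonneg_right (A_succ n) (by positivity)) (by positivity)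

end RoughT

theorem rough_valid (hp : p.Ok) (hs : PathSys hp' mis) (hg : p.GoodR mis zr) {h : ℕ} (hh : h ≤ p.H)
    {i : ℕ} (hi : i < p.b ^ (p.H - h)) {a : ℕ} (ha : a ≤ p.F) (d e : ℕ) :
    p.U * dl hp' (i * p.b ^ h) d ((i + 1) * p.b ^ h) e ≤ Wv p mis z zr h i a 0 d e := by
  induction h using Nat.strong_induction_on generalizing i a d e with
  | _ h ih =>
    rcases h with _ | h
    · rw [Wv_zero, pow_zero, mul_one, mul_one]
      exact Nat.mul_le_mul_left _ (dl_le_leaf hs i d e)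
    rw [Wv_succ]
    rcases node_cases (Wc := Wch p mis z zr h i) (Wr := Wpc p mis z zr h i) (y := z (h + 1) i)
      (yr := zr (h + 1) i) hp (h + 1) a 0 d e with
      h1 | ⟨a', t', sl, k, -, h2, h3, -, h4, h5, h6⟩
    · refine le_trans (Nat.mul_le_mul_left _ ?_) h1
      rw [hp.len_eq _ hh, add_mul, one_mul]
      exact dl_le_len hs _ _ _ _
    · obtain rfl : t' = 0 := by omega
      obtain rfl : sl = 0 := h5.1 rfl
      rw [Par.newv, if_pos rfl, if_pos rfl, RoughT.se_zero] at h6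
      have h7 := RoughT.est_of (z := z) hp hg (h := h) (by omega) hi (h2.trans ha) h4
        fun h' hh' i' hi' a' ha' d e => ih h' (by omega) (by omega) hi' ha' d e
      refine le_trans ?_ ((Nat.add_le_add_right h7 _).trans h6)
      rw [← mul_add]
      refine Nat.mul_le_mul_left _ ?_
      have e1 := dl_tri (hp' := hp') (i * p.b ^ (h + 1)) d (i * p.b ^ (h + 1)) (p.sd 0 k)
        ((i + 1) * p.b ^ (h + 1)) e
      have e2 := dl_tri (hp' := hp') (i * p.b ^ (h + 1)) (p.sd 0 k) ((i + 1) * p.b ^ (h + 1))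
        (p.sd 0 k) ((i + 1) * p.b ^ (h + 1)) e
      rw [dl_same hs] at e1 e2
      rw [Nat.dist_comm e]
      omega

theorem est_valid (hp : p.Ok) (hs : PathSys hp' mis) (hg : p.GoodR mis zr) {h : ℕ} (hh : h < p.H)
    {i : ℕ} (hi : i < p.b ^ (p.H - (h + 1))) {a : ℕ} (ha : a ≤ p.F) {k : ℕ} (hk : k ≤ 2 * p.Dh) :
    p.U * dl hp' (i * p.b ^ (h + 1)) (p.sd 0 k) ((i + 1) * p.b ^ (h + 1)) (p.sd 0 k) ≤
      p.est (Wpc p mis z zr h i) (zr (h + 1) i) (h + 1) a (p.sd 0 k) := by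
  exact RoughT.est_of hp hg hh hi ha hk
    fun h' hh' i' hi' a' ha' d e => rough_valid hp hs hg (by omega) hi' ha' d e

theorem rough_cap (hp : p.Ok) (hm : ∀ q d, mis q d ≤ 1) (hg : p.GoodR mis zr) (h0 : ds 0 = p.O)
    (hc : p.cw mis ds p.H 0 ≤ p.Dh) (hγ : 8 * p.H ≤ p.gb0)
    (hy : 4 + 3 * p.r * p.r0 * p.k1 * p.gb0 ≤ 2 ^ p.wy) {h : ℕ} (hh : h ≤ p.H)
    {i : ℕ} (hi : i < p.b ^ (p.H - h)) {a : ℕ} (ha : a ≤ p.F) :
    (Wv p mis z zr h i a 0 (ds (i * p.b ^ h)) (ds ((i + 1) * p.b ^ h)) : ℝ) ≤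
      p.U * (p.Mb * p.cw mis ds h i + p.Yb * (p.b : ℝ) ^ h / (p.s : ℝ) ^ a) := by
  have h1 := RoughT.diag (z := z) hp hm hg h0 hc hy hh hi ha
  have h2 := (Wv_reg (z := z) (zr := zr) hp hm h i).lip a 0 (ds (i * p.b ^ h))
    (ds ((i + 1) * p.b ^ h)) (ds (i * p.b ^ h)) (ds (i * p.b ^ h))
  have h3 := ds_near (p := p) (mis := mis) (ds := ds) h i (q := p.b ^ h) le_rfl
  rw [← add_one_mul] at h3
  have h4 : 2 * Nat.dist (ds (i * p.b ^ h)) (ds (i * p.b ^ h)) +
      Nat.dist (ds ((i + 1) * p.b ^ h) + ds (i * p.b ^ h)) (ds (i * p.b ^ h) + ds (i * p.b ^ h)) ≤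
      p.cw mis ds h i := by
    unfold Nat.dist at *
    omega
  have h5 := h2.trans (Nat.add_le_add_left (Nat.mul_le_mul_left _ h4) _)
  have h6 : (Wv p mis z zr h i a 0 (ds (i * p.b ^ h)) (ds ((i + 1) * p.b ^ h)) : ℝ) ≤
      Wv p mis z zr h i a 0 (ds (i * p.b ^ h)) (ds (i * p.b ^ h)) + p.U * p.cw mis ds h i := by
    exact_mod_cast h5
  have hr := hp.r0_pos
  have n1 : (h + p.r0 - 1) / p.r0 ≤ p.H := by
    refine le_trans (Nat.le_of_lt_succ ((Nat.div_lt_iff_lt_mul hr).2 ?_)) hh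
    have := Nat.le_mul_of_pos_right h hr
    rw [Nat.succ_mul]
    omega
  have n2 : (h + p.r0 - 1) / p.r0 ≤ (p.H + p.r0 - 1) / p.r0 := Nat.div_le_div_right (by omega)
  generalize (h + p.r0 - 1) / p.r0 = n at h1 n1 n2
  have g0 : (0 : ℝ) < p.gb0 := by have := hp.gb0_ge; positivity
  have n3 : (1 + 8 / (p.gb0 : ℝ)) ^ n ≤ 3 := by
    calc (1 + 8 / (p.gb0 : ℝ)) ^ n ≤ Real.exp (8 / p.gb0) ^ n := by
          gcongr
          rw [add_comm]
          exact Real.add_one_le_exp _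
      _ = Real.exp (n * (8 / p.gb0)) := (Real.exp_nat_mul _ _).symm
      _ ≤ Real.exp 1 := by
          gcongr
          rw [← mul_div_assoc, div_le_one g0]
          have : n * 8 ≤ p.gb0 := by omega
          exact_mod_cast this
      _ ≤ 3 := Real.exp_one_lt_three.le
  have n4 : RoughT.A p n + 1 ≤ p.Mb := by
    have : (n : ℝ) ≤ p.H := by exact_mod_cast n1
    unfold RoughT.A Par.Mb
    push_cast
    calc (1 + 8 / (p.gb0 : ℝ)) ^ n * (2 + 2 * p.b0 * n) + 1 ≤ 3 * (2 + 2 * p.b0 * p.H) + 1 := by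
          gcongr
      _ = _ := by ring
  have n5 : (2 : ℝ) ^ (p.wy * n) ≤ p.Yb := by
    unfold Par.Yb
    push_cast
    gcongr
    norm_num
  calc _ ≤ p.U * (RoughT.A p n * p.cw mis ds h i + 2 ^ (p.wy * n) * (p.b : ℝ) ^ h / (p.s : ℝ) ^ a) +
        p.U * p.cw mis ds h i := by linarith
    _ = p.U * ((RoughT.A p n + 1) * p.cw mis ds h i +
        2 ^ (p.wy * n) * (p.b : ℝ) ^ h / (p.s : ℝ) ^ a) := by ring
    _ ≤ _ := by gcongr

theorem pr_goodR (hp : p.Ok) {Dg : ℕ} [NeZero Dg] (hD : p.b0 ∣ Dg) :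
    pr (fun ω : Fin p.Nn → Blk p.Br Dg => ¬p.GoodR mis (zv p ω)) ≤
      (p.H : ℝ) * p.P * (p.F + 1) * (2 * p.Dh + 1) * (2 * p.r * p.r0) *
        Real.exp (-(p.k1 / p.gb0 / 2 : ℝ)) := by
  set c : ℝ := 2 * p.r * p.r0 * Real.exp (-(p.k1 / p.gb0 / 2 : ℝ)) with hc
  have key : ∀ h < p.H, ∀ i a k, pr (fun ω : Fin p.Nn → Blk p.Br Dg =>
      i < p.b ^ (p.H - (h + 1)) ∧ ¬p.GoodN (Wpc p mis (fun _ _ _ => 0) (zv p ω) h i)
        (zv p ω (h + 1) i) (h + 1) a (p.sd 0 k)) ≤ c := by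
    intro h hh i a k
    by_cases hi : i < p.b ^ (p.H - (h + 1))
    · have hv := hp.nid_lt (h := h + 1) hh hi
      unfold pr
      rw [ex_update ⟨(h + 1) * p.P + i, hv⟩]
      refine ex_le fun ω => ?_
      simp only [Wpc_update_r hp ω i hh (hp.idx_lt hi) hv, zv_update_self ω (hp.idx_lt hi) hv]
      exact (pr_mono fun β hβ => hβ.2).trans (pr_goodN hp hD hh)
    · unfold pr
      refine ex_le fun ω => ?_
      rw [ind_neg fun h => hi h.1]
      positivity
  have h1 := pr_exists_lt p.H _ fun h hh => pr_exists_lt p.P _ fun i _ =>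
    pr_exists_lt (p.F + 1) _ fun a _ => pr_exists_lt (2 * p.Dh + 1) _ fun k _ => key h hh i a k
  refine (pr_mono fun ω hω => ?_).trans (h1.trans (le_of_eq ?_))
  · unfold Par.GoodR at hω
    push Not at hω
    obtain ⟨h, hh, i, hi, a, ha, k, hk, hn⟩ := hω
    exact ⟨h, hh, i, hp.idx_lt hi, a, by omega, k, by omega, hi, hn⟩
  · rw [hc]
    push_cast
    ring

end Vale.Agent.P315
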