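import Vale.Agent.P315.Alg
import Vale.Agent.P315.Defs

/-! The path system of two strings. Position `0` and the positions after `x` are free. -/

namespace Vale.Agent.P315

/-- Symbols `i` of `x` and `j` of `y` exist and are equal. -/
def mt (x y : List ℕ) (i j : ℕ) : Prop := i < x.length ∧ j < y.length ∧ x.getD i 0 = y.getD j 0

instance (x y : List ℕ) (i j : ℕ) : Decidable (mt x y i j) := by unfold mt; infer_instance

/-- The dynamic program for edit distance. -/
def dp (x y : List ℕ) : ℕ → ℕ → ℕ
  | 0, j => j
  | i + 1, 0 => i + 1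
  | i + 1, j + 1 => min (dp x y i j + if mt x y i j then 0 else 1)
      (min (dp x y i (j + 1)) (dp x y (i + 1) j) + 1)

/-- Cost of the diagonal step at position `q` on the shifted diagonal `d`. -/
def misS (x y : List ℕ) (O q d : ℕ) : ℕ :=
  if q = 0 ∨ x.length < q then 0 else if O ≤ q - 1 + d ∧ mt x y (q - 1) (q - 1 + d - O) then 0 else 1

/-- Distance from the source. -/
def hpS (x y : List ℕ) (O q d : ℕ) : ℕ :=
  dp x y (min (q - 1) x.length) (min (q - 1) x.length + d - O) + (O - (min (q - 1) x.length + d))

end Vale.Agent.P315
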