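import Vale.Agent.P315.Logic
import Vale.Agent.P315.Fold

/-!
Terms (expressions with bounded loops) and commands. Array `5` holds the loop bounds of terms.
`Cx f` says that the function `f` of the environment and the memory is computed by a term.
-/

open Finset

namespace Vale.Agent.P315

/-- Environments. -/
abbrev Env : Type := ℕ → ℕ

/-- Push a value. -/
def cons (x : ℕ) (e : Env) : Env
  | 0 => x
  | j + 1 => e j

/-- Pop a value. -/
def tail (e : Env) : Env := fun j => e (j + 1)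

/-- Operations that can be folded. -/
inductive Fo : Type
  | add : Fo
  | min : Fo
  | max : Fo

/-- The meaning of a fold operation. -/
def Fo.app : Fo → ℕ → ℕ → ℕ
  | .add => fun x y => x + y
  | .min => fun x y => Min.min x y
  | .max => fun x y => Max.max x y

/-- Terms. -/
inductive Term : Type
  | const (c : ℕ) : Term
  | var (i : ℕ) : Term
  | get (a : ℕ) (i : Term) : Term
  | op (o : Op) (x y : Term) : Term
  | cond (c x y : Term) : Term
  | push (x body : Term) : Term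
  | ren (σ : ℕ → ℕ) (body : Term) : Term
  | loop (f : Fo) (k : ℕ) (x body : Term) : Term

/-- The value of a term. -/
def Term.eval (m : Mem) : Term → Env → ℕ
  | .const c, _ => c
  | .var i, e => e i
  | .get a i, e => m a (i.eval m e)
  | .op o x y, e => o.app (x.eval m e) (y.eval m e)
  | .cond c x y, e => if c.eval m e = 0 then y.eval m e else x.eval m e
  | .push x body, e => body.eval m (cons (x.eval m e) e)
  | .ren σ body, e => body.eval m fun j => e (σ j)
  | .loop f k x body, e => fold f.app (x.eval m e) (fun i => body.eval m (cons i e)) (m 5 k)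

/-- Functions computed by a term. -/
def Cx (f : Env → Mem → ℕ) : Prop := ∃ t : Term, ∀ e m, t.eval m e = f e m

/-- Predicates decided by a term. -/
def CxP (p : Env → Mem → Prop) : Prop := ∃ t : Term, ∀ e m, (t.eval m e ≠ 0 ↔ p e m)

section api
variable {f g x y : Env → Mem → ℕ} {p q : Env → Mem → Prop}

theorem Cx.const (c : ℕ) : Cx fun _ _ => c := ⟨.const c, fun _ _ => rfl⟩

theorem Cx.var (i : ℕ) : Cx fun e _ => e i := ⟨.var i, fun _ _ => rfl⟩

theorem Cx.get (a : ℕ) (h : Cx f) : Cx fun e m => m a (f e m) :=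
  let ⟨t, ht⟩ := h; ⟨.get a t, fun e m => by rw [Term.eval, ht]⟩

/-- A fixed cell. -/
theorem Cx.cell (a i : ℕ) : Cx fun _ m => m a i := Cx.get a (Cx.const i)

theorem Cx.op (o : Op) (hf : Cx f) (hg : Cx g) : Cx fun e m => o.app (f e m) (g e m) :=
  let ⟨t, ht⟩ := hf; let ⟨s, hs⟩ := hg; ⟨.op o t s, fun e m => by rw [Term.eval, ht, hs]⟩

theorem Cx.add (hf : Cx f) (hg : Cx g) : Cx fun e m => f e m + g e m := Cx.op .add hf hg

theorem Cx.sub (hf : Cx f) (hg : Cx g) : Cx fun e m => f e m - g e m := Cx.op .sub hf hg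

theorem Cx.mul (hf : Cx f) (hg : Cx g) : Cx fun e m => f e m * g e m := Cx.op .mul hf hg

theorem Cx.div (hf : Cx f) (hg : Cx g) : Cx fun e m => f e m / g e m := Cx.op .div hf hg

theorem Cx.congr (hf : Cx f) (h : ∀ e m, f e m = g e m) : Cx g :=
  let ⟨t, ht⟩ := hf; ⟨t, fun e m => (ht e m).trans (h e m)⟩

theorem Cx.mod (hf : Cx f) (hg : Cx g) : Cx fun e m => f e m % g e m :=
  (hf.sub (hg.mul (hf.div hg))).congr fun _ _ => (Nat.mod_def _ _).symm

theorem Cx.min (hf : Cx f) (hg : Cx g) : Cx fun e m => min (f e m) (g e m) :=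
  (hf.sub (hf.sub hg)).congr fun _ _ => by omega

theorem Cx.max (hf : Cx f) (hg : Cx g) : Cx fun e m => max (f e m) (g e m) :=
  (hf.add (hg.sub hf)).congr fun _ _ => by omega

theorem Cx.dist (hf : Cx f) (hg : Cx g) : Cx fun e m => Nat.dist (f e m) (g e m) :=
  (hf.sub hg).add (hg.sub hf)

theorem Cx.ren (σ : ℕ → ℕ) (hf : Cx f) : Cx fun e m => f (fun j => e (σ j)) m :=
  let ⟨t, ht⟩ := hf; ⟨.ren σ t, fun e m => by rw [Term.eval, ht]⟩

theorem Cx.tail (hf : Cx f) : Cx fun e m => f (tail e) m := hf.ren (· + 1)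

/-- Substitution for the variable `0`. -/
theorem Cx.app (hf : Cx f) (hx : Cx x) : Cx fun e m => f (cons (x e m) e) m :=
  let ⟨t, ht⟩ := hf; let ⟨s, hs⟩ := hx; ⟨.push s t, fun e m => by rw [Term.eval, ht, hs]⟩

theorem Cx.ite [∀ e m, Decidable (p e m)] (hp : CxP p) (hx : Cx x) (hy : Cx y) :
    Cx fun e m => if p e m then x e m else y e m :=
  let ⟨c, hc⟩ := hp; let ⟨t, ht⟩ := hx; let ⟨s, hs⟩ := hy
  ⟨.cond c t s, fun e m => by
    rw [Term.eval, ht, hs]
    by_cases h : p e m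
    · simp only [if_neg ((hc e m).2 h), if_pos h]
    · simp only [if_pos (by_contra fun h' => h ((hc e m).1 h') : c.eval m e = 0), if_neg h]⟩

theorem CxP.of (hf : Cx f) (h : ∀ e m, f e m ≠ 0 ↔ p e m) : CxP p :=
  let ⟨t, ht⟩ := hf; ⟨t, fun e m => by rw [ht, h]⟩

theorem CxP.lt (hf : Cx f) (hg : Cx g) : CxP fun e m => f e m < g e m :=
  .of (hg.sub hf) fun _ _ => by omega

theorem CxP.le (hf : Cx f) (hg : Cx g) : CxP fun e m => f e m ≤ g e m :=
  .of ((hg.add (Cx.const 1)).sub hf) fun _ _ => by omega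

theorem CxP.ne (hf : Cx f) (hg : Cx g) : CxP fun e m => f e m ≠ g e m :=
  .of ((hf.sub hg).add (hg.sub hf)) fun _ _ => by omega

theorem CxP.not (hp : CxP p) : CxP fun e m => ¬p e m := by
  classical
  exact .of (Cx.ite hp (Cx.const 0) (Cx.const 1)) fun e m => by by_cases h : p e m <;> simp [h]

theorem CxP.eq (hf : Cx f) (hg : Cx g) : CxP fun e m => f e m = g e m :=
  .of ((Cx.const 1).sub ((hf.sub hg).add (hg.sub hf))) fun _ _ => by omega

theorem CxP.and (hp : CxP p) (hq : CxP q) : CxP fun e m => p e m ∧ q e m := by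
  classical
  exact .of (Cx.ite hp (Cx.ite hq (Cx.const 1) (Cx.const 0)) (Cx.const 0)) fun e m => by
    by_cases h : p e m <;> by_cases h' : q e m <;> simp [h, h']

theorem CxP.or (hp : CxP p) (hq : CxP q) : CxP fun e m => p e m ∨ q e m := by
  classical
  exact .of (Cx.ite hp (Cx.const 1) (Cx.ite hq (Cx.const 1) (Cx.const 0))) fun e m => by
    by_cases h : p e m <;> by_cases h' : q e m <;> simp [h, h']

theorem Cx.fold (o : Fo) (k : ℕ) {F : ℕ → Env → Mem → ℕ} (hx : Cx x)
    (hF : Cx fun e m => F (e 0) (P315.tail e) m) :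
    Cx fun e m => fold o.app (x e m) (fun i => F i e m) (m 5 k) :=
  let ⟨t, ht⟩ := hx; let ⟨s, hs⟩ := hF
  ⟨.loop o k t s, fun e m => by
    rw [Term.eval, ht]
    exact fold_congr fun i _ => hs _ _⟩

theorem Cx.sum (k : ℕ) {F : ℕ → Env → Mem → ℕ} (hF : Cx fun e m => F (e 0) (P315.tail e) m) :
    Cx fun e m => ∑ i ∈ range (m 5 k), F i e m :=
  (Cx.fold .add k (Cx.const 0) hF).congr fun _ _ => (fold_add _ _ _).trans (zero_add _)

theorem Cx.mn (k : ℕ) {F : ℕ → Env → Mem → ℕ} (hF : Cx fun e m => F (e 0) (P315.tail e) m) :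
    Cx fun e m => mn (m 5 k) fun i => F i e m :=
  Cx.fold .min k (hF.app (Cx.const 0)) hF

theorem Cx.mx (k : ℕ) {F : ℕ → Env → Mem → ℕ} (hF : Cx fun e m => F (e 0) (P315.tail e) m) :
    Cx fun e m => mx (m 5 k) fun i => F i e m :=
  Cx.fold .max k (Cx.const 0) hF

theorem Cx.amn (k : ℕ) {F : ℕ → Env → Mem → ℕ} (hF : Cx fun e m => F (e 0) (P315.tail e) m) :
    Cx fun e m => amn (m 5 k) fun i => F i e m :=
  (Cx.mn k (F := fun i e m => F i e m * m 5 k + i)
    ((hF.mul (Cx.cell 5 k)).add (Cx.var 0))).mod (Cx.cell 5 k)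

/-- Computable functions with one more argument. -/
def Cx1 (F : Env → Mem → ℕ → ℕ) : Prop := Cx fun e m => F (P315.tail e) m (e 0)

theorem Cx1.app {F : Env → Mem → ℕ → ℕ} (hF : Cx1 F) (hx : Cx x) :
    Cx fun e m => F e m (x e m) := Cx.app hF hx

/-- Keep the first `n` variables and skip the next one. -/
def skip (n j : ℕ) : ℕ := if j < n then j else j + 1

theorem Cx1.tail {F : Env → Mem → ℕ → ℕ} (hF : Cx1 F) : Cx1 fun e m => F (P315.tail e) m :=
  Cx.ren (skip 1) hF

/-- Computable functions with five more arguments. -/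
def Cx5 (F : Env → Mem → ℕ → ℕ → ℕ → ℕ → ℕ → ℕ) : Prop :=
  Cx fun e m => F (fun j => e (j + 5)) m (e 0) (e 1) (e 2) (e 3) (e 4)

theorem Cx5.app {F : Env → Mem → ℕ → ℕ → ℕ → ℕ → ℕ → ℕ} {x0 x1 x2 x3 x4 : Env → Mem → ℕ}
    (hF : Cx5 F) (h0 : Cx x0) (h1 : Cx x1) (h2 : Cx x2) (h3 : Cx x3) (h4 : Cx x4) :
    Cx fun e m => F e m (x0 e m) (x1 e m) (x2 e m) (x3 e m) (x4 e m) :=
  ((((Cx.app hF h0.tail.tail.tail.tail).app h1.tail.tail.tail).app h2.tail.tail).app
    h3.tail).app h4

theorem Cx5.tail {F : Env → Mem → ℕ → ℕ → ℕ → ℕ → ℕ → ℕ} (hF : Cx5 F) :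
    Cx5 fun e m => F (P315.tail e) m := Cx.ren (skip 5) hF

end api

/-- Commands. -/
inductive Cmd : Type
  | wr (a : ℕ) (i v : Term) : Cmd
  | seq (p q : Cmd) : Cmd
  | when (c : Term) (p : Cmd) : Cmd
  | rep (n : Term) (p : Cmd) : Cmd

/-- Iteration of memory transformers. -/
def iter (f : ℕ → Mem → Mem) (m : Mem) : ℕ → Mem
  | 0 => m
  | j + 1 => f j (iter f m j)

/-- The effect of a command. -/
def Cmd.exec : Cmd → Env → Mem → Mem
  | .wr a i v, e, m => m.write a (i.eval m e) (v.eval m e)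
  | .seq p q, e, m => q.exec e (p.exec e m)
  | .when c p, e, m => if c.eval m e = 0 then m else p.exec e m
  | .rep n p, e, m => iter (fun j => p.exec (cons j e)) m (n.eval m e)

/-- The number of atomic actions of a command. -/
def Cmd.ticks : Cmd → Env → Mem → ℕ
  | .wr _ _ _, _, _ => 1
  | .seq p q, e, m => p.ticks e m + q.ticks e (p.exec e m)
  | .when c p, e, m => 1 + if c.eval m e = 0 then 0 else p.ticks e m
  | .rep n p, e, m => 1 + ∑ j ∈ range (n.eval m e),
      (1 + p.ticks (cons j e) (iter (fun j => p.exec (cons j e)) m j))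

/-- All written values and loop lengths are at most `V`, and at most `S` in array `5`. -/
def Cmd.safe (V S : ℕ) : Cmd → Env → Mem → Prop
  | .wr a _ v, e, m => v.eval m e ≤ V ∧ (a = 5 → v.eval m e ≤ S)
  | .seq p q, e, m => p.safe V S e m ∧ q.safe V S e (p.exec e m)
  | .when c p, e, m => c.eval m e ≠ 0 → p.safe V S e m
  | .rep n p, e, m => n.eval m e ≤ V ∧ ∀ j < n.eval m e,
      p.safe V S (cons j e) (iter (fun j => p.exec (cons j e)) m j)

/-- Triples for commands. -/
def Tri (V S : ℕ) (c : Cmd) (e : Env) (m : Mem) (n : ℕ) (Q : Mem → Prop) : Prop :=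
  c.safe V S e m ∧ c.ticks e m ≤ n ∧ Q (c.exec e m)

/-- Bounded memories. -/
def Bd (V S : ℕ) (m : Mem) : Prop := (∀ a i, m a i ≤ V) ∧ ∀ k, m 5 k ≤ S

/-- `m'` agrees with `m` outside the arrays in `l`. -/
def Same (l : List ℕ) (m m' : Mem) : Prop := ∀ a, a ∉ l → m' a = m a

end Vale.Agent.P315
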