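import Vale.Agent.P315.Merge

open Finset

namespace Vale.Agent.P315

namespace TransferAux

theorem drp_lt {w : ℕ → ℝ} {T t : ℕ} (h : t ∈ range T) : drp w T t = w t - w (t + 1) :=
  if_pos (mem_range.1 h)

theorem drp_top (w : ℕ → ℝ) (T : ℕ) : drp w T T = w T := if_neg (lt_irrefl T)

theorem drp_bd {w : ℕ → ℝ} (hw : Antitone w) (hw0 : ∀ t, 0 ≤ w t) (T t : ℕ) :
    0 ≤ drp w T t ∧ drp w T t ≤ w 0 := by
  unfold drp
  split_ifs
  · exact ⟨sub_nonneg.2 (hw t.le_succ), by linarith [hw t.zero_le, hw0 (t + 1)]⟩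
  · exact ⟨hw0 T, hw T.zero_le⟩

theorem abel1 (μ w : ℕ → ℝ) (T : ℕ) : ∑ t ∈ range T, μ t * (w t - w (t + 1)) + μ T * w T =
    μ 0 * w 0 + ∑ t ∈ range T, (μ (t + 1) - μ t) * w (t + 1) := by
  induction T with
  | zero => simp
  | succ T ih => rw [sum_range_succ, sum_range_succ]; linarith

theorem abel2 (μ x : ℕ → ℝ) (T : ℕ) : ∑ t ∈ range T, (μ (t + 1) - μ t) * x t + μ 0 * x 0 =
    ∑ t ∈ range T, μ (t + 1) * (x t - x (t + 1)) + μ T * x T := by
  induction T with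
  | zero => simp
  | succ T ih => rw [sum_range_succ, sum_range_succ]; linarith

theorem lam_succ (τ t : ℕ) : lam τ (t + 1) = lam τ t + 1 / (τ : ℝ) * lam τ t := by
  unfold lam
  ring

theorem lam_pos (τ t : ℕ) : 0 < lam τ t := by
  unfold lam
  positivity

theorem lam_sum {τ : ℕ} (hτ : 1 ≤ τ) (T : ℕ) : ∑ t ∈ range T, lam τ t ≤ τ * lam τ T := by
  have h : (τ : ℝ) ≠ 0 := by positivity
  induction T with
  | zero => simpa using mul_nonneg (Nat.cast_nonneg τ) (lam_pos τ 0).le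
  | succ T ih =>
    rw [sum_range_succ, lam_succ, mul_add, ← mul_assoc, mul_one_div_cancel h]
    linarith

theorem env {D : ℕ → ℝ} {y c : ℝ} (hy : 0 < y) (hc : 0 ≤ c)
    (hD : ∀ t, 0 ≤ D t ∧ D t ≤ y * Real.exp c) :
    ∃ a : ℕ → ℝ, (∀ t, 0 ≤ a t ∧ a t ≤ c) ∧ (∀ t, kl (D t) y ≤ a t * D t + y) ∧
      (∀ t, a t - 3 / 2 ≤ a (t + 1)) ∧ y * Real.exp (a 0) ≤ D 0 + y ∧
      ∀ t, y * Real.exp (a (t + 1)) ≤ D (t + 1) + y + y * Real.exp (a t) / 4 := by
  obtain ⟨b, hb⟩ : ∃ b : ℕ → ℝ, ∀ t, b t = max 0 (Real.log (D t / y)) := ⟨_, fun _ => rfl⟩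
  have h1 : ∀ t, b t ≤ c ∧ y * Real.exp (b t) ≤ D t + y := fun t => by
    rw [hb]
    rcases (hD t).1.eq_or_lt with h | h
    · simp [← h, hc]
    have e1 : y * Real.exp (Real.log (D t / y)) = D t := by
      rw [Real.exp_log (div_pos h hy)]; field_simp
    refine ⟨max_le hc ?_, ?_⟩
    · rw [Real.log_le_iff_le_exp (div_pos h hy), div_le_iff₀' hy]
      exact (hD t).2
    · rcases max_choice 0 (Real.log (D t / y)) with h' | h' <;> rw [h']
      · rw [Real.exp_zero]; linarith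
      · linarith
  have hl : Real.log 4 ≤ 3 / 2 ∧ 0 ≤ Real.log 4 := by
    rw [show (4 : ℝ) = 2 ^ 2 by norm_num, Real.log_pow]
    push_cast
    constructor <;> linarith [Real.log_two_lt_d9, Real.log_two_gt_d9]
  obtain ⟨a, a0, a1⟩ : ∃ a : ℕ → ℝ, a 0 = b 0 ∧
      ∀ t, a (t + 1) = max (b (t + 1)) (a t - Real.log 4) :=
    ⟨fun t => Nat.rec (b 0) (fun t z => max (b (t + 1)) (z - Real.log 4)) t, rfl, fun _ => rfl⟩
  have h2 : ∀ t, b t ≤ a t := fun t => by
    rcases t with _ | t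
    · exact a0.ge
    · rw [a1]; exact le_max_left _ _
  refine ⟨a, fun t => ⟨le_trans (by rw [hb]; exact le_max_left _ _) (h2 t), ?_⟩, fun t => ?_,
    fun t => ?_, a0 ▸ (h1 0).2, fun t => ?_⟩
  · induction t with
    | zero => exact a0 ▸ (h1 0).1
    | succ t ih => rw [a1]; exact max_le (h1 _).1 (by linarith [hl.2])
  · have h3 : Real.log (D t / y) ≤ a t := le_trans (by rw [hb]; exact le_max_right _ _) (h2 t)
    have h4 := mul_le_mul_of_nonneg_left h3 (hD t).1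
    unfold kl
    linarith [(hD t).1]
  · rw [a1]; exact le_max_of_le_right (by linarith [hl.1])
  · have h3 : 0 ≤ y * Real.exp (a t) / 4 := by positivity
    rw [a1]
    rcases max_choice (b (t + 1)) (a t - Real.log 4) with h' | h' <;> rw [h']
    · linarith [(h1 (t + 1)).2]
    · rw [Real.exp_sub, Real.exp_log (by norm_num), ← mul_div_assoc]
      linarith [(hD (t + 1)).1]

end TransferAux

open TransferAux in
theorem transfer {τ T : ℕ} (hτ : 1 ≤ τ) {w x : ℕ → ℝ} {y e Mc : ℝ} (hw : Antitone w)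
    (hw0 : ∀ t, 0 ≤ w t) (hx : Antitone x) (hx0 : ∀ t, 0 ≤ x t) (hy : 0 < y) (he : 0 ≤ e)
    (hM : w 0 ≤ Mc) (hMy : Mc ≤ y * Real.exp τ) (hF : ∀ t < T, w (t + 1) ≤ x t + e) :
    Ent τ T w y + 3 * τ * Lin τ T w ≤ Ent τ T x y + (3 * τ + 4) * Lin τ T x + 6 * Lin τ T w +
      14 * τ * lam τ (T + 1) * y + 8 * τ * Mc + 4 * τ * lam τ (T + 1) * e := by
  have hτ1 : (1 : ℝ) ≤ τ := by exact_mod_cast hτ
  have hτ0 : (0 : ℝ) < τ := by linarith
  have hi0 : 0 ≤ 1 / (τ : ℝ) := by positivity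
  have hi1 : 1 / (τ : ℝ) ≤ 1 := (div_le_one hτ0).2 hτ1
  have hiτ : 1 / (τ : ℝ) * τ = 1 := one_div_mul_cancel hτ0.ne'
  have l0 := fun t => (lam_pos τ t).le
  have l1 : ∀ t, lam τ t ≤ lam τ (t + 1) := fun t => by
    rw [lam_succ]; exact le_add_of_nonneg_right (mul_nonneg hi0 (l0 t))
  have l2 : ∀ t, lam τ (t + 1) ≤ 2 * lam τ t := fun t => by
    rw [lam_succ]; linarith [mul_le_of_le_one_left (l0 t) hi1]
  have hD := drp_bd hw hw0 T
  have hX := drp_bd hx hx0 T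
  obtain ⟨a, ha, hkl, hdec, hE0, hE⟩ := env (D := drp w T) hy hτ0.le
    fun t => ⟨(hD t).1, ((hD t).2.trans hM).trans hMy⟩
  obtain ⟨μ, hμ⟩ : ∃ μ : ℕ → ℝ, ∀ t, μ t = lam τ (t + 1) * (a t + 3 * τ) := ⟨_, fun _ => rfl⟩
  obtain ⟨E, hEd⟩ : ∃ E : ℕ → ℝ, ∀ t, E t = y * Real.exp (a t) := ⟨_, fun _ => rfl⟩
  simp only [← hEd] at hE0 hE
  have E0 : ∀ t, 0 ≤ E t := fun t => by rw [hEd]; positivity
  obtain ⟨Ls, hLs⟩ : ∃ Ls, Ls = ∑ t ∈ range (T + 1), lam τ (t + 1) := ⟨_, rfl⟩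
  have m0 : ∀ t, 0 ≤ μ t := fun t => by
    rw [hμ]; exact mul_nonneg (l0 _) (by linarith [(ha t).1])
  have m1 : ∀ t, μ t ≤ 4 * τ * lam τ (t + 1) := fun t => by
    rw [hμ, mul_comm]; exact mul_le_mul_of_nonneg_right (by linarith [(ha t).2]) (l0 _)
  have m2 : ∀ t, 0 ≤ μ (t + 1) - μ t := fun t => by
    have b1 := mul_le_mul_of_nonneg_left (hdec t) hi0
    have b2 := mul_nonneg hi0 (ha t).1
    have b3 : a t + 3 * τ ≤ (1 + 1 / τ) * (a (t + 1) + 3 * τ) := by linarith [hdec t]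
    have b4 := mul_le_mul_of_nonneg_left b3 (l0 (t + 1))
    rw [hμ, hμ, lam_succ τ (t + 1)]
    linarith
  have s1 : Ls ≤ 2 * (τ * lam τ (T + 1)) := by
    have b1 := sum_le_sum fun t (_ : t ∈ range (T + 1)) => l2 t
    rw [← mul_sum, ← hLs] at b1
    linarith [lam_sum hτ (T + 1)]
  have s2 : Ent τ T w y + 3 * τ * Lin τ T w ≤
      ∑ t ∈ range (T + 1), μ t * drp w T t + y * Ls := by
    rw [Ent, Lin, hLs, mul_sum, mul_sum, ← sum_add_distrib, ← sum_add_distrib]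
    refine sum_le_sum fun t _ => ?_
    have := mul_le_mul_of_nonneg_left (hkl t) (l0 (t + 1))
    rw [hμ]
    linarith
  have s3 : ∑ t ∈ range (T + 1), μ t * drp w T t ≤ 8 * τ * Mc + 4 * τ * lam τ (T + 1) * e +
      ∑ t ∈ range T, (μ (t + 1) - μ t) * x t := by
    rw [sum_range_succ, sum_congr rfl fun t ht => by rw [drp_lt ht], drp_top, abel1]
    have b1 : μ 0 * w 0 ≤ 8 * τ * Mc := by
      refine mul_le_mul ((m1 0).trans ?_) hM (hw0 0) (by positivity)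
      have b2 : lam τ 0 = 1 := pow_zero _
      have b3 := mul_le_mul_of_nonneg_left (l2 0) hτ0.le
      rw [b2] at b3
      linarith
    have b2 := sum_le_sum fun t (ht : t ∈ range T) =>
      mul_le_mul_of_nonneg_left (hF t (mem_range.1 ht)) (m2 t)
    simp only [mul_add] at b2
    rw [sum_add_distrib, ← sum_mul, sum_range_sub] at b2
    have b3 : (μ T - μ 0) * e ≤ 4 * τ * lam τ (T + 1) * e :=
      mul_le_mul_of_nonneg_right (by linarith [m0 0, m1 T]) he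
    linarith
  have k1 : ∀ s t, (1 + 1 / τ) * (lam τ (s + 1) * (a t + 3 * τ)) * drp x T s ≤
      lam τ (s + 1) * kl (drp x T s) y + (3 * τ + 4) * (lam τ (s + 1) * drp x T s) +
        lam τ (s + 1) * E t := fun s t => by
    have b1 := kl_fenchel (hX s).1 hy (a t)
    have b2 := mul_le_mul_of_nonneg_left (ha t).2 hi0
    have b3 : 1 / (τ : ℝ) * (a t + 3 * τ) ≤ 4 := by linarith
    have b4 := mul_le_mul_of_nonneg_right b3 (hX s).1
    have b5 : (1 + 1 / τ) * (a t + 3 * τ) * drp x T s ≤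
        kl (drp x T s) y + (3 * τ + 4) * drp x T s + E t := by rw [hEd]; linarith
    have b6 := mul_le_mul_of_nonneg_left b5 (l0 (s + 1))
    linarith
  have s4 : ∑ t ∈ range T, (μ (t + 1) - μ t) * x t ≤ Ent τ T x y + (3 * τ + 4) * Lin τ T x +
      (∑ t ∈ range T, lam τ (t + 1) * E (t + 1) + lam τ (T + 1) * E T) := by
    have b1 := abel2 μ x T
    have b2 := mul_nonneg (m0 0) (hx0 0)
    have b3 : ∑ t ∈ range T, μ (t + 1) * (x t - x (t + 1)) ≤ ∑ t ∈ range T,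
        (lam τ (t + 1) * kl (drp x T t) y + (3 * τ + 4) * (lam τ (t + 1) * drp x T t) +
          lam τ (t + 1) * E (t + 1)) := sum_le_sum fun t ht => by
      refine le_of_eq_of_le ?_ (k1 t (t + 1))
      rw [← drp_lt ht, hμ, lam_succ τ (t + 1)]
      ring
    have b4 := k1 T T
    have b5 := mul_nonneg hi0 (mul_nonneg (m0 T) (hx0 T))
    rw [← hμ] at b4
    rw [sum_add_distrib, sum_add_distrib, ← mul_sum] at b3
    rw [Ent, Lin, sum_range_succ, sum_range_succ]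
    rw [drp_top] at b4 ⊢
    linarith
  have s5 : ∑ t ∈ range T, lam τ (t + 1) * E (t + 1) + lam τ (T + 1) * E T ≤
      6 * (Lin τ T w + y * Ls) := by
    obtain ⟨S, hS⟩ : ∃ S, S = ∑ t ∈ range (T + 1), lam τ t * E t := ⟨_, rfl⟩
    have b0 := hS.trans (sum_range_succ' _ _)
    have b1 := hS.trans (sum_range_succ _ _)
    have b2 : 0 ≤ ∑ t ∈ range T, lam τ t * E t := sum_nonneg fun t _ => mul_nonneg (l0 t) (E0 t)
    have b3 := mul_nonneg (l0 0) (E0 0)
    have b4 := mul_nonneg (l0 T) (E0 T)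
    have b5 := mul_le_mul_of_nonneg_right (l2 T) (E0 T)
    have b6 : ∑ t ∈ range T, lam τ (t + 1) * E (t + 1) ≤ ∑ t ∈ range T,
        (lam τ (t + 1 + 1) * (drp w T (t + 1) + y) + 1 / 2 * (lam τ t * E t)) :=
      sum_le_sum fun t _ => by
        have c1 := mul_le_mul_of_nonneg_left (hE t) (l0 (t + 1))
        have c2 := mul_le_mul_of_nonneg_right (l1 (t + 1)) (add_nonneg (hD (t + 1)).1 hy.le)
        have c3 := mul_le_mul_of_nonneg_right (l2 t) (E0 t)
        linarith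
    have b7 : lam τ 0 * E 0 ≤ lam τ (0 + 1) * (drp w T 0 + y) :=
      mul_le_mul (l1 0) hE0 (E0 0) (l0 _)
    have b8 : Lin τ T w + y * Ls = ∑ t ∈ range T, lam τ (t + 1 + 1) * (drp w T (t + 1) + y) +
        lam τ (0 + 1) * (drp w T 0 + y) := by
      rw [← sum_range_succ' fun t => lam τ (t + 1) * (drp w T t + y), Lin, hLs, mul_sum,
        ← sum_add_distrib]
      exact sum_congr rfl fun t _ => by ring
    rw [sum_add_distrib, ← mul_sum] at b6
    linarith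
  have s6 := mul_le_mul_of_nonneg_left s1 hy.le
  linarith

end Vale.Agent.P315
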