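import Vale.Agent.P315.RoughT
import Vale.Agent.P315.Round
import Vale.Agent.P315.Pipe

/-! The excesses on the tree. -/

open Finset

namespace Vale.Agent.P315

variable {p : Par} {E τ Tc Lg Dg κ : ℕ} {mis : ℕ → ℕ → ℕ} {ds : ℕ → ℕ} {fl cls : ℕ → ℕ → ℕ}
  {cp : ℕ → ℕ → ℝ} {z zr : ℕ → ℕ → ℕ → ℕ}

theorem wx_nonneg (h i t : ℕ) : 0 ≤ p.wx mis ds fl cp z zr h i t := exc_nonneg _ _

theorem upa_child (hp : p.Ok) {h i l : ℕ} (hh : h < p.H) (hi : i < p.b ^ (p.H - (h + 1)))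
    (hl : l < p.b) : i * p.b + l < p.b ^ (p.H - h) := by
  have _ := hp
  have e : p.H - h = p.H - (h + 1) + 1 := by omega
  have h1 := Nat.mul_le_mul_right p.b (Nat.succ_le_of_lt hi)
  rw [e, pow_succ]
  rw [Nat.succ_mul] at h1
  omega

theorem upa_triv (hp : p.Ok) (hm : ∀ q d, mis q d ≤ 1) {h : ℕ} (hh : h ≤ p.H) (i a t : ℕ) :
    (Wv p mis z zr h i a t (ds (i * p.b ^ h)) (ds ((i + 1) * p.b ^ h)) : ℝ) ≤
      p.U * ((p.b : ℝ) ^ h + p.cw mis ds h i) := by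
  have h1 := Wv_le (z := z) (zr := zr) hp hm h i a t (ds (i * p.b ^ h)) (ds ((i + 1) * p.b ^ h))
  have h2 := ds_near (p := p) (mis := mis) (ds := ds) h i (le_refl (p.b ^ h))
  rw [← Nat.succ_mul, Nat.dist_comm] at h2
  rw [hp.len_eq h hh] at h1
  have h3 := h1.trans (Nat.mul_le_mul_left _ (Nat.add_le_add_left h2 _))
  exact_mod_cast h3

theorem upa_cp (hc : p.CmpOk E mis ds fl cls cp) {h i : ℕ} (hh : h ≤ p.H)
    (hi : i < p.b ^ (p.H - h)) : (1 + 2 / (E : ℝ)) * p.cw mis ds h i +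
      p.Yb * (p.b : ℝ) ^ h / (p.s : ℝ) ^ fl h i ≤ cp h i := by
  have h1 := hc.cp_ge h hh i hi
  have h2 : (0 : ℝ) ≤ p.Dh * (p.b : ℝ) ^ h / (p.P * E) := by positivity
  linarith

theorem upa_cp' (hc : p.CmpOk E mis ds fl cls cp) {h i : ℕ} (hh : h ≤ p.H)
    (hi : i < p.b ^ (p.H - h)) :
    p.cw mis ds h i + p.Yb * (p.b : ℝ) ^ h / (p.s : ℝ) ^ fl h i ≤ cp h i := by
  have h1 := upa_cp hc hh hi
  have h2 : (0 : ℝ) ≤ 2 / (E : ℝ) * p.cw mis ds h i := by positivity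
  linarith

theorem upa_Yb : (1 : ℝ) ≤ p.Yb := by
  exact_mod_cast (Nat.one_le_two_pow : 1 ≤ p.Yb)

theorem wx_anti (hp : p.Ok) (hm : ∀ q d, mis q d ≤ 1) (h i : ℕ) :
    Antitone (p.wx mis ds fl cp z zr h i) := by
  intro t t' ht
  have h1 := (Wv_reg (z := z) (zr := zr) hp hm h i).anti (ds (i * p.b ^ h)) (ds ((i + 1) * p.b ^ h))
    (le_refl (fl h i)) ht
  exact max_le_max le_rfl (sub_le_sub_right
    (div_le_div_of_nonneg_right (Nat.cast_le.2 h1) (Nat.cast_nonneg _)) _)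

theorem fl_le (hp : p.Ok) (hc : p.CmpOk E mis ds fl cls cp) {h i : ℕ} (hh : h ≤ p.H)
    (hi : i < p.b ^ (p.H - h)) : fl h i ≤ p.F := by
  have hb := hp.two_le_b
  obtain ⟨n, hn⟩ : ∃ n, p.H - h = n := ⟨_, rfl⟩
  rw [hn] at hi
  induction n generalizing h i with
  | zero =>
    have e1 : h = p.H := by omega
    have e2 : i = 0 := by simpa using hi
    rw [e1, e2, hc.fl_root]
  | succ n ih =>
    have h1 : i / p.b < p.b ^ n := Nat.div_lt_of_lt_mul (by rwa [pow_succ, mul_comm] at hi)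
    have e : p.H - (h + 1) = n := by omega
    have h2 := hc.fl_child h (by omega) (i / p.b) (by rwa [e]) (i % p.b) (Nat.mod_lt _ (by omega))
    rw [Nat.div_add_mod'] at h2
    have h3 := ih (h := h + 1) (i := i / p.b) (by omega) h1 e
    omega

theorem cp_pos (hp : p.Ok) (hc : p.CmpOk E mis ds fl cls cp) {h i : ℕ} (hh : h ≤ p.H)
    (hi : i < p.b ^ (p.H - h)) : 0 < cp h i := by
  have h1 := upa_cp' hc hh hi
  have hb : (0 : ℝ) < p.b := by exact_mod_cast lt_of_lt_of_le two_pos hp.two_le_b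
  have hs : (0 : ℝ) < p.s := by exact_mod_cast (Nat.two_pow_pos _ : 0 < p.s)
  have hY : (0 : ℝ) < p.Yb := lt_of_lt_of_le one_pos upa_Yb
  have h2 : (0 : ℝ) < p.Yb * (p.b : ℝ) ^ h / (p.s : ℝ) ^ fl h i := by positivity
  have h3 : (0 : ℝ) ≤ p.cw mis ds h i := Nat.cast_nonneg _
  linarith

theorem ct_le_cp (hp : p.Ok) (hE : 1 ≤ E) (hc : p.CmpOk E mis ds fl cls cp) {h i : ℕ} (hh : h ≤ p.H)
    (hi : i < p.b ^ (p.H - h)) : p.ct mis ds h i ≤ E * cp h i := by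
  have _ := hp
  have hE' : (0 : ℝ) < E := by exact_mod_cast hE
  have hE1 : (1 : ℝ) ≤ E := by exact_mod_cast hE
  have h1 := mul_le_mul_of_nonneg_left (hc.cp_ge h hh i hi) hE'.le
  have h2 : (0 : ℝ) ≤ E * (p.Yb * (p.b : ℝ) ^ h / (p.s : ℝ) ^ fl h i) := by positivity
  have h3 : (0 : ℝ) ≤ p.cw mis ds h i := Nat.cast_nonneg _
  have e1 : (E : ℝ) * ((1 + 2 / (E : ℝ)) * p.cw mis ds h i) = (E + 2) * p.cw mis ds h i := by
    field_simp
  have e2 : (E : ℝ) * (p.Dh * (p.b : ℝ) ^ h / (p.P * E)) = p.Dh * (p.b : ℝ) ^ h / p.P := by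
    rw [← div_div, mul_div_cancel₀ _ hE'.ne']
  rw [mul_add, mul_add, e1, e2] at h1
  unfold Par.ct
  nlinarith

theorem wx_leaf (hp : p.Ok) (hc : p.CmpOk E mis ds fl cls cp) {i : ℕ} (hi : i < p.b ^ p.H) (t : ℕ) :
    p.wx mis ds fl cp z zr 0 i t = 0 := by
  refine le_antisymm (exc_le hp le_rfl ?_) (exc_nonneg _ _)
  have h1 := upa_cp' hc (Nat.zero_le _) hi
  have h2 : (0 : ℝ) ≤ p.Yb * (p.b : ℝ) ^ 0 / (p.s : ℝ) ^ fl 0 i := by positivity
  rw [Wv_zero, pow_zero, mul_one, mul_one, ← cw_zero (p := p), Nat.cast_mul]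
  exact mul_le_mul_of_nonneg_left (by linarith) (Nat.cast_nonneg _)

theorem wx_dead (hp : p.Ok) (hm : ∀ q d, mis q d ≤ 1) (hc : p.CmpOk E mis ds fl cls cp) {h i : ℕ}
    (hh : h ≤ p.H) (hi : i < p.b ^ (p.H - h)) (h0 : fl h i = 0) (t : ℕ) :
    p.wx mis ds fl cp z zr h i t = 0 := by
  refine le_antisymm (exc_le hp le_rfl ((upa_triv hp hm hh i _ t).trans ?_)) (exc_nonneg _ _)
  have h1 := upa_cp' hc hh hi
  rw [h0, pow_zero, div_one] at h1
  have h2 := mul_le_mul_of_nonneg_right (upa_Yb (p := p)) (by positivity : 0 ≤ (p.b : ℝ) ^ h)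
  exact mul_le_mul_of_nonneg_left (by linarith) (Nat.cast_nonneg _)

theorem wx_cap (hp : p.Ok) (hn : p.Num E τ Tc Lg Dg κ) (hm : ∀ q d, mis q d ≤ 1)
    (hc : p.CmpOk E mis ds fl cls cp) (hg : p.GoodR mis zr) {h i : ℕ} (hh : h ≤ p.H)
    (hi : i < p.b ^ (p.H - h)) (t : ℕ) :
    p.wx mis ds fl cp z zr h i t ≤ p.Mb * p.ct mis ds h i := by
  refine (wx_anti hp hm h i (Nat.zero_le t)).trans ?_
  have h1 := rough_cap (z := z) hp hm hg hc.ds0 hc.cw_le hn.gb0_big hn.wy_big hh hi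
    (fl_le hp hc hh hi)
  have h2 := upa_cp' hc hh hi
  have h3 : (0 : ℝ) ≤ p.cw mis ds h i := Nat.cast_nonneg _
  have h4 : (p.cw mis ds h i : ℝ) ≤ p.ct mis ds h i := le_add_of_nonneg_right (by positivity)
  have h5 := mul_le_mul_of_nonneg_left h4 (Nat.cast_nonneg p.Mb : (0 : ℝ) ≤ p.Mb)
  refine exc_le hp (le_trans (by positivity) h5) (h1.trans ?_)
  exact mul_le_mul_of_nonneg_left (by linarith) (Nat.cast_nonneg _)

theorem node_ctx (hp : p.Ok) (hm : ∀ q d, mis q d ≤ 1) (hc : p.CmpOk E mis ds fl cls cp) {h i : ℕ}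
    (hh : h < p.H) (hi : i < p.b ^ (p.H - (h + 1))) (h1 : 1 ≤ fl (h + 1) i) :
    p.NodeCtx E (Wch p mis z zr h i) (fl (h + 1) i) (fun l => ds ((i * p.b + l) * p.b ^ h))
      (p.cw mis ds (h + 1) i) (fun l => fl h (i * p.b + l)) (fun l => cls h (i * p.b + l))
      (fun l => p.ct mis ds h (i * p.b + l)) fun l => cp h (i * p.b + l) := by
  have hcD : p.cw mis ds (h + 1) i ≤ p.Dh := (cw_le_root hp hh hi).trans hc.cw_le
  have e0 : (i * p.b + 0) * p.b ^ h = i * p.b ^ (h + 1) := by ring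
  refine ⟨fun l => Wv_reg hp hm h _, h1, fl_le hp hc hh hi, ?_, fun l hl => ?_, hcD,
    fun l hl => hc.fl_child h hh i hi l hl, fun l _ => hc.cls_pos _ _, fun l _ => hc.cls_le _ _,
    fun l hl hr => ?_, fun l _ => ct_pos hp _ _,
    fun l hl => cp_pos hp hc hh.le (upa_child hp hh hi hl), ?_, ?_⟩
  · have h2 : i * p.b ^ (h + 1) ≤ p.b ^ p.H := by
      refine (Nat.mul_le_mul_right _ hi.le).trans (le_of_eq ?_)
      rw [← pow_add, Nat.sub_add_cancel hh]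
    have h3 := ds_near (p := p) (mis := mis) (ds := ds) p.H 0 h2
    rw [zero_mul, zero_add, hc.ds0] at h3
    rw [e0]
    exact h3.trans hc.cw_le
  · have h2 : l * p.b ^ h ≤ p.b ^ (h + 1) := by
      rw [pow_succ']
      exact Nat.mul_le_mul_right _ hl
    have h3 := ds_near (p := p) (mis := mis) (ds := ds) (h + 1) i h2
    have e1 : (i * p.b + l) * p.b ^ h = i * p.b ^ (h + 1) + l * p.b ^ h := by ring
    rw [e0, e1]
    exact h3
  · have h2 := hc.cls_lt h hh i hi l hl hr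
    rwa [ct_addv h hh i hi] at h2
  · have h2 := upa_cp (h := h + 1) hc hh hi
    have h3 : (0 : ℝ) ≤ p.Yb * (p.b : ℝ) ^ (h + 1) / (p.s : ℝ) ^ fl (h + 1) i := by positivity
    rw [hc.cp_add h hh i hi] at h2
    linarith
  · have h2 : ∀ l ∈ range p.b, p.wl (Wch p mis z zr h i) (fun l => ds ((i * p.b + l) * p.b ^ h))
        (fun l => fl h (i * p.b + l)) (fun l => cp h (i * p.b + l)) l 0 ≤
          (p.b : ℝ) ^ h + p.cw mis ds h (i * p.b + l) := fun l hl => by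
      have h3 := cp_pos hp hc hh.le (upa_child hp hh hi (mem_range.1 hl))
      refine exc_le hp (by positivity) ((upa_triv hp hm hh.le (i * p.b + l) _ 0).trans ?_)
      exact mul_le_mul_of_nonneg_left (by linarith) (Nat.cast_nonneg _)
    refine (sum_le_sum h2).trans ?_
    have h3 : (p.cw mis ds (h + 1) i : ℝ) = ∑ l ∈ range p.b, (p.cw mis ds h (i * p.b + l) : ℝ) :=
      cw_addv h hh i hi
    have h4 : p.b * p.b ^ h ≤ p.P := by
      rw [hp.P_eq, ← pow_succ']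
      exact Nat.pow_le_pow_right (lt_of_lt_of_le two_pos hp.two_le_b) hh
    have h5 : (p.b : ℝ) * (p.b : ℝ) ^ h ≤ p.P := by exact_mod_cast h4
    have h6 : (p.cw mis ds (h + 1) i : ℝ) ≤ p.P := by exact_mod_cast hcD.trans hp.Dh_le
    rw [sum_add_distrib, ← h3, sum_const, card_range, nsmul_eq_mul]
    linarith

theorem wl_eq (h i l t : ℕ) :
    p.wl (Wch p mis z zr h i) (fun l => ds ((i * p.b + l) * p.b ^ h)) (fun l => fl h (i * p.b + l))
      (fun l => cp h (i * p.b + l)) l t = p.wx mis ds fl cp z zr h (i * p.b + l) t := by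
  rfl

theorem wx_succ (hc : p.CmpOk E mis ds fl cls cp) {h i : ℕ} (hh : h < p.H)
    (hi : i < p.b ^ (p.H - (h + 1))) (t : ℕ) :
    p.wx mis ds fl cp z zr (h + 1) i t = p.exc (p.node (Wch p mis z zr h i) (Wpc p mis z zr h i)
      (z (h + 1) i) (zr (h + 1) i) (h + 1) (fl (h + 1) i) t (ds ((i * p.b + 0) * p.b ^ h))
      (ds ((i * p.b + p.b) * p.b ^ h))) (∑ l ∈ range p.b, cp h (i * p.b + l)) := by
  have e0 : (i * p.b + 0) * p.b ^ h = i * p.b ^ (h + 1) := by ring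
  have e1 : (i * p.b + p.b) * p.b ^ h = (i + 1) * p.b ^ (h + 1) := by ring
  rw [e0, e1, ← hc.cp_add h hh i hi, ← Wv_succ]
  rfl

theorem wx_f1 (hp : p.Ok) (hm : ∀ q d, mis q d ≤ 1) (hc : p.CmpOk E mis ds fl cls cp) {h i : ℕ}
    (hh : h < p.H) (hi : i < p.b ^ (p.H - (h + 1))) (t : ℕ) :
    p.wx mis ds fl cp z zr (h + 1) i (t + 1) ≤ xb p.b (p.wx mis ds fl cp z zr) h i t +
      (6 * p.b + 6) * p.cw mis ds (h + 1) i / p.P0 := by
  rcases Nat.eq_zero_or_pos (fl (h + 1) i) with h0 | h0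
  · rw [wx_dead hp hm hc hh hi h0]
    exact add_nonneg (sum_nonneg fun l _ => wx_nonneg _ _ _) (by positivity)
  · rw [wx_succ hc hh hi]
    exact f1_node hp (node_ctx hp hm hc hh hi h0) (h + 1) t

theorem tot_e (hp : p.Ok) (hc : p.CmpOk E mis ds fl cls cp) :
    tot p.b p.H (fun h i => (6 * p.b + 6) * (p.cw mis ds (h + 1) i : ℝ) / p.P0) ≤ p.e0 * p.Dh := by
  have _ := hp
  have h1 : ∀ h ∈ range p.H, ∑ i ∈ range (p.b ^ (p.H - (h + 1))),
      (6 * p.b + 6) * (p.cw mis ds (h + 1) i : ℝ) / p.P0 ≤ (6 * p.b + 6) * (p.Dh : ℝ) / p.P0 :=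
    fun h hh => by
      have h2 : ∑ i ∈ range (p.b ^ (p.H - (h + 1))), (p.cw mis ds (h + 1) i : ℝ) =
          p.cw mis ds p.H 0 := (cw_addv (p := p) (mis := mis) (ds := ds)).level (mem_range.1 hh)
      have h3 : (p.cw mis ds p.H 0 : ℝ) ≤ p.Dh := by exact_mod_cast hc.cw_le
      rw [← sum_div, ← mul_sum, h2]
      gcongr
  refine (sum_le_sum h1).trans (le_of_eq ?_)
  rw [sum_const, card_range, nsmul_eq_mul, Par.e0]
  ring

end Vale.Agent.P315
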