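import Vale.Agent.P315.UpA
import Vale.Agent.P315.F2

/-! The pipeline for the excesses, started at time `t0`. -/

open Finset
open scoped BigOperators

namespace Vale.Agent.P315

variable {p : Par} {E τ Tc Lg Dg κ : ℕ} [NeZero Dg] {mis : ℕ → ℕ → ℕ} {ds : ℕ → ℕ}
  {fl cls : ℕ → ℕ → ℕ} {cp : ℕ → ℕ → ℝ} {zr : ℕ → ℕ → ℕ → ℕ}

theorem upb_spk {b : ℕ} {Λ : ℝ} {D y : ℕ → ℝ} (h : ∀ l, 0 ≤ D l) : 0 ≤ spk b Λ D y :=
  sum_nonneg fun l _ => by
    split_ifs
    exacts [h l, le_rfl]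

theorem upb_tot {b H : ℕ} {f : ℕ → ℕ → ℝ} {c : ℝ}
    (h : ∀ k < H, ∑ i ∈ range (b ^ (H - (k + 1))), f k i ≤ c) : tot b H f ≤ H * c :=
  (sum_le_card_nsmul _ _ c fun k hk => h k (mem_range.1 hk)).trans (by simp)

theorem upb_lt (hp : p.Ok) (k : ℕ) : p.b ^ (p.H - k) ≤ p.P := by
  rw [hp.P_eq]
  exact Nat.pow_le_pow_right (by have := hp.two_le_b; omega) (Nat.sub_le _ _)

omit [NeZero Dg] in
theorem upb_rho (hp : p.Ok) (hn : p.Num E τ Tc Lg Dg κ) (hc : p.CmpOk E mis ds fl cls cp)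
    {r : ℕ → ℕ → ℝ} {R0 : ℝ} (hr : tot p.b p.H r ≤ R0 * p.Dh) :
    tot p.b p.H (fun h i => 3 * |cp (h + 1) i| / p.et + p.un τ + p.Ks Lg * r h i) ≤
      (9 * p.H / p.et + p.H * p.P * p.un τ + p.Ks Lg * R0) * p.Dh := by
  have hD : (1 : ℝ) ≤ p.Dh := by exact_mod_cast hp.Dh_pos
  have hE : (16 : ℝ) ≤ E := by exact_mod_cast hn.E_ge
  have het : (0 : ℝ) < p.et := by exact_mod_cast hn.et_pos
  have hu : 0 ≤ p.un τ := by unfold Par.un; positivity
  have h1 : cp p.H 0 ≤ 3 * p.Dh := by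
    have h2 : (p.cw mis ds p.H 0 : ℝ) ≤ p.Dh := by exact_mod_cast hc.cw_le
    have h3 : 2 / (E : ℝ) ≤ 1 := by rw [div_le_one (by linarith)]; linarith
    have h4 : 2 * (p.Dh : ℝ) / E = 2 / E * p.Dh := by ring
    have h5 : (0 : ℝ) ≤ p.cw mis ds p.H 0 := Nat.cast_nonneg _
    have h6 := hc.cp_root
    nlinarith
  have h2 : tot p.b p.H (fun h i => 3 * |cp (h + 1) i| / p.et + p.un τ) ≤
      p.H * (9 * p.Dh / p.et + p.P * p.un τ * p.Dh) := by
    refine upb_tot fun k hk => ?_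
    rw [sum_add_distrib, ← sum_div, ← mul_sum, sum_congr rfl fun i hi =>
      abs_of_pos (cp_pos hp hc (show k + 1 ≤ p.H from hk) (mem_range.1 hi)),
      hc.cp_add.level (show k + 1 ≤ p.H from hk), sum_const, card_range, nsmul_eq_mul]
    have h3 : ((p.b ^ (p.H - (k + 1)) : ℕ) : ℝ) ≤ p.P := by exact_mod_cast upb_lt hp _
    refine add_le_add (div_le_div_of_nonneg_right (by linarith) het.le) ?_
    exact (mul_le_mul_of_nonneg_right h3 hu).trans (le_mul_of_one_le_right (by positivity) hD)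
  have h3 : tot p.b p.H (fun h i => 3 * |cp (h + 1) i| / p.et + p.un τ + p.Ks Lg * r h i) =
      tot p.b p.H (fun h i => 3 * |cp (h + 1) i| / p.et + p.un τ) + p.Ks Lg * tot p.b p.H r := by
    simp only [tot, sum_add_distrib, mul_sum]
  have h4 := mul_le_mul_of_nonneg_left hr (Nat.cast_nonneg (α := ℝ) (p.Ks Lg))
  rw [h3]
  refine (add_le_add h2 h4).trans (le_of_eq ?_)
  ring

theorem pipe_wx (hp : p.Ok) (hn : p.Num E τ Tc Lg Dg κ) (hm : ∀ q d, mis q d ≤ 1)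
    (hc : p.CmpOk E mis ds fl cls cp) (hg : p.GoodR mis zr) {t0 : ℕ} (ht0 : t0 + Tc < p.T1)
    (R : (Fin p.Nn → Blk p.Bf Dg) → ℕ → ℕ → ℝ) (hR0 : ∀ ω h i, 0 ≤ R ω h i)
    (hinv : ∀ ω, ∀ h < p.H, ∀ i < p.b ^ (p.H - (h + 1)), ∀ (hv : (h + 1) * p.P + i < p.Nn) β,
      R (Function.update ω ⟨(h + 1) * p.P + i, hv⟩ β) h i = R ω h i)
    (hR : ∀ ω, ∀ h < p.H, ∀ i < p.b ^ (p.H - (h + 1)), 1 ≤ fl (h + 1) i → ∀ a0, t0 ≤ a0 →
      p.Radius (Wch p mis (zv p ω) zr h i) (fl (h + 1) i) (fun l => ds ((i * p.b + l) * p.b ^ h))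
        (p.cw mis ds (h + 1) i) (fun l => cp h (i * p.b + l)) a0 (R ω h i) (p.KR E))
    {R0 : ℝ} (hR1 : tot p.b p.H (fun h i => 𝔼 ω, R ω h i) ≤ R0 * p.Dh) {h : ℕ} (hh : h ≤ p.H) :
    𝔼 ω : Fin p.Nn → Blk p.Bf Dg, ∑ i ∈ range (p.b ^ (p.H - h)),
      p.wx mis ds fl cp (zv p ω) zr h i (t0 + Tc) ≤
      p.pipeB τ Tc (9 * p.H / p.et + p.H * p.P * p.un τ + p.Ks Lg * R0) * p.Dh := by
  have hb := hp.two_le_b
  have hP0 : (0 : ℝ) < p.P0 := by exact_mod_cast hp.P0_pos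
  have hL := hn.L_ge
  have hu : 0 ≤ p.un τ := by unfold Par.un; positivity
  have hρ : ∀ h i, 0 ≤ 3 * |cp (h + 1) i| / p.et + p.un τ + p.Ks Lg * 𝔼 ω, R ω h i := fun h i => by
    have := ex_nonneg fun ω => hR0 ω h i
    positivity
  have han : ∀ (ω : Fin p.Nn → Blk p.Bf Dg) h i,
      Antitone fun t => p.wx mis ds fl cp (zv p ω) zr h i (t0 + t) :=
    fun ω h i t t' htt => wx_anti hp hm h i (by omega)
  have key := pipe (Ω := Fin p.Nn → Blk p.Bf Dg) (b := p.b) (H := p.H) (τ := τ) (T := Tc)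
    (w := fun ω h i t => p.wx mis ds fl cp (zv p ω) zr h i (t0 + t)) (ct := p.ct mis ds)
    (e := fun h i => (6 * p.b + 6) * (p.cw mis ds (h + 1) i : ℝ) / p.P0)
    (ρ := fun h i => 3 * |cp (h + 1) i| / p.et + p.un τ + p.Ks Lg * 𝔼 ω, R ω h i)
    (M := p.Mb) (ϑ := 1 / p.P0) (Λ := p.s) (L := p.L) (by omega) hn.tau_ge
    (by exact_mod_cast Nat.one_le_two_pow) rfl hL (by positivity) (Nat.cast_nonneg _)
    (by rw [one_div, ← div_eq_inv_mul, le_div_iff₀ hP0]; exact hn.Mb_tau) (ct_pos hp) ct_addv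
    (fun h i => by positivity) hρ (fun ω h i t => wx_nonneg _ _ _) han
    (fun ω i hi t => wx_leaf hp hc hi _) (fun ω h hh i hi => wx_cap hp hn hm hc hg hh hi _)
    (fun ω h hh i hi t _ => wx_f1 hp hm hc hh hi (t0 + t)) ?_ hh
  · refine key.trans ?_
    have h1 : p.ct mis ds p.H 0 ≤ 2 * p.Dh := by
      have h2 : (p.cw mis ds p.H 0 : ℝ) ≤ p.Dh := by exact_mod_cast hc.cw_le
      have h3 : (p.P : ℝ) = (p.b : ℝ) ^ p.H := by rw [hp.P_eq]; push_cast; rfl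
      have h4 : (0 : ℝ) < p.b := by exact_mod_cast (by omega : 0 < p.b)
      rw [Par.ct, h3, mul_div_cancel_right₀ _ (by positivity)]
      linarith
    have h2 := tot_e hp hc
    have h3 := upb_rho (Lg := Lg) hp hn hc hR1
    have h4 := pipe_lam_pos τ Tc
    rw [Par.pipeB, mul_assoc (Real.exp _)]
    refine mul_le_mul_of_nonneg_left ?_ (Real.exp_pos _).le
    calc _ ≤ 10 * p.H * p.Mb * (2 * p.Dh) / lam τ Tc + 11 * (p.H + 1) * (1 / p.P0) * (2 * p.Dh) +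
          4 * (p.e0 * p.Dh) +
          6 * ((9 * p.H / p.et + p.H * p.P * p.un τ + p.Ks Lg * R0) * p.Dh) / τ := by gcongr
      _ = _ := by ring
  · intro h hh i hi a n hnτ hT
    rcases Nat.eq_zero_or_pos (fl (h + 1) i) with h0 | h0
    · simp only [wx_dead hp hm hc (show h + 1 ≤ p.H from hh) hi h0, sum_const_zero,
        expect_const_zero]
      refine add_nonneg (ex_nonneg fun ω => add_nonneg (mul_nonneg (by positivity)
        (sum_nonneg fun l _ => wx_nonneg _ _ _)) (sum_nonneg fun t _ => add_nonneg (add_nonneg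
          (sum_nonneg fun l _ => wx_nonneg _ _ _) (mul_nonneg (by positivity) ?_)) ?_)) (hρ h i)
      · exact sub_nonneg.2 (sum_le_sum fun l _ => han ω h _ (Nat.le_succ _))
      · exact upb_spk fun l => sub_nonneg.2 (han ω h _ (Nat.le_succ _))
    · have hv := hp.nid_lt (show h + 1 ≤ p.H from hh) hi
      have hiP : i < p.P := hi.trans_le (upb_lt hp _)
      rw [ex_update ⟨_, hv⟩, ← ex_mul, ← Fintype.expect_const (ι := Fin p.Nn → Blk p.Bf Dg)
        (3 * |cp (h + 1) i| / p.et + p.un τ), ← ex_add, ← ex_add]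
      refine ex_mono fun ω => ?_
      have h1 := f2_node (Wr := Wpc p mis (zv p ω) zr h i) (yr := zr (h + 1) i) hp hn
        (node_ctx (z := zv p ω) (zr := zr) hp hm hc hh hi h0) (h + 1) (a0 := t0 + a) hnτ
        (by omega) (hR0 ω h i) (hR ω h hh i hi h0 _ (Nat.le_add_right _ _))
      simp only [Par.xl, wl_eq] at h1
      simp only [wx_succ hc hh hi, Wch_update hp ω i hh hiP hv, Wpc_update hp ω i hh hiP hv,
        zv_update_self ω hiP hv, xb, spc, ← add_assoc t0]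
      rw [abs_of_pos (cp_pos hp hc (show h + 1 ≤ p.H from hh) hi), hc.cp_add h hh i hi]
      exact h1

/-- The first stage. -/
theorem stage_c (hp : p.Ok) (hn : p.Num E τ Tc Lg Dg κ) (hm : ∀ q d, mis q d ≤ 1)
    (hc : p.CmpOk E mis ds fl cls cp) (hg : p.GoodR mis zr) {h : ℕ} (hh : h ≤ p.H) :
    𝔼 ω : Fin p.Nn → Blk p.Bf Dg, ∑ i ∈ range (p.b ^ (p.H - h)),
      p.wx mis ds fl cp (zv p ω) zr h i Tc ≤ (p.b : ℝ) ^ 8 * p.Dh := by
  have hK : (1 : ℝ) ≤ p.KR E := by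
    have := hn.E_ge
    exact_mod_cast Nat.mul_pos (by omega : 0 < 2 * E) (by omega : 0 < 3 * p.b + 4)
  have h1 := pipe_wx hp hn hm hc hg (t0 := 0) (by have := hn.T1_eq; omega)
    (fun _ h i => (p.cw mis ds (h + 1) i : ℝ)) (fun _ _ _ => Nat.cast_nonneg _)
    (fun _ _ _ _ _ _ _ => rfl)
    (fun ω h hh i hi h0 a0 _ => radius_zero hp (node_ctx hp hm hc hh hi h0) a0 hK) (R0 := p.H)
    (upb_tot fun k hk => by
      simp only [Fintype.expect_const]
      rw [cw_addv.level (show k + 1 ≤ p.H from hk)]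
      exact_mod_cast hc.cw_le) hh
  rw [zero_add] at h1
  exact h1.trans (mul_le_mul_of_nonneg_right hn.stageC (Nat.cast_nonneg _))

end Vale.Agent.P315
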