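import Vale.Agent.P315.Merge

/-! The warm-up rounds: on most levels the values are proportional to the weights. -/

open Finset
open scoped BigOperators

namespace Vale.Agent.P315

/-- How far the values `Y` of the children of `(h + 1, i)` are from being proportional to `ν`. -/
noncomputable def prp (b : ℕ) (Y ν : ℕ → ℕ → ℝ) (h i : ℕ) : ℝ :=
  ∑ l ∈ range b, |Y h (i * b + l) -
    (∑ l' ∈ range b, Y h (i * b + l')) * ν h (i * b + l) / ν (h + 1) i|

/-- The slack of the node `(h + 1, i)`. -/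
def slk (b : ℕ) (Y e : ℕ → ℕ → ℝ) (h i : ℕ) : ℝ :=
  (∑ l ∈ range b, Y h (i * b + l)) + e h i - Y (h + 1) i

theorem warm_sum_mul (b n : ℕ) (f : ℕ → ℝ) :
    ∑ i ∈ range n, ∑ l ∈ range b, f (i * b + l) = ∑ j ∈ range (n * b), f j := by
  induction n with
  | zero => simp
  | succ n ih => rw [sum_range_succ, ih, add_mul, one_mul, sum_range_add]

theorem warm_level {b H h : ℕ} (hh : h < H) (f : ℕ → ℝ) :
    ∑ i ∈ range (b ^ (H - (h + 1))), ∑ l ∈ range b, f (i * b + l) =
      ∑ j ∈ range (b ^ (H - h)), f j := by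
  rw [warm_sum_mul, ← pow_succ, show H - (h + 1) + 1 = H - h by omega]

theorem warm_idx {b H h i l : ℕ} (hh : h < H) (hi : i < b ^ (H - (h + 1))) (hl : l < b) :
    i * b + l < b ^ (H - h) := by
  rw [show H - h = H - (h + 1) + 1 by omega, pow_succ]
  calc i * b + l < i * b + b := by omega
    _ = (i + 1) * b := by ring
    _ ≤ b ^ (H - (h + 1)) * b := Nat.mul_le_mul_right _ hi

theorem warm_tel {H τ : ℕ} {f : ℕ → ℝ} {K : ℝ} (hf : ∀ h ≤ H, 0 ≤ f h ∧ f h ≤ K) :
    ∑ h ∈ range H, (if (h + 1) % τ = 0 then 0 else f h - f (h + 1)) ≤ ((H : ℝ) / τ + 1) * K := by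
  have hK : 0 ≤ K := (hf 0 (Nat.zero_le _)).1.trans (hf 0 (Nat.zero_le _)).2
  have h1 : ∑ h ∈ range H, (if (h + 1) % τ = 0 then 0 else f h - f (h + 1)) ≤
      ∑ h ∈ range H, ((f h - f (h + 1)) + if τ ∣ h + 1 then K else 0) := by
    refine sum_le_sum fun h hh => ?_
    have hh' := mem_range.1 hh
    by_cases hd : τ ∣ h + 1
    · rw [if_pos (Nat.mod_eq_zero_of_dvd hd), if_pos hd]
      have := (hf h hh'.le).1
      have := (hf (h + 1) hh').2
      linarith
    · rw [if_neg (fun h0 => hd (Nat.dvd_of_mod_eq_zero h0)), if_neg hd]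
      linarith
  rw [sum_add_distrib, sum_range_sub', ← sum_filter, sum_const, Nat.card_multiples,
    nsmul_eq_mul] at h1
  have h2 : ((H / τ : ℕ) : ℝ) ≤ (H : ℝ) / τ := Nat.cast_div_le
  have h3 := (hf 0 (Nat.zero_le _)).2
  have h4 := (hf H le_rfl).1
  have h5 := mul_le_mul_of_nonneg_right h2 hK
  linarith

theorem warm_tangent {x y v : ℝ} (hx : 0 < x) (hy : 0 < y) (hv : 0 < v) :
    y * Real.log (y / v) + (1 + Real.log (y / v)) * (x - y) ≤ x * Real.log (x / v) := by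
  have h1 := kl_nonneg hx.le hy
  unfold kl at h1
  rw [Real.log_div hx.ne' hy.ne'] at h1
  rw [Real.log_div hx.ne' hv.ne', Real.log_div hy.ne' hv.ne']
  nlinarith

theorem warm_node {b : ℕ} {y n : ℕ → ℝ} {yu nu e Lm δ : ℝ} (hδ : 0 < δ) (hnu : 0 < nu)
    (hn : ∀ l < b, 0 < n l) (hs : nu = ∑ l ∈ range b, n l) (hy : ∀ l < b, n l ≤ y l)
    (h1 : nu ≤ yu) (h2 : yu ≤ nu * Real.exp Lm) (he : 0 ≤ e)
    (hF : 0 ≤ (∑ l ∈ range b, y l) + e - yu) :
    ∑ l ∈ range b, |y l - (∑ l' ∈ range b, y l') * n l / nu| ≤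
      ((∑ l ∈ range b, y l * Real.log (y l / n l)) - yu * Real.log (yu / nu) + (1 + Lm) * e) / δ +
        δ * ∑ l ∈ range b, y l := by
  set Yb := ∑ l' ∈ range b, y l' with hYb
  have hYn : nu ≤ Yb := by
    rw [hs]; exact sum_le_sum fun l hl => hy l (mem_range.1 hl)
  have hYp : 0 < Yb := hnu.trans_le hYn
  have hyu : 0 < yu := hnu.trans_le h1
  have hq : ∑ l ∈ range b, Yb * n l / nu = Yb := by
    rw [← sum_div, ← mul_sum, ← hs]; field_simp
  have hA : ∑ l ∈ range b, |y l - Yb * n l / nu| ≤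
      ∑ l ∈ range b, ((y l * Real.log (y l / n l) - y l * Real.log (Yb / nu) - y l +
        Yb * n l / nu) / δ + δ * (y l + Yb * n l / nu) / 2) := by
    refine sum_le_sum fun l hl => ?_
    have hnl := hn l (mem_range.1 hl)
    have hyl : 0 < y l := hnl.trans_le (hy l (mem_range.1 hl))
    have hql : 0 < Yb * n l / nu := by positivity
    refine (abs_le_kl hyl.le hql hδ).trans (le_of_eq ?_)
    unfold kl
    have : Real.log (y l / (Yb * n l / nu)) = Real.log (y l / n l) - Real.log (Yb / nu) := by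
      rw [← Real.log_div (by positivity) (by positivity)]
      congr 1
      field_simp
    rw [this]; ring
  have hB : ∑ l ∈ range b, ((y l * Real.log (y l / n l) - y l * Real.log (Yb / nu) - y l +
        Yb * n l / nu) / δ + δ * (y l + Yb * n l / nu) / 2) =
      ((∑ l ∈ range b, y l * Real.log (y l / n l)) - Yb * Real.log (Yb / nu)) / δ + δ * Yb := by
    rw [sum_add_distrib, ← sum_div, ← sum_div, ← mul_sum, sum_add_distrib, sum_add_distrib,
      sum_sub_distrib, sum_sub_distrib, ← sum_mul, hq, ← hYb]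
    ring
  have hT := warm_tangent hYp hyu hnu
  have hl0 : 0 ≤ Real.log (yu / nu) := Real.log_nonneg ((one_le_div hnu).2 h1)
  have hl1 : Real.log (yu / nu) ≤ Lm := by
    rw [Real.log_le_iff_le_exp (by positivity), div_le_iff₀ hnu]; linarith
  have hC : yu * Real.log (yu / nu) - (1 + Lm) * e ≤ Yb * Real.log (Yb / nu) := by
    have a1 : (1 + Real.log (yu / nu)) * (-e) ≤ (1 + Real.log (yu / nu)) * (Yb - yu) :=
      mul_le_mul_of_nonneg_left (by linarith) (by linarith)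
    have a2 : (1 + Real.log (yu / nu)) * e ≤ (1 + Lm) * e :=
      mul_le_mul_of_nonneg_right (by linarith) he
    linarith
  refine hA.trans (hB.le.trans ?_)
  have : ((∑ l ∈ range b, y l * Real.log (y l / n l)) - Yb * Real.log (Yb / nu)) / δ ≤
      ((∑ l ∈ range b, y l * Real.log (y l / n l)) - yu * Real.log (yu / nu) + (1 + Lm) * e) / δ :=
    div_le_div_of_nonneg_right (by linarith) hδ.le
  linarith

theorem warm_ex_sub {Ω : Type} [Fintype Ω] (f g : Ω → ℝ) :
    𝔼 ω, (f ω - g ω) = 𝔼 ω, f ω - 𝔼 ω, g ω := expect_sub_distrib _ _ _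

theorem warm_ex_const {Ω : Type} [Fintype Ω] [Nonempty Ω] (c : ℝ) : 𝔼 _ω : Ω, c = c :=
  expect_const univ_nonempty c

theorem warm {Ω : Type} [Fintype Ω] [Nonempty Ω] {b H τ : ℕ} {Y : Ω → ℕ → ℕ → ℝ}
    {ν e : ℕ → ℕ → ℝ} {Lm S δ : ℝ} (hb : 1 ≤ b) (hτ : 1 ≤ τ) (hδ : 0 < δ) (hLm : 0 ≤ Lm)
    (hν : ∀ h ≤ H, ∀ i < b ^ (H - h), 0 < ν h i) (hadd : Addv b H ν) (he : ∀ h i, 0 ≤ e h i)
    (hY : ∀ ω, ∀ h ≤ H, ∀ i < b ^ (H - h), ν h i ≤ Y ω h i ∧ Y ω h i ≤ ν h i * Real.exp Lm)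
    (hS : ∀ h ≤ H, 𝔼 ω, ∑ i ∈ range (b ^ (H - h)), Y ω h i ≤ S)
    (hF : ∀ ω, ∀ h < H, (h + 1) % τ ≠ 0 → ∀ i < b ^ (H - (h + 1)), 0 ≤ slk b (Y ω) e h i) :
    tot b H (fun h i => if (h + 1) % τ = 0 then 0 else 𝔼 ω, (prp b (Y ω) ν h i + slk b (Y ω) e h i))
      ≤ (((H : ℝ) / τ + 1) * Lm * S + (1 + Lm) * tot b H e) / δ + δ * H * S +
        ((H : ℝ) / τ + 1) * S + tot b H e := by
  set ψ : ℕ → ℝ := fun h =>
    𝔼 ω, ∑ i ∈ range (b ^ (H - h)), Y ω h i * Real.log (Y ω h i / ν h i) with hψ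
  set s : ℕ → ℝ := fun h => 𝔼 ω, ∑ i ∈ range (b ^ (H - h)), Y ω h i with hs
  set E : ℕ → ℝ := fun h => ∑ i ∈ range (b ^ (H - (h + 1))), e h i with hE
  have hE0 : ∀ h, 0 ≤ E h := fun h => sum_nonneg fun i _ => he h i
  have hs0 : ∀ h ≤ H, 0 ≤ s h ∧ s h ≤ S := fun h hh =>
    ⟨ex_nonneg fun ω => sum_nonneg fun i hi =>
      (hν h hh i (mem_range.1 hi)).le.trans (hY ω h hh i (mem_range.1 hi)).1, hS h hh⟩
  have hS0 : 0 ≤ S := (hs0 0 (Nat.zero_le _)).1.trans (hs0 0 (Nat.zero_le _)).2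
  have hψ0 : ∀ h ≤ H, 0 ≤ ψ h ∧ ψ h ≤ Lm * S := by
    intro h hh
    constructor
    · refine ex_nonneg fun ω => sum_nonneg fun i hi => ?_
      have h1 := hν h hh i (mem_range.1 hi)
      have h2 := (hY ω h hh i (mem_range.1 hi)).1
      exact mul_nonneg (h1.le.trans h2) (Real.log_nonneg ((one_le_div h1).2 h2))
    · calc ψ h ≤ 𝔼 ω, Lm * ∑ i ∈ range (b ^ (H - h)), Y ω h i := by
            refine ex_mono fun ω => ?_
            rw [mul_sum]
            refine sum_le_sum fun i hi => ?_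
            have h1 := hν h hh i (mem_range.1 hi)
            obtain ⟨h2, h3⟩ := hY ω h hh i (mem_range.1 hi)
            have h4 : 0 < Y ω h i := h1.trans_le h2
            have h5 : Real.log (Y ω h i / ν h i) ≤ Lm := by
              rw [Real.log_le_iff_le_exp (by positivity), div_le_iff₀ h1]; linarith
            rw [mul_comm Lm]
            exact mul_le_mul_of_nonneg_left h5 h4.le
        _ = Lm * s h := ex_mul _ _
        _ ≤ Lm * S := mul_le_mul_of_nonneg_left (hs0 h hh).2 hLm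
  have hlev : ∀ h < H, ∑ i ∈ range (b ^ (H - (h + 1))),
      (if (h + 1) % τ = 0 then 0 else 𝔼 ω, (prp b (Y ω) ν h i + slk b (Y ω) e h i)) ≤
      δ⁻¹ * (if (h + 1) % τ = 0 then 0 else ψ h - ψ (h + 1)) +
        (if (h + 1) % τ = 0 then 0 else s h - s (h + 1)) +
        (δ⁻¹ * (1 + Lm) + 1) * E h + δ * S := by
    intro h hh
    by_cases hd : (h + 1) % τ = 0
    · simp only [if_pos hd, sum_const_zero]
      have := hE0 h
      positivity
    · simp only [if_neg hd]
      rw [← ex_sum]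
      have hpt : ∀ ω, ∑ i ∈ range (b ^ (H - (h + 1))), (prp b (Y ω) ν h i + slk b (Y ω) e h i) ≤
          δ⁻¹ * ((∑ i ∈ range (b ^ (H - h)), Y ω h i * Real.log (Y ω h i / ν h i)) -
            ∑ i ∈ range (b ^ (H - (h + 1))),
              Y ω (h + 1) i * Real.log (Y ω (h + 1) i / ν (h + 1) i)) +
          ((∑ i ∈ range (b ^ (H - h)), Y ω h i) -
            ∑ i ∈ range (b ^ (H - (h + 1))), Y ω (h + 1) i) +
          (δ⁻¹ * (1 + Lm) + 1) * E h + δ * ∑ i ∈ range (b ^ (H - h)), Y ω h i := by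
        intro ω
        rw [← warm_level hh fun i => Y ω h i * Real.log (Y ω h i / ν h i),
          ← warm_level hh fun i => Y ω h i, hE]
        simp only []
        rw [← sum_sub_distrib, ← sum_sub_distrib, mul_sum, mul_sum, mul_sum, ← sum_add_distrib,
          ← sum_add_distrib, ← sum_add_distrib]
        refine sum_le_sum fun i hi => ?_
        have hi' := mem_range.1 hi
        have hn := warm_node (b := b) (y := fun l => Y ω h (i * b + l))
          (n := fun l => ν h (i * b + l)) (yu := Y ω (h + 1) i) (nu := ν (h + 1) i)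
          (e := e h i) (Lm := Lm) hδ (hν (h + 1) hh i hi')
          (fun l hl => hν h hh.le _ (warm_idx hh hi' hl)) (hadd h hh i hi')
          (fun l hl => (hY ω h hh.le _ (warm_idx hh hi' hl)).1)
          (hY ω (h + 1) hh i hi').1 (hY ω (h + 1) hh i hi').2 (he h i) (hF ω h hh hd i hi')
        unfold prp slk
        rw [div_eq_inv_mul] at hn
        linarith
      refine (ex_mono hpt).trans ?_
      rw [ex_add, ex_add, ex_add, warm_ex_const, ex_mul, ex_mul, warm_ex_sub, warm_ex_sub]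
      have := mul_le_mul_of_nonneg_left (hs0 h hh.le).2 hδ.le
      simp only [hψ, hs] at this ⊢
      linarith
  have ht1 := warm_tel (τ := τ) hψ0
  have ht2 := warm_tel (τ := τ) hs0
  have hEt : tot b H e = ∑ h ∈ range H, E h := rfl
  refine (sum_le_sum fun h hh => hlev h (mem_range.1 hh)).trans ?_
  rw [sum_add_distrib, sum_add_distrib, sum_add_distrib, ← mul_sum, ← mul_sum, sum_const,
    card_range, nsmul_eq_mul, ← hEt, div_eq_inv_mul _ δ]
  have := mul_le_mul_of_nonneg_left ht1 (inv_nonneg.2 hδ.le)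
  nlinarith

theorem warm_lsum {b H : ℕ} {ν : ℕ → ℕ → ℝ} (hadd : Addv b H ν) :
    ∀ k ≤ H, ∑ j ∈ range (b ^ (H - (H - k))), ν (H - k) j = ν H 0 := by
  intro k
  induction k with
  | zero => intro _; simp
  | succ k ih =>
    intro hk
    have hh : H - (k + 1) < H := by omega
    rw [← warm_level hh, ← ih (by omega), show H - k = H - (k + 1) + 1 by omega]
    exact sum_congr rfl fun i hi => (hadd _ hh i (mem_range.1 hi)).symm

theorem warm_dnode {b : ℕ} {m n : ℕ → ℝ} {nu δ : ℝ} (hδ : 0 < δ) (hnu : 0 < nu)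
    (hn : ∀ l < b, 0 < n l) (hs : nu = ∑ l ∈ range b, n l) :
    ∑ l ∈ range b, |m l - (∑ l' ∈ range b, m l') * n l / nu| ≤
      δ⁻¹ * ((∑ l ∈ range b, m l ^ 2 / n l) - (∑ l ∈ range b, m l) ^ 2 / nu) +
        δ * ∑ l ∈ range b, n l := by
  set M := ∑ l' ∈ range b, m l' with hM
  have hA : ∑ l ∈ range b, |m l - M * n l / nu| ≤
      ∑ l ∈ range b, (δ⁻¹ * (m l ^ 2 / n l - 2 * M / nu * m l + M ^ 2 / nu ^ 2 * n l) +
        δ * n l) := by
    refine sum_le_sum fun l hl => ?_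
    have hnl := hn l (mem_range.1 hl)
    set z := m l - M * n l / nu with hz
    have e1 : δ⁻¹ * (m l ^ 2 / n l - 2 * M / nu * m l + M ^ 2 / nu ^ 2 * n l) =
        |z| ^ 2 / (δ * n l) := by
      rw [sq_abs, hz]; field_simp; ring
    rw [e1]
    have hp : 0 < δ * n l := mul_pos hδ hnl
    have e2 : |z| - δ * n l ≤ |z| ^ 2 / (δ * n l) := by
      rw [le_div_iff₀ hp]
      nlinarith [sq_nonneg (|z| - δ * n l), abs_nonneg z]
    linarith
  refine hA.trans (le_of_eq ?_)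
  rw [sum_add_distrib, ← mul_sum, ← mul_sum, sum_add_distrib, sum_sub_distrib, ← mul_sum,
    ← mul_sum, ← hM, ← hs]
  field_simp
  ring

theorem dev {b H : ℕ} {mv ν : ℕ → ℕ → ℝ} {C δ : ℝ} (hb : 1 ≤ b) (hδ : 0 < δ)
    (hν : ∀ h ≤ H, ∀ i < b ^ (H - h), 0 < ν h i) (hadd : Addv b H ν) (hm : Addv b H mv)
    (hle : ∀ i < b ^ H, |mv 0 i| ≤ ν 0 i) (hC : ∑ i ∈ range (b ^ H), |mv 0 i| ≤ C) :
    tot b H (prp b mv ν) ≤ C / δ + δ * H * ν H 0 := by
  set g : ℕ → ℝ := fun h => ∑ j ∈ range (b ^ (H - h)), mv h j ^ 2 / ν h j with hg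
  have hlev : ∀ h < H, ∑ i ∈ range (b ^ (H - (h + 1))), prp b mv ν h i ≤
      δ⁻¹ * (g h - g (h + 1)) + δ * ν H 0 := by
    intro h hh
    have h1 := warm_lsum hadd (H - h) (by omega)
    rw [show H - (H - h) = h by omega] at h1
    rw [← h1, hg]
    simp only []
    rw [← warm_level hh fun j => mv h j ^ 2 / ν h j, ← warm_level hh fun j => ν h j,
      ← sum_sub_distrib, mul_sum, mul_sum, ← sum_add_distrib]
    refine sum_le_sum fun i hi => ?_
    have hi' := mem_range.1 hi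
    rw [hm h hh i hi']
    exact warm_dnode (b := b) (m := fun l => mv h (i * b + l)) (n := fun l => ν h (i * b + l))
      hδ (hν (h + 1) hh i hi') (fun l hl => hν h hh.le _ (warm_idx hh hi' hl)) (hadd h hh i hi')
  have hg0 : g 0 ≤ C := by
    refine le_trans ?_ hC
    simp only [hg, Nat.sub_zero]
    refine sum_le_sum fun i hi => ?_
    have h1 := hν 0 (Nat.zero_le _) i (by simpa using hi)
    have h2 := hle i (mem_range.1 hi)
    rw [div_le_iff₀ h1, ← sq_abs, sq]
    exact mul_le_mul_of_nonneg_left h2 (abs_nonneg _)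
  have hgH : 0 ≤ g H := sum_nonneg fun i hi =>
    div_nonneg (sq_nonneg _) (hν H le_rfl i (mem_range.1 hi)).le
  refine (sum_le_sum fun h hh => hlev h (mem_range.1 hh)).trans ?_
  rw [sum_add_distrib, ← mul_sum, sum_range_sub', sum_const, card_range, nsmul_eq_mul,
    div_eq_inv_mul]
  have := mul_le_mul_of_nonneg_left (show g 0 - g H ≤ C by linarith) (inv_nonneg.2 hδ.le)
  nlinarith

end Vale.Agent.P315
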