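import Vale.Agent.P315.UpB
import Vale.Agent.P315.Centre
import Vale.Agent.P315.Warm

/-! The last stage. -/

open Finset
open scoped BigOperators

namespace Vale.Agent.P315

section UpDAux

variable (p : Par) (τ Tc : ℕ) {Dg : ℕ} (mis : ℕ → ℕ → ℕ) (ds : ℕ → ℕ) (fl : ℕ → ℕ → ℕ)
  (cp : ℕ → ℕ → ℝ) (zr : ℕ → ℕ → ℕ → ℕ)

/-- The values in the warm-up rounds. -/
noncomputable def updY (ω : Fin p.Nn → Blk p.Bf Dg) (h i : ℕ) : ℝ :=
  cp h i + p.wx mis ds fl cp (zv p ω) zr h i (Tc + h % τ)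

/-- The rounding loss. -/
noncomputable def updE (h i : ℕ) : ℝ := (6 * p.b + 6) * (p.cw mis ds (h + 1) i : ℝ) / p.P0

/-- The movement. -/
def updM (h i : ℕ) : ℝ := (ds ((i + 1) * p.b ^ h) : ℝ) - ds (i * p.b ^ h)

/-- Resampling of the block of a node. -/
def updU (ω : Fin p.Nn → Blk p.Bf Dg) (h i : ℕ) (β : Blk p.Bf Dg) : Fin p.Nn → Blk p.Bf Dg :=
  if hv : (h + 1) * p.P + i < p.Nn then Function.update ω ⟨(h + 1) * p.P + i, hv⟩ β else ω

/-- The averaged slack. -/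
noncomputable def updS (ω : Fin p.Nn → Blk p.Bf Dg) (h i : ℕ) : ℝ :=
  𝔼 β, slk p.b (updY p τ Tc mis ds fl cp zr (updU p ω h i β)) (updE p mis ds) h i

/-- The radius. -/
noncomputable def updR (E : ℕ) (ω : Fin p.Nn → Blk p.Bf Dg) (h i : ℕ) : ℝ :=
  if (h + 1) % τ = 0 then p.cw mis ds (h + 1) i else
    2 * E * (prp p.b (updM p ds) cp h i + prp p.b (updY p τ Tc mis ds fl cp zr ω) cp h i +
      (∑ l ∈ range p.b, updY p τ Tc mis ds fl cp zr ω h (i * p.b + l)) / p.P0 +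
      updS p τ Tc mis ds fl cp zr ω h i)

end UpDAux

variable {p : Par} {E τ Tc Lg Dg κ : ℕ} [NeZero Dg] {mis : ℕ → ℕ → ℕ} {ds : ℕ → ℕ}
  {fl cls : ℕ → ℕ → ℕ} {cp : ℕ → ℕ → ℝ} {zr : ℕ → ℕ → ℕ → ℕ}

theorem upd_th {τ h : ℕ} (hb : (h + 1) % τ ≠ 0) : (h + 1) % τ = h % τ + 1 := by
  rcases Nat.eq_zero_or_pos τ with h0 | h0
  · simp [h0]
  have h1 := Nat.mod_lt h h0
  have h2 : (h + 1) % τ = (h % τ + 1) % τ := by simp
  rcases Nat.lt_or_ge (h % τ + 1) τ with h3 | h3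
  · rw [h2, Nat.mod_eq_of_lt h3]
  · have h4 : h % τ + 1 = τ := by omega
    rw [h2, h4, Nat.mod_self] at hb
    exact absurd rfl hb

theorem upd_prp_nonneg (b : ℕ) (Y ν : ℕ → ℕ → ℝ) (h i : ℕ) : 0 ≤ prp b Y ν h i :=
  sum_nonneg fun _ _ => abs_nonneg _

theorem upd_e_nonneg (h i : ℕ) : 0 ≤ updE p mis ds h i := by unfold updE; positivity

omit [NeZero Dg] in
theorem upd_slk (hp : p.Ok) (hm : ∀ q d, mis q d ≤ 1) (hc : p.CmpOk E mis ds fl cls cp)
    (ω : Fin p.Nn → Blk p.Bf Dg) {h i : ℕ} (hh : h < p.H) (hb : (h + 1) % τ ≠ 0)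
    (hi : i < p.b ^ (p.H - (h + 1))) :
    0 ≤ slk p.b (updY p τ Tc mis ds fl cp zr ω) (updE p mis ds) h i := by
  have h1 := wx_f1 (z := zv p ω) (zr := zr) hp hm hc hh hi (Tc + h % τ)
  unfold slk updY updE
  rw [upd_th hb, sum_add_distrib, ← hc.cp_add h hh i hi, ← add_assoc Tc]
  unfold xb at h1
  linarith

omit [NeZero Dg] in
theorem upd_child (hp : p.Ok) (ω : Fin p.Nn → Blk p.Bf Dg) {h i : ℕ} (hh : h < p.H)
    (hi : i < p.b ^ (p.H - (h + 1))) (hv : (h + 1) * p.P + i < p.Nn) (β : Blk p.Bf Dg) :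
    updY p τ Tc mis ds fl cp zr (Function.update ω ⟨(h + 1) * p.P + i, hv⟩ β) h =
      updY p τ Tc mis ds fl cp zr ω h := by
  funext j
  unfold updY Par.wx
  rw [Wv_update hp ω hh.le (hp.idx_lt hi) hv (Or.inl (Nat.lt_succ_self h)) β]

omit [NeZero Dg] in
theorem upd_inv (hp : p.Ok) (ω : Fin p.Nn → Blk p.Bf Dg) {h i : ℕ} (hh : h < p.H)
    (hi : i < p.b ^ (p.H - (h + 1))) (hv : (h + 1) * p.P + i < p.Nn) (β : Blk p.Bf Dg) :
    updR p τ Tc mis ds fl cp zr E (Function.update ω ⟨(h + 1) * p.P + i, hv⟩ β) h i =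
      updR p τ Tc mis ds fl cp zr E ω h i := by
  unfold updR updS updU prp
  simp only [upd_child hp ω hh hi hv β, dif_pos hv, Function.update_idem]

theorem upd_exS (hp : p.Ok) {h i : ℕ} (hh : h < p.H) (hi : i < p.b ^ (p.H - (h + 1))) :
    𝔼 ω : Fin p.Nn → Blk p.Bf Dg, updS p τ Tc mis ds fl cp zr ω h i =
      𝔼 ω : Fin p.Nn → Blk p.Bf Dg, slk p.b (updY p τ Tc mis ds fl cp zr ω) (updE p mis ds) h i := by
  have hv := hp.nid_lt (h := h + 1) hh hi
  rw [ex_update (⟨(h + 1) * p.P + i, hv⟩ : Fin p.Nn)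
    fun ω => slk p.b (updY p τ Tc mis ds fl cp zr ω) (updE p mis ds) h i]
  unfold updS updU
  simp only [dif_pos hv]

omit [NeZero Dg] in
theorem upd_R0 (hp : p.Ok) (hm : ∀ q d, mis q d ≤ 1) (hc : p.CmpOk E mis ds fl cls cp)
    (ω : Fin p.Nn → Blk p.Bf Dg) {h i : ℕ} (hh : h < p.H) (hi : i < p.b ^ (p.H - (h + 1))) :
    0 ≤ updR p τ Tc mis ds fl cp zr E ω h i := by
  unfold updR
  split_ifs with hb
  · positivity
  · have h1 : 0 ≤ updS p τ Tc mis ds fl cp zr ω h i :=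
      ex_nonneg fun β => upd_slk hp hm hc _ hh hb hi
    have h2 : 0 ≤ ∑ l ∈ range p.b, updY p τ Tc mis ds fl cp zr ω h (i * p.b + l) :=
      sum_nonneg fun l hl => add_nonneg
        (cp_pos hp hc hh.le (warm_idx hh hi (mem_range.1 hl))).le (wx_nonneg _ _ _)
    have h3 := upd_prp_nonneg p.b (updM p ds) cp h i
    have h4 := upd_prp_nonneg p.b (updY p τ Tc mis ds fl cp zr ω) cp h i
    positivity

theorem upd_radius (hp : p.Ok) (hn : p.Num E τ Tc Lg Dg κ) (hm : ∀ q d, mis q d ≤ 1)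
    (hc : p.CmpOk E mis ds fl cls cp) (ω : Fin p.Nn → Blk p.Bf Dg) {h i : ℕ} (hh : h < p.H)
    (hi : i < p.b ^ (p.H - (h + 1))) (h1 : 1 ≤ fl (h + 1) i) {a0 : ℕ} (ha0 : Tc + τ ≤ a0) :
    p.Radius (Wch p mis (zv p ω) zr h i) (fl (h + 1) i) (fun l => ds ((i * p.b + l) * p.b ^ h))
      (p.cw mis ds (h + 1) i) (fun l => cp h (i * p.b + l)) a0
      (updR p τ Tc mis ds fl cp zr E ω h i) (p.KR E) := by
  have hx := node_ctx (z := zv p ω) (zr := zr) hp hm hc hh hi h1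
  have hE := hn.E_ge
  unfold updR
  split_ifs with hb
  · refine radius_zero hp hx a0 ?_
    have : 1 ≤ p.KR E := Nat.one_le_iff_ne_zero.2 (by unfold Par.KR; positivity)
    exact_mod_cast this
  intro g sl k dig hr
  have ht : Tc + h % τ < a0 := by
    have := Nat.mod_lt h (show 0 < τ by have := hn.tau_ge; omega)
    omega
  by_cases hu : (p.ug (Wch p mis (zv p ω) zr h i) (fl (h + 1) i) (Tc + h % τ) (p.sd sl k) g p.b
      (p.se sl k) : ℝ) ≤ p.U * ∑ l ∈ range p.b, cp h (i * p.b + l)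
  · exact Or.inl ⟨_, ht, hu⟩
  refine Or.inr ⟨Tc + h % τ + 1, ht, ?_⟩
  have hU : (0 : ℝ) < p.U := by exact_mod_cast hp.U_pos
  have hg1 := hr.g_pos hp
  have hg1' : (1 : ℝ) ≤ g := by exact_mod_cast hg1
  have hv := hp.nid_lt (h := h + 1) hh hi
  have hs0 : 0 ≤ updS p τ Tc mis ds fl cp zr ω h i :=
    ex_nonneg fun β => upd_slk hp hm hc _ hh hb hi
  obtain ⟨μ, A, h2, h3⟩ := centre (t := Tc + h % τ) hp (by omega) hx hr hs0 (by
    obtain ⟨u, hu'⟩ : ∃ u, u = p.ug (Wch p mis (zv p ω) zr h i) (fl (h + 1) i) (Tc + h % τ)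
      (p.sd sl k) g p.b (p.se sl k) := ⟨_, rfl⟩
    rw [← hu'] at hu ⊢
    simp only [wl_eq]
    rw [← sub_le_iff_le_add, ← warm_ex_const (Ω := Blk p.Bf Dg) (_ - 3 * ((g : ℝ) - 1))]
    refine ex_mono fun β => ?_
    unfold updU slk
    rw [dif_pos hv, upd_child hp ω hh hi hv β]
    have e1 := upd_e_nonneg (p := p) (mis := mis) (ds := ds) h i
    have e2 : p.wx mis ds fl cp (zv p (Function.update ω ⟨(h + 1) * p.P + i, hv⟩ β)) zr (h + 1) i
        (Tc + h % τ + 1) ≤ u / p.U + 3 * (g - 1) - ∑ l ∈ range p.b, cp h (i * p.b + l) := by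
      rw [wx_succ hc hh hi, Wch_update hp ω i hh (hp.idx_lt hi) hv β]
      refine exc_le hp ?_ ?_
      · have : ∑ l ∈ range p.b, cp h (i * p.b + l) ≤ u / p.U := by
          rw [le_div_iff₀ hU, mul_comm]
          exact (not_le.1 hu).le
        linarith
      · have e3 := hr.node_le (Wc := Wch p mis (zv p ω) zr h i)
          (Wr := Wpc p mis (zv p (Function.update ω ⟨(h + 1) * p.P + i, hv⟩ β)) zr h i)
          (y := zv p (Function.update ω ⟨(h + 1) * p.P + i, hv⟩ β) (h + 1) i)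
          (yr := zr (h + 1) i) hp (h + 1) (t := Tc + h % τ + 1) h1 (by omega)
        have e4 := e3.trans (Nat.add_le_add_right (min_le_left _ _) _)
        rw [Nat.add_sub_cancel, ← hu'] at e4
        have e5 := (Nat.cast_le (α := ℝ)).2 e4
        push_cast [Nat.cast_sub hg1] at e5
        refine e5.trans (le_of_eq ?_)
        field_simp
        ring
    unfold updY
    rw [upd_th hb, hc.cp_add h hh i hi, ← add_assoc Tc]
    linarith)
  refine ⟨μ, A, h2, h3.trans (le_of_eq ?_)⟩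
  unfold prp
  simp only [wl_eq]
  rw [hc.cp_add h hh i hi]
  rfl

omit [NeZero Dg] in
theorem upd_root (hn : p.Num E τ Tc Lg Dg κ) (hc : p.CmpOk E mis ds fl cls cp) :
    cp p.H 0 ≤ 3 * p.Dh := by
  have hE : (16 : ℝ) ≤ E := by exact_mod_cast hn.E_ge
  have h1 : (p.cw mis ds p.H 0 : ℝ) ≤ p.Dh := by exact_mod_cast hc.cw_le
  have h2 : 2 / (E : ℝ) ≤ 1 := by rw [div_le_one (by linarith)]; linarith
  have h3 : 2 * (p.Dh : ℝ) / E = 2 / E * p.Dh := by ring
  have h4 : (0 : ℝ) ≤ p.Dh := by positivity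
  have h5 : (1 + 2 / (E : ℝ)) * p.cw mis ds p.H 0 ≤ (1 + 1) * p.Dh := by gcongr
  have h6 := mul_le_mul_of_nonneg_right h2 h4
  linarith [hc.cp_root]

theorem upd_level (hp : p.Ok) (hn : p.Num E τ Tc Lg Dg κ) (hm : ∀ q d, mis q d ≤ 1)
    (hc : p.CmpOk E mis ds fl cls cp) (hg : p.GoodR mis zr) {h : ℕ} (hh : h ≤ p.H) :
    𝔼 ω : Fin p.Nn → Blk p.Bf Dg, ∑ i ∈ range (p.b ^ (p.H - h)),
      updY p τ Tc mis ds fl cp zr ω h i ≤ (3 + (p.b : ℝ) ^ 8) * p.Dh := by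
  have h1 := stage_c hp hn hm hc hg hh
  have h2 := upd_root hn hc
  calc _ ≤ 𝔼 ω : Fin p.Nn → Blk p.Bf Dg, (cp p.H 0 + ∑ i ∈ range (p.b ^ (p.H - h)),
        p.wx mis ds fl cp (zv p ω) zr h i Tc) := by
        refine ex_mono fun ω => ?_
        unfold updY
        rw [sum_add_distrib, hc.cp_add.level hh]
        exact add_le_add le_rfl (sum_le_sum fun i _ => wx_anti hp hm h i (Nat.le_add_right _ _))
    _ ≤ _ := by
        rw [ex_add, warm_ex_const]
        linarith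

theorem upd_bad (hc : p.CmpOk E mis ds fl cls cp) :
    tot p.b p.H (fun h i => if (h + 1) % τ = 0 then (p.cw mis ds (h + 1) i : ℝ) else 0) ≤
      (p.H : ℝ) / τ * p.Dh := by
  have h1 : (p.cw mis ds p.H 0 : ℝ) ≤ p.Dh := by exact_mod_cast hc.cw_le
  calc _ ≤ ∑ h ∈ range p.H, if τ ∣ h + 1 then (p.Dh : ℝ) else 0 := by
        refine sum_le_sum fun h hh => ?_
        simp only [Nat.dvd_iff_mod_eq_zero]
        split_ifs
        · exact ((cw_addv (p := p) (mis := mis) (ds := ds)).level (mem_range.1 hh)).trans_le h1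
        · simp
    _ = ((p.H / τ : ℕ) : ℝ) * p.Dh := by
        rw [← sum_filter, sum_const, Nat.card_multiples, nsmul_eq_mul]
    _ ≤ _ := mul_le_mul_of_nonneg_right Nat.cast_div_le (by positivity)

omit [NeZero Dg] in
theorem upd_dev (hp : p.Ok) (hn : p.Num E τ Tc Lg Dg κ) (hc : p.CmpOk E mis ds fl cls cp) {δ : ℝ}
    (hδ : 0 < δ) : tot p.b p.H (prp p.b (updM p ds) cp) ≤ (1 / δ + 3 * δ * p.H) * p.Dh := by
  have hb := hp.two_le_b
  have h1 : ∀ i, |updM p ds 0 i| ≤ p.cw mis ds 0 i := fun i => by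
    have e1 := dist_le_leaf mis i (ds i) (ds (i + 1))
    rw [← cw_zero (p := p)] at e1
    unfold updM
    simp only [pow_zero, mul_one]
    unfold Nat.dist at e1
    rw [abs_le]
    constructor
    · have : ds i ≤ ds (i + 1) + p.cw mis ds 0 i := by omega
      have := (Nat.cast_le (α := ℝ)).2 this
      push_cast at this
      linarith
    · have : ds (i + 1) ≤ ds i + p.cw mis ds 0 i := by omega
      have := (Nat.cast_le (α := ℝ)).2 this
      push_cast at this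
      linarith
  have h2 := dev (mv := updM p ds) (C := p.Dh) (by omega) hδ (fun h hh i hi => cp_pos hp hc hh hi)
    hc.cp_add (fun h _ i _ => by
      unfold updM
      refine Eq.trans ?_ (sum_range_sub (fun l => (ds ((i * p.b + l) * p.b ^ h) : ℝ)) p.b).symm
      congr 3 <;> ring)
    (fun i hi => by
      refine (h1 i).trans (le_trans ?_ (hc.cp_ge 0 (Nat.zero_le _) i hi))
      have e1 : (0 : ℝ) ≤ 2 / E * p.cw mis ds 0 i := by positivity
      have e2 : (0 : ℝ) ≤ p.Dh * (p.b : ℝ) ^ 0 / (p.P * E) := by positivity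
      have e3 : (0 : ℝ) ≤ p.Yb * (p.b : ℝ) ^ 0 / (p.s : ℝ) ^ fl 0 i := by positivity
      linarith)
    (by
      refine (sum_le_sum fun i _ => h1 i).trans ?_
      have e1 := (cw_addv (p := p) (mis := mis) (ds := ds)).level (Nat.zero_le p.H)
      rw [Nat.sub_zero] at e1
      rw [e1]
      exact_mod_cast hc.cw_le)
  have h3 := mul_le_mul_of_nonneg_left (upd_root hn hc) (show 0 ≤ δ * p.H by positivity)
  refine h2.trans ?_
  have h4 : (1 / δ + 3 * δ * p.H) * p.Dh = p.Dh / δ + δ * p.H * (3 * p.Dh) := by ring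
  linarith

theorem upd_warm (hp : p.Ok) (hn : p.Num E τ Tc Lg Dg κ) (hm : ∀ q d, mis q d ≤ 1)
    (hc : p.CmpOk E mis ds fl cls cp) (hg : p.GoodR mis zr) {δ : ℝ} (hδ : 0 < δ) :
    tot p.b p.H (fun h i => if (h + 1) % τ = 0 then 0 else 𝔼 ω : Fin p.Nn → Blk p.Bf Dg,
      (prp p.b (updY p τ Tc mis ds fl cp zr ω) cp h i +
        slk p.b (updY p τ Tc mis ds fl cp zr ω) (updE p mis ds) h i)) ≤
      ((((p.H : ℝ) / τ + 1) * p.b * (3 + (p.b : ℝ) ^ 8) + (1 + p.b) * p.e0) / δ +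
        δ * p.H * (3 + (p.b : ℝ) ^ 8) + ((p.H : ℝ) / τ + 1) * (3 + (p.b : ℝ) ^ 8) + p.e0) *
        p.Dh := by
  have hb := hp.two_le_b
  have hτ := hn.tau_ge
  have hE := hn.E_ge
  have h1 := warm (Y := fun ω : Fin p.Nn → Blk p.Bf Dg => updY p τ Tc mis ds fl cp zr ω)
    (e := updE p mis ds) (Lm := p.b) (τ := τ) (by omega) (by omega) hδ (by positivity)
    (fun h hh i hi => cp_pos hp hc hh hi) hc.cp_add upd_e_nonneg
    (fun ω h hh i hi => by
      have e1 := wx_cap (z := zv p ω) hp hn hm hc hg hh hi (Tc + h % τ)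
      have e2 := mul_le_mul_of_nonneg_left (ct_le_cp hp (by omega) hc hh hi)
        (show (0 : ℝ) ≤ p.Mb by positivity)
      have e3 := mul_le_mul_of_nonneg_left hn.Mb_b (cp_pos hp hc hh hi).le
      have e4 := wx_nonneg (p := p) (mis := mis) (ds := ds) (fl := fl) (cp := cp) (z := zv p ω)
        (zr := zr) h i (Tc + h % τ)
      unfold updY
      constructor <;> linarith)
    (fun h hh => upd_level hp hn hm hc hg hh) (fun ω h hh hb i hi => upd_slk hp hm hc ω hh hb hi)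
  have h2 : tot p.b p.H (updE p mis ds) ≤ p.e0 * p.Dh := tot_e hp hc
  refine h1.trans (le_trans (b := (((p.H : ℝ) / τ + 1) * p.b * ((3 + (p.b : ℝ) ^ 8) * p.Dh) +
    (1 + p.b) * (p.e0 * p.Dh)) / δ + δ * p.H * ((3 + (p.b : ℝ) ^ 8) * p.Dh) +
    ((p.H : ℝ) / τ + 1) * ((3 + (p.b : ℝ) ^ 8) * p.Dh) + p.e0 * p.Dh) ?_ (le_of_eq ?_))
  · gcongr
  · ring

theorem upd_sumY (hp : p.Ok) (hn : p.Num E τ Tc Lg Dg κ) (hm : ∀ q d, mis q d ≤ 1)
    (hc : p.CmpOk E mis ds fl cls cp) (hg : p.GoodR mis zr) :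
    tot p.b p.H (fun h i => 𝔼 ω : Fin p.Nn → Blk p.Bf Dg,
      ∑ l ∈ range p.b, updY p τ Tc mis ds fl cp zr ω h (i * p.b + l)) ≤
      p.H * ((3 + (p.b : ℝ) ^ 8) * p.Dh) := by
  unfold tot
  refine (sum_le_card_nsmul _ _ _ fun h hh => ?_).trans (by rw [card_range, nsmul_eq_mul])
  rw [← ex_sum]
  simp only [warm_level (mem_range.1 hh)]
  exact upd_level hp hn hm hc hg (mem_range.1 hh).le

theorem upd_tot_le {b H : ℕ} {f f1 f2 f3 f4 : ℕ → ℕ → ℝ} {c d : ℝ}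
    (h : ∀ h < H, ∀ i < b ^ (H - (h + 1)), f h i ≤ f1 h i + c * (f2 h i + f3 h i + d * f4 h i)) :
    tot b H f ≤ tot b H f1 + c * (tot b H f2 + tot b H f3 + d * tot b H f4) := by
  unfold tot
  simp only [mul_sum, ← sum_add_distrib]
  exact sum_le_sum fun h' hh => sum_le_sum fun i hi => h h' (mem_range.1 hh) i (mem_range.1 hi)

theorem stage_d (hp : p.Ok) (hn : p.Num E τ Tc Lg Dg κ) (hm : ∀ q d, mis q d ≤ 1)
    (hc : p.CmpOk E mis ds fl cls cp) (hg : p.GoodR mis zr) :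
    𝔼 ω : Fin p.Nn → Blk p.Bf Dg, p.wx mis ds fl cp (zv p ω) zr p.H 0 (p.T1 - 1) ≤
      p.Dh / (12 * E) := by
  have hb := hp.two_le_b
  have hT := hn.T1_eq
  have hδ : (0 : ℝ) < 1 / (p.b : ℝ) ^ 20 := by positivity
  have hD := hn.stageD
  unfold Par.regD at hD
  obtain ⟨δ, hδe⟩ : ∃ δ, δ = 1 / (p.b : ℝ) ^ 20 := ⟨_, rfl⟩
  rw [← hδe] at hD hδ
  have h1 := pipe_wx hp hn hm hc hg (t0 := Tc + τ) (by omega)
    (fun ω h i => if h < p.H ∧ i < p.b ^ (p.H - (h + 1)) then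
      updR p τ Tc mis ds fl cp zr E ω h i else 0)
    (fun ω h i => by
      split_ifs with hh
      · exact upd_R0 hp hm hc ω hh.1 hh.2
      · exact le_rfl)
    (fun ω h hh i hi hv β => by simp only [upd_inv hp ω hh hi hv β])
    (fun ω h hh i hi h1 a0 ha0 => by
      simp only [hh, hi, and_self, if_true]
      exact upd_radius hp hn hm hc ω hh hi h1 ha0)
    (R0 := (p.H : ℝ) / τ + 2 * E * (1 / δ + 3 * δ * p.H +
      ((((p.H : ℝ) / τ + 1) * p.b * (3 + (p.b : ℝ) ^ 8) + (1 + p.b) * p.e0) / δ +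
        δ * p.H * (3 + (p.b : ℝ) ^ 8) + ((p.H : ℝ) / τ + 1) * (3 + (p.b : ℝ) ^ 8) + p.e0) +
      p.H * (3 + (p.b : ℝ) ^ 8) / p.P0))
    (by
      have e1 := upd_bad (τ := τ) hc
      have e2 := upd_dev hp hn hc hδ
      have e3 := upd_warm hp hn hm hc hg hδ
      have e4 := upd_sumY hp hn hm hc hg
      refine (upd_tot_le (c := 2 * E) (d := (p.P0 : ℝ)⁻¹) fun h hh i hi => ?_).trans
        ((add_le_add e1 (mul_le_mul_of_nonneg_left (add_le_add (add_le_add e2 e3)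
          (mul_le_mul_of_nonneg_left e4 (by positivity))) (by positivity))).trans (le_of_eq ?_))
      · simp only [hh, hi, and_self, if_true]
        unfold updR
        split_ifs with hb
        · rw [warm_ex_const]
          have e5 := upd_prp_nonneg p.b (updM p ds) cp h i
          have e6 : 0 ≤ 𝔼 ω : Fin p.Nn → Blk p.Bf Dg,
              ∑ l ∈ range p.b, updY p τ Tc mis ds fl cp zr ω h (i * p.b + l) :=
            ex_nonneg fun ω => sum_nonneg fun l hl => add_nonneg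
              (cp_pos hp hc hh.le (warm_idx hh hi (mem_range.1 hl))).le (wx_nonneg _ _ _)
          exact le_add_of_nonneg_right (by positivity)
        · simp only [div_eq_inv_mul]
          rw [ex_mul, ex_add, ex_add, ex_add, ex_add, ex_mul, warm_ex_const, upd_exS hp hh hi]
          exact le_of_eq (by ring)
      · ring) (h := p.H) le_rfl
  simp only [Nat.sub_self, pow_zero, range_one, sum_singleton] at h1
  rw [show p.T1 - 1 = Tc + τ + Tc by omega]
  refine h1.trans ((mul_le_mul_of_nonneg_right hD (by positivity)).trans (le_of_eq ?_))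
  ring

theorem upper (hp : p.Ok) (hn : p.Num E τ Tc Lg Dg κ) (hm : ∀ q d, mis q d ≤ 1) (h0 : ds 0 = p.O)
    {D : ℕ} (hD : ∑ q ∈ range p.P, leaf mis q (ds q) (ds (q + 1)) ≤ D) (hDh : D ≤ p.Dh)
    (hg : p.GoodR mis zr) :
    pr (fun ω : Fin p.Nn → Blk p.Bf Dg => p.U * ((1 + 2 / (E : ℝ)) * D + 3 * p.Dh / E) <
      Wv p mis (zv p ω) zr p.H 0 p.F (p.T1 - 1) p.O (ds p.P)) ≤ 1 / 12 := by
  have hE := hn.E_ge
  have hcw : p.cw mis ds p.H 0 ≤ D := by
    unfold Par.cw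
    simpa only [zero_mul, zero_add, ← hp.P_eq] using hD
  obtain ⟨fl, cls, cp, hc⟩ := exists_cmp hp (E := E) (by omega) h0 (hcw.trans hDh) hn.F_big
  have hE0 : (0 : ℝ) < E := by exact_mod_cast (show 0 < E by omega)
  have hD0 : (0 : ℝ) < p.Dh := by exact_mod_cast hp.Dh_pos
  have hU : (0 : ℝ) < p.U := by exact_mod_cast hp.U_pos
  have h1 := markov (f := fun ω : Fin p.Nn → Blk p.Bf Dg =>
    p.wx mis ds fl cp (zv p ω) zr p.H 0 (p.T1 - 1)) (fun ω => wx_nonneg _ _ _)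
    (c := p.Dh / E) (by positivity)
  refine (pr_mono fun ω hω => ?_).trans (h1.trans ?_)
  · have e1 := hω.trans_le (le_exc hp _ (cp p.H 0))
    have e2 := lt_of_mul_lt_mul_left e1 hU.le
    have e3 := hc.cp_root
    have e4 : (1 + 2 / (E : ℝ)) * p.cw mis ds p.H 0 ≤ (1 + 2 / (E : ℝ)) * D := by
      gcongr
    unfold Par.wx
    rw [hc.fl_root, zero_mul, zero_add, one_mul, h0, ← hp.P_eq]
    have e5 : 3 * (p.Dh : ℝ) / E = 2 * p.Dh / E + p.Dh / E := by ring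
    linarith
  · rw [div_le_iff₀ (by positivity)]
    refine (stage_d hp hn hm hc hg).trans (le_of_eq ?_)
    field_simp

end Vale.Agent.P315
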