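import Vale.Agent.P315.RoughT
import Vale.Agent.P315.Spread

/-! Validity, the deterministic part. -/

open Finset

namespace Vale.Agent.P315

variable {p : Par} {hp' mis : ℕ → ℕ → ℕ} {z zr : ℕ → ℕ → ℕ → ℕ}

theorem validD_pt (hp : p.Ok) (d g e : ℕ) (δ : ℕ → ℕ) :
    p.pt d g p.b e δ 0 = d ∧ p.pt d g p.b e δ p.b = e := by
  have hb := hp.two_le_b
  exact ⟨by rw [Par.pt, if_pos rfl], by rw [Par.pt, if_neg (by omega), if_pos le_rfl]⟩

theorem validD_px (hp : p.Ok) (Wc : Ev) (y : ℕ → ℕ) (a t d e g a0 t' μ A : ℕ) :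
    p.px Wc y a t d e g a0 t' μ A 0 = d ∧ p.px Wc y a t d e g a0 t' μ A p.b = e := by
  unfold Par.px Par.xp
  exact validD_pt hp _ _ _ _

theorem validD_lsum (Wc : Ev) (a t : ℕ) (x : ℕ → ℕ) :
    p.lsum Wc a t p.b x = ∑ l ∈ range p.b, Wc l a t (x l) (x (l + 1)) :=
  sum_congr rfl fun _ hl => if_pos (mem_range.1 hl)

theorem cand_low (hp : p.Ok) {Wc : Ev} (hW : ∀ l, Reg p.U (Wc l)) (y : ℕ → ℕ) {a t sl k : ℕ}
    (h1 : 1 ≤ a) (ha : a ≤ p.F) (ht1 : 1 ≤ t) (ht : t < p.T1) :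
    ∃ x : ℕ → ℕ, x 0 = p.sd sl k ∧ x p.b = p.se sl k ∧
      p.U * Nat.dist (p.sd sl k) (p.se sl k) ≤ p.cand Wc y a t (p.sd sl k) (p.se sl k) (p.sg sl) ∧
      p.lsum Wc a t p.b x ≤ p.cand Wc y a t (p.sd sl k) (p.se sl k) (p.sg sl) +
        p.U * (p.r * p.b * p.sg sl * p.P0) ∧
      (¬p.BadN Wc y sl k →
        p.lsum Wc a t p.b x ≤ p.cand Wc y a t (p.sd sl k) (p.se sl k) (p.sg sl)) := by
  have hlow := deta_cand_low (y := y) hp hW a t (p.sd sl k) (p.se sl k) (p.sg sl)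
  have hnp : 0 < p.np1 := by rw [hp.np1_eq]; omega
  rcases min_choice (p.ug Wc a (t - 1) (p.sd sl k) (p.sg sl) p.b (p.se sl k))
    (mn p.T1 fun a0 => mn p.T1 fun t' => mn p.np1 fun μ => mn p.np1 fun A =>
      p.cand1 Wc y a t (p.sd sl k) (p.se sl k) (p.sg sl) a0 (min t' t) μ A) with hc | hc
  · obtain ⟨idx, -, e⟩ := exists_mn p.N fun idx => p.lsum Wc a (t - 1) p.b
      (p.pt (p.sd sl k) (p.sg sl) p.b (p.se sl k) (p.dg idx))
    have e' : p.cand Wc y a t (p.sd sl k) (p.se sl k) (p.sg sl) = p.lsum Wc a (t - 1) p.b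
        (p.pt (p.sd sl k) (p.sg sl) p.b (p.se sl k) (p.dg idx)) := hc.trans e
    have h2 : p.lsum Wc a t p.b (p.pt (p.sd sl k) (p.sg sl) p.b (p.se sl k) (p.dg idx)) ≤
        p.cand Wc y a t (p.sd sl k) (p.se sl k) (p.sg sl) := by
      rw [e', validD_lsum, validD_lsum]
      exact sum_le_sum fun l _ => (hW l).anti _ _ le_rfl (Nat.sub_le _ _)
    exact ⟨_, (validD_pt hp _ _ _ _).1, (validD_pt hp _ _ _ _).2, hlow,
      h2.trans (Nat.le_add_right _ _), fun _ => h2⟩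
  · obtain ⟨a0, ha0, e0⟩ := exists_mn' hp.T1_pos fun a0 => mn p.T1 fun t' => mn p.np1 fun μ =>
      mn p.np1 fun A => p.cand1 Wc y a t (p.sd sl k) (p.se sl k) (p.sg sl) a0 (min t' t) μ A
    obtain ⟨t', -, e1⟩ := exists_mn' hp.T1_pos fun t' => mn p.np1 fun μ =>
      mn p.np1 fun A => p.cand1 Wc y a t (p.sd sl k) (p.se sl k) (p.sg sl) a0 (min t' t) μ A
    obtain ⟨μ, hμ, e2⟩ := exists_mn' hnp fun μ =>
      mn p.np1 fun A => p.cand1 Wc y a t (p.sd sl k) (p.se sl k) (p.sg sl) a0 (min t' t) μ A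
    obtain ⟨A, hA, e3⟩ := exists_mn' hnp
      fun A => p.cand1 Wc y a t (p.sd sl k) (p.se sl k) (p.sg sl) a0 (min t' t) μ A
    have e' : p.cand Wc y a t (p.sd sl k) (p.se sl k) (p.sg sl) =
        p.cand1 Wc y a t (p.sd sl k) (p.se sl k) (p.sg sl) a0 (min t' t) μ A :=
      hc.trans (e0.trans (e1.trans (e2.trans e3)))
    have h2 : p.lsum Wc a (t - 1) p.b
        (p.px Wc y a t (p.sd sl k) (p.se sl k) (p.sg sl) a0 (min t' t) μ A) -
        p.lcb Wc y a t (p.sg sl)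
          (p.px Wc y a t (p.sd sl k) (p.se sl k) (p.sg sl) a0 (min t' t) μ A) ≤
        p.cand Wc y a t (p.sd sl k) (p.se sl k) (p.sg sl) := by
      rw [e']
      exact le_max_right _ _
    have h3 := lcb_le (a := a) (g := p.sg sl) (z := y) hp hW ht1
      (p.px Wc y a t (p.sd sl k) (p.se sl k) (p.sg sl) a0 (min t' t) μ A)
    refine ⟨p.px Wc y a t (p.sd sl k) (p.se sl k) (p.sg sl) a0 (min t' t) μ A,
      (validD_px hp ..).1, (validD_px hp ..).2, hlow, by omega, fun hb => ?_⟩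
    have h4 := not_lt.1 fun h => hb ⟨a, ha, h1, t, ht, ht1, a0, ha0, min t' t,
      (min_le_right _ _).trans_lt ht, μ, hμ, A, hA, h⟩
    omega

/-- The validity inequality with `n` potentials and cost `c`. -/
def ValidDV (hp' : ℕ → ℕ → ℕ) (π : ℕ → ℕ → ℕ → ℝ) (ε : ℝ) (n : ℕ) (c : ℝ) (q d q' d' : ℕ) : Prop :=
  (1 - n * ε) * dl hp' q d q' d' ≤ c + ∑ h' ∈ range n, (π h' q' d' - π h' q d)

section
variable {π : ℕ → ℕ → ℕ → ℝ} {ε : ℝ} {n : ℕ}

theorem validD_base {H : ℕ}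
    (h1 : ∀ h < H, ∀ q d q' d', q ≤ q' → π h q d ≤ π h q' d' + ε * dl hp' q d q' d')
    (hn : n ≤ H) {q q' d d' : ℕ} (hq : q ≤ q') {c : ℝ} (hc : (dl hp' q d q' d' : ℝ) ≤ c) :
    ValidDV hp' π ε n c q d q' d' := by
  have h2 : ∑ _h' ∈ range n, -(ε * dl hp' q d q' d') ≤ ∑ h' ∈ range n, (π h' q' d' - π h' q d) :=
    sum_le_sum fun h' hh => by linarith [h1 h' ((mem_range.1 hh).trans_le hn) q d q' d' hq]
  rw [sum_const, card_range, nsmul_eq_mul] at h2
  unfold ValidDV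
  linarith

theorem validD_trans (h0 : n * ε ≤ 1) {c c' : ℝ} {q d q' d' q'' d'' : ℕ}
    (h : ValidDV hp' π ε n c q d q' d') (h' : ValidDV hp' π ε n c' q' d' q'' d'') :
    ValidDV hp' π ε n (c + c') q d q'' d'' := by
  unfold ValidDV at *
  have h1 : (dl hp' q d q'' d'' : ℝ) ≤ dl hp' q d q' d' + dl hp' q' d' q'' d'' := by
    exact_mod_cast dl_tri q d q' d' q'' d''
  have h2 := mul_le_mul_of_nonneg_left h1 (sub_nonneg.2 h0)
  simp only [sum_sub_distrib] at *
  linarith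

theorem validD_mono {c c' : ℝ} {q d q' d' : ℕ} (h : ValidDV hp' π ε n c q d q' d') (hc : c ≤ c') :
    ValidDV hp' π ε n c' q d q' d' :=
  le_trans h (add_le_add_left hc _)

theorem validD_chain (h0 : n * ε ≤ 1) (c : ℕ → ℝ) (q x : ℕ → ℕ) (m : ℕ)
    (h : ∀ l < m, ValidDV hp' π ε n (c l) (q l) (x l) (q (l + 1)) (x (l + 1))) :
    ValidDV hp' π ε n (∑ l ∈ range m, c l) (q 0) (x 0) (q m) (x m) := by
  induction m with
  | zero => simp [ValidDV, dl]
  | succ m ih =>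
    rw [sum_range_succ]
    exact validD_trans h0 (ih fun l hl => h l (by omega)) (h m (by omega))

theorem validD_lift {c g : ℝ} {q d q' d' : ℕ} (h : ValidDV hp' π ε n (c + g) q d q' d')
    (h' : π n q d + g ≤ π n q' d' + ε * dl hp' q d q' d') :
    ValidDV hp' π ε (n + 1) c q d q' d' := by
  unfold ValidDV at *
  rw [sum_range_succ]
  push_cast
  linarith

end

theorem validD_div {U a b : ℕ} (hU : 1 ≤ U) (h : U * a ≤ b) : (a : ℝ) ≤ (b : ℝ) / U := by
  have hU' : (0 : ℝ) < U := by exact_mod_cast hU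
  rw [le_div_iff₀ hU', mul_comm]
  exact_mod_cast h

theorem valid_det (hp : p.Ok) (hs : PathSys hp' mis) (hg : p.GoodR mis zr) (π : ℕ → ℕ → ℕ → ℝ)
    {ε : ℝ} (hε : 0 ≤ ε) (hH : p.H * ε ≤ 1)
    (h1 : ∀ h < p.H, ∀ q d q' d', q ≤ q' → π h q d ≤ π h q' d' + ε * dl hp' q d q' d')
    (h2 : ∀ h < p.H, ∀ i < p.b ^ (p.H - (h + 1)), ∀ sl < p.NS1, 1 ≤ sl → ∀ k ≤ 2 * p.Dh,
      p.BadN (Wch p mis z zr h i) (z (h + 1) i) sl k →
      π h (i * p.b ^ (h + 1)) (p.sd sl k) +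
        (min (hp' ((i + 1) * p.b ^ (h + 1)) (p.sd sl k) - hp' (i * p.b ^ (h + 1)) (p.sd sl k))
          (p.r * p.b * p.sg sl * p.P0) : ℕ) ≤ π h ((i + 1) * p.b ^ (h + 1)) (p.se sl k) +
        ε * dl hp' (i * p.b ^ (h + 1)) (p.sd sl k) ((i + 1) * p.b ^ (h + 1)) (p.se sl k))
    {h : ℕ} (hh : h ≤ p.H) {i : ℕ} (hi : i < p.b ^ (p.H - h)) {a t : ℕ} (ha : a ≤ p.F)
    (ht : t < p.T1) (d e : ℕ) :
    (1 - h * ε) * dl hp' (i * p.b ^ h) d ((i + 1) * p.b ^ h) e ≤
      (Wv p mis z zr h i a t d e : ℝ) / p.U +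
        ∑ h' ∈ range h, (π h' ((i + 1) * p.b ^ h) e - π h' (i * p.b ^ h) d) := by
  show ValidDV hp' π ε h ((Wv p mis z zr h i a t d e : ℝ) / p.U) (i * p.b ^ h) d
    ((i + 1) * p.b ^ h) e
  have hU := hp.U_pos
  have hU' : (0 : ℝ) < p.U := by exact_mod_cast hU
  have hnε : ∀ n ≤ p.H, (n : ℝ) * ε ≤ 1 := fun n hn =>
    (mul_le_mul_of_nonneg_right (by exact_mod_cast hn) hε).trans hH
  induction h generalizing i a t d e with
  | zero =>
    refine validD_base h1 hh (Nat.mul_le_mul_right _ (Nat.le_succ _)) (validD_div hU ?_)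
    rw [Wv_zero, pow_zero, mul_one, mul_one]
    exact Nat.mul_le_mul_left _ (dl_le_leaf hs i d e)
  | succ h ih =>
    have hq : i * p.b ^ (h + 1) ≤ (i + 1) * p.b ^ (h + 1) := Nat.mul_le_mul_right _ (Nat.le_succ _)
    rw [Wv_succ]
    rcases node_cases (Wc := Wch p mis z zr h i) (Wr := Wpc p mis z zr h i) (y := z (h + 1) i)
      (yr := zr (h + 1) i) hp (h + 1) a t d e with
      hc | ⟨a', t', sl, k, b1, b2, b3, b4, b5, b6, hc⟩
    · refine validD_base h1 hh hq (validD_div hU (le_trans (Nat.mul_le_mul_left _ ?_) hc))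
      rw [hp.len_eq _ hh, add_mul, one_mul]
      exact dl_le_len hs _ _ d e
    have main : ValidDV hp' π ε (h + 1) ((p.newv (Wch p mis z zr h i) (Wpc p mis z zr h i)
        (z (h + 1) i) (zr (h + 1) i) (h + 1) a' t' sl k : ℝ) / p.U)
        (i * p.b ^ (h + 1)) (p.sd sl k) ((i + 1) * p.b ^ (h + 1)) (p.se sl k) := by
      by_cases h0 : sl = 0
      · have e1 : p.se sl k = p.sd sl k := by
          rw [Par.se, Par.gp, Par.sm, if_pos h0, Nat.add_sub_cancel]
        rw [e1, Par.newv, if_pos (b6.2 h0), if_pos h0, h0]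
        exact validD_base h1 hh hq (validD_div hU (est_valid hp hs hg hh hi (b2.trans ha) b5))
      have ht0 : t' ≠ 0 := fun h' => h0 (b6.1 h')
      rw [Par.newv, if_neg ht0, if_neg h0]
      obtain ⟨x, x0, xb, c1, c2, c3⟩ := cand_low (Wc := Wch p mis z zr h i) (sl := sl) (k := k) hp
        (fun l => Wv_reg hp hs.le_one h _) (z (h + 1) i) b1 (b2.trans ha) (Nat.pos_of_ne_zero ht0)
        (b3.trans_lt ht)
      have hch : ValidDV hp' π ε h ((p.lsum (Wch p mis z zr h i) a' t' p.b x : ℝ) / p.U)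
          (i * p.b ^ (h + 1)) (p.sd sl k) ((i + 1) * p.b ^ (h + 1)) (p.se sl k) := by
        have h3 := validD_chain (hp' := hp') (π := π) (hnε h (by omega))
          (fun l => (Wv p mis z zr h (i * p.b + l) a' t' (x l) (x (l + 1)) : ℝ) / p.U)
          (fun l => (i * p.b + l) * p.b ^ h) x p.b fun l hl => by
            refine ih (by omega) ?_ (b2.trans ha) (b3.trans_lt ht) _ _
            have e2 : p.b ^ (p.H - h) = p.b ^ (p.H - (h + 1)) * p.b := by
              rw [← pow_succ]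
              exact congrArg (fun n => p.b ^ n) (by omega)
            have e3 := Nat.mul_le_mul_right p.b (Nat.succ_le_of_lt hi)
            rw [Nat.succ_mul] at e3
            omega
        have e4 : (i * p.b + 0) * p.b ^ h = i * p.b ^ (h + 1) := by ring
        have e5 : (i * p.b + p.b) * p.b ^ h = (i + 1) * p.b ^ (h + 1) := by ring
        rw [e4, e5, x0, xb, ← sum_div] at h3
        rw [validD_lsum, Nat.cast_sum]
        exact h3
      by_cases hb : p.BadN (Wch p mis z zr h i) (z (h + 1) i) sl k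
      · refine validD_lift ?_ (h2 h hh i hi sl b4 (Nat.pos_of_ne_zero h0) k b5 hb)
        rcases min_choice (hp' ((i + 1) * p.b ^ (h + 1)) (p.sd sl k) -
          hp' (i * p.b ^ (h + 1)) (p.sd sl k)) (p.r * p.b * p.sg sl * p.P0) with hm | hm
        · rw [hm]
          refine validD_base h1 (by omega) hq (le_trans ?_ (add_le_add_left (validD_div hU c1) _))
          have h3 := hs.lip ((i + 1) * p.b ^ (h + 1)) (p.se sl k) (p.sd sl k)
          rw [Nat.dist_comm] at h3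
          rw [← Nat.cast_add, Nat.cast_le]
          exact max_le (Nat.le_add_right _ _) (by omega)
        · rw [hm]
          refine validD_mono hch ?_
          rw [div_add' _ _ _ hU'.ne']
          refine div_le_div_of_nonneg_right ?_ hU'.le
          rw [mul_comm]
          exact_mod_cast c2
      · refine validD_lift (g := 0) (validD_mono hch ?_) ?_
        · rw [add_zero]
          exact div_le_div_of_nonneg_right (by exact_mod_cast c3 hb) hU'.le
        · rw [add_zero]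
          exact h1 h hh _ _ _ _ hq
    have l1 : ValidDV hp' π ε (h + 1) (Nat.dist d (p.sd sl k) : ℕ) (i * p.b ^ (h + 1)) d
        (i * p.b ^ (h + 1)) (p.sd sl k) := validD_base h1 hh le_rfl (by rw [dl_same hs])
    have l2 : ValidDV hp' π ε (h + 1) (Nat.dist e (p.se sl k) : ℕ) ((i + 1) * p.b ^ (h + 1))
        (p.se sl k) ((i + 1) * p.b ^ (h + 1)) e :=
      validD_base h1 hh le_rfl (by rw [dl_same hs, Nat.dist_comm])
    refine validD_mono (validD_trans (hnε _ hh) (validD_trans (hnε _ hh) l1 main) l2) ?_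
    have h3 : ((p.newv (Wch p mis z zr h i) (Wpc p mis z zr h i) (z (h + 1) i) (zr (h + 1) i)
        (h + 1) a' t' sl k : ℕ) : ℝ) + p.U * ((Nat.dist d (p.sd sl k) : ℕ) +
          (Nat.dist e (p.se sl k) : ℕ)) ≤ (p.node (Wch p mis z zr h i) (Wpc p mis z zr h i)
          (z (h + 1) i) (zr (h + 1) i) (h + 1) a t d e : ℕ) := by exact_mod_cast hc
    have h4 := div_le_div_of_nonneg_right h3 hU'.le
    rw [add_div, mul_div_cancel_left₀ _ hU'.ne'] at h4
    linarith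

end Vale.Agent.P315
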